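import Vale.Agent.P179.H143.TwoMT
import Vale.Agent.P179.H905.Ord

/-!
# Adams operations

For `e` prime to `|G|`, `a ↦ a ∘ (g ↦ g ^ e)` is multiplicative for the convolution of class
functions; hence `g ↦ χ (g ^ m)` is an irreducible character if `χ` is.
-/

namespace P179C

open Finset P179H524 Subgroup

open scoped Classical

section Mod

variable {F : Type*} [Field F] {G : Type*} [Group G] [Fintype G]

/-- Frobenius on central elements with coefficients in the prime field. -/
theorem coeff_pow_char (q : ℕ) [hq : Fact q.Prime] [CharP F q] (hG : (Nat.card G : F) ≠ 0) (e : ℕ)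
    (he : ∀ g : G, (g ^ q) ^ e = g) (x : MonoidAlgebra F G) (hx : IsCF fun g => x.coeff g)
    (hfr : ∀ g, x.coeff g ^ q = x.coeff g) (h : G) : (x ^ q).coeff h = x.coeff (h ^ e) := by
  set f : G → F := fun g => if IsConj h g then 1 else 0 with hf
  have hfcf : IsCF f := by
    intro t y
    have h6 : IsConj y (t * y * t⁻¹) := isConj_iff.2 ⟨t, rfl⟩
    have : IsConj h (t * y * t⁻¹) ↔ IsConj h y := ⟨fun h => h.trans h6.symm, fun h => h.trans h6⟩
    simp only [hf, this]
  have hcard : ((univ.filter fun g : G => IsConj h g).card : F) ≠ 0 := by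
    intro h0
    apply hG
    have h1 : (univ.filter fun g : G => IsConj h g).card ∣ Nat.card G := by
      have h2 : (univ.filter fun g : G => IsConj h g).card =
          Nat.card (MulAction.orbit (ConjAct G) h) := by
        rw [Nat.card_eq_fintype_card, ← Set.toFinset_card]
        congr 1
        ext g
        rw [mem_filter, Set.mem_toFinset, ConjAct.orbit_eq_carrier_conjClasses,
          ConjClasses.mem_carrier_iff_mk_eq, ConjClasses.mk_eq_mk_iff_isConj]
        simp only [mem_univ, true_and]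
        exact isConj_comm
      rw [h2]
      have h3 := MulAction.card_orbit_mul_card_stabilizer_eq_card_group (ConjAct G) h
      rw [← Nat.card_eq_fintype_card, ← Nat.card_eq_fintype_card, ← Nat.card_eq_fintype_card] at h3
      have h4 : Nat.card (ConjAct G) = Nat.card G := rfl
      rw [← h4, ← h3]
      exact dvd_mul_right _ _
    obtain ⟨c, hc⟩ := h1
    rw [hc, Nat.cast_mul, h0, zero_mul]
  have hlin : ∀ y : G → F, IsCF y → ∑ g, y g * f g =
      (univ.filter fun g : G => IsConj h g).card * y h := by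
    intro y hy
    simp only [hf, mul_ite, mul_one, mul_zero]
    rw [← Finset.sum_filter, Finset.sum_congr rfl (g := fun _ => y h), Finset.sum_const,
      nsmul_eq_mul]
    intro g hg
    obtain ⟨t, ht⟩ := isConj_iff.1 (mem_filter.1 hg).2
    rw [← ht, hy]
  have h1 := lin_pow q 1 f hfcf x
  rw [pow_one] at h1
  simp only [hfr] at h1
  have hcf2 : IsCF fun g => (x ^ q).coeff g := isCF_pow x hx q
  rw [lin, hlin _ hcf2] at h1
  have h2 : ∑ g, x.coeff g * f (g ^ q) = ∑ g, x.coeff (g ^ e) * f g := by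
    refine Fintype.sum_equiv (Equiv.ofBijective (fun g : G => g ^ q) ?_) _ _ ?_
    · rw [Fintype.bijective_iff_injective_and_card]
      refine ⟨fun a b hab => ?_, rfl⟩
      have := congrArg (fun g : G => g ^ e) hab
      simp only at this
      rwa [he, he] at this
    · intro g
      change _ = x.coeff ((g ^ q) ^ e) * f (g ^ q)
      rw [he]
  have h3 : IsCF fun g => x.coeff (g ^ e) := by
    intro t y
    simp only
    rw [conj_pow]
    exact hx t (y ^ e)
  rw [h2, hlin _ h3] at h1
  exact mul_left_cancel₀ hcard h1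

end Mod

variable {G : Type*} [Group G] [Fintype G]

omit [Fintype G] in
theorem isCF_comp_pow {R : Type*} {a : G → R} (ha : IsCF a) (e : ℕ) :
    IsCF fun g => a (g ^ e) := by
  intro t y
  simp only
  rw [conj_pow, ha]

theorem adams_mod (q : ℕ) [hq : Fact q.Prime] (hG : ¬ q ∣ Nat.card G) (e : ℕ)
    (he : ∀ g : G, (g ^ q) ^ e = g) {a b : G → ℤ} (ha : IsCF a) (hb : IsCF b) (g : G) :
    ((conv (fun g => a (g ^ e)) (fun g => b (g ^ e)) g : ℤ) : ZMod q) =
      ((conv a b (g ^ e) : ℤ) : ZMod q) := by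
  have hG' : (Nat.card G : ZMod q) ≠ 0 := by
    rw [Ne, ZMod.natCast_eq_zero_iff]; exact hG
  have hcast : ∀ (a b : G → ℤ) (g : G), ((conv a b g : ℤ) : ZMod q) =
      (toF (ZMod q) a * toF (ZMod q) b).coeff g := by
    intro a b g
    rw [coeff_mul_eq_conv, conv, conv]
    push_cast
    simp only [coeff_toF]
  have hfr : ∀ x : MonoidAlgebra (ZMod q) G, ∀ g, x.coeff g ^ q = x.coeff g := by
    intro x g
    exact ZMod.pow_card _
  have hcfF : ∀ {a : G → ℤ}, IsCF a → IsCF fun g => (toF (ZMod q) a).coeff g := fun {a} ha =>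
    isCF_toF _ a ha
  rw [hcast, hcast]
  have h1 : ∀ {a : G → ℤ}, IsCF a → toF (ZMod q) (fun g => a (g ^ e)) = toF (ZMod q) a ^ q := by
    intro a ha
    ext g
    rw [coeff_pow_char q hG' e he _ (hcfF ha) (hfr _), coeff_toF, coeff_toF]
  rw [h1 ha, h1 hb, ← (commute_of_isCF _ (hcfF ha) _).mul_pow]
  have hcf : IsCF fun g => (toF (ZMod q) a * toF (ZMod q) b).coeff g := by
    have := isCF_conv (hcfF ha) (hcfF hb)
    intro t y
    have h2 := this t y
    simp only
    rw [coeff_mul_eq_conv, coeff_mul_eq_conv]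
    exact h2
  rw [coeff_pow_char q hG' e he _ hcf (hfr _)]

/-- **Adams operations** are multiplicative. -/
theorem conv_adams {a b : G → ℤ} (ha : IsCF a) (hb : IsCF b) {e : ℕ}
    (he : e.Coprime (Nat.card G)) (g : G) :
    conv (fun g => a (g ^ e)) (fun g => b (g ^ e)) g = conv a b (g ^ e) := by
  have hG0 : Nat.card G ≠ 0 := Nat.card_pos.ne'
  have : NeZero (Nat.card G) := ⟨hG0⟩
  -- an inverse of `e` modulo `|G|`
  set D : ℤ := conv (fun g => a (g ^ e)) (fun g => b (g ^ e)) g - conv a b (g ^ e) with hD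
  let ue : (ZMod (Nat.card G))ˣ := ZMod.unitOfCoprime e he
  obtain ⟨q, hq1, hq2, hq3⟩ := Nat.forall_exists_prime_gt_and_eq_mod (q := Nat.card G)
    (a := ((ue⁻¹ : (ZMod (Nat.card G))ˣ) : ZMod (Nat.card G))) (ue⁻¹).isUnit
    (D.natAbs + Nat.card G)
  have hqp : Fact q.Prime := ⟨hq2⟩
  have hndvd : ¬ q ∣ Nat.card G := fun h => by
    have := Nat.le_of_dvd (Nat.pos_of_ne_zero hG0) h
    omega
  have hqe : ∀ g : G, (g ^ q) ^ e = g := by
    intro g
    have h1 : ((q * e : ℕ) : ZMod (Nat.card G)) = ((1 : ℕ) : ZMod (Nat.card G)) := by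
      rw [Nat.cast_mul, hq3, Nat.cast_one]
      have : (e : ZMod (Nat.card G)) = ue := (ZMod.coe_unitOfCoprime e he).symm
      rw [this, Units.inv_mul]
    rw [ZMod.natCast_eq_natCast_iff] at h1
    rw [← pow_mul]
    conv_rhs => rw [← pow_one g]
    rw [pow_eq_pow_iff_modEq]
    exact h1.of_dvd (orderOf_dvd_natCard g)
  have h2 := adams_mod q hndvd e hqe ha hb g
  rw [← sub_eq_zero, ← Int.cast_sub, ZMod.intCast_zmod_eq_zero_iff_dvd] at h2
  have h3 : D = 0 := Int.eq_zero_of_dvd_of_natAbs_lt_natAbs h2 (by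
    rw [Int.natAbs_natCast]; omega)
  exact sub_eq_zero.1 h3

/-- Adams operations, class functions with values in a commutative ring. -/
theorem conv_adams' {R : Type*} [CommRing R] {a b : G → R} (ha : IsCF a) (hb : IsCF b) {e : ℕ}
    (he : e.Coprime (Nat.card G)) (g : G) :
    conv (fun g => a (g ^ e)) (fun g => b (g ^ e)) g = conv a b (g ^ e) := by
  rw [conv_eq_sum ha hb]
  unfold conv
  have h1 : ∀ h : G, a (h ^ e) * b ((h⁻¹ * g) ^ e) = ∑ D : ConjClasses G, ∑ E : ConjClasses G,
      a D.out * b E.out * ((ind D (h ^ e) : R) * (ind E ((h⁻¹ * g) ^ e) : R)) := by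
    intro h
    rw [cf_eq_sum ha (h ^ e), cf_eq_sum hb ((h⁻¹ * g) ^ e), Finset.sum_mul_sum]
    refine Finset.sum_congr rfl fun D _ => Finset.sum_congr rfl fun E _ => ?_
    ring
  rw [Finset.sum_congr rfl fun h _ => h1 h, Finset.sum_comm]
  refine Finset.sum_congr rfl fun D _ => ?_
  rw [Finset.sum_comm]
  refine Finset.sum_congr rfl fun E _ => ?_
  rw [← Finset.mul_sum]
  congr 1
  have h2 := conv_adams (isCF_ind D) (isCF_ind E) he g
  unfold conv at h2
  rw [← h2]
  push_cast
  rfl

/-! ### The power of an irreducible character -/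

open P179P

/-- A multiplicative linear functional on the class functions is the central character of an
irreducible character. -/
theorem exists_irr_of_hom (l : (G → ℂ) → ℂ) (hsum : ∀ (s : Finset (Irr G)) (f : Irr G → G → ℂ),
      l (∑ i ∈ s, f i) = ∑ i ∈ s, l (f i)) (hsmul : ∀ (c : ℂ) (a : G → ℂ), l (c • a) = c * l a)
    (h1 : l (fun g => if g = 1 then 1 else 0) = 1)
    (hmul : ∀ a b : G → ℂ, IsCF a → IsCF b → l (conv a b) = l a * l b) :
    ∃ ψ : Irr G, ∀ a : G → ℂ, IsCF a → l a = omC ψ.1 a := by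
  have hG0 : (Fintype.card G : ℂ) ≠ 0 := by exact_mod_cast Fintype.card_ne_zero
  set E : Irr G → G → ℂ := fun ψ g => (Fintype.card G : ℂ)⁻¹ * (ψ.1 1 * ψ.1 g⁻¹) with hE
  have hEcf : ∀ ψ, IsCF (E ψ) := by
    intro ψ t y
    simp only [hE]
    have : (t * y * t⁻¹)⁻¹ = t * y⁻¹ * t⁻¹ := by group
    rw [this, ψ.conj]
  have hsumE : (∑ ψ : Irr G, E ψ) = fun g => if g = 1 then 1 else 0 := by
    ext g
    rw [Finset.sum_apply]
    simp only [hE]
    rw [← Finset.mul_sum, sum_irr_one g⁻¹]
    by_cases hg : g = 1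
    · rw [if_pos hg, if_pos (by rw [hg, inv_one]), inv_mul_cancel₀ hG0]
    · rw [if_neg hg, if_neg (by rwa [inv_eq_one]), mul_zero]
  have hex : ∃ ψ : Irr G, l (E ψ) ≠ 0 := by
    by_contra hcon
    push Not at hcon
    rw [← hsumE, hsum, Finset.sum_eq_zero fun ψ _ => hcon ψ] at h1
    exact one_ne_zero h1.symm
  obtain ⟨ψ, hψ⟩ := hex
  refine ⟨ψ, fun a ha => ?_⟩
  have h2 : conv a (E ψ) = omC ψ.1 a • E ψ := by
    ext y
    rw [conv, Pi.smul_apply, smul_eq_mul]
    have h3 : ∀ g : G, a g * E ψ (g⁻¹ * y) =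
        (Fintype.card G : ℂ)⁻¹ * ψ.1 1 * (a g * ψ.1 (y⁻¹ * g)) := by
      intro g
      simp only [hE]
      have : (g⁻¹ * y)⁻¹ = y⁻¹ * g := by group
      rw [this]; ring
    rw [Finset.sum_congr rfl fun g _ => h3 g, ← Finset.mul_sum, sum_mul_irr' ψ ha]
    simp only [hE]
    ring
  have h3 := hmul a (E ψ) ha (hEcf ψ)
  rw [h2, hsmul] at h3
  exact (mul_right_cancel₀ hψ h3).symm

/-- **(N1)** -/
theorem irr_pow {G : Type*} [Group G] [Finite G] {χ : G → ℂ} (h : IsIrrChar χ) {m : ℕ}
    (hm : m.Coprime (Nat.card G)) : IsIrrChar (fun g => χ (g ^ m)) := by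
  have := Fintype.ofFinite G
  have hG0 : Nat.card G ≠ 0 := Nat.card_pos.ne'
  have hG0' : (Fintype.card G : ℂ) ≠ 0 := by exact_mod_cast Fintype.card_ne_zero
  -- the inverse exponent
  obtain ⟨e, hec, he⟩ : ∃ e : ℕ, e.Coprime (Nat.card G) ∧ ∀ g : G, (g ^ e) ^ m = g := by
    have : NeZero (Nat.card G) := ⟨hG0⟩
    let um : (ZMod (Nat.card G))ˣ := ZMod.unitOfCoprime m hm
    refine ⟨((um⁻¹ : (ZMod (Nat.card G))ˣ) : ZMod (Nat.card G)).val, ?_, ?_⟩
    · exact ZMod.val_coe_unit_coprime um⁻¹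
    · intro g
      have h1 : ((((um⁻¹ : (ZMod (Nat.card G))ˣ) : ZMod (Nat.card G)).val * m : ℕ) :
          ZMod (Nat.card G)) = ((1 : ℕ) : ZMod (Nat.card G)) := by
        rw [Nat.cast_mul, ZMod.natCast_zmod_val, Nat.cast_one]
        have : (m : ZMod (Nat.card G)) = um := (ZMod.coe_unitOfCoprime m hm).symm
        rw [this, Units.inv_mul]
      rw [ZMod.natCast_eq_natCast_iff] at h1
      rw [← pow_mul]
      conv_rhs => rw [← pow_one g]
      rw [pow_eq_pow_iff_modEq]
      exact h1.of_dvd (orderOf_dvd_natCard g)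
  have hme : ∀ g : G, (g ^ m) ^ e = g := fun g => by rw [← pow_mul, mul_comm, pow_mul, he]
  let X : Irr G := ⟨χ, h⟩
  obtain ⟨ψ, hψ⟩ := exists_irr_of_hom (fun a : G → ℂ => omC χ fun g => a (g ^ e))
    (fun s f => by
      simp only [omC, Finset.sum_apply, Finset.sum_mul]
      rw [Finset.sum_comm, Finset.sum_div])
    (fun c a => by
      simp only [omC, Pi.smul_apply, smul_eq_mul]
      rw [mul_div_assoc', Finset.mul_sum]
      congr 1
      exact Finset.sum_congr rfl fun g _ => by ring)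
    (by
      have h1 : ∀ g : G, g ^ e = 1 ↔ g = 1 := by
        intro g
        constructor
        · intro hg
          rw [← he g, hg, one_pow]
        · rintro rfl; exact one_pow _
      simp only [omC, h1]
      rw [Finset.sum_eq_single (1 : G)]
      · rw [if_pos rfl, one_mul]
        exact div_self X.one_ne_zero
      · intro g _ hg
        rw [if_neg hg, zero_mul]
      · intro h; exact absurd (Finset.mem_univ _) h)
    (fun a b ha hb => by
      have h1 : (fun g => conv a b (g ^ e)) =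
          conv (fun g => a (g ^ e)) (fun g => b (g ^ e)) := by
        ext g; exact (conv_adams' ha hb hec g).symm
      change omC χ (fun g => conv a b (g ^ e)) = _
      rw [h1]
      exact omC_conv X (isCF_comp_pow ha e))
  -- compare on class indicators
  have hcomp : ∀ g : G, χ (g ^ m) / χ 1 = ψ.1 g / ψ.1 1 := by
    intro g
    set D : G → ℂ := fun x => if IsConj g x then 1 else 0 with hD
    have hDcf : IsCF D := by
      intro t y
      have h6 : IsConj y (t * y * t⁻¹) := isConj_iff.2 ⟨t, rfl⟩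
      have : IsConj g (t * y * t⁻¹) ↔ IsConj g y :=
        ⟨fun h => h.trans h6.symm, fun h => h.trans h6⟩
      simp only [hD, this]
    have h1 := hψ D hDcf
    simp only [omC] at h1
    have h2 : ∑ x : G, D (x ^ e) * χ x = ∑ x : G, D x * χ (x ^ m) := by
      refine Fintype.sum_equiv (Equiv.ofBijective (fun g : G => g ^ e) ?_) _ _ ?_
      · rw [Fintype.bijective_iff_injective_and_card]
        refine ⟨fun a b hab => ?_, rfl⟩
        have := congrArg (fun g : G => g ^ m) hab
        simp only at this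
        rwa [he, he] at this
      · intro x
        change _ = D (x ^ e) * χ ((x ^ e) ^ m)
        rw [he]
    have h3 : ∀ F : G → ℂ, IsCF F → ∑ x : G, D x * F x =
        (univ.filter fun x : G => IsConj g x).card * F g := by
      intro F hF
      simp only [hD, ite_mul, one_mul, zero_mul]
      rw [← Finset.sum_filter, Finset.sum_congr rfl (g := fun _ => F g), Finset.sum_const,
        nsmul_eq_mul]
      intro x hx
      obtain ⟨t, ht⟩ := isConj_iff.1 (mem_filter.1 hx).2
      rw [← ht, hF]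
    rw [h2, h3 _ (isCF_comp_pow X.isCF m), h3 _ ψ.isCF, mul_div_assoc, mul_div_assoc] at h1
    refine mul_left_cancel₀ ?_ h1
    have : 0 < (univ.filter fun x : G => IsConj g x).card :=
      Finset.card_pos.2 ⟨g, mem_filter.2 ⟨mem_univ _, IsConj.refl g⟩⟩
    exact_mod_cast this.ne'
  -- norms
  obtain ⟨d, hd, hχd⟩ := X.exists_deg
  obtain ⟨d', hd', hψd⟩ := ψ.exists_deg
  have hχd' : χ 1 = d := hχd
  have hval : ∀ g, χ (g ^ m) = (d / d' : ℂ) * ψ.1 g := by
    intro g
    have h1 := hcomp g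
    rw [hχd', hψd, div_eq_iff (by exact_mod_cast hd.ne')] at h1
    rw [h1]; ring
  have h4 : ∑ g : G, χ g * χ g⁻¹ = (Fintype.card G : ℂ) := by
    have := row_orth X X
    rwa [if_pos rfl] at this
  have h5 : ∑ g : G, ψ.1 g * ψ.1 g⁻¹ = (Fintype.card G : ℂ) := by
    have := row_orth ψ ψ
    rwa [if_pos rfl] at this
  have h6 : ∑ g : G, χ g * χ g⁻¹ = ∑ g : G, χ (g ^ m) * χ ((g⁻¹) ^ m) := by
    symm
    refine Fintype.sum_equiv (Equiv.ofBijective (fun g : G => g ^ m) ?_) _ _ ?_
    · rw [Fintype.bijective_iff_injective_and_card]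
      refine ⟨fun a b hab => ?_, rfl⟩
      have := congrArg (fun g : G => g ^ e) hab
      simp only at this
      rwa [hme, hme] at this
    · intro x
      change _ = χ (x ^ m) * χ (x ^ m)⁻¹
      rw [inv_pow]
  rw [h6] at h4
  simp only [hval] at h4
  have h7 : ∑ g : G, (d / d' : ℂ) * ψ.1 g * ((d / d' : ℂ) * ψ.1 g⁻¹) =
      (d / d' : ℂ) ^ 2 * ∑ g : G, ψ.1 g * ψ.1 g⁻¹ := by
    rw [Finset.mul_sum]
    exact Finset.sum_congr rfl fun g _ => by ring
  rw [h7, h5] at h4
  have h8 : (d / d' : ℂ) ^ 2 = 1 := mul_right_cancel₀ hG0' (by rw [h4, one_mul])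
  have h9 : d = d' := by
    have hd0 : (d' : ℂ) ≠ 0 := by exact_mod_cast hd'.ne'
    rw [div_pow, div_eq_one_iff_eq (pow_ne_zero _ hd0)] at h8
    have h10 : d ^ 2 = d' ^ 2 := by exact_mod_cast h8
    exact Nat.pow_left_injective (n := 2) (by norm_num) h10
  have h10 : (fun g => χ (g ^ m)) = ψ.1 := by
    ext g
    rw [hval, h9, div_self (by exact_mod_cast hd'.ne'), one_mul]
  rw [h10]
  exact ψ.2

end P179C
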