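import Vale.Agent.P179.H143.GoodFun

/-!
# Blocks whose idempotent is a combination of functions of a good class
-/

namespace P179C

open Subgroup P179H524 P179A P179K

open scoped Classical

section lin

variable {G : Type*} [Group G] [Finite G]

theorem eq_sum_ind [Fintype (ConjClasses G)] {z : G → ℤ} (hz : IsCF z) (g : G) :
    z g = ∑ C : ConjClasses G, z C.out * ind C g := by
  rw [Finset.sum_eq_single (ConjClasses.mk g)]
  · have h1 : IsConj (ConjClasses.mk g).out g := by
      rw [← ConjClasses.mk_eq_mk_iff_isConj]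
      exact Quotient.out_eq _
    unfold ind
    rw [if_pos rfl, mul_one]
    exact (IsCF.isConj hz h1).symm
  · intro C _ hC
    unfold ind
    rw [if_neg (Ne.symm hC), mul_zero]
  · simp

theorem nL_lin (p : ℕ) [Fintype (ConjClasses G)] {z : G → ℤ} (hz : IsCF z) :
    nL p z = ∑ C : ConjClasses G, z C.out * nL p (ind C) := by
  have := Fintype.ofFinite G
  unfold nL
  simp only [finsum_eq_sum_of_fintype, Finset.mul_sum]
  rw [Finset.sum_comm]
  exact Finset.sum_congr rfl fun t _ => eq_sum_ind hz _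

theorem resNQ_lin (Q : Subgroup G) [Fintype (ConjClasses G)] {z : G → ℤ} (hz : IsCF z)
    (c : NQ Q) : resNQ Q z c = ∑ C : ConjClasses G, z C.out * resNQ Q (ind C) c := by
  unfold resNQ push
  have := Fintype.ofFinite {h : normalizer (Q : Set G) //
    QuotientGroup.mk' (Q.subgroupOf (normalizer (Q : Set G))) h = c}
  simp only [finsum_eq_sum_of_fintype, Finset.mul_sum]
  rw [Finset.sum_comm]
  exact Finset.sum_congr rfl fun t _ => eq_sum_ind hz _

theorem wOm_lin {p : ℕ} (w : P179H524.Weight p G) [Fintype (ConjClasses G)] {z : G → ℤ}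
    (hz : IsCF z) : wOm w z = ∑ C : ConjClasses G, (z C.out : ℂ) * wOm w (ind C) := by
  have := Fintype.ofFinite (NQ w.Q)
  unfold wOm om
  simp only [finsum_eq_sum_of_fintype, mul_div_assoc', Finset.mul_sum]
  rw [← Finset.sum_div, Finset.sum_comm]
  congr 1
  refine Finset.sum_congr rfl fun c _ => ?_
  rw [resNQ_lin w.Q hz c]
  push_cast
  rw [Finset.sum_mul]
  exact Finset.sum_congr rfl fun C _ => by ring

theorem nW_lin (p : ℕ) [Fintype (ConjClasses G)] {z : G → ℤ} (hz : IsCF z) :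
    nW p z = ∑ C : ConjClasses G, (z C.out : ℂ) * nW p (ind C) := by
  have := Fintype.ofFinite (Quot (P179H524.Weight.Conj (p := p) (G := G)))
  rw [nW_eq hz, finsum_eq_sum_of_fintype]
  simp only [wOm_lin _ hz]
  rw [Finset.sum_comm, Finset.mul_sum]
  refine Finset.sum_congr rfl fun C _ => ?_
  rw [nW_eq (isCF_ind C), finsum_eq_sum_of_fintype, ← Finset.mul_sum]
  ring

end lin

universe u

section main

variable (p : ℕ) [hp : Fact p.Prime] {k : Type u} [Field k] [IsAlgClosed k] [CharP k p]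
  (red : integralClosure ℤ ℂ →+* k) {G : Type} [Group G] [Finite G]

/-- the value of the functional `L` in `k` -/
noncomputable def Lk (p : ℕ) (k : Type u) [Field k] {G : Type} [Group G] (z : G → ℤ) : k :=
  ((nL p z / (Nat.card G : ℤ) : ℤ) : k)

/-- the value of the functional `W` in `k` -/
noncomputable def Wk (p : ℕ) {k : Type u} [Field k] (red : integralClosure ℤ ℂ →+* k) {G : Type}
    [Group G] (z : G → ℤ) : k := redC red (nW p z / Nat.card G)

theorem Lk_eq_Wk_of_cong {O : ValuationSubring ℂ}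
    (hred : ∀ (a : ℂ) (ha : a ∈ integralClosure ℤ ℂ), O.valuation a < 1 ↔ red ⟨a, ha⟩ = 0)
    {z : G → ℤ} (hz : IsCF z) (hmain : Cong O (Nat.card G) (nL p z) (nW p z)) :
    Lk p k z = Wk p red z := by
  have hG : (Nat.card G : ℂ) ≠ 0 := by exact_mod_cast Nat.card_pos.ne'
  obtain ⟨t, ht⟩ := dvd_nL p z hz
  have hint := isIntegral_nW' (p := p) (G := G) hz
  have hGZ : (Nat.card G : ℤ) ≠ 0 := by exact_mod_cast Nat.card_pos.ne'
  unfold Lk Wk
  rw [ht, Int.mul_ediv_cancel_left _ hGZ]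
  unfold Cong at hmain
  rw [ht] at hmain
  have h5 : (((Nat.card G : ℤ) * t : ℤ) - nW p z) / (Nat.card G : ℂ) =
      (t : ℂ) - nW p z / Nat.card G := by
    push_cast
    rw [sub_div, mul_div_cancel_left₀ _ hG]
  rw [h5] at hmain
  have h6 : (t : ℂ) ∈ integralClosure ℤ ℂ := intCast_mem _ t
  have h7 := (hred _ (sub_mem h6 hint)).mp hmain
  have h8 : (⟨(t : ℂ) - nW p z / Nat.card G, sub_mem h6 hint⟩ : integralClosure ℤ ℂ) =
      ((t : ℤ) : integralClosure ℤ ℂ) - ⟨nW p z / Nat.card G, hint⟩ := rfl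
  rw [h8, map_sub, map_intCast, sub_eq_zero] at h7
  rw [h7, redC_of_mem red hint]

theorem Lk_lin [Fintype (ConjClasses G)] {z : G → ℤ} (hz : IsCF z) :
    Lk p k z = ∑ C : ConjClasses G, (z C.out : k) * Lk p k (ind C) := by
  have hGZ : (Nat.card G : ℤ) ≠ 0 := by exact_mod_cast Nat.card_pos.ne'
  have h1 : nL p z / (Nat.card G : ℤ) =
      ∑ C : ConjClasses G, z C.out * (nL p (ind C) / (Nat.card G : ℤ)) := by
    apply Int.ediv_eq_of_eq_mul_right hGZ
    rw [nL_lin p hz, Finset.mul_sum]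
    refine Finset.sum_congr rfl fun C _ => ?_
    obtain ⟨t, ht⟩ := dvd_nL p (ind C) (isCF_ind C)
    rw [ht, Int.mul_ediv_cancel_left _ hGZ]
    ring
  unfold Lk
  rw [h1]
  push_cast
  rfl

theorem redC_mul_int (n : ℤ) {x : ℂ} (hx : x ∈ integralClosure ℤ ℂ) :
    redC red ((n : ℂ) * x) = (n : k) * redC red x := by
  have hn : (n : ℂ) ∈ integralClosure ℤ ℂ := intCast_mem _ n
  rw [redC_of_mem red hx, redC_of_mem red (mul_mem hn hx)]
  have : (⟨(n : ℂ) * x, mul_mem hn hx⟩ : integralClosure ℤ ℂ) =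
      ((n : ℤ) : integralClosure ℤ ℂ) * ⟨x, hx⟩ := rfl
  rw [this, map_mul, map_intCast]

theorem Wk_lin [Fintype (ConjClasses G)] {z : G → ℤ} (hz : IsCF z) :
    Wk p red z = ∑ C : ConjClasses G, (z C.out : k) * Wk p red (ind C) := by
  unfold Wk
  rw [nW_lin p hz, Finset.sum_div]
  have h1 : ∀ C : ConjClasses G, (z C.out : ℂ) * nW p (ind C) / (Nat.card G : ℂ) =
      (z C.out : ℂ) * (nW p (ind C) / (Nat.card G : ℂ)) := fun C => by ring
  simp only [h1]
  rw [redC_sum red _ _ fun C _ => mul_mem (intCast_mem _ _) (isIntegral_nW p C)]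
  exact Finset.sum_congr rfl fun C _ => redC_mul_int red _ (isIntegral_nW p C)

theorem blocks_of_cong (B : MonoidAlgebra k G) (hB : IsBlock B) {ι : Type*} [Fintype ι]
    (a : ι → k) (z : ι → G → ℤ) (hz : ∀ i, IsCF (z i)) (hLW : ∀ i, Lk p k (z i) = Wk p red (z i))
    (hBz : ∀ g, B.coeff g = ∑ i, a i * ((z i g : ℤ) : k)) :
    numSimpleIn B ≡ numWeightsIn p red B [MOD p] := by
  have := Fintype.ofFinite (ConjClasses G)
  have hW : (numWeightsIn p red B : k) =
      ∑ᶠ C : ConjClasses G, B.coeff C.out * redC red (nW p (ind C) / Nat.card G) :=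
    numWeightsIn_eq_of p red B fun w =>
      weightInBlock_iff_of red w blockHomStmt homBlockStmt homBlockStmt charBlockStmt B hB
  have hS := numSimpleIn_eq p B hB.1 hB.2.1
  have key : (numSimpleIn B : k) = (numWeightsIn p red B : k) := by
    rw [hS, hW, finsum_eq_sum_of_fintype, finsum_eq_sum_of_fintype]
    have e1 : ∑ C : ConjClasses G, B.coeff C.out * ((nL p (ind C) / (Nat.card G : ℤ) : ℤ) : k) =
        ∑ i, a i * Lk p k (z i) := by
      simp only [hBz, Finset.sum_mul]
      rw [Finset.sum_comm]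
      refine Finset.sum_congr rfl fun i _ => ?_
      rw [Lk_lin p (hz i), Finset.mul_sum]
      exact Finset.sum_congr rfl fun C _ => by rw [mul_assoc]; rfl
    have e2 : ∑ C : ConjClasses G, B.coeff C.out * redC red (nW p (ind C) / Nat.card G) =
        ∑ i, a i * Wk p red (z i) := by
      simp only [hBz, Finset.sum_mul]
      rw [Finset.sum_comm]
      refine Finset.sum_congr rfl fun i _ => ?_
      rw [Wk_lin p red (hz i), Finset.mul_sum]
      exact Finset.sum_congr rfl fun C _ => by rw [mul_assoc]; rfl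
    rw [e1, e2]
    exact Finset.sum_congr rfl fun i _ => by rw [hLW]
  exact (CharP.natCast_eq_natCast k p).mp key

theorem Lk_eq_Wk_GF {𝒵 : ∀ (G : Type) [Group G], (G → ℤ) → Prop} (h𝒵 : GoodFun p 𝒵)
    {z : G → ℤ} (hz : IsCF z) (hz' : 𝒵 G z) : Lk p k z = Wk p red z := by
  obtain ⟨O, hO, hred⟩ := exists_O p red
  exact Lk_eq_Wk_of_cong p red hred hz (main_GF p h𝒵 O z hz hz')

/-- The blockwise statement for a good class of functions. -/
theorem blocks_GF {𝒵 : ∀ (G : Type) [Group G], (G → ℤ) → Prop} (h𝒵 : GoodFun p 𝒵)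
    (B : MonoidAlgebra k G) (hB : IsBlock B) {ι : Type*} [Fintype ι]
    (a : ι → k) (z : ι → G → ℤ) (hz : ∀ i, IsCF (z i)) (hz' : ∀ i, 𝒵 G (z i))
    (hBz : ∀ g, B.coeff g = ∑ i, a i * ((z i g : ℤ) : k)) :
    numSimpleIn B ≡ numWeightsIn p red B [MOD p] :=
  blocks_of_cong p red B hB a z hz (fun i => Lk_eq_Wk_GF p red h𝒵 (hz i) (hz' i)) hBz

end main

end P179C
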