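import Vale.Agent.P179.H143.Vreg

/-!
# (C1) The second main theorem for traces

`nTr z ≡ ∑_v nL (z|_{C(v)})` modulo `|K| p`, `v` over the `p`-elements of `K`.
-/

namespace P179C

open Subgroup Finset P179H524

open scoped Classical

variable {K : Type*} [Group K] [Fintype K]

section resF

variable {F : Type*} [CommRing F]

/-- Restriction of coefficients to a subgroup. -/
noncomputable def resF (H : Subgroup K) (x : MonoidAlgebra F K) : MonoidAlgebra F H :=
  ∑ h : H, MonoidAlgebra.single h (x.coeff h)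

theorem coeff_resF (H : Subgroup K) (x : MonoidAlgebra F K) (h : H) :
    (resF H x).coeff h = x.coeff (h : K) := by
  rw [resF, MonoidAlgebra.coeff_sum, Finsupp.finsetSum_apply, Finset.sum_eq_single h]
  · simp
  · intro y _ hy
    simp [hy]
  · simp

theorem resF_one (H : Subgroup K) : resF H (1 : MonoidAlgebra F K) = 1 := by
  ext h
  rw [coeff_resF, MonoidAlgebra.one_def, MonoidAlgebra.one_def, MonoidAlgebra.coeff_single,
    MonoidAlgebra.coeff_single, Finsupp.single_apply, Finsupp.single_apply]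
  simp only [eq_comm (a := (1 : K)), eq_comm (a := (1 : H)), OneMemClass.coe_eq_one]

theorem coeff_mul_eq_sum (a c : MonoidAlgebra F K) (g : K) :
    (a * c).coeff g = ∑ x : K, a.coeff x * c.coeff (x⁻¹ * g) := by
  conv_lhs => rw [eq_sum_single a, Finset.sum_mul, MonoidAlgebra.coeff_sum, Finsupp.finsetSum_apply]
  exact Finset.sum_congr rfl fun x _ => MonoidAlgebra.coeff_single_mul_apply c _ x g

/-- **Brauer restriction.** -/
theorem resF_mul (p : ℕ) [hp : Fact p.Prime] [CharP F p] (v : K) (hv : ∃ n : ℕ, v ^ p ^ n = 1)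
    (a c : MonoidAlgebra F K) (ha : IsCF fun g => a.coeff g) (hc : IsCF fun g => c.coeff g) :
    resF (centralizer {v}) (a * c) = resF (centralizer {v}) a * resF (centralizer {v}) c := by
  obtain ⟨n, hn⟩ := hv
  ext g
  rw [coeff_resF, coeff_mul_eq_sum, coeff_mul_eq_sum,
    sum_eq_sum_fixed p (MulAut.conj v).toEquiv n]
  · simp only [coeff_resF]
    rw [Finset.sum_subtype (p := fun x : K => x ∈ centralizer {v}) _ (by
      intro x
      rw [mem_filter, mem_centralizer_singleton_iff]
      simp only [mem_univ, true_and]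
      have h1 : (MulAut.conj v).toEquiv x = v * x * v⁻¹ := rfl
      rw [h1, mul_inv_eq_iff_eq_mul, eq_comm])]
    rfl
  · have h1 : (MulAut.conj v).toEquiv ^ p ^ n = (MulAut.conj (v ^ p ^ n)).toEquiv := by
      have : MulAut.conj (v ^ p ^ n) = (MulAut.conj v) ^ p ^ n := map_pow _ _ _
      rw [this]
      exact (map_pow (MulAut.toPerm K) (MulAut.conj v) (p ^ n)).symm
    rw [h1, hn, map_one]
    rfl
  · intro x
    have h1 : (MulAut.conj v).toEquiv x = v * x * v⁻¹ := rfl
    have h2 := mem_centralizer_singleton_iff.1 g.2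
    have h3 := ha v x
    have h4 := hc v (x⁻¹ * g)
    simp only at h3 h4
    rw [h1, h3, ← h4]
    congr 2
    have h5 : (g : K) = v * g * v⁻¹ := by
      rw [← h2]; group
    calc (v * x * v⁻¹)⁻¹ * (g : K) = (v * x * v⁻¹)⁻¹ * (v * g * v⁻¹) := by rw [← h5]
      _ = v * (x⁻¹ * g) * v⁻¹ := by group

theorem resF_pow (p : ℕ) [hp : Fact p.Prime] [CharP F p] (v : K) (hv : ∃ n : ℕ, v ^ p ^ n = 1)
    (a : MonoidAlgebra F K) (ha : IsCF fun g => a.coeff g) (n : ℕ) :
    resF (centralizer {v}) (a ^ n) = resF (centralizer {v}) a ^ n := by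
  induction n with
  | zero => rw [pow_zero, pow_zero, resF_one]
  | succ n ih => rw [pow_succ, resF_mul p v hv _ _ (isCF_pow a ha n) ha, ih, pow_succ]

end resF

omit [Fintype K] in
theorem pr_mem_centralizer (p : ℕ) (y : K) : pr p y ∈ centralizer {y * (pr p y)⁻¹} := by
  rw [mem_centralizer_singleton_iff]
  have := (pr_commute (p := p) y).eq
  rw [← mul_assoc, ← this]
  group

/-- The coefficient function of the right hand side of the second main theorem. -/
noncomputable def Q2 (p : ℕ) (z : K → ℤ) (y : K) : ℤ :=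
  qL p (res (centralizer {y * (pr p y)⁻¹}) z) ⟨pr p y, pr_mem_centralizer p y⟩

omit [Fintype K] in
/-- In `C(v)`: `u v` and `w v` are conjugate in `K` iff `u`, `w` are conjugate in `C(v)`
(`u`, `w` `p`-regular). -/
theorem isConj_mul_iff (p : ℕ) [hp : Fact p.Prime] [Finite K] (v : K) (hv : ∃ n : ℕ, v ^ p ^ n = 1)
    (u w : (centralizer {v} : Subgroup K)) (hu : ¬ p ∣ orderOf u) (hw : ¬ p ∣ orderOf w) :
    IsConj ((u : K) * v) ((w : K) * v) ↔ IsConj u w := by
  have h1 : ∀ u : (centralizer {v} : Subgroup K), ¬ p ∣ orderOf u → pr p ((u : K) * v) = u := by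
    intro u hu
    refine pr_eq (mem_centralizer_singleton_iff.1 u.2) ?_ hv
    rwa [Subgroup.orderOf_coe]
  constructor
  · intro h
    obtain ⟨t, ht⟩ := isConj_iff.1 h
    have h2 : t * (u : K) * t⁻¹ = w := by
      have := pr_conj (p := p) t ((u : K) * v)
      rw [ht, h1 u hu, h1 w hw] at this
      exact this.symm
    have h3 : t * v * t⁻¹ = v := by
      have h4 : t * ((u : K) * v) * t⁻¹ = (t * (u : K) * t⁻¹) * (t * v * t⁻¹) := by group
      rw [h4, h2] at ht
      exact mul_left_cancel ht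
    refine isConj_iff.2 ⟨⟨t, ?_⟩, ?_⟩
    · rw [mem_centralizer_singleton_iff]
      exact mul_inv_eq_iff_eq_mul.1 h3
    · exact Subtype.ext h2
  · intro h
    obtain ⟨t, ht⟩ := isConj_iff.1 h
    refine isConj_iff.2 ⟨t, ?_⟩
    rw [← ht]
    have h3 := mem_centralizer_singleton_iff.1 t.2
    have h4 : (t : K) * ((u : K) * v) * (t : K)⁻¹ = (t : K) * u * (v * (t : K)⁻¹) := by group
    have h5 : v * (t : K)⁻¹ = (t : K)⁻¹ * v := by
      rw [eq_inv_mul_iff_mul_eq, ← mul_assoc, h3]
      group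
    rw [h4, h5]
    simp [mul_assoc]

/-- The pointwise congruence. -/
theorem qTr_pow_eq (p : ℕ) [hp : Fact p.Prime] (z : K → ℤ) (hz : IsCF z) (m : ℕ)
    (hm : ∀ g : K, g ^ p ^ m = pr p g) (z' : K → ℤ)
    (hz' : ∀ g, ((z' g : ℤ) : ZMod p) = (toF (ZMod p) z ^ p ^ m).coeff g) (y : K) :
    ((qTr z' y : ℤ) : ZMod p) = ((Q2 p z y : ℤ) : ZMod p) := by
  set v : K := y * (pr p y)⁻¹ with hvdef
  obtain ⟨n, hn⟩ : ∃ n : ℕ, v ^ p ^ n = 1 := pr_sing y
  set H : Subgroup K := centralizer {v} with hH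
  set h : H := ⟨pr p y, pr_mem_centralizer p y⟩ with hh
  have hyv : y = (h : K) * v := by
    rw [hvdef, hh]
    have := (pr_commute (p := p) y).eq
    simp only
    rw [← mul_assoc, ← this]
    group
  have hreg : ¬ p ∣ orderOf h := by
    rw [← Subgroup.orderOf_coe]
    exact pr_regular y
  have hcf : IsCF fun g => (toF (ZMod p) z ^ p ^ m).coeff g := isCF_pow _ (isCF_toF _ z hz) _
  have hvy : v * y = y * v := by
    rw [hvdef]
    have := (pr_commute (p := p) y).inv_right.eq
    rw [mul_assoc, ← this]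
  -- the class function on `H`
  set φ : H → ZMod p := fun x => if IsConj y ((x : K) * v) then 1 else 0 with hφ
  have hφcf : IsCF φ := by
    intro t x
    simp only [hφ]
    have h3 := mem_centralizer_singleton_iff.1 t.2
    have h5 : v * (t : K)⁻¹ = (t : K)⁻¹ * v := by
      rw [eq_inv_mul_iff_mul_eq, ← mul_assoc, h3]
      group
    have h4 : ((t * x * t⁻¹ : H) : K) * v = (t : K) * ((x : K) * v) * (t : K)⁻¹ := by
      simp only [Subgroup.coe_mul, Subgroup.coe_inv]
      rw [mul_assoc _ _ v, ← h5]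
      group
    rw [h4]
    have h6 : IsConj ((x : K) * v) ((t : K) * ((x : K) * v) * (t : K)⁻¹) := isConj_iff.2 ⟨t, rfl⟩
    have : IsConj y ((t : K) * ((x : K) * v) * (t : K)⁻¹) ↔ IsConj y ((x : K) * v) :=
      ⟨fun h => h.trans h6.symm, fun h => h.trans h6⟩
    simp only [this]
  have hφreg : ∀ u : H, ¬ p ∣ orderOf u → φ u = if IsConj h u then 1 else 0 := by
    intro u hu
    simp only [hφ]
    have := isConj_mul_iff p v ⟨n, hn⟩ h u hreg hu
    rw [← hyv] at this
    simp only [this]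
  have hmH : ∀ g : H, g ^ p ^ m = pr p g := by
    intro g
    apply Subtype.ext
    rw [pr_coe, Subgroup.coe_pow, hm]
  -- step 1
  have s1 : ((qTr z' y : ℤ) : ZMod p) = ∑ g : H, (toF (ZMod p) z ^ p ^ m).coeff (g : K) * φ (g * h) := by
    rw [qTr]
    push_cast
    simp only [hz']
    rw [sum_eq_sum_fixed p (MulAut.conj v).toEquiv n]
    · rw [Finset.sum_subtype (p := fun x : K => x ∈ centralizer {v}) _ (by
        intro x
        rw [mem_filter, mem_centralizer_singleton_iff]
        simp only [mem_univ, true_and]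
        have h1 : (MulAut.conj v).toEquiv x = v * x * v⁻¹ := rfl
        rw [h1, mul_inv_eq_iff_eq_mul, eq_comm])]
      refine Finset.sum_congr rfl fun g _ => ?_
      have e2 : ((g * h : H) : K) * v = (g : K) * y := by
        rw [Subgroup.coe_mul, mul_assoc, ← hyv]
      simp only [hφ, e2]
      split_ifs <;> simp
    · have h1 : (MulAut.conj v).toEquiv ^ p ^ n = (MulAut.conj (v ^ p ^ n)).toEquiv := by
        have : MulAut.conj (v ^ p ^ n) = (MulAut.conj v) ^ p ^ n := map_pow _ _ _
        rw [this]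
        exact (map_pow (MulAut.toPerm K) (MulAut.conj v) (p ^ n)).symm
      rw [h1, hn, map_one]
      rfl
    · intro x
      have h1 : (MulAut.conj v).toEquiv x = v * x * v⁻¹ := rfl
      have h2 : v * x * v⁻¹ * y = v * (x * y) * v⁻¹ := by
        have : v⁻¹ * y = y * v⁻¹ := by
          rw [inv_mul_eq_iff_eq_mul, ← mul_assoc, hvy]
          group
        rw [mul_assoc, this]
        group
      rw [h1, h2]
      have h3 := hcf v x
      simp only at h3
      rw [h3]
      have h6 : IsConj (x * y) (v * (x * y) * v⁻¹) := isConj_iff.2 ⟨v, rfl⟩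
      have : IsConj y (v * (x * y) * v⁻¹) ↔ IsConj y (x * y) :=
        ⟨fun h => h.trans h6.symm, fun h => h.trans h6⟩
      simp only [this]
  -- step 2
  have s2 : ∑ g : H, (toF (ZMod p) z ^ p ^ m).coeff (g : K) * φ (g * h) =
      lin φ ((toF (ZMod p) (res H z)) ^ p ^ m * MonoidAlgebra.single h 1) := by
    rw [lin_mul_single]
    refine Finset.sum_congr rfl fun g _ => ?_
    have h1 := resF_pow p v ⟨n, hn⟩ (toF (ZMod p) z) (isCF_toF _ z hz) (p ^ m)
    have h2 : resF (centralizer {v}) (toF (ZMod p) z) = toF (ZMod p) (res H z) := by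
      ext g
      rw [coeff_resF, coeff_toF, coeff_toF]
      rfl
    rw [h2] at h1
    rw [← h1, coeff_resF]
  have hres : IsCF (res H z) := fun t x => hz t x
  have s3 : (toF (ZMod p) (res H z)) ^ p ^ m * MonoidAlgebra.single h 1 =
      (toF (ZMod p) (res H z) * MonoidAlgebra.single h 1) ^ p ^ m := by
    rw [(commute_of_isCF _ (isCF_toF (ZMod p) (res H z) hres) _).mul_pow, MonoidAlgebra.single_pow,
      one_pow, hmH, pr_of_regular hreg]
  rw [s1, s2, s3, lin_pow_reg p m hmH φ hφcf _ (fun g => by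
    rw [MonoidAlgebra.coeff_mul_single_apply, coeff_toF, mul_one, intCast_pow p]), lin_mul_single, Q2, qL]
  push_cast
  refine Finset.sum_congr rfl fun g _ => ?_
  rw [hφreg _ (pr_regular _), coeff_toF]
  split_ifs
  · rw [mul_one]
  · rw [mul_zero]

omit [Fintype K] in
/-- The centraliser of `h` in `C(v)` is the centraliser of `h v`. -/
theorem card_centralizer_coe (p : ℕ) [hp : Fact p.Prime] [Finite K] (v : K)
    (hv : ∃ n : ℕ, v ^ p ^ n = 1) (h : (centralizer {v} : Subgroup K)) (hh : ¬ p ∣ orderOf h) :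
    Nat.card (centralizer {h} : Subgroup (centralizer {v} : Subgroup K)) =
      Nat.card (centralizer {(h : K) * v} : Subgroup K) := by
  have hpr : pr p ((h : K) * v) = h := by
    refine pr_eq (mem_centralizer_singleton_iff.1 h.2) ?_ hv
    rwa [Subgroup.orderOf_coe]
  have key : ∀ x : K, x ∈ centralizer {(h : K) * v} ↔ (x ∈ centralizer {v} ∧ x * h = h * x) := by
    intro x
    rw [mem_centralizer_singleton_iff, mem_centralizer_singleton_iff]
    constructor
    · intro hx
      have h1 : x * (h : K) = h * x := by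
        have h2 : Commute x ((h : K) * v) := hx
        have h3 : Commute x (pr p ((h : K) * v)) := h2.pow_right _
        rw [hpr] at h3
        exact h3
      refine ⟨?_, h1⟩
      have h4 : (h : K) * (x * v) = h * (v * x) := by
        rw [← mul_assoc, ← h1, mul_assoc, hx, mul_assoc]
      exact mul_left_cancel h4
    · rintro ⟨h1, h2⟩
      rw [← mul_assoc, h2, mul_assoc, h1, mul_assoc]
  refine Nat.card_congr
    { toFun := fun x => ⟨x.1.1, (key _).2 ⟨x.1.2, ?_⟩⟩
      invFun := fun x => ⟨⟨x.1, ((key _).1 x.2).1⟩, ?_⟩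
      left_inv := fun x => rfl
      right_inv := fun x => rfl }
  · exact congrArg Subtype.val (mem_centralizer_singleton_iff.1 x.2)
  · rw [mem_centralizer_singleton_iff]
    exact Subtype.ext ((key _).1 x.2).2

theorem Q2_aux (p : ℕ) (z : K → ℤ) (v v' : K) (e : v = v') (h h' : K) (e' : h = h')
    (hh : h ∈ centralizer {v}) (hh' : h' ∈ centralizer {v'}) :
    qL p (res (centralizer {v}) z) ⟨h, hh⟩ = qL p (res (centralizer {v'}) z) ⟨h', hh'⟩ := by
  subst e
  subst e'
  rfl

theorem qL_comp (p : ℕ) {H L : Type*} [Group H] [Fintype H] [Group L] [Fintype L] (e : H ≃* L)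
    (z : L → ℤ) (h : H) : qL p z (e h) = qL p (fun x => z (e x)) h := by
  rw [qL, qL, ← Equiv.sum_comp e.toEquiv]
  refine Finset.sum_congr rfl fun g _ => ?_
  have h1 : e.toEquiv g = e g := rfl
  have h2 : pr p (e g * e h) = e (pr p (g * h)) := by
    rw [← map_mul]
    exact pr_map (p := p) e.toMonoidHom e.injective (g * h)
  have h3 : IsConj (e h) (e (pr p (g * h))) ↔ IsConj h (pr p (g * h)) := by
    constructor
    · intro hc
      have := MonoidHom.map_isConj e.symm.toMonoidHom hc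
      simpa using this
    · intro hc
      exact MonoidHom.map_isConj e.toMonoidHom hc
  rw [h1, h2]
  simp only [h3]

/-- Conjugation as an isomorphism between centralisers. -/
def centConj (t v : K) : (centralizer {v} : Subgroup K) ≃* (centralizer {t * v * t⁻¹} : Subgroup K) where
  toFun x := ⟨t * x.1 * t⁻¹, by
    have hx := mem_centralizer_singleton_iff.1 x.2
    rw [mem_centralizer_singleton_iff]
    calc t * (x : K) * t⁻¹ * (t * v * t⁻¹) = t * ((x : K) * v) * t⁻¹ := by group
      _ = t * v * t⁻¹ * (t * (x : K) * t⁻¹) := by rw [hx]; group⟩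
  invFun x := ⟨t⁻¹ * x.1 * t, by
    have hx := mem_centralizer_singleton_iff.1 x.2
    rw [mem_centralizer_singleton_iff]
    calc t⁻¹ * (x : K) * t * v = t⁻¹ * ((x : K) * (t * v * t⁻¹)) * t := by group
      _ = v * (t⁻¹ * (x : K) * t) := by rw [hx]; group⟩
  left_inv x := by apply Subtype.ext; simp [mul_assoc]
  right_inv x := by apply Subtype.ext; simp [mul_assoc]
  map_mul' x y := by apply Subtype.ext; simp [mul_assoc]

theorem Q2_isCF (p : ℕ) (z : K → ℤ) (hz : IsCF z) : IsCF (Q2 p z) := by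
  intro t y
  have e1 : t * (y * (pr p y)⁻¹) * t⁻¹ = t * y * t⁻¹ * (pr p (t * y * t⁻¹))⁻¹ := by
    rw [pr_conj]
    group
  have hmem : pr p (t * y * t⁻¹) ∈ centralizer {t * (y * (pr p y)⁻¹) * t⁻¹} := by
    rw [e1]
    exact pr_mem_centralizer p _
  have e2 : Q2 p z (t * y * t⁻¹) =
      qL p (res (centralizer {t * (y * (pr p y)⁻¹) * t⁻¹}) z) ⟨pr p (t * y * t⁻¹), hmem⟩ :=
    Q2_aux p z _ _ e1.symm _ _ rfl _ _
  have e3 : (⟨pr p (t * y * t⁻¹), hmem⟩ : (centralizer {t * (y * (pr p y)⁻¹) * t⁻¹} : Subgroup K)) =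
      centConj t (y * (pr p y)⁻¹) ⟨pr p y, pr_mem_centralizer p y⟩ :=
    Subtype.ext (pr_conj t y)
  rw [e2, e3, qL_comp, Q2]
  congr 1
  funext x
  exact hz t x

/-- Reindexing. -/
theorem sum_Q2 (p : ℕ) [hp : Fact p.Prime] (z : K → ℤ) :
    ∑ y : K, (Nat.card (centralizer {y} : Subgroup K) : ℤ) * Q2 p z y =
      ∑ᶠ v : {v : K // ∃ n : ℕ, v ^ p ^ n = 1}, nL p (res (centralizer {v.1}) z) := by
  have : Fintype {v : K // ∃ n : ℕ, v ^ p ^ n = 1} := Fintype.ofFinite _
  rw [finsum_eq_sum_of_fintype]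
  have h0 : ∀ v : {v : K // ∃ n : ℕ, v ^ p ^ n = 1}, nL p (res (centralizer {v.1}) z) =
      ∑ h : {h : (centralizer {v.1} : Subgroup K) // ¬ p ∣ orderOf h},
        (Nat.card (centralizer {(h.1 : K) * v.1} : Subgroup K) : ℤ) *
          qL p (res (centralizer {v.1}) z) h.1 := by
    intro v
    rw [nL_eq, ← Finset.sum_filter_add_sum_filter_not univ
      (fun h : (centralizer {v.1} : Subgroup K) => ¬ p ∣ orderOf h)]
    have h1 : ∑ h ∈ univ.filter (fun h : (centralizer {v.1} : Subgroup K) => ¬ ¬ p ∣ orderOf h),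
        (Nat.card (centralizer {h} : Subgroup (centralizer {v.1} : Subgroup K)) : ℤ) *
          qL p (res (centralizer {v.1}) z) h = 0 := by
      apply Finset.sum_eq_zero
      intro h hh
      have hh' := (mem_filter.1 hh).2
      have : qL p (res (centralizer {v.1}) z) h = 0 := by
        rw [qL]
        apply Finset.sum_eq_zero
        intro g _
        rw [if_neg]
        intro hc
        exact hh' ((isConj_regular hc).2 (pr_regular _))
      rw [this, mul_zero]
    rw [h1, add_zero, Finset.sum_subtype (p := fun h : (centralizer {v.1} : Subgroup K) =>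
      ¬ p ∣ orderOf h) _ (by intro h; simp)]
    refine Finset.sum_congr rfl fun h _ => ?_
    rw [card_centralizer_coe p v.1 v.2 h.1 h.2]
  simp only [h0]
  rw [← Fintype.sum_sigma' (fun (v : {v : K // ∃ n : ℕ, v ^ p ^ n = 1})
    (h : {h : (centralizer {v.1} : Subgroup K) // ¬ p ∣ orderOf h}) =>
      (Nat.card (centralizer {(h.1 : K) * v.1} : Subgroup K) : ℤ) *
          qL p (res (centralizer {v.1}) z) h.1)]
  have hpr : ∀ (v : {v : K // ∃ n : ℕ, v ^ p ^ n = 1})
      (h : {h : (centralizer {v.1} : Subgroup K) // ¬ p ∣ orderOf h}),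
      pr p ((h.1 : K) * v.1) = h.1 := by
    intro v h
    refine pr_eq (mem_centralizer_singleton_iff.1 h.1.2) ?_ v.2
    rw [Subgroup.orderOf_coe]
    exact h.2
  have hv : ∀ (v : {v : K // ∃ n : ℕ, v ^ p ^ n = 1})
      (h : {h : (centralizer {v.1} : Subgroup K) // ¬ p ∣ orderOf h}),
      ((h.1 : K) * v.1) * (pr p ((h.1 : K) * v.1))⁻¹ = v.1 := by
    intro v h
    rw [hpr]
    have := mem_centralizer_singleton_iff.1 h.1.2
    rw [this]
    group
  symm
  refine Fintype.sum_bijective (fun s : (Σ v : {v : K // ∃ n : ℕ, v ^ p ^ n = 1},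
    {h : (centralizer {v.1} : Subgroup K) // ¬ p ∣ orderOf h}) => ((s.2.1 : K) * s.1.1)) ?_ _ _ ?_
  · constructor
    · rintro ⟨⟨v, hvv⟩, ⟨⟨h, hh⟩, hr⟩⟩ ⟨⟨v', hvv'⟩, ⟨⟨h', hh'⟩, hr'⟩⟩ he
      simp only at he
      have e1 := hpr ⟨v, hvv⟩ ⟨⟨h, hh⟩, hr⟩
      have e2 := hpr ⟨v', hvv'⟩ ⟨⟨h', hh'⟩, hr'⟩
      have e3 := hv ⟨v, hvv⟩ ⟨⟨h, hh⟩, hr⟩
      have e4 := hv ⟨v', hvv'⟩ ⟨⟨h', hh'⟩, hr'⟩
      simp only at e1 e2 e3 e4
      rw [he] at e1 e3
      have e5 : h = h' := e1.symm.trans e2
      have e6 : v = v' := e3.symm.trans e4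
      subst e5
      subst e6
      rfl
    · intro y
      refine ⟨⟨⟨y * (pr p y)⁻¹, pr_sing y⟩, ⟨⟨pr p y, pr_mem_centralizer p y⟩, ?_⟩⟩, ?_⟩
      · rw [← Subgroup.orderOf_coe]
        exact pr_regular y
      · simp only
        have := (pr_commute (p := p) y).eq
        rw [← mul_assoc, ← this]
        group
  · rintro ⟨v, h⟩
    simp only
    congr 1
    rw [Q2]
    exact Q2_aux p z _ _ (hv v h).symm _ _ (hpr v h).symm _ _

/-- **(C1) Second main theorem for traces.** -/
theorem nTr_modEq (p : ℕ) [hp : Fact p.Prime] {K : Type*} [Group K] [Finite K] (z : K → ℤ)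
    (hz : IsCF z) :
    ((Nat.card K * p : ℕ) : ℤ) ∣
      nTr z - ∑ᶠ v : {v : K // ∃ n : ℕ, v ^ p ^ n = 1}, nL p (res (centralizer {v.1}) z) := by
  have : Fintype K := Fintype.ofFinite K
  obtain ⟨m, -, hm⟩ := exists_pow_eq_pr p K 0
  set z' : K → ℤ := fun g => (((toF (ZMod p) z ^ p ^ m).coeff g).val : ℤ) with hz'def
  have hz' : ∀ g, ((z' g : ℤ) : ZMod p) = (toF (ZMod p) z ^ p ^ m).coeff g := by
    intro g
    simp [hz'def]
  have hcf : IsCF z' := by
    intro t g
    have := isCF_pow (toF (ZMod p) z) (isCF_toF _ z hz) (p ^ m) t g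
    simp only at this
    simp only [hz'def]
    rw [this]
  have htoF : toF (ZMod p) z' = toF (ZMod p) z ^ p ^ m := by
    ext g
    rw [coeff_toF, hz']
  -- the traces
  have h1 : ((∑ c : ConjClasses K, qTr z c.out : ℤ) : ZMod p) =
      ((∑ c : ConjClasses K, qTr z' c.out : ℤ) : ZMod p) := by
    rw [← trace_Vcl z hz, ← trace_Vcl z' hcf, ← trace_pow_eq p _ m]
    congr 1
    rw [Module.End.pow_restrict]
    have : T (toF (ZMod p) z) ^ p ^ m = T (toF (ZMod p) z') := by
      rw [htoF, T_pow]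
    simp only [this]
  have h2 : (Nat.card K : ℤ) * p ∣ nTr z - nTr z' := by
    rw [nTr_eq_card_mul z hz, nTr_eq_card_mul z' hcf, ← mul_sub]
    apply mul_dvd_mul_left
    rw [← ZMod.intCast_zmod_eq_zero_iff_dvd, Int.cast_sub, h1, sub_self]
  have h3 : (Nat.card K : ℤ) * p ∣ nTr z' - ∑ y : K,
      (Nat.card (centralizer {y} : Subgroup K) : ℤ) * Q2 p z y := by
    rw [nTr_eq, ← Finset.sum_sub_distrib]
    simp only [← mul_sub]
    refine dvd_sum_card_centralizer (fun y => qTr z' y - Q2 p z y) ?_ p ?_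
    · intro t y
      simp only
      rw [qTr_isCF z' hcf, Q2_isCF p z hz]
    · intro y
      rw [← ZMod.intCast_zmod_eq_zero_iff_dvd, Int.cast_sub,
        qTr_pow_eq p z hz m hm z' hz' y, sub_self]
  rw [← sum_Q2]
  have h4 := dvd_add h2 h3
  rw [sub_add_sub_cancel] at h4
  exact_mod_cast h4

end P179C
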