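import Vale.Agent.P179.H525.Rot

/-!
# Class functions and `p`-power words

For a class function `f` with values in a commutative ring of characteristic `p` and `x` in the
group algebra, `f (x ^ p ^ n) = ∑ g, (x g) ^ p ^ n * f (g ^ p ^ n)`.
-/

namespace P179C

open Finset P179H524

variable {K R : Type*} [Group K] [Fintype K] [CommRing R]

/-- The linear extension of a function on the group to the group algebra. -/
noncomputable def lin (f : K → R) (x : MonoidAlgebra R K) : R := ∑ g, x.coeff g * f g

omit [Fintype K] in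
theorem wprod_rot_conj {m : ℕ} (w : Fin (m + 1) → K) :
    wprod (rot (m + 1) w) = (w 0)⁻¹ * wprod w * w 0 := by
  have h : wprod w = w 0 * (List.ofFn fun i : Fin m => w i.succ).prod := by
    rw [wprod, List.ofFn_succ, List.prod_cons]
  rw [wprod, List.ofFn_succ', List.concat_eq_append, List.prod_append, List.prod_singleton]
  have h1 : (fun i : Fin m => rot (m + 1) w i.castSucc) = fun i => w i.succ := by
    funext i
    rw [rot_apply, finRotate_apply, Fin.coeSucc_eq_succ]
  have h2 : rot (m + 1) w (Fin.last m) = w 0 := by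
    rw [rot_apply, finRotate_last]
  rw [h1, h2, h]
  group

/-- **Words, with a class function.** -/
theorem sum_words_cf [DecidableEq K] (p : ℕ) [hp : Fact p.Prime] [CharP R p] (n : ℕ) (a f : K → R)
    (hf : ∀ g x : K, f (g * x * g⁻¹) = f x) :
    ∑ w : Fin (p ^ n) → K, (∏ i, a (w i)) * f (wprod w) =
      ∑ g, a g ^ p ^ n * f (g ^ p ^ n) := by
  classical
  have hN : p ^ n ≠ 0 := pow_ne_zero _ hp.out.ne_zero
  rw [sum_eq_sum_fixed p (rot (p ^ n) : Equiv.Perm (Fin (p ^ n) → K)) n (rot_pow _)]
  · symm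
    have hprod : ∀ g : K, wprod (fun _ : Fin (p ^ n) => g) = g ^ p ^ n := by
      intro g
      simp [wprod]
    refine Finset.sum_bij (fun g _ => fun _ => g) ?_ ?_ ?_ ?_
    · intro g _
      simp only [mem_filter, mem_univ, true_and]
      rfl
    · intro g _ g' _ h
      exact congrFun h ⟨0, Nat.pos_of_ne_zero hN⟩
    · intro w hw
      simp only [mem_filter, mem_univ, true_and] at hw
      obtain ⟨m, hm⟩ : ∃ m, p ^ n = m + 1 := ⟨p ^ n - 1, by omega⟩
      have h2 : ∃ g, w = fun _ => g := by
        revert w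
        rw [hm]
        intro w h1
        exact ⟨w 0, funext fun i => const_of_rot w h1 i⟩
      obtain ⟨g, rfl⟩ := h2
      exact ⟨g, mem_univ _, rfl⟩
    · intro g _
      rw [hprod]
      simp
  · intro w
    congr 1
    · exact Equiv.prod_comp (finRotate (p ^ n)) (fun i => a (w i))
    · obtain ⟨m, hm⟩ : ∃ m, p ^ n = m + 1 := ⟨p ^ n - 1, by omega⟩
      revert w
      rw [hm]
      intro w
      rw [wprod_rot_conj]
      have := hf (w 0)⁻¹ (wprod w)
      rwa [inv_inv] at this

/-- `f (x ^ p ^ n) = ∑ g, (x g) ^ p ^ n * f (g ^ p ^ n)` for class functions `f`. -/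
theorem lin_pow (p : ℕ) [hp : Fact p.Prime] [CharP R p] (n : ℕ) (f : K → R)
    (hf : ∀ g x : K, f (g * x * g⁻¹) = f x) (x : MonoidAlgebra R K) :
    lin f (x ^ p ^ n) = ∑ g, x.coeff g ^ p ^ n * f (g ^ p ^ n) := by
  classical
  rw [← sum_words_cf p n _ f hf, lin, pow_eq_sum_words]
  simp only [MonoidAlgebra.coeff_sum, Finsupp.finsetSum_apply, MonoidAlgebra.coeff_single,
    Finsupp.single_apply, Finset.sum_mul, ite_mul, zero_mul]
  rw [Finset.sum_comm]
  refine Finset.sum_congr rfl fun w _ => ?_
  rw [Finset.sum_ite_eq univ (wprod w)]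
  simp

end P179C
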