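import Vale.Agent.P179.H143.CDefs
import Vale.Agent.P179.H166.TheoremC

/-!
# The final form of Theorem C
-/

namespace P179B

open Subgroup P179H524

section

variable {k : Type*} [Field k] {G : Type*} [Group G] [Finite G]

omit [Finite G] in
theorem hasScalar_iff (a : IrrRep k G) (z : MonoidAlgebra k G) (c : k) :
    HasScalar a z c ↔ a.1.2.asAlgebraHom z = c • 1 := by
  unfold HasScalar ActsBy
  constructor
  · intro h
    apply LinearMap.ext
    intro v
    rw [h v]
    rfl
  · intro h v
    rw [h]
    rfl

open Classical in
theorem dite_aux {K : Type*} [Zero K] (P Q : K → Prop) (h : P = Q) :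
    (if h : ∃ l, P l then h.choose else 0) = if h : ∃ l, Q l then h.choose else 0 := by
  subst h
  rfl

theorem quot_aux {X : Type*} (r : X → X → Prop) (P Q : X → Prop) (h : P = Q) :
    Nat.card (Quot fun a b : {a : X // P a} => r a.1 b.1) =
      Nat.card (Quot fun a b : {a : X // Q a} => r a.1 b.1) := by
  subst h
  rfl

theorem inBlock_eq (a : IrrRep k G) (B : MonoidAlgebra k G) : InBlock a B = P179C.InBlock a B := by
  apply propext
  unfold InBlock P179C.InBlock
  rw [hasScalar_iff, one_smul]

theorem centralChar_eq (B z : MonoidAlgebra k G) : centralChar B z = P179C.centralChar B z := by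
  unfold centralChar P179C.centralChar
  have h : HasScalarOn B z =
      fun l : k => ∀ a : IrrRep k G, P179C.InBlock a B → a.1.2.asAlgebraHom z = l • 1 := by
    funext l
    apply propext
    unfold HasScalarOn
    refine forall_congr' fun a => ?_
    rw [inBlock_eq, hasScalar_iff]
  exact dite_aux _ _ h

theorem numSimpleIn_eq (B : MonoidAlgebra k G) : numSimpleIn B = P179C.numSimpleIn B :=
  quot_aux IrrRep.Iso _ _ (funext fun a => inBlock_eq a B)

theorem weightInBlock_eq {p : ℕ} (red : integralClosure ℤ ℂ →+* k) (w : Weight p G)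
    (B : MonoidAlgebra k G) : WeightInBlock red w B = P179C.WeightInBlock red w B := by
  unfold WeightInBlock P179C.WeightInBlock
  unfold CharInBlock InducesTo P179C.CharInBlock P179C.InducesTo
  simp only [centralChar_eq]
  rfl

theorem numWeightsIn_eq (p : ℕ) (red : integralClosure ℤ ℂ →+* k) (B : MonoidAlgebra k G) :
    numWeightsIn p red B = P179C.numWeightsIn p red B :=
  quot_aux Weight.Conj _ _ (funext fun w => weightInBlock_eq red w B)

end

universe u

/-- **Theorem C.** -/
theorem theoremC (p : ℕ) [hp : Fact p.Prime] {k : Type u} [Field k] [IsAlgClosed k] [CharP k p]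
    (red : integralClosure ℤ ℂ →+* k) {G : Type} [Group G] [Finite G]
    (B : MonoidAlgebra k G) (hB : IsBlock B) (D : Subgroup G)
    (hD : IsDefectGroup B D) (hab : ∀ a ∈ D, ∀ b ∈ D, a * b = b * a) :
    numSimpleIn B ≡ numWeightsIn p red B [MOD p] := by
  rw [numSimpleIn_eq, numWeightsIn_eq]
  exact P179C.theoremC p red B hB D hD hab

end P179B
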