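import Vale.Agent.P179.H524.Defs

/-!
# Blocks, defect groups, Brauer induction, weights in a block

The objects of the blockwise Alperin weight conjecture. `k` is a field (algebraically closed of
characteristic `p`), `red` is a ring homomorphism from the ring of algebraic integers to `k` (the
splitting `p`-modular system).
-/

namespace P179B

open Subgroup P179H524

section Blocks

variable {k : Type*} [Field k] {G : Type*} [Group G]

/-- A block of `kG`: a primitive idempotent of the centre of `kG`. -/
def IsBlock (B : MonoidAlgebra k G) : Prop :=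
  B ∈ Subalgebra.center k (MonoidAlgebra k G) ∧ B * B = B ∧ B ≠ 0 ∧
    ∀ e ∈ Subalgebra.center k (MonoidAlgebra k G), e * e = e → e * B = e → e = 0 ∨ e = B

/-- `z ∈ kG` acts on the module `V` of the representation `ρ` by the scalar `c`. -/
def ActsBy {V : Type*} [AddCommGroup V] [Module k V] (ρ : Representation k G V)
    (z : MonoidAlgebra k G) (c : k) : Prop := ∀ v : V, ρ.asAlgebraHom z v = c • v

/-- `z ∈ kG` acts on the simple `kG`-module `a` by the scalar `c`. -/
def HasScalar (a : IrrRep k G) (z : MonoidAlgebra k G) (c : k) : Prop := ActsBy a.1.2 z c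

/-- The simple `kG`-module `a` belongs to `B`: the idempotent `B` acts on it as the identity. -/
def InBlock (a : IrrRep k G) (B : MonoidAlgebra k G) : Prop := HasScalar a B 1

/-- `l(B)`: the number of isomorphism classes of simple `kG`-modules in `B`. -/
noncomputable def numSimpleIn (B : MonoidAlgebra k G) : ℕ :=
  Nat.card (Quot fun a b : {a : IrrRep k G // InBlock a B} => IrrRep.Iso a.1 b.1)

/-- `z` acts on all simple `kG`-modules in `B` by the scalar `l`. -/
def HasScalarOn (B z : MonoidAlgebra k G) (l : k) : Prop :=
  ∀ a : IrrRep k G, InBlock a B → HasScalar a z l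

open Classical in
/-- The central character `λ_B` of `B`: `λ_B(z)` is the scalar by which the central element `z`
acts on the simple modules in `B`. -/
noncomputable def centralChar (B z : MonoidAlgebra k G) : k :=
  if h : ∃ l : k, HasScalarOn B z l then h.choose else 0

/-- Conjugation of the group algebra by a group element. -/
noncomputable def conjBy (g : G) (x : MonoidAlgebra k G) : MonoidAlgebra k G :=
  MonoidAlgebra.single g 1 * x * MonoidAlgebra.single g⁻¹ 1

/-- `z` is a relative trace `Tr_D^G(a)`, `a ∈ (kG)^D`. -/
def IsRelTrace (z : MonoidAlgebra k G) (D : Subgroup G) : Prop :=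
  ∃ a : MonoidAlgebra k G, (∀ d ∈ D, conjBy d a = a) ∧ z = ∑ᶠ c : G ⧸ D, conjBy c.out a

/-- `D` is a defect group of `B`: a subgroup minimal subject to `B ∈ Tr_D^G((kG)^D)`. -/
def IsDefectGroup (B : MonoidAlgebra k G) (D : Subgroup G) : Prop := Minimal (IsRelTrace B) D

/-- The truncation `s_H : kG → kH`, `∑ a_g g ↦ ∑_{h ∈ H} a_h h`. -/
noncomputable def trunc (H : Subgroup G) (z : MonoidAlgebra k G) : MonoidAlgebra k H :=
  ∑ᶠ h : H, MonoidAlgebra.single h (z.coeff h)

/-- Brauer induction: `b^G = B` for a block `b` of the subgroup `H`, that is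
`λ_b ∘ s_H = λ_B` on the centre of `kG`. -/
def InducesTo {H : Subgroup G} (b : MonoidAlgebra k H) (B : MonoidAlgebra k G) : Prop :=
  ∀ z ∈ Subalgebra.center k (MonoidAlgebra k G), centralChar b (trunc H z) = centralChar B z

/-- The class sum of `g`. -/
noncomputable def classSum (k : Type*) [Field k] (g : G) : MonoidAlgebra k G :=
  ∑ᶠ x : {x : G // IsConj g x}, MonoidAlgebra.single x.1 1

open Classical in
/-- The value of `red` at a complex number (`0` if it is not an algebraic integer). -/
noncomputable def redC (red : integralClosure ℤ ℂ →+* k) (x : ℂ) : k :=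
  if h : x ∈ integralClosure ℤ ℂ then red ⟨x, h⟩ else 0

/-- The ordinary irreducible character `χ` belongs to the block `b`: the central character of `b`
is the reduction of the central character `h^H ↦ |h^H| χ(h) / χ(1)` of `χ`. -/
def CharInBlock (red : integralClosure ℤ ℂ →+* k) (χ : G → ℂ) (b : MonoidAlgebra k G) : Prop :=
  ∀ h : G, centralChar b (classSum k h) = redC red (Nat.card {x : G // IsConj h x} * χ h / χ 1)

end Blocks

section Weights

variable {p : ℕ} {k : Type*} [Field k] {G : Type*} [Group G]

/-- The inflation of `φ` to `N_G(Q)`. -/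
def infl (w : Weight p G) : normalizer (w.Q : Set G) → ℂ :=
  fun n => w.φ (QuotientGroup.mk n)

/-- The weight `(Q, φ)` belongs to `B`: `b^G = B` for the block `b` of `N_G(Q)` containing the
inflation of `φ`. -/
def WeightInBlock (red : integralClosure ℤ ℂ →+* k) (w : Weight p G)
    (B : MonoidAlgebra k G) : Prop :=
  ∃ b : MonoidAlgebra k (normalizer (w.Q : Set G)),
    IsBlock b ∧ CharInBlock red (infl w) b ∧ InducesTo b B

/-- `|W_p(B)|`: the number of `G`-classes of `p`-weights belonging to `B`. -/
noncomputable def numWeightsIn (p : ℕ) (red : integralClosure ℤ ℂ →+* k)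
    (B : MonoidAlgebra k G) : ℕ :=
  Nat.card (Quot fun a b : {w : Weight p G // WeightInBlock red w B} => Weight.Conj a.1 b.1)

end Weights

end P179B
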