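import Vale.Agent.P179.H524.Basic
import Vale.Agent.P179.H905.Chain

/-!
# Functionals on integer valued class functions (stage 2, Theorem C)
-/

namespace P179C

open Subgroup P179H524 P179A

/-- Class functions. -/
def IsCF {K R : Type*} [Group K] (z : K → R) : Prop := ∀ g x : K, z (g * x * g⁻¹) = z x

/-- Restriction to a subgroup (the truncation `s_H`). -/
def res {G R : Type*} [Group G] (H : Subgroup G) (z : G → R) : H → R := fun h => z h

/-- Sum over the fibres of a homomorphism. -/
noncomputable def push {H K : Type*} [Group H] [Group K] (π : H →* K) (z : H → ℤ) : K → ℤ :=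
  fun c => ∑ᶠ h : {h : H // π h = c}, z h.1

/-- An exponent `e` with `e = 0` mod the `p`-part of `n` and `e = 1` mod the `p'`-part of `n`. -/
noncomputable def prExp (p n : ℕ) : ℕ := by
  classical
  exact if h : ∃ e : ℕ, ordProj[p] n ∣ e ∧ e ≡ 1 [MOD ordCompl[p] n] then h.choose else 1

/-- The `p`-regular part of `y`. -/
noncomputable def pr (p : ℕ) {G : Type*} [Group G] (y : G) : G := y ^ prExp p (orderOf y)

/-- `|K|` times the trace of `z` on the class functions of `K`:  `∑_{x,y} z [x,y]`. -/
noncomputable def nTr {K : Type*} [Group K] (z : K → ℤ) : ℤ :=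
  ∑ᶠ t : K × K, z (t.1 * t.2 * t.1⁻¹ * t.2⁻¹)

/-- `|K|` times the trace of `z` on the class functions of `K` which depend only on the
`p`-regular part:  `∑_{x,y} z (x y x⁻¹ (y_{p'})⁻¹)`. -/
noncomputable def nL (p : ℕ) {K : Type*} [Group K] (z : K → ℤ) : ℤ :=
  ∑ᶠ t : K × K, z (t.1 * t.2 * t.1⁻¹ * (pr p t.2)⁻¹)

/-- The value at `z` of the central character of `χ`. -/
noncomputable def om {K : Type*} [Group K] (χ : K → ℂ) (z : K → ℤ) : ℂ :=
  (∑ᶠ g : K, (z g : ℂ) * χ g) / χ 1

/-- The sum over the characters of defect zero of their central characters. -/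
noncomputable def dz (p : ℕ) {K : Type*} [Group K] (z : K → ℤ) : ℂ :=
  ∑ᶠ χ : {χ : K → ℂ // IsDefectZeroChar p χ}, om χ.1 z

/-- The restriction of `z` to `N_G(Q)`, pushed forward to `N_G(Q)/Q`. -/
noncomputable def resNQ {G : Type*} [Group G] (Q : Subgroup G) (z : G → ℤ) : NQ Q → ℤ :=
  push (QuotientGroup.mk' (Q.subgroupOf (normalizer (Q : Set G))))
    (res (normalizer (Q : Set G)) z)

/-- `|G|` times the sum over the classes of weights `(Q, φ)` of the value at `z|_{N_G(Q)}` of the
central character of (the inflation of) `φ`. -/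
noncomputable def nW (p : ℕ) {G : Type*} [Group G] (z : G → ℤ) : ℂ :=
  ∑ᶠ Q : {Q : Subgroup G // IsPGroup p Q},
    (Nat.card (normalizer (Q.1 : Set G)) : ℂ) * dz p (resNQ Q.1 z)

/-- If `p` does not divide `z g`, the `p`-subgroups of `C_G(g)` are commutative. -/
def Zab (p : ℕ) {G : Type*} [Group G] (z : G → ℤ) : Prop :=
  ∀ g : G, ¬ (p : ℤ) ∣ z g → ∀ P : Subgroup G, IsPGroup p P → P ≤ centralizer {g} →
    ∀ a ∈ P, ∀ b ∈ P, a * b = b * a

/-- `a ≡ b` modulo `n 𝔪`, `𝔪` the maximal ideal of `O`. -/
def Cong (O : ValuationSubring ℂ) (n : ℕ) (a b : ℂ) : Prop := O.valuation ((a - b) / n) < 1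

/-- The indicator function of a conjugacy class. -/
noncomputable def ind {G : Type*} [Group G] (C : ConjClasses G) : G → ℤ := by
  classical
  exact fun g => if ConjClasses.mk g = C then 1 else 0

end P179C
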