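import Vale.Agent.P179.H143.Pr

/-!
# Counting with conjugacy classes; `nTr` and `nL` as sums over classes
-/

namespace P179C

open Subgroup Finset

open scoped Classical

variable {K : Type*} [Group K]

/-- number of `x` with `x a x⁻¹ = b` -/
theorem card_conj [Fintype K] (a b : K) :
    #{x : K | x * a * x⁻¹ = b} = if IsConj a b then Nat.card (centralizer {a} : Subgroup K) else 0 := by
  split_ifs with h
  · obtain ⟨t, ht⟩ := isConj_iff.1 h
    rw [Nat.card_eq_fintype_card, ← Fintype.card_coe]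
    refine Fintype.card_congr
      { toFun := fun x => ⟨t⁻¹ * x.1, ?_⟩
        invFun := fun c => ⟨t * c.1, ?_⟩
        left_inv := fun x => by apply Subtype.ext; simp
        right_inv := fun c => by apply Subtype.ext; simp }
    · have hx := (mem_filter.1 x.2).2
      rw [mem_centralizer_singleton_iff]
      have h1 : (x : K) * a * (x : K)⁻¹ = t * a * t⁻¹ := by rw [hx, ht]
      have h2 : (x : K) * a = t * a * t⁻¹ * x := by rw [← h1]; group
      calc t⁻¹ * (x : K) * a = t⁻¹ * ((x : K) * a) := by group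
        _ = a * (t⁻¹ * x) := by rw [h2]; group
    · have hc := mem_centralizer_singleton_iff.1 c.2
      rw [mem_filter]
      refine ⟨mem_univ _, ?_⟩
      calc t * (c : K) * a * (t * (c : K))⁻¹ = t * ((c : K) * a) * (c : K)⁻¹ * t⁻¹ := by group
        _ = t * a * t⁻¹ := by rw [hc]; group
        _ = b := ht
  · rw [card_eq_zero, filter_eq_empty_iff]
    intro x _ hx
    exact h (isConj_iff.2 ⟨x, hx⟩)

/-- (L1) -/
theorem sum_conj [Fintype K] {R : Type*} [CommRing R] (a : K) (φ : K → R) :
    ∑ x : K, φ (x * a * x⁻¹) =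
      (Nat.card (centralizer {a} : Subgroup K) : R) * ∑ b : K, if IsConj a b then φ b else 0 := by
  rw [← Finset.sum_fiberwise (s := univ) (g := fun x : K => x * a * x⁻¹) (f := fun x => φ (x * a * x⁻¹)),
    Finset.mul_sum]
  refine Finset.sum_congr rfl fun b _ => ?_
  rw [Finset.sum_congr rfl (g := fun _ => φ b) (fun x hx => by rw [(mem_filter.1 hx).2]),
    sum_const, nsmul_eq_mul, card_conj]
  split_ifs <;> simp

/-- orbit-stabiliser -/
theorem card_class_mul [Fintype K] (a : K) :
    Nat.card (centralizer {a} : Subgroup K) * #{b : K | IsConj a b} = Nat.card K := by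
  have h := sum_conj (R := ℤ) a (fun _ => 1)
  simp only [sum_const, card_univ, nsmul_eq_mul, mul_one] at h
  rw [← Finset.sum_filter, sum_const, nsmul_eq_mul, mul_one] at h
  rw [Nat.card_eq_fintype_card (α := K)]
  exact_mod_cast h.symm

theorem card_centralizer_conj [Finite K] (g a : K) :
    Nat.card (centralizer {g * a * g⁻¹} : Subgroup K) = Nat.card (centralizer {a} : Subgroup K) := by
  refine Nat.card_congr
    { toFun := fun x => ⟨g⁻¹ * x.1 * g, ?_⟩
      invFun := fun x => ⟨g * x.1 * g⁻¹, ?_⟩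
      left_inv := fun x => by apply Subtype.ext; simp [mul_assoc]
      right_inv := fun x => by apply Subtype.ext; simp [mul_assoc] }
  · have hx := mem_centralizer_singleton_iff.1 x.2
    rw [mem_centralizer_singleton_iff]
    have h1 : g⁻¹ * (x : K) * g * a = g⁻¹ * ((x : K) * (g * a * g⁻¹)) * g := by group
    rw [h1, hx]
    group
  · have hx := mem_centralizer_singleton_iff.1 x.2
    rw [mem_centralizer_singleton_iff]
    have h1 : g * (x : K) * g⁻¹ * (g * a * g⁻¹) = g * ((x : K) * a) * g⁻¹ := by group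
    rw [h1, hx]
    group

theorem IsCF.isConj {R : Type*} {q : K → R} (hq : IsCF q) {a b : K} (h : IsConj a b) :
    q a = q b := by
  obtain ⟨t, rfl⟩ := isConj_iff.1 h
  exact (hq t a).symm

/-- (L2) sums of class functions weighted by the orders of the centralisers. -/
theorem sum_card_centralizer [Fintype K] (q : K → ℤ) (hq : IsCF q) :
    ∑ y : K, (Nat.card (centralizer {y} : Subgroup K) : ℤ) * q y =
      Nat.card K * ∑ c : ConjClasses K, q c.out := by
  rw [← Finset.sum_fiberwise (s := univ) (g := fun x : K => ConjClasses.mk x), Finset.mul_sum]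
  refine Finset.sum_congr rfl fun c _ => ?_
  have hc : ∀ y ∈ univ.filter (fun x : K => ConjClasses.mk x = c), IsConj c.out y := by
    intro y hy
    rw [← ConjClasses.mk_eq_mk_iff_isConj, (mem_filter.1 hy).2]
    exact Quotient.out_eq c
  rw [Finset.sum_congr rfl (g := fun _ => (Nat.card (centralizer {c.out} : Subgroup K) : ℤ) * q c.out)
    (fun y hy => by
      obtain ⟨t, rfl⟩ := isConj_iff.1 (hc y hy)
      rw [card_centralizer_conj, hq]), sum_const, nsmul_eq_mul]
  have h1 : univ.filter (fun x : K => ConjClasses.mk x = c) = univ.filter (fun b : K => IsConj c.out b) := by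
    ext y
    simp only [mem_filter, mem_univ, true_and]
    constructor
    · intro hy; exact hc y (by simp [hy])
    · intro hy
      rw [← ConjClasses.mk_eq_mk_iff_isConj.2 hy]
      exact Quotient.out_eq c
  rw [h1]
  have h2 := card_class_mul c.out
  have h3 : (Nat.card K : ℤ) = (Nat.card (centralizer {c.out} : Subgroup K) : ℤ) *
      (#{b : K | IsConj c.out b} : ℤ) := by exact_mod_cast h2.symm
  rw [h3]
  ring

/-- A class function with values divisible by `n` gives a sum divisible by `|K| n`. -/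
theorem dvd_sum_card_centralizer [Fintype K] (q : K → ℤ) (hq : IsCF q) (n : ℤ)
    (hn : ∀ y, n ∣ q y) :
    (Nat.card K : ℤ) * n ∣ ∑ y : K, (Nat.card (centralizer {y} : Subgroup K) : ℤ) * q y := by
  rw [sum_card_centralizer q hq]
  exact mul_dvd_mul_left _ (Finset.dvd_sum fun c _ => hn _)

/-- The coefficient function of `nTr`. -/
noncomputable def qTr [Fintype K] (z : K → ℤ) (y : K) : ℤ :=
  ∑ g : K, if IsConj y (g * y) then z g else 0

/-- The coefficient function of `nL`. -/
noncomputable def qL (p : ℕ) [Fintype K] (z : K → ℤ) (h : K) : ℤ :=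
  ∑ g : K, if IsConj h (pr p (g * h)) then z g else 0

theorem qTr_isCF [Fintype K] (z : K → ℤ) (hz : IsCF z) : IsCF (qTr z) := by
  intro t y
  unfold qTr
  rw [← Equiv.sum_comp (MulAut.conj t).toEquiv]
  refine Finset.sum_congr rfl fun g _ => ?_
  have h1 : (MulAut.conj t).toEquiv g = t * g * t⁻¹ := rfl
  rw [h1, hz]
  have h2 : t * g * t⁻¹ * (t * y * t⁻¹) = t * (g * y) * t⁻¹ := by group
  rw [h2]
  have h3 : IsConj (t * y * t⁻¹) (t * (g * y) * t⁻¹) ↔ IsConj y (g * y) := by
    have h4 : IsConj y (t * y * t⁻¹) := isConj_iff.2 ⟨t, rfl⟩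
    have h5 : IsConj (g * y) (t * (g * y) * t⁻¹) := isConj_iff.2 ⟨t, rfl⟩
    exact ⟨fun h => (h4.trans h).trans h5.symm, fun h => (h4.symm.trans h).trans h5⟩
  simp only [h3]

theorem qL_isCF (p : ℕ) [Fintype K] (z : K → ℤ) (hz : IsCF z) : IsCF (qL p z) := by
  intro t y
  unfold qL
  rw [← Equiv.sum_comp (MulAut.conj t).toEquiv]
  refine Finset.sum_congr rfl fun g _ => ?_
  have h1 : (MulAut.conj t).toEquiv g = t * g * t⁻¹ := rfl
  rw [h1, hz]
  have h2 : t * g * t⁻¹ * (t * y * t⁻¹) = t * (g * y) * t⁻¹ := by group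
  rw [h2, pr_conj]
  have h3 : IsConj (t * y * t⁻¹) (t * (pr p (g * y)) * t⁻¹) ↔ IsConj y (pr p (g * y)) := by
    have h4 : IsConj y (t * y * t⁻¹) := isConj_iff.2 ⟨t, rfl⟩
    have h5 : IsConj (pr p (g * y)) (t * (pr p (g * y)) * t⁻¹) := isConj_iff.2 ⟨t, rfl⟩
    exact ⟨fun h => (h4.trans h).trans h5.symm, fun h => (h4.symm.trans h).trans h5⟩
  simp only [h3]

theorem nTr_eq [Fintype K] (z : K → ℤ) :
    nTr z = ∑ y : K, (Nat.card (centralizer {y} : Subgroup K) : ℤ) * qTr z y := by
  unfold nTr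
  rw [finsum_eq_sum_of_fintype, Fintype.sum_prod_type_right]
  refine Finset.sum_congr rfl fun y _ => ?_
  have h := sum_conj (R := ℤ) y (fun b => z (b * y⁻¹))
  refine h.trans ?_
  congr 1
  unfold qTr
  rw [← Equiv.sum_comp (Equiv.mulRight y)]
  refine Finset.sum_congr rfl fun g _ => ?_
  simp

theorem nL_eq (p : ℕ) [Fintype K] (z : K → ℤ) :
    nL p z = ∑ h : K, (Nat.card (centralizer {h} : Subgroup K) : ℤ) * qL p z h := by
  unfold nL
  rw [finsum_eq_sum_of_fintype, Fintype.sum_prod_type]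
  have h1 : ∀ x : K, ∑ y : K, z (x * y * x⁻¹ * (pr p y)⁻¹) =
      ∑ w : K, z (w * (x⁻¹ * pr p w * x)⁻¹) := by
    intro x
    rw [← Equiv.sum_comp (MulAut.conj x).toEquiv (fun w => z (w * (x⁻¹ * pr p w * x)⁻¹))]
    refine Finset.sum_congr rfl fun y _ => ?_
    have h2 : (MulAut.conj x).toEquiv y = x * y * x⁻¹ := rfl
    rw [h2, pr_conj]
    congr 2
    group
  simp only [h1]
  rw [Finset.sum_comm]
  have h3 : ∀ w : K, ∑ x : K, z (w * (x⁻¹ * pr p w * x)⁻¹) =
      ∑ h : K, (Nat.card (centralizer {h} : Subgroup K) : ℤ) *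
        if IsConj h (pr p w) then z (w * h⁻¹) else 0 := by
    intro w
    rw [← Equiv.sum_comp (Equiv.inv K)]
    have h4 := sum_conj (R := ℤ) (pr p w) (fun b => z (w * b⁻¹))
    have h5 : ∑ x : K, z (w * ((Equiv.inv K x)⁻¹ * pr p w * Equiv.inv K x)⁻¹) =
        ∑ x : K, z (w * (x * pr p w * x⁻¹)⁻¹) := by
      refine Finset.sum_congr rfl fun x _ => ?_
      simp
    rw [h5, h4, Finset.mul_sum]
    refine Finset.sum_congr rfl fun h _ => ?_
    by_cases hh : IsConj (pr p w) h
    · rw [if_pos hh, if_pos hh.symm]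
      obtain ⟨t, rfl⟩ := isConj_iff.1 hh
      rw [card_centralizer_conj]
    · rw [if_neg hh, if_neg (fun h' => hh h'.symm), mul_zero, mul_zero]
  simp only [h3]
  rw [Finset.sum_comm]
  refine Finset.sum_congr rfl fun h _ => ?_
  rw [← Finset.mul_sum]
  congr 1
  unfold qL
  rw [← Equiv.sum_comp (Equiv.mulRight h)]
  refine Finset.sum_congr rfl fun g _ => ?_
  simp

/-- `|K|` divides `nTr z`. -/
theorem nTr_eq_card_mul [Fintype K] (z : K → ℤ) (hz : IsCF z) :
    nTr z = Nat.card K * ∑ c : ConjClasses K, qTr z c.out := by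
  rw [nTr_eq, sum_card_centralizer _ (qTr_isCF z hz)]

/-- `|K|` divides `nL z`. -/
theorem nL_eq_card_mul (p : ℕ) [Fintype K] (z : K → ℤ) (hz : IsCF z) :
    nL p z = Nat.card K * ∑ c : ConjClasses K, qL p z c.out := by
  rw [nL_eq, sum_card_centralizer _ (qL_isCF p z hz)]

end P179C
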