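import Vale.Agent.P179.H143.Dn

/-!
# (CONG) the congruence for the generalised decomposition numbers
-/

namespace P179P

open P179H524 P179C P179A Finset

open P179X (IrrB SameSec pp)

open scoped Classical

section SecPred

variable {k : Type*} [Field k] (p : ℕ) [hp : Fact p.Prime] [CharP k p] (red : AA →+* k)

/-- **(N2)** orthogonality on `p`-sections, for a set of characters separated from its
complement by central characters. -/
theorem sec_orth_pred {G : Type*} [Group G] [Fintype G] (Pr : Irr G → Prop)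
    (hsep : ∀ χ ψ : Irr G, Pr χ → ¬ Pr ψ →
      ∃ (z : G → ℤ) (hz : IsCF z), red (omA χ z hz) ≠ red (omA ψ z hz)) (x y : G)
    (hxy : ¬ SameSec p x y) : ∑ χ : Irr G, (if Pr χ then χ.1 x * χ.1 y⁻¹ else 0) = 0 := by
  set S : Set G := {t | SameSec p x t} with hS
  have hS1 : ∀ a b : G, pp p a = pp p b → (a ∈ S ↔ b ∈ S) := by
    intro a b h
    simp only [hS, Set.mem_ofPred_eq, SameSec, h]
  have hS2 : ∀ a t : G, t * a * t⁻¹ ∈ S ↔ a ∈ S := by
    intro a t
    simp only [hS, Set.mem_ofPred_eq, SameSec, pp_conj]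
    have h6 : IsConj (pp p a) (t * pp p a * t⁻¹) := isConj_iff.2 ⟨t, rfl⟩
    exact ⟨fun h => h.trans h6.symm, fun h => h.trans h6⟩
  -- the two parts of the kernel
  set K : G → ℂ := fun t => ∑ χ : Irr G, if Pr χ then χ.1 x * χ.1 t⁻¹ else 0
    with hK
  set K' : G → ℂ := fun t => ∑ χ : Irr G, if Pr χ then 0 else χ.1 x * χ.1 t⁻¹
    with hK'
  have hsum : ∀ t : G, t ∉ S → K t + K' t = 0 := by
    intro t ht
    have h1 : K t + K' t = ∑ χ : Irr G, χ.1 x * χ.1 t⁻¹ := by
      simp only [hK, hK']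
      rw [← Finset.sum_add_distrib]
      exact Finset.sum_congr rfl fun χ _ => by split_ifs <;> simp
    rw [h1, col_orth]
    have h2 : IsEmpty {g : G // g * x * g⁻¹ = t} := by
      refine ⟨fun g => ht ?_⟩
      have h3 : x ∈ S := IsConj.refl _
      rw [← g.2]
      exact (hS2 x g.1).2 h3
    rw [Nat.card_of_isEmpty, Nat.cast_zero]
  have hconj : ∀ t : G, (starRingEnd ℂ) (K t) =
      ∑ χ : Irr G, if Pr χ then χ.1 x⁻¹ * χ.1 t else 0 := by
    intro t
    simp only [hK, map_sum]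
    refine Finset.sum_congr rfl fun χ _ => ?_
    split_ifs
    · rw [map_mul, ← χ.inv_eq_conj, ← χ.inv_eq_conj, inv_inv]
    · exact map_zero _
  have hzero : ∀ χ ψ : Irr G, Pr χ → ¬ Pr ψ →
      ∑ t : G, (if t ∈ S then 0 else χ.1 t * ψ.1 t⁻¹) = 0 := by
    intro χ ψ hχ hψ
    obtain ⟨z, hz, hne⟩ := hsep χ ψ hχ hψ
    have h1 := sec_orth_two p red ψ χ z hz hne.symm S hS1 hS2
    have h2 := row_orth χ ψ
    have hne' : χ ≠ ψ := by rintro rfl; exact hψ hχ
    rw [if_neg hne'] at h2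
    have h3 : ∑ t : G, (if t ∈ S then χ.1 t * ψ.1 t⁻¹ else 0) +
        ∑ t : G, (if t ∈ S then 0 else χ.1 t * ψ.1 t⁻¹) = ∑ g : G, χ.1 g * ψ.1 g⁻¹ := by
      rw [← Finset.sum_add_distrib]
      exact Finset.sum_congr rfl fun t _ => by split_ifs <;> simp
    rw [h1, h2, zero_add] at h3
    exact h3
  have hnorm : ∑ t : G, (if t ∈ S then 0 else K t * (starRingEnd ℂ) (K t)) = 0 := by
    have h1 : ∀ t : G, (if t ∈ S then 0 else K t * (starRingEnd ℂ) (K t)) =
        -∑ ψ : Irr G, ∑ χ : Irr G, (if Pr ψ then 0 else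
          if Pr χ then
            ψ.1 x * χ.1 x⁻¹ * (if t ∈ S then 0 else χ.1 t * ψ.1 t⁻¹) else 0) := by
      intro t
      by_cases ht : t ∈ S
      · rw [if_pos ht]
        symm
        rw [neg_eq_zero]
        refine Finset.sum_eq_zero fun ψ _ => Finset.sum_eq_zero fun χ _ => ?_
        rw [if_pos ht, mul_zero]
        split_ifs <;> rfl
      · rw [if_neg ht, hconj]
        have h2 : K t = - K' t := eq_neg_of_add_eq_zero_left (hsum t ht)
        rw [h2, neg_mul, neg_inj]
        simp only [hK']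
        rw [Finset.sum_mul_sum]
        refine Finset.sum_congr rfl fun ψ _ => Finset.sum_congr rfl fun χ _ => ?_
        rw [if_neg ht]
        split_ifs <;> ring
    rw [Finset.sum_congr rfl fun t _ => h1 t, Finset.sum_neg_distrib, neg_eq_zero,
      Finset.sum_comm]
    refine Finset.sum_eq_zero fun ψ _ => ?_
    rw [Finset.sum_comm]
    refine Finset.sum_eq_zero fun χ _ => ?_
    by_cases hψ : Pr ψ
    · simp only [if_pos hψ, Finset.sum_const_zero]
    · by_cases hχ : Pr χ
      · simp only [if_neg hψ, if_pos hχ]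
        rw [← Finset.mul_sum, hzero χ ψ hχ hψ, mul_zero]
      · simp only [if_neg hψ, if_neg hχ, Finset.sum_const_zero]
  have hKy : K y = 0 := by
    have h1 : ∑ t : G, (if t ∈ S then (0 : ℝ) else ‖K t‖ ^ 2) = 0 := by
      have h2 : ((∑ t : G, (if t ∈ S then (0 : ℝ) else ‖K t‖ ^ 2) : ℝ) : ℂ) = 0 := by
        rw [← hnorm]
        push_cast
        refine Finset.sum_congr rfl fun t _ => ?_
        split_ifs
        · simp
        · rw [Complex.mul_conj, Complex.normSq_eq_norm_sq]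
      exact_mod_cast h2
    rw [Finset.sum_eq_zero_iff_of_nonneg (fun t _ => by split_ifs <;> positivity)] at h1
    have h2 := h1 y (mem_univ y)
    rw [if_neg (show y ∉ S from hxy)] at h2
    exact norm_eq_zero.1 (by simpa using h2)
  exact hKy

end SecPred

end P179P

namespace P179Y

open P179H524 P179C P179A Finset P179P

open P179X (pp SameSec)

open scoped Classical

section KSec

variable {k : Type*} [Field k] (p : ℕ) [hp : Fact p.Prime] [CharP k p]
  (red : integralClosure ℤ ℂ →+* k) {G : Type*} [Group G] [Fintype G]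

/-- **(N2)** for functionals -/
theorem KK_sec (l : (G → k) → k) (x y : G) (hxy : ¬ SameSec p x y) : KK red l x y = 0 := by
  refine sec_orth_pred p red (fun χ => InL red l χ.1) ?_ x y hxy
  intro χ ψ hχ hψ
  have h2 : ∃ z : G → k, lam red χ.1 z ≠ lam red ψ.1 z := by
    by_contra hcon
    push Not at hcon
    exact hψ fun z hz => (hcon z).symm.trans (hχ z hz)
  obtain ⟨z, hne⟩ := h2
  exact sep_self red χ ψ hne

end KSec

/-! ### The idempotent of a block with `ND` -/

section Idem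

variable {k : Type*} [Field k] (p : ℕ) [hp : Fact p.Prime] [CharP k p]
  (red : integralClosure ℤ ℂ →+* k) {K : Type*} [Group K] [Fintype K]

/-- `KK l 1 x` for a block with `ND` -/
theorem KK_one_eq {l : (K → k) → k} {q : ℕ} {φ : K → ℂ} (hφ : ND red p l q φ) (x : K) :
    KK red l 1 x = if ¬ p ∣ orderOf x then q * (φ 1 * φ x⁻¹) else 0 := by
  by_cases hx : ¬ p ∣ orderOf x
  · rw [if_pos hx]
    have hx' : ¬ p ∣ orderOf x⁻¹ := by rwa [orderOf_inv]
    have h1 : ¬ p ∣ orderOf (1 : K) := by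
      rw [orderOf_one]; exact hp.out.one_lt.ne' ∘ Nat.dvd_one.1
    rw [KK]
    have h2 : ∀ χ : Irr K, (if InL red l χ.1 then χ.1 1 * χ.1 x⁻¹ else 0) =
        if InL red l χ.1 then φ 1 * φ x⁻¹ else 0 := by
      intro χ
      split_ifs with h
      · rw [hφ.eq χ h 1 h1, hφ.eq χ h _ hx']
      · rfl
    rw [Finset.sum_congr rfl fun χ _ => h2 χ, ← Finset.sum_filter, Finset.sum_const, nsmul_eq_mul,
      ← hφ.card, Nat.card_eq_fintype_card, Fintype.card_subtype]
  · rw [if_neg hx]
    refine KK_sec p red l 1 x ?_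
    intro h
    unfold P179X.SameSec at h
    have h1 : pp p (1 : K) = 1 := (pp_eq_one_iff _).2 (by
      rw [orderOf_one]; exact hp.out.one_lt.ne' ∘ Nat.dvd_one.1)
    rw [h1] at h
    have h2 : pp p x = 1 := by
      obtain ⟨c, hc⟩ := isConj_iff.1 h
      rw [← hc]; group
    exact hx ((pp_eq_one_iff x).1 h2)

/-- the idempotent `∑_{χ ∈ l} e_χ` -/
noncomputable def Eid (l : (K → k) → k) (x : K) : ℂ := KK red l 1 x / Nat.card K

omit hp [CharP k p] in
theorem omC_Eid (l : (K → k) → k) (χ : Irr K) :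
    omC χ.1 (Eid red l) = if InL red l χ.1 then 1 else 0 := by
  have hK0 : (Nat.card K : ℂ) ≠ 0 := by exact_mod_cast Nat.card_pos.ne'
  have h1 := χ.one_ne_zero
  rw [omC, div_eq_iff h1]
  have h2 : ∑ g : K, Eid red l g * χ.1 g =
      (Nat.card K : ℂ)⁻¹ * ∑ ψ : Irr K, (if InL red l ψ.1 then ψ.1 1 else 0) *
        ∑ g : K, χ.1 g * ψ.1 g⁻¹ := by
    rw [Finset.mul_sum]
    simp only [Eid, KK, Finset.mul_sum, Finset.sum_div, Finset.sum_mul]
    rw [Finset.sum_comm]
    refine Finset.sum_congr rfl fun ψ _ => Finset.sum_congr rfl fun g _ => ?_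
    split_ifs
    · ring
    · ring
  rw [h2]
  simp only [row_orth]
  rw [Finset.sum_eq_single χ]
  · rw [if_pos rfl, Nat.card_eq_fintype_card]
    rw [Nat.card_eq_fintype_card] at hK0
    split_ifs
    · field_simp
    · ring
  · intro ψ _ hψ
    rw [if_neg (Ne.symm hψ), mul_zero]
  · intro h; exact absurd (Finset.mem_univ _) h

omit hp [CharP k p] in
theorem Eid_isCF (l : (K → k) → k) : IsCF (Eid red l) := by
  intro t x
  unfold Eid KK
  have : (t * x * t⁻¹)⁻¹ = t * x⁻¹ * t⁻¹ := by group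
  simp only [this, Irr.conj]

omit hp [CharP k p] in
/-- idempotency -/
theorem conv_Eid (l : (K → k) → k) : conv (Eid red l) (Eid red l) = Eid red l := by
  ext y
  rw [conv]
  have h1 : ∀ h : K, Eid red l h * Eid red l (h⁻¹ * y) =
      ∑ ψ : Irr K, (Nat.card K : ℂ)⁻¹ * (if InL red l ψ.1 then ψ.1 1 else 0) *
        (Eid red l h * ψ.1 (y⁻¹ * h)) := by
    intro h
    have e1 : Eid red l (h⁻¹ * y) = ∑ ψ : Irr K, (Nat.card K : ℂ)⁻¹ *
        (if InL red l ψ.1 then ψ.1 1 else 0) * ψ.1 (y⁻¹ * h) := by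
      rw [Eid, KK, Finset.sum_div]
      refine Finset.sum_congr rfl fun ψ _ => ?_
      have : (h⁻¹ * y)⁻¹ = y⁻¹ * h := by group
      rw [this]
      split_ifs
      · ring
      · ring
    rw [e1, Finset.mul_sum]
    exact Finset.sum_congr rfl fun ψ _ => by ring
  rw [Finset.sum_congr rfl fun h _ => h1 h, Finset.sum_comm]
  have h2 : ∀ ψ : Irr K, ∑ h : K, (Nat.card K : ℂ)⁻¹ * (if InL red l ψ.1 then ψ.1 1 else 0) *
        (Eid red l h * ψ.1 (y⁻¹ * h)) =
      (if InL red l ψ.1 then ψ.1 1 * ψ.1 y⁻¹ else 0) / Nat.card K := by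
    intro ψ
    rw [← Finset.mul_sum, sum_mul_irr' ψ (Eid_isCF red l), omC_Eid]
    split_ifs
    · ring
    · ring
  rw [Finset.sum_congr rfl fun ψ _ => h2 ψ, ← Finset.sum_div]
  rfl

/-- central characters of class functions with values in the algebraic integers -/
theorem exists_omAA (χ : Irr K) {z : K → AA} (hz : IsCF z) :
    ∃ X : AA, (X : ℂ) = omC χ.1 (fun x => (z x : ℂ)) ∧
      red X = lam red χ.1 (fun x => red (z x)) := by
  have := Fintype.ofFinite (ConjClasses K)
  refine ⟨∑ D : ConjClasses K, z D.out * omA χ (ind D) (isCF_ind D), ?_, ?_⟩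
  · push_cast
    have h1 : ∀ x, (z x : ℂ) = ∑ D : ConjClasses K, (z D.out : ℂ) * ((ind D x : ℤ) : ℂ) := by
      intro x
      exact cf_eq_sum (a := fun x => (z x : ℂ)) (fun t x => congrArg (fun y : AA => (y : ℂ)) (hz t x)) x
    have h2 : ∑ x : K, (z x : ℂ) * χ.1 x = ∑ D : ConjClasses K, (z D.out : ℂ) *
        ∑ x : K, ((ind D x : ℤ) : ℂ) * χ.1 x := by
      simp only [Finset.mul_sum]
      rw [Finset.sum_comm]
      refine Finset.sum_congr rfl fun x _ => ?_
      rw [h1 x, Finset.sum_mul]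
      exact Finset.sum_congr rfl fun D _ => by ring
    rw [omC, h2, Finset.sum_div]
    refine Finset.sum_congr rfl fun D _ => ?_
    simp only [omA, om_eq_omC, omC]
    rw [mul_div_assoc]
  · rw [map_sum, lam_eq_sum]
    refine Finset.sum_congr rfl fun D _ => ?_
    rw [map_mul, redC_of_mem red (isIntegral_om χ.2 (isCF_ind _))]
    rfl

/-- The block idempotent of a block with `ND`, integrally (up to the `p'`-factor `b`) and
modulo `p`. -/
theorem exists_idem {l : (K → k) → k} {q : ℕ} {φ : K → ℂ} (hφ : ND red p l q φ)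
    {a b : ℕ} (hb : ¬ p ∣ b) (hab : (a : ℂ) * Nat.card K = b * (q * φ 1)) :
    ∃ (E : K → AA) (e : K → k), IsCF E ∧
      (∀ x, (E x : ℂ) = if ¬ p ∣ orderOf x then a * φ x⁻¹ else 0) ∧
      (∀ x, red (E x) = b * e x) ∧ IsCF e ∧ conv e e = e ∧ l e = 1 ∧
      (∀ x, p ∣ orderOf x → e x = 0) ∧
      (∀ ψ : Irr K, lam red ψ.1 e = if InL red l ψ.1 then 1 else 0) := by
  have hK0 : (Nat.card K : ℂ) ≠ 0 := by exact_mod_cast Nat.card_pos.ne'
  have hb0 : (b : k) ≠ 0 := by
    rw [Ne, CharP.cast_eq_zero_iff k p]; exact hb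
  have hbC : (b : ℂ) ≠ 0 := by
    intro h
    apply hb
    have : b = 0 := by exact_mod_cast h
    rw [this]; exact dvd_zero _
  let Φ : Irr K := ⟨φ, hφ.irr⟩
  set E : K → AA := fun x => if ¬ p ∣ orderOf x then (a : AA) * chA Φ x⁻¹ else 0 with hE
  have hEC : ∀ x, (E x : ℂ) = if ¬ p ∣ orderOf x then a * φ x⁻¹ else 0 := by
    intro x
    simp only [hE]
    by_cases hx : ¬ p ∣ orderOf x
    · rw [if_pos hx, if_pos hx]
      push_cast
      rfl
    · rw [if_neg hx, if_neg hx]
      rfl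
  have hEE : ∀ x, (E x : ℂ) = b * Eid red l x := by
    intro x
    rw [hEC, Eid, KK_one_eq p red hφ]
    by_cases hx : ¬ p ∣ orderOf x
    · rw [if_pos hx, if_pos hx, eq_comm, mul_div_assoc', div_eq_iff hK0]
      linear_combination (-φ x⁻¹) * hab
    · rw [if_neg hx, if_neg hx]
      simp
  have hEcf : IsCF E := by
    intro t x
    apply Subtype.ext
    change (E (t * x * t⁻¹) : ℂ) = E x
    rw [hEE, hEE, Eid_isCF red l t x]
  have hconvE : conv E E = fun x => (b : AA) * E x := by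
    ext y
    have h1 : ((conv E E y : AA) : ℂ) = b * b * conv (Eid red l) (Eid red l) y := by
      unfold conv
      push_cast
      rw [Finset.mul_sum]
      exact Finset.sum_congr rfl fun h _ => by rw [hEE, hEE]; ring
    rw [h1, conv_Eid]
    push_cast
    rw [hEE]; ring
  set e : K → k := fun x => (b : k)⁻¹ * red (E x) with he
  have hecf : IsCF e := by
    intro t x
    simp only [he]
    rw [hEcf t x]
  have hlam : ∀ ψ : Irr K, lam red ψ.1 e = if InL red l ψ.1 then 1 else 0 := by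
    intro ψ
    have h1 : e = (b : k)⁻¹ • (fun x => red (E x)) := by
      ext x; rfl
    rw [h1, lam_smul]
    obtain ⟨X, hX, hX2⟩ := exists_omAA red ψ hEcf
    rw [← hX2]
    have h2 : X = if InL red l ψ.1 then (b : AA) else 0 := by
      apply Subtype.ext
      rw [hX]
      have h3 : omC ψ.1 (fun x => (E x : ℂ)) = b * omC ψ.1 (Eid red l) := by
        simp only [omC, hEE]
        rw [mul_div_assoc', Finset.mul_sum]
        congr 1
        exact Finset.sum_congr rfl fun x _ => by ring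
      rw [h3, omC_Eid]
      split_ifs
      · push_cast; ring
      · simp
    rw [h2]
    split_ifs
    · rw [map_natCast, inv_mul_cancel₀ hb0]
    · simp
  refine ⟨E, e, hEcf, hEC, fun x => ?_, hecf, ?_, ?_, ?_, hlam⟩
  · simp only [he]
    rw [mul_inv_cancel_left₀ hb0]
  · ext y
    have h1 : conv e e y = (b : k)⁻¹ * (b : k)⁻¹ * red (conv E E y) := by
      unfold conv
      rw [map_sum, Finset.mul_sum]
      refine Finset.sum_congr rfl fun h _ => ?_
      rw [map_mul]
      simp only [he]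
      ring
    rw [h1, hconvE, map_mul, map_natCast]
    simp only [he]
    field_simp
  · rw [← hφ.mem e hecf]
    have := hlam Φ
    rw [if_pos hφ.mem] at this
    exact this
  · intro x hx
    have h1 : E x = 0 := by
      simp only [hE]
      rw [if_neg (not_not.2 hx)]
    simp only [he]
    rw [h1, map_zero, mul_zero]

end Idem

/-! ### The congruence -/

section Cong

variable {k : Type*} [Field k] (p : ℕ) [hp : Fact p.Prime] [CharP k p]
  (red : integralClosure ℤ ℂ →+* k) {G : Type*} [Group G] [Fintype G]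

omit [Fintype G] in
/-- sum of a relative trace against a class function -/
theorem sum_tr [Fintype G] (H : Subgroup G) {R : Type*} [CommRing R] (a F : G → R) (hF : IsCF F) :
    ∑ g : G, (∑ c : G ⧸ H, a (c.out⁻¹ * g * c.out)) * F g = H.index * ∑ g : G, a g * F g := by
  simp only [Finset.sum_mul]
  rw [Finset.sum_comm]
  have h1 : ∀ c : G ⧸ H, ∑ g : G, a (c.out⁻¹ * g * c.out) * F g = ∑ g : G, a g * F g := by
    intro c
    rw [← Equiv.sum_comp (MulAut.conj c.out).toEquiv
      (fun g => a (c.out⁻¹ * g * c.out) * F g)]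
    refine Finset.sum_congr rfl fun g _ => ?_
    have h2 : (MulAut.conj c.out).toEquiv g = c.out * g * c.out⁻¹ := rfl
    rw [h2, hF]
    congr 2
    group
  rw [Finset.sum_congr rfl fun c _ => h1 c, Finset.sum_const, nsmul_eq_mul, Finset.card_univ,
    ← Nat.card_eq_fintype_card]
  rfl

omit [Fintype G] in
theorem tr_isCF (H : Subgroup G) [Fintype (G ⧸ H)] {R : Type*} [CommRing R] (a : G → R)
    (ha : ∀ h ∈ H, ∀ x, a (h * x * h⁻¹) = a x) :
    IsCF fun g => ∑ c : G ⧸ H, a (c.out⁻¹ * g * c.out) := by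
  intro t g
  have hw : ∀ (x : G) (c : G ⧸ H), (QuotientGroup.mk x : G ⧸ H) = c →
      a (x⁻¹ * g * x) = a (c.out⁻¹ * g * c.out) := by
    intro x c hc
    have h1 : (QuotientGroup.mk c.out : G ⧸ H) = QuotientGroup.mk x := by
      rw [hc]; exact Quotient.out_eq' c
    rw [QuotientGroup.eq] at h1
    have h2 := ha _ (H.inv_mem h1) (c.out⁻¹ * g * c.out)
    rw [← h2]
    congr 1
    group
  simp only
  rw [← Equiv.sum_comp (MulAction.toPerm t : Equiv.Perm (G ⧸ H))]
  refine Finset.sum_congr rfl fun c _ => ?_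
  rw [MulAction.toPerm_apply]
  have h3 : (QuotientGroup.mk (t⁻¹ * (t • c).out) : G ⧸ H) = c := by
    have h4 : (QuotientGroup.mk (t⁻¹ * (t • c).out) : G ⧸ H) =
        t⁻¹ • (QuotientGroup.mk (t • c).out : G ⧸ H) := rfl
    have h5 : (QuotientGroup.mk (t • c).out : G ⧸ H) = t • c := Quotient.out_eq' _
    rw [h4, h5, inv_smul_smul]
  rw [← hw _ c h3]
  congr 1
  group

/-- **(CONG)** `E`, `e`: the idempotent of the block `lres H l` of `H = C_G(u)`. -/
theorem cong_aux (H : Subgroup G) {l : (G → k) → k} {q : ℕ} (hq : q ≠ 0) {φ : H → ℂ}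
    {a b : ℕ} (hab : (a : ℂ) * Nat.card H = b * (q * φ 1))
    (u : G) (hH : ∀ x, x ∈ H ↔ x * u = u * x)
    {E : H → AA} {e : H → k} (hEcf : IsCF E)
    (hE : ∀ x, (E x : ℂ) = if ¬ p ∣ orderOf x then a * φ x⁻¹ else 0)
    (hEe : ∀ x, red (E x) = b * e x) (χ : Irr G) (hχ : InL red l χ.1)
    (hsmul : ∀ (c : k) a, l (c • a) = c * l a) :
    ∃ X : AA, (X : ℂ) * χ.1 1 = b * (H.index * φ 1 * dn p H q φ u χ.1) ∧
      red X = b * l (trG H (fun x => ext H e (u⁻¹ * x))) := by
  have hq0 : (q : ℂ) ≠ 0 := by exact_mod_cast hq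
  have hH0 : (Nat.card H : ℂ) ≠ 0 := by exact_mod_cast Nat.card_pos.ne'
  -- the integral function on `G`
  set A : G → AA := fun x => if h : u⁻¹ * x ∈ H then E ⟨u⁻¹ * x, h⟩ else 0 with hA
  have hAinv : ∀ h ∈ H, ∀ x, A (h * x * h⁻¹) = A x := by
    intro h hh x
    have hcomm : u⁻¹ * h = h * u⁻¹ := by
      rw [inv_mul_eq_iff_eq_mul, ← mul_assoc, ← (hH h).1 hh, mul_inv_cancel_right]
    have h1 : u⁻¹ * (h * x * h⁻¹) = h * (u⁻¹ * x) * h⁻¹ := by
      rw [← mul_assoc, ← mul_assoc, hcomm]; simp only [mul_assoc]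
    have h2 : u⁻¹ * (h * x * h⁻¹) ∈ H ↔ u⁻¹ * x ∈ H := by
      rw [h1]
      constructor
      · intro h3
        have := H.mul_mem (H.mul_mem (H.inv_mem hh) h3) hh
        have e : h⁻¹ * (h * (u⁻¹ * x) * h⁻¹) * h = u⁻¹ * x := by group
        rwa [e] at this
      · intro h3
        exact H.mul_mem (H.mul_mem hh h3) (H.inv_mem hh)
    simp only [hA]
    by_cases h3 : u⁻¹ * x ∈ H
    · rw [dif_pos h3, dif_pos (h2.2 h3)]
      have h4 : (⟨u⁻¹ * (h * x * h⁻¹), h2.2 h3⟩ : H) = ⟨h, hh⟩ * ⟨u⁻¹ * x, h3⟩ * ⟨h, hh⟩⁻¹ :=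
        Subtype.ext h1
      rw [h4, hEcf]
    · rw [dif_neg h3, dif_neg fun h4 => h3 (h2.1 h4)]
  set Y : G → AA := fun g => ∑ c : G ⧸ H, A (c.out⁻¹ * g * c.out) with hY
  have hYcf : IsCF Y := tr_isCF H A hAinv
  obtain ⟨X, hX, hX2⟩ := exists_omAA red χ hYcf
  refine ⟨X, ?_, ?_⟩
  · rw [hX, omC, div_mul_cancel₀ _ χ.one_ne_zero]
    have h1 : ∑ g : G, (Y g : ℂ) * χ.1 g = H.index * ∑ g : G, (A g : ℂ) * χ.1 g := by
      rw [← sum_tr H (fun g => (A g : ℂ)) χ.1 χ.isCF]
      refine Finset.sum_congr rfl fun g _ => ?_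
      simp only [hY]
      push_cast
      rfl
    have h2 : ∑ g : G, (A g : ℂ) * χ.1 g = a * rsum p (fun t : H => χ.1 (u * t) * φ t⁻¹) := by
      rw [rsum_eq, Finset.mul_sum, Finset.sum_filter]
      have h3 : ∑ t : H, (if ¬ p ∣ orderOf t then (a : ℂ) * (χ.1 (u * t) * φ t⁻¹) else 0) =
          ∑ t : H, (E t : ℂ) * χ.1 (u * t) := by
        refine Finset.sum_congr rfl fun t _ => ?_
        rw [hE]
        split_ifs
        · ring
        · ring
      rw [h3]
      rw [← Equiv.sum_comp (Equiv.mulLeft u) (fun g => (A g : ℂ) * χ.1 g)]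
      have h4 : ∀ g : G, ((A (Equiv.mulLeft u g) : AA) : ℂ) * χ.1 (Equiv.mulLeft u g) =
          if h : g ∈ H then (E ⟨g, h⟩ : ℂ) * χ.1 (u * g) else 0 := by
        intro g
        simp only [hA, Equiv.coe_mulLeft, inv_mul_cancel_left]
        split_ifs
        · rfl
        · simp
      rw [Finset.sum_congr rfl fun g _ => h4 g]
      rw [← Finset.sum_subset (Finset.subset_univ (univ.filter fun g : G => g ∈ H))]
      · refine Finset.sum_bij' (i := fun g hg => (⟨g, (mem_filter.1 hg).2⟩ : H))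
          (j := fun t _ => (t : G)) (fun _ _ => mem_univ _)
          (fun t _ => mem_filter.2 ⟨mem_univ _, t.2⟩) (fun _ _ => rfl) (fun _ _ => rfl) ?_
        intro g hg
        rw [dif_pos (mem_filter.1 hg).2]
      · intro g _ hg
        rw [dif_neg fun h => hg (mem_filter.2 ⟨mem_univ _, h⟩)]
    rw [h1, h2, dn]
    have h5 : (b : ℂ) * (H.index * φ 1 * (q / Nat.card H * rsum p fun t : H => χ.1 (u * t) * φ t⁻¹)) =
        H.index * ((b * (q * φ 1)) / Nat.card H * rsum p fun t : H => χ.1 (u * t) * φ t⁻¹) := by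
      ring
    rw [h5, ← hab, mul_div_assoc, div_self hH0, mul_one]
  · have hYk : IsCF fun g => red (Y g) := fun t x => congrArg red (hYcf t x)
    rw [hX2, hχ _ hYk]
    have h1 : (fun g => red (Y g)) = (b : k) • trG H (fun x => ext H e (u⁻¹ * x)) := by
      ext g
      rw [Pi.smul_apply, smul_eq_mul, trG, Finset.mul_sum]
      simp only [hY, map_sum]
      refine Finset.sum_congr rfl fun c _ => ?_
      simp only [hA, ext]
      split_ifs
      · exact hEe _
      · simp
    rw [h1, hsmul]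

end Cong

end P179Y
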