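import Vale.Agent.P179.H143.Kernel

/-!
# (C3) Generalised decomposition numbers
-/

namespace P179Y

open P179H524 P179C P179A Finset P179P

open P179X (pp)

open scoped Classical

section Restrict

/-- restriction of a character to a subgroup -/
theorem restr_decomp {G : Type*} [Group G] [Finite G] (χ : Irr G) (H : Subgroup G) :
    ∃ n : Irr H → ℕ, ∀ h : H, χ.1 h = ∑ ψ : Irr H, (n ψ : ℂ) * ψ.1 h := by
  have := Fintype.ofFinite H
  have : Invertible (Nat.card H : ℂ) := invertibleOfNonzero (by exact_mod_cast Nat.card_pos.ne')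
  obtain ⟨χ, d, ρ, hρ, rfl⟩ := χ
  have h1 : ∀ ψ : Irr H, ∃ n : ℕ, (Fintype.card H : ℂ)⁻¹ * ∑ g : H, ρ.character (g : G) * ψ.1 g⁻¹ =
      n := by
    rintro ⟨ψ, e, σ, hσ, rfl⟩
    let ρH : Representation ℂ H (Fin d → ℂ) := ρ.comp H.subtype
    have h2 := Representation.card_inv_mul_sum_char_mul_char_eq_finrank σ ρH
    rw [Nat.card_eq_fintype_card] at h2
    exact ⟨_, h2⟩
  choose n hn using h1
  refine ⟨n, fun h => ?_⟩
  have hcf : IsCF fun h : H => ρ.character (h : G) := by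
    intro t x
    exact Representation.char_conj ρ (x : G) (t : G)
  have h2 := cf_expand hcf h
  refine Eq.trans h2 ?_
  exact Finset.sum_congr rfl fun ψ _ => by rw [hn]

/-- a central element acts by a scalar -/
theorem central_scalar {H : Type*} [Group H] [Finite H] (ψ : Irr H) (u : H) (hu : ∀ x, x * u = u * x)
    {N : ℕ} (hN : u ^ N = 1) : ∃ c : ℂ, c ^ N = 1 ∧ ∀ (j : ℕ) (t : H), ψ.1 (u ^ j * t) = c ^ j * ψ.1 t := by
  obtain ⟨ψ, d, ρ, hρ, rfl⟩ := ψ
  obtain ⟨c, hc⟩ := exists_scalar ρ hρ (ρ u) (fun h => by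
    rw [← map_mul, ← map_mul, hu])
  have hpow : ∀ j : ℕ, ρ (u ^ j) = algebraMap ℂ _ (c ^ j) := by
    intro j
    rw [map_pow, hc, ← map_pow]
  refine ⟨c, ?_, ?_⟩
  · have h1 := hpow N
    rw [hN, map_one] at h1
    have hn0 := nontrivial_of_irr hρ
    have hn : Nontrivial (Fin d → ℂ) := by
      have : NeZero d := ⟨by exact_mod_cast hn0⟩
      infer_instance
    apply FaithfulSMul.algebraMap_injective ℂ (Module.End ℂ (Fin d → ℂ))
    rw [← h1, map_one]
  · intro j t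
    change LinearMap.trace ℂ _ (ρ (u ^ j * t)) = c ^ j * LinearMap.trace ℂ _ (ρ t)
    rw [map_mul, hpow, Algebra.algebraMap_eq_smul_one, smul_mul_assoc, one_mul, map_smul,
      smul_eq_mul]

end Restrict

section Sep

variable {k : Type*} [Field k] (p : ℕ) [hp : Fact p.Prime] [CharP k p]
  (red : integralClosure ℤ ℂ →+* k) {K : Type*} [Group K] [Fintype K]

theorem sep_self (ψ ζ : Irr K) {z : K → k} (hne : lam red ψ.1 z ≠ lam red ζ.1 z) :
    ∃ (z : K → ℤ) (hz : IsCF z), red (omA ψ z hz) ≠ red (omA ζ z hz) := by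
  have := Fintype.ofFinite (ConjClasses K)
  by_contra hcon
  push Not at hcon
  apply hne
  rw [lam_eq_sum, lam_eq_sum]
  refine Finset.sum_congr rfl fun D _ => ?_
  congr 1
  rw [redC_of_mem red (isIntegral_om ψ.2 (isCF_ind _)),
    redC_of_mem red (isIntegral_om ζ.2 (isCF_ind _))]
  exact hcon (ind D) (isCF_ind D)

/-- (N2) on `p`-regular elements, for characters with different central characters -/
theorem rsum_orth (ψ ζ : Irr K) {z : K → k} (hne : lam red ψ.1 z ≠ lam red ζ.1 z) :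
    rsum p (fun t : K => ψ.1 t * ζ.1 t⁻¹) = 0 := by
  obtain ⟨z', hz', hne'⟩ := sep_self red ψ ζ hne
  obtain ⟨S, hS⟩ : ∃ S : Set K, ∀ y, y ∈ S ↔ ¬ p ∣ orderOf y :=
    ⟨{y | ¬ p ∣ orderOf y}, fun y => by rw [Set.mem_ofPred_eq]⟩
  have h3 := sec_orth_two p red ζ ψ z' hz' hne'.symm S (by
    intro a b hab
    rw [hS, hS, ← pp_eq_one_iff, ← pp_eq_one_iff, hab]) (by
    intro a t
    rw [hS, hS, P179C.orderOf_conj])
  rw [rsum_eq, Finset.sum_filter]
  exact (Finset.sum_congr rfl fun x _ => if_congr (hS x).symm rfl rfl).trans h3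

theorem rsum_orth_of_inL {l : (K → k) → k} (ψ ζ : Irr K) (hζ : InL red l ζ.1)
    (hψ : ¬ InL red l ψ.1) : rsum p (fun t : K => ψ.1 t * ζ.1 t⁻¹) = 0 := by
  have h2 : ∃ z : K → k, lam red ψ.1 z ≠ lam red ζ.1 z := by
    by_contra hcon
    push Not at hcon
    exact hψ fun z hz => (hcon z).trans (hζ z hz)
  obtain ⟨z, hne⟩ := h2
  exact rsum_orth p red ψ ζ hne

end Sep

section DN

variable {k : Type*} [Field k] (p : ℕ) [hp : Fact p.Prime] [CharP k p]
  (red : integralClosure ℤ ℂ →+* k) {G : Type*} [Group G] [Fintype G]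

/-- **(C3)(i)** -/
theorem dn_eq_zero (H : Subgroup G) {l : (G → k) → k}
    (hK3 : ∀ z : G → k, lres H l (fun h : H => z h) = l z) {q : ℕ} {φ : H → ℂ}
    (hφ : ND red p (lres H l) q φ) (u : G) (hu : ∃ a : ℕ, u ^ p ^ a = 1)
    (hH : ∀ x, x ∈ H ↔ x * u = u * x) (χ : Irr G) (hχ : ¬ InL red l χ.1) :
    dn p H q φ u χ.1 = 0 := by
  have h2 : ∃ z : G → k, ∃ _ : IsCF z, lam red χ.1 z ≠ l z := by
    by_contra hcon
    push Not at hcon
    exact hχ fun z hz => hcon z hz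
  obtain ⟨z, hz, hne⟩ := h2
  have h3 : lam red φ (fun h : H => z h) = l z := by
    rw [hφ.mem _ (isCF_restr hz H), hK3]
  obtain ⟨z', hz', hne'⟩ := sep_G_H red χ H ⟨φ, hφ.irr⟩ hz (by rw [h3]; exact hne)
  have h4 := two_mt p red χ u hu H hH ⟨φ, hφ.irr⟩ z' hz' hne'
  rw [dn, rsum_eq, Finset.sum_filter]
  have h5 : ∑ t : H, (if ¬ p ∣ orderOf t then χ.1 (u * t) * φ t⁻¹ else 0) = 0 := by
    refine Eq.trans (Finset.sum_congr rfl fun t _ => ?_) h4
    rw [(hH t).1 t.2]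
  rw [h5, mul_zero]

/-- **(C3)(ii)** the generalised decomposition numbers as values of a polynomial -/
theorem dn_poly (H : Subgroup G) {l : (H → k) → k} {q : ℕ} (hq : q ≠ 0) {φ : H → ℂ}
    (hφ : ND red p l q φ) (u : G) {N : ℕ} (hu : u ^ N = 1) (hN : N ≠ 0)
    (hH : ∀ x, x ∈ H ↔ x * u = u * x) (χ : Irr G) {ζ : ℂ} (hζ : IsPrimitiveRoot ζ N) :
    ∃ P : Polynomial ℤ, ∀ j : ℕ, dn p H q φ (u ^ j) χ.1 = Polynomial.aeval (ζ ^ j) P := by
  have : NeZero N := ⟨hN⟩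
  obtain ⟨n, hn⟩ := restr_decomp χ H
  have huH : u ∈ H := (hH u).2 rfl
  have hc : ∀ ψ : Irr H, ∃ i : ℕ, ∀ (j : ℕ) (t : H),
      ψ.1 ((⟨u, huH⟩ : H) ^ j * t) = (ζ ^ j) ^ i * ψ.1 t := by
    intro ψ
    obtain ⟨c, hcN, hc⟩ := central_scalar ψ (⟨u, huH⟩ : H)
      (fun x => Subtype.ext ((hH x).1 x.2)) (N := N) (Subtype.ext hu)
    obtain ⟨i, -, hi⟩ := hζ.eq_pow_of_pow_eq_one hcN
    refine ⟨i, fun j t => ?_⟩
    rw [hc, ← hi, ← pow_mul, ← pow_mul, mul_comm i j]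
  choose i hi using hc
  have hH0 : (Nat.card H : ℂ) ≠ 0 := by exact_mod_cast Nat.card_pos.ne'
  have hq0 : (q : ℂ) ≠ 0 := by exact_mod_cast hq
  -- the pairing with `φ`
  have hpair : ∀ ψ : Irr H, (q : ℂ) / Nat.card H * rsum p (fun t : H => ψ.1 t * φ t⁻¹) =
      if InL red l ψ.1 then 1 else 0 := by
    intro ψ
    by_cases hψ : InL red l ψ.1
    · rw [if_pos hψ]
      have h1 : rsum p (fun t : H => ψ.1 t * φ t⁻¹) = rsum p (fun t : H => φ t * φ t⁻¹) := by
        rw [rsum_eq, rsum_eq]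
        refine Finset.sum_congr rfl fun t ht => ?_
        rw [hφ.eq ψ hψ t (mem_filter.1 ht).2]
      rw [h1, div_mul_eq_mul_div, hφ.nrm, div_self hH0]
    · rw [if_neg hψ, rsum_orth_of_inL p red ψ ⟨φ, hφ.irr⟩ hφ.mem hψ, mul_zero]
  refine ⟨∑ ψ : Irr H, if InL red l ψ.1 then
    Polynomial.C (n ψ : ℤ) * Polynomial.X ^ i ψ else 0, fun j => ?_⟩
  rw [map_sum]
  have h1 : dn p H q φ (u ^ j) χ.1 = ∑ ψ : Irr H, (n ψ : ℂ) * (ζ ^ j) ^ i ψ *
      ((q : ℂ) / Nat.card H * rsum p (fun t : H => ψ.1 t * φ t⁻¹)) := by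
    rw [dn]
    have h2 : rsum p (fun t : H => χ.1 (u ^ j * t) * φ t⁻¹) =
        ∑ ψ : Irr H, (n ψ : ℂ) * (ζ ^ j) ^ i ψ * rsum p (fun t : H => ψ.1 t * φ t⁻¹) := by
      simp only [rsum_eq, Finset.mul_sum]
      rw [Finset.sum_comm]
      refine Finset.sum_congr rfl fun t _ => ?_
      have h3 : (u ^ j * (t : G)) = (((⟨u, huH⟩ : H) ^ j * t : H) : G) := by
        push_cast
        rfl
      rw [h3, hn, Finset.sum_mul]
      refine Finset.sum_congr rfl fun ψ _ => ?_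
      rw [hi]; ring
    rw [h2, Finset.mul_sum]
    exact Finset.sum_congr rfl fun ψ _ => by ring
  rw [h1]
  refine Finset.sum_congr rfl fun ψ _ => ?_
  rw [hpair]
  split_ifs
  · simp
  · simp

/-- the Gram matrix of the generalised decomposition numbers, first computation -/
theorem gram_eq (H H' : Subgroup G) {q : ℕ} {φ : H → ℂ} {φ' : H' → ℂ}
    (hφ' : IsIrrChar φ') (u u' : G) (hu : ∃ a : ℕ, u ^ p ^ a = 1) (hu' : ∃ a : ℕ, u' ^ p ^ a = 1)
    (hH : ∀ x, x ∈ H ↔ x * u = u * x) (hH' : ∀ x, x ∈ H' ↔ x * u' = u' * x) :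
    ∑ χ : Irr G, dn p H q φ u χ.1 * (starRingEnd ℂ) (dn p H' q φ' u' χ.1) =
      (q : ℂ) / Nat.card H * (q / Nat.card H') *
        ∑ g : G, if g * u * g⁻¹ = u' then
          rsum p (fun t : H => φ t⁻¹ * ext H' φ' (g * t * g⁻¹)) else 0 := by
  have hconj : ∀ χ : Irr G, (starRingEnd ℂ) (dn p H' q φ' u' χ.1) =
      q / Nat.card H' * rsum p (fun t : H' => χ.1 (u' * t)⁻¹ * φ' t) := by
    intro χ
    have h1 : ∀ t : H', (starRingEnd ℂ) (φ' t⁻¹) = φ' t := by
      intro t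
      have := Irr.inv_eq_conj (⟨φ', hφ'⟩ : Irr H') t⁻¹
      rw [inv_inv] at this
      exact this.symm
    simp only [dn, rsum_eq, map_mul, map_sum, map_div₀, map_natCast, h1, ← Irr.inv_eq_conj]
  simp only [hconj]
  simp only [dn]
  have h1 : ∀ χ : Irr G, (q : ℂ) / Nat.card H * rsum p (fun t : H => χ.1 (u * t) * φ t⁻¹) *
      (q / Nat.card H' * rsum p (fun t : H' => χ.1 (u' * t)⁻¹ * φ' t)) =
      (q : ℂ) / Nat.card H * (q / Nat.card H') *
        ∑ t ∈ univ.filter (fun s : H => ¬ p ∣ orderOf s),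
          ∑ t' ∈ univ.filter (fun s : H' => ¬ p ∣ orderOf s),
            φ t⁻¹ * φ' t' * (χ.1 (u * t) * χ.1 (u' * t')⁻¹) := by
    intro χ
    rw [rsum_eq, rsum_eq, mul_mul_mul_comm, Finset.sum_mul_sum]
    congr 1
    exact Finset.sum_congr rfl fun t _ => Finset.sum_congr rfl fun t' _ => by ring
  rw [Finset.sum_congr rfl fun χ _ => h1 χ, ← Finset.mul_sum]
  congr 1
  rw [Finset.sum_comm]
  have h2 : ∀ (t : H), ∑ χ : Irr G, ∑ t' ∈ univ.filter (fun s : H' => ¬ p ∣ orderOf s),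
      φ t⁻¹ * φ' t' * (χ.1 (u * t) * χ.1 (u' * t')⁻¹) =
      ∑ t' ∈ univ.filter (fun s : H' => ¬ p ∣ orderOf s),
        ∑ g : G, if g * (u * t) * g⁻¹ = u' * t' then φ t⁻¹ * φ' t' else 0 := by
    intro t
    rw [Finset.sum_comm]
    refine Finset.sum_congr rfl fun t' _ => ?_
    rw [← Finset.mul_sum, col_orth, ← Finset.sum_filter, Finset.sum_const, nsmul_eq_mul,
      Nat.card_eq_fintype_card, Fintype.card_subtype, mul_comm]
  rw [Finset.sum_congr rfl fun t _ => h2 t]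
  -- exchange
  have h3 : ∀ t : H, ∑ t' ∈ univ.filter (fun s : H' => ¬ p ∣ orderOf s),
        ∑ g : G, (if g * (u * t) * g⁻¹ = u' * t' then φ t⁻¹ * φ' t' else 0) =
      ∑ g : G, ∑ t' ∈ univ.filter (fun s : H' => ¬ p ∣ orderOf s),
        (if g * (u * t) * g⁻¹ = u' * t' then φ t⁻¹ * φ' t' else 0) := fun t => Finset.sum_comm
  rw [Finset.sum_congr rfl fun t _ => h3 t, Finset.sum_comm]
  refine Finset.sum_congr rfl fun g _ => ?_
  have hpp : ∀ x : H, ¬ p ∣ orderOf x → pp p (u * (x : G)) = u := by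
    intro x hx
    refine pp_eq ((hH x).1 x.2).symm hu ?_
    rwa [Subgroup.orderOf_coe]
  have hpp' : ∀ x : H', ¬ p ∣ orderOf x → pp p (u' * (x : G)) = u' := by
    intro x hx
    refine pp_eq ((hH' x).1 x.2).symm hu' ?_
    rwa [Subgroup.orderOf_coe]
  have hkey : ∀ (t : H) (t' : H'), ¬ p ∣ orderOf t → ¬ p ∣ orderOf t' →
      (g * (u * t) * g⁻¹ = u' * t' ↔ (g * u * g⁻¹ = u' ∧ g * (t : G) * g⁻¹ = t')) := by
    intro t t' ht ht'
    constructor
    · intro h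
      have h4 : g * u * g⁻¹ = u' := by
        rw [← hpp t ht, ← hpp' t' ht', ← h, pp_conj]
      refine ⟨h4, ?_⟩
      have h5 : g * (u * (t : G)) * g⁻¹ = (g * u * g⁻¹) * (g * (t : G) * g⁻¹) := by group
      rw [h5, h4] at h
      exact mul_left_cancel h
    · rintro ⟨h4, h5⟩
      rw [← h4, ← h5]
      group
  by_cases hg : g * u * g⁻¹ = u'
  · rw [if_pos hg, rsum_eq]
    refine Finset.sum_congr rfl fun t ht => ?_
    have ht1 : ¬ p ∣ orderOf t := (mem_filter.1 ht).2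
    have hmem : g * (t : G) * g⁻¹ ∈ H' := by
      rw [hH', ← hg]
      have := (hH t).1 t.2
      calc g * (t : G) * g⁻¹ * (g * u * g⁻¹) = g * ((t : G) * u) * g⁻¹ := by group
        _ = g * (u * t) * g⁻¹ := by rw [this]
        _ = _ := by group
    rw [Finset.sum_eq_single (⟨g * (t : G) * g⁻¹, hmem⟩ : H')]
    · rw [if_pos (by rw [← hg]; group)]
      rw [ext, dif_pos hmem]
    · intro t' ht' hne
      rw [if_neg]
      intro h
      apply hne
      exact Subtype.ext ((hkey t t' ht1 (mem_filter.1 ht').2).1 h).2.symm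
    · intro h
      exfalso
      apply h
      rw [mem_filter]
      refine ⟨mem_univ _, ?_⟩
      rw [← Subgroup.orderOf_coe]
      change ¬ p ∣ orderOf (g * (t : G) * g⁻¹)
      rw [P179C.orderOf_conj, Subgroup.orderOf_coe]
      exact ht1
  · rw [if_neg hg]
    refine Finset.sum_eq_zero fun t ht => Finset.sum_eq_zero fun t' ht' => ?_
    rw [if_neg]
    intro h
    exact hg ((hkey t t' (mem_filter.1 ht).2 (mem_filter.1 ht').2).1 h).1

/-- `lam` and isomorphisms -/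
theorem lam_comp {K K' : Type*} [Group K] [Group K'] [Finite K] [Finite K'] (e : K' ≃* K)
    {χ : K → ℂ} (hχ : IsIrrChar χ) {a : K → k} (ha : IsCF a) :
    lam red (fun x => χ (e x)) (fun x => a (e x)) = lam red χ a := by
  have := Fintype.ofFinite K
  have := Fintype.ofFinite K'
  have := Fintype.ofFinite (ConjClasses K)
  have h1 : ∀ x, a x = ∑ D : ConjClasses K, a D.out * ((ind D x : ℤ) : k) := fun x => cf_eq_sum ha x
  have e1 : (fun x => a (e x)) =
      ∑ D : ConjClasses K, a D.out • (fun x : K' => ((ind D (e x) : ℤ) : k)) := by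
    ext x
    rw [Finset.sum_apply, h1]
    rfl
  have e2 : a = ∑ D : ConjClasses K, a D.out • (fun x : K => ((ind D x : ℤ) : k)) := by
    ext x
    rw [Finset.sum_apply, h1]
    rfl
  rw [e1]
  conv_rhs => rw [e2]
  rw [P179P.lam_sum, P179P.lam_sum]
  refine Finset.sum_congr rfl fun D _ => ?_
  have hirr : IsIrrChar (fun x => χ (e x)) := hχ.comp e.toMonoidHom e.surjective
  have hcfD : IsCF (fun x => ind D (e x)) := by
    intro t x
    simp only [map_mul, map_inv]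
    exact isCF_ind D (e t) (e x)
  rw [lam_smul, lam_smul, lam_int red hχ (isCF_ind D), lam_int red hirr hcfD, om_comp]

/-- **(C3)(iii)** the Gram matrix -/
theorem gram (H H' : Subgroup G) {l : (G → k) → k} {q : ℕ} (hq : q ≠ 0) {φ : H → ℂ} {φ' : H' → ℂ}
    (hφ : ND red p (lres H l) q φ) (hφ' : ND red p (lres H' l) q φ') (u u' : G)
    (hu : ∃ a : ℕ, u ^ p ^ a = 1) (hu' : ∃ a : ℕ, u' ^ p ^ a = 1)
    (hH : ∀ x, x ∈ H ↔ x * u = u * x) (hH' : ∀ x, x ∈ H' ↔ x * u' = u' * x) :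
    ∑ χ : Irr G, dn p H q φ u χ.1 * (starRingEnd ℂ) (dn p H' q φ' u' χ.1) = 0 ∨
      (∑ χ : Irr G, dn p H q φ u χ.1 * (starRingEnd ℂ) (dn p H' q φ' u' χ.1) = q ∧
        ∃ g : G, g * u * g⁻¹ = u' ∧
          ∀ z : G → k, InvOn H' z → l (fun x => z (g * x * g⁻¹)) = l z) := by
  rw [gram_eq p H H' hφ'.irr u u' hu hu' hH hH']
  by_cases hex : ∃ g₀ : G, g₀ * u * g₀⁻¹ = u'
  swap
  · left
    rw [Finset.sum_eq_zero, mul_zero]
    intro g _
    rw [if_neg fun h => hex ⟨g, h⟩]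
  obtain ⟨g₀, hg₀⟩ := hex
  have hH0 : (Nat.card H : ℂ) ≠ 0 := by exact_mod_cast Nat.card_pos.ne'
  have hq0 : (q : ℂ) ≠ 0 := by exact_mod_cast hq
  have hmem : ∀ t : G, t ∈ H ↔ g₀ * t * g₀⁻¹ ∈ H' := by
    intro t
    rw [hH, hH', ← hg₀]
    constructor
    · intro h
      calc g₀ * t * g₀⁻¹ * (g₀ * u * g₀⁻¹) = g₀ * (t * u) * g₀⁻¹ := by group
        _ = g₀ * (u * t) * g₀⁻¹ := by rw [h]
        _ = _ := by group
    · intro h
      calc t * u = g₀⁻¹ * (g₀ * t * g₀⁻¹ * (g₀ * u * g₀⁻¹)) * g₀ := by group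
        _ = g₀⁻¹ * (g₀ * u * g₀⁻¹ * (g₀ * t * g₀⁻¹)) * g₀ := by rw [h]
        _ = u * t := by group
  -- the isomorphism
  let e : H ≃* H' :=
    { toFun := fun t => ⟨g₀ * t * g₀⁻¹, (hmem t).1 t.2⟩
      invFun := fun t => ⟨g₀⁻¹ * t * g₀, (hmem _).2 (by
        have : g₀ * (g₀⁻¹ * (t : G) * g₀) * g₀⁻¹ = t := by group
        rw [this]; exact t.2)⟩
      left_inv := fun t => by apply Subtype.ext; simp [mul_assoc]
      right_inv := fun t => by apply Subtype.ext; simp [mul_assoc]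
      map_mul' := fun s t => by apply Subtype.ext; simp [mul_assoc] }
  have he : ∀ t : H, ((e t : H') : G) = g₀ * t * g₀⁻¹ := fun _ => rfl
  have hcard : (Nat.card H' : ℂ) = Nat.card H := by
    rw [Nat.card_congr e.toEquiv]
  let ψ' : Irr H := ⟨fun t => φ' (e t), hφ'.irr.comp e.toMonoidHom e.surjective⟩
  have hR : ∀ g : G, g * u * g⁻¹ = u' →
      rsum p (fun t : H => φ t⁻¹ * ext H' φ' (g * t * g⁻¹)) =
        rsum p (fun t : H => ψ'.1 t * φ t⁻¹) := by
    intro g hg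
    rw [rsum_eq, rsum_eq]
    refine Finset.sum_congr rfl fun t _ => ?_
    have h1 : g₀⁻¹ * g ∈ H := by
      rw [hH]
      have h2 : g * u * g⁻¹ = g₀ * u * g₀⁻¹ := hg.trans hg₀.symm
      calc g₀⁻¹ * g * u = g₀⁻¹ * (g * u * g⁻¹) * g := by group
        _ = g₀⁻¹ * (g₀ * u * g₀⁻¹) * g := by rw [h2]
        _ = _ := by group
    have h3 : g * (t : G) * g⁻¹ = ((e (⟨_, h1⟩ * t * ⟨_, h1⟩⁻¹) : H') : G) := by
      rw [he]
      push_cast
      group
    rw [h3, ext, dif_pos (e _).2, mul_comm]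
    congr 1
    have h4 := hφ'.irr.conj (e ⟨_, h1⟩) (e t)
    rw [← map_inv, ← map_mul, ← map_mul] at h4
    exact h4
  have hcount : ∑ g : G, (if g * u * g⁻¹ = u' then
      rsum p (fun t : H => φ t⁻¹ * ext H' φ' (g * t * g⁻¹)) else 0) =
      Nat.card H * rsum p (fun t : H => ψ'.1 t * φ t⁻¹) := by
    have h1 : ∀ g : G, (if g * u * g⁻¹ = u' then
        rsum p (fun t : H => φ t⁻¹ * ext H' φ' (g * t * g⁻¹)) else 0) =
        if g * u * g⁻¹ = u' then rsum p (fun t : H => ψ'.1 t * φ t⁻¹) else 0 := by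
      intro g
      split_ifs with h
      · exact hR g h
      · rfl
    rw [Finset.sum_congr rfl fun g _ => h1 g, ← Finset.sum_filter, Finset.sum_const, nsmul_eq_mul]
    congr 2
    rw [Nat.card_eq_fintype_card]
    refine Finset.card_bij' (i := fun g hg => (⟨g₀⁻¹ * g, ?_⟩ : H)) (j := fun h _ => g₀ * h)
      (fun _ _ => mem_univ _) ?_ ?_ ?_ |>.trans Finset.card_univ
    · rw [hH]
      have h2 : g * u * g⁻¹ = g₀ * u * g₀⁻¹ := (mem_filter.1 hg).2.trans hg₀.symm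
      calc g₀⁻¹ * g * u = g₀⁻¹ * (g * u * g⁻¹) * g := by group
        _ = g₀⁻¹ * (g₀ * u * g₀⁻¹) * g := by rw [h2]
        _ = _ := by group
    · intro h _
      rw [mem_filter]
      refine ⟨mem_univ _, ?_⟩
      have := (hH h).1 h.2
      rw [← hg₀]
      calc g₀ * (h : G) * u * (g₀ * h)⁻¹ = g₀ * ((h : G) * u) * (h : G)⁻¹ * g₀⁻¹ := by group
        _ = g₀ * (u * h) * (h : G)⁻¹ * g₀⁻¹ := by rw [this]
        _ = _ := by group
    · intro g _
      simp
    · intro h _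
      apply Subtype.ext
      simp
  rw [hcount, hcard]
  have hpair : (q : ℂ) / Nat.card H * rsum p (fun t : H => ψ'.1 t * φ t⁻¹) =
      if InL red (lres H l) ψ'.1 then 1 else 0 := by
    by_cases hψ : InL red (lres H l) ψ'.1
    · rw [if_pos hψ]
      have h1 : rsum p (fun t : H => ψ'.1 t * φ t⁻¹) = rsum p (fun t : H => φ t * φ t⁻¹) := by
        rw [rsum_eq, rsum_eq]
        refine Finset.sum_congr rfl fun t ht => ?_
        rw [hφ.eq ψ' hψ t (mem_filter.1 ht).2]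
      rw [h1, div_mul_eq_mul_div, hφ.nrm, div_self hH0]
    · rw [if_neg hψ, rsum_orth_of_inL p red ψ' ⟨φ, hφ.irr⟩ hφ.mem hψ, mul_zero]
  have hval : (q : ℂ) / Nat.card H * (q / Nat.card H) *
      (Nat.card H * rsum p (fun t : H => ψ'.1 t * φ t⁻¹)) =
      q * if InL red (lres H l) ψ'.1 then 1 else 0 := by
    rw [← hpair]
    field_simp
  rw [hval]
  by_cases hψ : InL red (lres H l) ψ'.1
  · right
    rw [if_pos hψ, mul_one]
    refine ⟨rfl, g₀, hg₀, ?_⟩
    intro z hz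
    have hz' : IsCF fun h : H' => z h := fun t x => hz.1 t t.2 x
    have hzcomp : IsCF fun h : H => z ((e h : H') : G) := by
      intro t x
      simp only [map_mul, map_inv]
      exact hz' (e t) (e x)
    have h1 : l z = lres H' l (fun h : H' => z h) := by
      unfold lres
      congr 1
      ext x
      unfold ext
      split_ifs with h
      · rfl
      · exact hz.2 x h
    have h2 : l (fun x => z (g₀ * x * g₀⁻¹)) = lres H l (fun h : H => z ((e h : H') : G)) := by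
      unfold lres
      congr 1
      ext x
      unfold ext
      split_ifs with h
      · rfl
      · exact hz.2 _ fun h' => h ((hmem x).2 h')
    rw [h1, h2, ← hφ'.mem _ hz', ← hψ _ hzcomp]
    exact lam_comp red e hφ'.irr hz'
  · left
    rw [if_neg hψ, mul_zero]

omit [CharP k p] in
/-- **(C3)(iii)** the diagonal of the Gram matrix -/
theorem gram_self (H : Subgroup G) {l : (H → k) → k} {q : ℕ} (hq : q ≠ 0) {φ : H → ℂ}
    (hφ : ND red p l q φ) (u : G)
    (hu : ∃ a : ℕ, u ^ p ^ a = 1) (hH : ∀ x, x ∈ H ↔ x * u = u * x) :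
    ∑ χ : Irr G, dn p H q φ u χ.1 * (starRingEnd ℂ) (dn p H q φ u χ.1) = q := by
  rw [gram_eq p H H hφ.irr u u hu hu hH hH]
  have hH0 : (Nat.card H : ℂ) ≠ 0 := by exact_mod_cast Nat.card_pos.ne'
  have hq0 : (q : ℂ) ≠ 0 := by exact_mod_cast hq
  have h1 : ∀ g : G, (if g * u * g⁻¹ = u then
      rsum p (fun t : H => φ t⁻¹ * ext H φ (g * t * g⁻¹)) else 0) =
      if g ∈ H then rsum p (fun t : H => φ t * φ t⁻¹) else 0 := by
    intro g
    have hg : g * u * g⁻¹ = u ↔ g ∈ H := by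
      rw [hH, mul_inv_eq_iff_eq_mul]
    simp only [hg]
    split_ifs with h
    · rw [rsum_eq, rsum_eq]
      refine Finset.sum_congr rfl fun t _ => ?_
      have h3 : g * (t : G) * g⁻¹ = ((⟨g, h⟩ * t * ⟨g, h⟩⁻¹ : H) : G) := rfl
      rw [h3, ext, dif_pos (⟨g, h⟩ * t * ⟨g, h⟩⁻¹ : H).2, mul_comm]
      congr 1
      exact hφ.irr.conj ⟨g, h⟩ t
    · rfl
  rw [Finset.sum_congr rfl fun g _ => h1 g, ← Finset.sum_filter, Finset.sum_const, nsmul_eq_mul]
  have h2 : ((univ.filter fun g : G => g ∈ H).card : ℂ) = Nat.card H := by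
    rw [Nat.card_eq_fintype_card, Fintype.card_subtype]
  rw [h2]
  have h3 := hφ.nrm
  calc (q : ℂ) / Nat.card H * (q / Nat.card H) * (Nat.card H * rsum p fun t : H => φ t * φ t⁻¹) =
      q / Nat.card H * (q / Nat.card H * Nat.card H) * (rsum p fun t : H => φ t * φ t⁻¹) := by ring
    _ = q / Nat.card H * (q * rsum p fun t : H => φ t * φ t⁻¹) := by
      rw [div_mul_cancel₀ _ hH0]; ring
    _ = q := by rw [h3, div_mul_cancel₀ _ hH0]

end DN

end P179Y
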