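import Vale.Agent.P179.H166.Assemble
import Vale.Agent.P179.H143.TwoMT
import Vale.Agent.P179.H905.KRL
import Vale.Agent.P179.H524.Sec3

/-!
# Theorem C
-/

namespace P179C

open Subgroup P179H524

open scoped Classical

universe u

theorem stepL (p : ℕ) [hp : Fact p.Prime] : StepL.{0} p := by
  intro G _ _ z hz
  exact KR_L_of p (fun K z hz => nTr_modEq p z hz) z hz

theorem secStmt (p : ℕ) [hp : Fact p.Prime] (O : ValuationSubring ℂ)
    (hO : CharP (IsLocalRing.ResidueField O) p) : SecStmt p O :=
  fun _ _ _ z hz hz' => sec_cong p O z hz hz'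

theorem singStmt (p : ℕ) [hp : Fact p.Prime] (O : ValuationSubring ℂ)
    (hO : CharP (IsLocalRing.ResidueField O) p) : SingStmt p O :=
  fun _ _ _ z hz hz' => dz_sing p O z hz hz'

end P179C
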