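import Vale.Agent.P179.H166.Plus

/-!
# The functional theorem for a class of integer valued class functions
-/

namespace P179C

open Subgroup P179H524 P179A P179K

open scoped Classical Pointwise

/-- The properties of a class of integer valued class functions (on all finite groups) for which
the induction works. -/
structure GoodFun (p : ℕ) (𝒵 : ∀ (G : Type) [Group G], (G → ℤ) → Prop) : Prop where
  /-- restriction -/
  res : ∀ (G : Type) [Group G] [Finite G] (H : Subgroup G) (z : G → ℤ), IsCF z → 𝒵 G z →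
    𝒵 H (res H z)
  /-- quotients -/
  quot : ∀ (G : Type) [Group G] [Finite G] (R : Subgroup G) [R.Normal], IsPGroup p R →
    ∀ z : G → ℤ, IsCF z → 𝒵 G z → 𝒵 (G ⧸ R) (push (QuotientGroup.mk' R) z)
  /-- the singular part -/
  sing : ∀ (G : Type) [Group G] [Finite G] (z : G → ℤ), IsCF z → 𝒵 G z →
    ((Nat.card G * p : ℕ) : ℤ) ∣ FF p (fun g => z (pr p g) - z g)

section

variable {p : ℕ} [hp : Fact p.Prime] {𝒵 : ∀ (G : Type) [Group G], (G → ℤ) → Prop}

/-- (C4) Step 1, from the facts on sections and on `p`-singular classes. -/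
theorem step1_GF (h𝒵 : GoodFun p 𝒵) {G : Type} [Group G] [Finite G] (O : ValuationSubring ℂ) [CharP (IsLocalRing.ResidueField O) p]
    (hsec : ∀ z : G → ℤ, IsCF z →
      (∀ u v : G, u * v = v * u → (∃ n : ℕ, v ^ p ^ n = 1) → z (u * v) = z u) →
      Cong O (Nat.card G) (nTr z) (Nat.card G * dz p z))
    (hsing : ∀ z : G → ℤ, IsCF z → (∀ g : G, z g ≠ 0 → p ∣ orderOf g) → Cong O 1 (dz p z) 0)
    (z : G → ℤ) (hz : IsCF z) (hab : 𝒵 G z) :
    Cong O (Nat.card G) ((∑ s ∈ chains p G, (-1) ^ s.card * nTr (res (stab s) z) : ℤ) : ℂ)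
      (Nat.card G * dz p z) := by
  have hG0 : Nat.card G ≠ 0 := Nat.card_pos.ne'
  have hGC : (Nat.card G : ℂ) ≠ 0 := by exact_mod_cast hG0
  -- the section function and the difference
  let y : G → ℤ := fun g => z (pr p g)
  let w : G → ℤ := fun g => y g - z g
  have hy : IsCF y := by
    intro g x
    have h := P179C905.map_pr p (MulAut.conj g).toMonoidHom x
    have h' : g * pr p x * g⁻¹ = pr p (g * x * g⁻¹) := h
    change z (pr p (g * x * g⁻¹)) = z (pr p x)
    rw [← h', hz]
  have hw : IsCF w := fun g x => by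
    change y (g * x * g⁻¹) - z (g * x * g⁻¹) = y x - z x
    rw [hy, hz]
  have hyS : ∀ (K : Subgroup G) (u v : K), u * v = v * u → (∃ n : ℕ, v ^ p ^ n = 1) →
      res K y (u * v) = res K y u := by
    intro K u v huv hv
    obtain ⟨n, hn⟩ := hv
    change z (pr p ((u * v : K) : G)) = z (pr p (u : G))
    obtain ⟨a, h1, h2, ⟨m, hm⟩, h4⟩ := P179C905.pr_decomp p (u : G)
    have huv' : (u : G) * v = v * u := congrArg Subtype.val huv
    have hc : Commute (v : G) (pr p (u : G)) := by
      have : Commute (u : G) (v : G) := huv'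
      exact (this.pow_left _).symm
    have hca : Commute a (v : G) := by
      have e : a = (pr p (u : G))⁻¹ * u := by rw [eq_inv_mul_iff_mul_eq, h1]
      rw [e]
      have : Commute (u : G) (v : G) := huv'
      exact (hc.symm.inv_left).mul_left this
    have e : ((u * v : K) : G) = pr p (u : G) * (a * v) := by
      rw [Subgroup.coe_mul, ← mul_assoc, h1]
    rw [e]
    congr 1
    refine P179C905.pr_mul p ?_ (orderOf_pos _).ne' h4 ⟨m + n, ?_⟩
    · have h5 : Commute (pr p (u : G)) (a * (v : G)) :=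
        Commute.mul_right h2 hc.symm
      exact h5
    · have hn' : (v : G) ^ p ^ n = 1 := by
        have := congrArg Subtype.val hn
        simpa using this
      rw [hca.mul_pow, pow_add, pow_mul, hm, one_pow, one_mul, mul_comm, pow_mul, hn', one_pow]
  have hws : ∀ g, w g ≠ 0 → p ∣ orderOf g := by
    intro g hg
    by_contra h
    apply hg
    have e : pr p g = g := by
      have := P179C905.pr_mul p (a := g) (b := 1) (by simp) (orderOf_pos _).ne' h ⟨0, by simp⟩
      rwa [mul_one] at this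
    change z (pr p g) - z g = 0
    rw [e, sub_self]
  -- the section part
  have hyG : ∀ u v : G, u * v = v * u → (∃ n : ℕ, v ^ p ^ n = 1) → y (u * v) = y u := by
    intro u v huv hv
    obtain ⟨n, hn⟩ := hv
    exact hyS ⊤ ⟨u, mem_top _⟩ ⟨v, mem_top _⟩ (Subtype.ext huv) ⟨n, Subtype.ext hn⟩
  have h1 : ((Nat.card G * p : ℕ) : ℤ) ∣ FF p y - nTr y :=
    FF_dvd_aux y hy p fun s hs hne =>
      sec_normal p (not_opTrivial_stab hs hne) _ (isCF_res _ hy) (hyS (stab s))
  have h2 : ((Nat.card G * p : ℕ) : ℤ) ∣ FF p w := h𝒵.sing G z hz hab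
  have h3 := hsec y hy hyG
  have h4 := hsing w hw hws
  have hyw : z = fun g => y g - w g := by
    funext g
    change z g = y g - (y g - z g)
    ring
  have h5 : FF p z = (FF p y - nTr y) - FF p w + nTr y := by
    conv_lhs => rw [hyw]
    rw [FF_sub]; ring
  have h6 : dz p z = dz p y - dz p w := by
    conv_lhs => rw [hyw]
    rw [dz_sub]
  change Cong O (Nat.card G) ((FF p z : ℤ) : ℂ) (Nat.card G * dz p z)
  have h7 : ((Nat.card G * p : ℕ) : ℤ) ∣ (FF p y - nTr y) - FF p w := dvd_sub h1 h2
  have h8 := valuation_of_dvd O hG0 h7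
  unfold Cong at h3 h4 ⊢
  rw [Nat.cast_one, div_one, sub_zero] at h4
  have h9 : (((FF p z : ℤ) : ℂ) - Nat.card G * dz p z) / Nat.card G =
      ((((FF p y - nTr y) - FF p w : ℤ) : ℂ) / Nat.card G +
        ((nTr y : ℂ) - Nat.card G * dz p y) / Nat.card G) + dz p w := by
    rw [h5, h6]
    push_cast
    field_simp
    ring
  rw [h9]
  exact O.valuation.map_add_lt (O.valuation.map_add_lt h8 h3) h4


end

/-- (C4) as a hypothesis -/
def Step1F (p : ℕ) (𝒵 : ∀ (G : Type) [Group G], (G → ℤ) → Prop) (O : ValuationSubring ℂ) : Prop :=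
  ∀ (G : Type) [Group G] [Finite G] (z : G → ℤ), IsCF z → 𝒵 G z →
    Cong O (Nat.card G) ((∑ s ∈ chains p G, (-1) ^ s.card * nTr (res (stab s) z) : ℤ) : ℂ)
      (Nat.card G * dz p z)

/-- (C7) as a hypothesis -/
def StepQF (p : ℕ) : Prop :=
  ∀ (G : Type) [Group G] [Finite G] (R : Subgroup G) [R.Normal], IsPGroup p R →
    ∀ (z : G → ℤ), IsCF z →
      nL p z = Nat.card R * nL p (push (QuotientGroup.mk' R) z) ∧
      nW p z = Nat.card R * nW p (push (QuotientGroup.mk' R) z)

/-- (C8) from (C4), (C5), (C7). -/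
theorem main_GF_of (p : ℕ) [hp : Fact p.Prime] {𝒵 : ∀ (G : Type) [Group G], (G → ℤ) → Prop} (h𝒵 : GoodFun p 𝒵) (O : ValuationSubring ℂ)
    [CharP (IsLocalRing.ResidueField O) p] (h1 : Step1F p 𝒵 O) (hL : StepL.{0} p)
    (hQ : StepQF p) : ∀ (n : ℕ) (G : Type) [Group G] [Finite G], Nat.card G = n →
    ∀ (z : G → ℤ), IsCF z → 𝒵 G z → Cong O (Nat.card G) (nL p z) (nW p z) := by
  intro n
  induction n using Nat.strong_induction_on with
  | _ n ih =>
  intro G _ _ hn z hz hab
  have := Fintype.ofFinite G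
  have hG0 : (Nat.card G : ℂ) ≠ 0 := by exact_mod_cast Nat.card_pos.ne'
  by_cases hO : OpTrivial p G
  · have := Fintype.ofFinite (neChains p G)
    have hA := h1 G z hz hab
    have hB := hL G z hz
    have hC := KR_W p z hz
    -- the alternating sum of `nL - nW`
    have hD : O.valuation ((∑ s ∈ chains p G, (-1 : ℂ) ^ s.card *
        ((nL p (res (stab s) z) : ℂ) - nW p (res (stab s) z))) / Nat.card G) < 1 := by
      have h2 : (∑ s ∈ chains p G, (-1 : ℂ) ^ s.card *
          ((nL p (res (stab s) z) : ℂ) - nW p (res (stab s) z))) / Nat.card G =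
          ((((∑ s ∈ chains p G, (-1) ^ s.card * nTr (res (stab s) z) : ℤ) : ℂ) -
            (Nat.card G * dz p z)) / Nat.card G) -
          ((∑ s ∈ chains p G, (-1) ^ s.card *
            (nTr (res (stab s) z) - nL p (res (stab s) z)) : ℤ) : ℂ) / Nat.card G := by
        rw [← hC, ← sub_div]
        congr 1
        push_cast
        simp only [← Finset.sum_sub_distrib]
        exact Finset.sum_congr rfl fun s _ => by ring
      rw [h2]
      exact O.valuation.map_sub_lt hA (valuation_of_dvd O Nat.card_pos.ne' hB)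
    rw [sum_chains_eq'] at hD
    have hF : O.valuation ((∑ s : neChains p G, (-1 : ℂ) ^ s.1.card *
        ((nL p (res (stab s.1) z) : ℂ) - nW p (res (stab s.1) z))) / Nat.card G) < 1 := by
      refine orb_sum_val O (fun s : neChains p G => (-1 : ℂ) ^ s.1.card *
        ((nL p (res (stab s.1) z) : ℂ) - nW p (res (stab s.1) z))) ?_ ?_
      · intro g s
        have key : ∀ t : Finset (Subgroup G), (-1 : ℂ) ^ (g • t).card *
            ((nL p (res (stab (g • t)) z) : ℂ) - nW p (res (stab (g • t)) z)) =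
            (-1 : ℂ) ^ t.card * ((nL p (res (stab t) z) : ℂ) - nW p (res (stab t) z)) := by
          intro t
          rw [card_smul, ← nL_comp (stabEquiv g t), ← nW_comp (stabEquiv g t),
            res_stab_smul hz g t]
        exact key s.1
      · intro s
        rw [stabilizer_neChains, mul_div_assoc, map_mul, map_pow]
        have h3 : O.valuation (-1 : ℂ) = 1 := by rw [Valuation.map_neg, map_one]
        rw [h3, one_pow, one_mul]
        exact ih (Nat.card (stab s.1)) (hn ▸ card_stab_lt p hO s.2.1 s.2.2) (stab s.1) rfl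
          (res (stab s.1) z) (isCF_res _ hz) (h𝒵.res G _ z hz hab)
    rw [add_div] at hD
    have hG := O.valuation.map_sub_lt hD hF
    rw [add_sub_cancel_right] at hG
    have e : stab (∅ : Finset (Subgroup G)) ≃* G := by
      rw [P179K.stab_empty]; exact topEquiv
    have e' : ∃ e : G ≃* stab (∅ : Finset (Subgroup G)), ∀ x, (e x : G) = x := by
      rw [P179K.stab_empty]; exact ⟨topEquiv.symm, fun _ => rfl⟩
    obtain ⟨e, he⟩ := e'
    have h4 : (fun x => res (stab (∅ : Finset (Subgroup G))) z (e x)) = z := by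
      ext x
      exact congrArg z (he x)
    rw [Finset.card_empty, pow_zero, one_mul, ← nL_comp e, ← nW_comp e, h4] at hG
    exact hG
  · simp only [OpTrivial, not_forall] at hO
    obtain ⟨R, hR, hRp, hR1⟩ := hO
    obtain ⟨hq1, hq2⟩ := hQ G R hRp z hz
    have h2 : Nat.card G = Nat.card (G ⧸ R) * Nat.card R :=
      card_eq_card_quotient_mul_card_subgroup R
    have h3 : 1 < Nat.card R := by
      rw [Subgroup.one_lt_card_iff_ne_bot]; exact hR1
    have h4 : 0 < Nat.card (G ⧸ R) := Nat.card_pos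
    have h5 := ih (Nat.card (G ⧸ R)) (by rw [← hn, h2]; nlinarith) (G ⧸ R) rfl
      (push (QuotientGroup.mk' R) z) (isCF_push _ (QuotientGroup.mk'_surjective R) hz) (h𝒵.quot G R hRp z hz hab)
    unfold Cong at h5 ⊢
    rw [hq1, hq2, h2]
    have h6 : (Nat.card R : ℂ) ≠ 0 := by exact_mod_cast Nat.card_pos.ne'
    have h7 : (Nat.card (G ⧸ R) : ℂ) ≠ 0 := by exact_mod_cast h4.ne'
    convert h5 using 2
    push_cast
    field_simp


theorem main_GF (p : ℕ) [hp : Fact p.Prime] {𝒵 : ∀ (G : Type) [Group G], (G → ℤ) → Prop}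
    (h𝒵 : GoodFun p 𝒵) (O : ValuationSubring ℂ)
    [hO : CharP (IsLocalRing.ResidueField O) p] {G : Type} [Group G] [Finite G] (z : G → ℤ)
    (hz : IsCF z) (hab : 𝒵 G z) : Cong O (Nat.card G) (nL p z) (nW p z) :=
  main_GF_of p h𝒵 O (fun _ _ _ z hz hab => step1_GF h𝒵 O
      (fun z hz hz' => sec_cong p O z hz hz') (fun z hz hz' => dz_sing p O z hz hz') z hz hab)
    (stepL p) (fun _ _ _ R _ hR z hz => ⟨nL_quot p R hR z hz, nW_quot p R hR z hz⟩)
    (Nat.card G) G rfl z hz hab

end P179C
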