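import Mathlib

/-!
# A bound for the number of rows
-/

namespace P179Y

open Finset

open scoped Classical

/-- the dual form of a quadratic form bound -/
theorem dual_bound {W I : Type*} [Fintype W] [Fintype I] (K : ℝ) (hK0 : 0 ≤ K) (A : I → W → ℝ)
    (hform : ∀ x : W → ℝ, ∑ i, (∑ w, x w * A i w) ^ 2 ≤ K * ∑ w, x w ^ 2) (R : Finset I)
    (s : I → ℝ) (hs : ∀ i, s i ^ 2 = 1) :
    ∑ w, (∑ i ∈ R, s i * A i w) ^ 2 ≤ K * R.card := by
  set x : W → ℝ := fun w => ∑ i ∈ R, s i * A i w with hx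
  set X : ℝ := ∑ w, x w ^ 2 with hX
  set Y : I → ℝ := fun i => ∑ w, x w * A i w with hY
  have hX0 : 0 ≤ X := Finset.sum_nonneg fun w _ => sq_nonneg _
  have h1 : X = ∑ i ∈ R, s i * Y i := by
    simp only [hY, Finset.mul_sum]
    rw [Finset.sum_comm]
    refine Finset.sum_congr rfl fun w _ => ?_
    rw [sq]
    nth_rewrite 2 [hx]
    simp only
    rw [Finset.mul_sum]
    refine Finset.sum_congr rfl fun i _ => ?_
    ring
  have h2 : X ^ 2 ≤ (∑ i ∈ R, s i ^ 2) * ∑ i ∈ R, Y i ^ 2 := by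
    rw [h1]
    exact Finset.sum_mul_sq_le_sq_mul_sq R s Y
  have h3 : ∑ i ∈ R, s i ^ 2 = R.card := by
    rw [Finset.sum_congr rfl fun i _ => hs i]
    simp
  have h4 : ∑ i ∈ R, Y i ^ 2 ≤ K * X :=
    (Finset.sum_le_sum_of_subset_of_nonneg (Finset.subset_univ R)
      fun i _ _ => sq_nonneg _).trans (hform x)
  rw [h3] at h2
  have h5 : X * X ≤ X * (K * R.card) := by
    have := mul_le_mul_of_nonneg_left h4 (Nat.cast_nonneg (α := ℝ) R.card)
    nlinarith
  rcases hX0.eq_or_lt with h | h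
  · rw [← h]; positivity
  · exact le_of_mul_le_mul_left h5 h

/-- the key arithmetic -/
theorem arith_key {t y s σ b : ℝ} (ht : 1 ≤ t) (hty : t ≤ y) (hσ : σ ^ 2 ≤ y * t) (hσ0 : 0 ≤ σ)
    (hb0 : 0 ≤ b) (hb : t * b ≤ σ) (hs : s = σ + b) : s ≤ y + 1 := by
  have h1 : t * s ≤ (t + 1) * σ := by rw [hs]; linarith
  have hs0 : 0 ≤ s := by rw [hs]; positivity
  have h2 : (t * s) ^ 2 ≤ ((t + 1) * σ) ^ 2 := by
    apply pow_le_pow_left₀ (by positivity) h1
  have h3 : ((t + 1) * σ) ^ 2 ≤ (t + 1) ^ 2 * (y * t) := by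
    rw [mul_pow]
    exact mul_le_mul_of_nonneg_left hσ (by positivity)
  have h4 : (t + 1) ^ 2 * (y * t) ≤ t ^ 2 * (y + 1) ^ 2 := by
    have h5 : 0 ≤ t * ((t * y - 1) * (y - t)) := by
      apply mul_nonneg (by linarith)
      apply mul_nonneg
      · nlinarith
      · linarith
    nlinarith
  have h6 : t ^ 2 * s ^ 2 ≤ t ^ 2 * (y + 1) ^ 2 := by
    rw [← mul_pow]
    exact h2.trans (h3.trans h4)
  have h7 : s ^ 2 ≤ (y + 1) ^ 2 := le_of_mul_le_mul_left h6 (by positivity)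
  exact (le_abs_self s).trans (abs_le_of_sq_le_sq h7 (by linarith))

theorem rows_bound {W I : Type*} [Fintype W] [Fintype I] {p : ℕ} (K : ℝ)
    (hK0 : 0 ≤ K) (A : I → W → ℤ)
    (hA : ∀ i, ∃ a : ℤ, ¬ (p : ℤ) ∣ a ∧ ∀ w, A i w ≡ a [ZMOD p])
    (hform : ∀ x : W → ℝ, ∑ i, (∑ w, x w * A i w) ^ 2 ≤ K * ∑ w, x w ^ 2)
    (hodd : ¬ 2 ∣ p) (hK : 2 * K ≤ (p - 3) * Fintype.card W) :
    (Fintype.card I : ℝ) * Fintype.card W ≤ K := by
  by_contra hcon
  push Not at hcon
  have hW : 0 < (Fintype.card W : ℝ) := by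
    by_contra h
    have h0 : (Fintype.card W : ℝ) = 0 := le_antisymm (not_lt.1 h) (Nat.cast_nonneg _)
    rw [h0, mul_zero] at hcon
    linarith
  have hp0 : 0 < (p : ℤ) := by
    by_contra h
    have h0 : p = 0 := by omega
    exact hodd (h0 ▸ dvd_zero 2)
  -- normalisation
  have hnorm : ∀ i, ∃ (s : ℤ) (b : ℕ), s ^ 2 = 1 ∧ 1 ≤ b ∧ 2 * b + 1 ≤ p ∧
      ∀ w, s * A i w ≡ b [ZMOD p] := by
    intro i
    obtain ⟨a, ha, haw⟩ := hA i
    set r := a % p with hr
    have hr0 : 0 ≤ r := Int.emod_nonneg _ hp0.ne'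
    have hrp : r < p := Int.emod_lt_of_pos _ hp0
    have hr1 : r ≠ 0 := fun h => ha (Int.dvd_of_emod_eq_zero h)
    have hra : a ≡ r [ZMOD p] := (Int.mod_modEq _ _).symm
    by_cases h : 2 * r + 1 ≤ p
    · refine ⟨1, r.toNat, by norm_num, by omega, by omega, fun w => ?_⟩
      rw [one_mul, Int.toNat_of_nonneg hr0]
      exact (haw w).trans hra
    · refine ⟨-1, (p - r).toNat, by norm_num, by omega, by omega, fun w => ?_⟩
      rw [Int.toNat_of_nonneg (by omega)]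
      have h1 : -1 * A i w ≡ -1 * r [ZMOD p] := ((haw w).trans hra).mul_left _
      refine h1.trans ?_
      rw [Int.modEq_iff_dvd]
      exact ⟨1, by ring⟩
  choose s b hs hb1 hbp hsb using hnorm
  -- minimal set
  set w : ℝ := (Fintype.card W : ℝ) with hwdef
  have hex : ∃ m : ℕ, ∃ R : Finset I, R.card = m ∧ K * R.card < (∑ i ∈ R, (b i : ℝ)) ^ 2 * w := by
    refine ⟨_, Finset.univ, rfl, ?_⟩
    rw [Finset.card_univ]
    have h1 : (Fintype.card I : ℝ) ≤ ∑ i, (b i : ℝ) := by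
      calc (Fintype.card I : ℝ) = ∑ _i : I, (1 : ℝ) := by simp
        _ ≤ _ := Finset.sum_le_sum fun i _ => by exact_mod_cast hb1 i
    have hI : 0 < (Fintype.card I : ℝ) := by
      by_contra h
      have h0 : (Fintype.card I : ℝ) = 0 := le_antisymm (not_lt.1 h) (Nat.cast_nonneg _)
      rw [h0, zero_mul] at hcon
      linarith
    calc K * (Fintype.card I : ℝ) < ((Fintype.card I : ℝ) * w) * Fintype.card I :=
          mul_lt_mul_of_pos_right hcon hI
      _ = (Fintype.card I : ℝ) ^ 2 * w := by ring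
      _ ≤ _ := mul_le_mul_of_nonneg_right (pow_le_pow_left₀ hI.le h1 2) hW.le
  set m := Nat.find hex with hm
  obtain ⟨R, hRm, hR⟩ := Nat.find_spec hex
  have hmin : ∀ R' : Finset I, R'.card < m → (∑ i ∈ R', (b i : ℝ)) ^ 2 * w ≤ K * R'.card := by
    intro R' hR'
    have := Nat.find_min hex hR'
    push Not at this
    exact this R' rfl
  have hRne : R.Nonempty := by
    rw [Finset.nonempty_iff_ne_empty]
    rintro rfl
    simp at hR
  obtain ⟨i₀, hi₀, hi₀min⟩ := Finset.exists_min_image R b hRne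
  set S : ℝ := ∑ i ∈ R, (b i : ℝ) with hS
  set σ : ℝ := ∑ i ∈ R.erase i₀, (b i : ℝ) with hσ
  have hSσ : S = σ + b i₀ := by
    rw [hS, hσ, Finset.sum_erase_add _ _ hi₀]
  have hcard : (R.erase i₀).card = R.card - 1 := Finset.card_erase_of_mem hi₀
  have hRpos : 1 ≤ R.card := Finset.card_pos.2 hRne
  -- the sum is small
  have hp3 : 2 * (∑ i ∈ R, b i) + 1 ≤ p := by
    by_cases h1 : R.card = 1
    · obtain ⟨j, hj⟩ := Finset.card_eq_one.1 h1
      rw [hj, Finset.sum_singleton]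
      exact hbp j
    · have hlt : (R.erase i₀).card < m := by rw [hcard, hm, ← hRm]; omega
      have h2 := hmin _ hlt
      set t : ℝ := ((R.erase i₀).card : ℝ) with ht
      have ht1 : 1 ≤ t := by
        rw [ht, hcard]
        exact_mod_cast (by omega : 1 ≤ R.card - 1)
      have h3 : t ≤ σ := by
        calc t = ∑ _i ∈ R.erase i₀, (1 : ℝ) := by simp [ht]
          _ ≤ _ := Finset.sum_le_sum fun i _ => by exact_mod_cast hb1 i
      have h4 : t * b i₀ ≤ σ := by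
        calc t * b i₀ = ∑ _i ∈ R.erase i₀, (b i₀ : ℝ) := by simp [ht]
          _ ≤ _ := Finset.sum_le_sum fun i hi => by
            exact_mod_cast hi₀min i (Finset.mem_of_mem_erase hi)
      set y : ℝ := K / w with hy
      have hyw : y * w = K := div_mul_cancel₀ _ hW.ne'
      have h5 : σ ^ 2 ≤ y * t := by
        apply le_of_mul_le_mul_right _ hW
        calc σ ^ 2 * w ≤ K * t := h2
          _ = y * t * w := by rw [← hyw]; ring
      have h6 : t ≤ y := by
        have h7 : t ^ 2 ≤ σ ^ 2 := pow_le_pow_left₀ (by linarith) h3 2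
        have h8 : t * t ≤ y * t := by rw [← sq]; exact h7.trans h5
        exact le_of_mul_le_mul_right h8 (by linarith)
      have h9 := arith_key ht1 h6 h5 (by linarith) (Nat.cast_nonneg (α := ℝ) (b i₀)) h4 hSσ
      have h10 : 2 * y ≤ p - 3 := by
        apply le_of_mul_le_mul_right _ hW
        calc 2 * y * w = 2 * K := by rw [← hyw]; ring
          _ ≤ _ := hK
      have h11 : 2 * S + 1 ≤ p := by linarith
      have h12 : ((2 * (∑ i ∈ R, b i) + 1 : ℕ) : ℝ) ≤ p := by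
        push_cast
        exact h11
      exact_mod_cast h12
  -- the contradiction
  have hform' := dual_bound K hK0 (fun i w => (A i w : ℝ)) hform R (fun i => (s i : ℝ))
    (fun i => by exact_mod_cast hs i)
  have hlow : ∀ v : W, S ^ 2 ≤ (∑ i ∈ R, (s i : ℝ) * (A i v : ℝ)) ^ 2 := by
    intro v
    set n : ℤ := ∑ i ∈ R, s i * A i v with hn
    set c : ℕ := ∑ i ∈ R, b i with hc
    have h1 : n ≡ c [ZMOD p] := by
      rw [hn, hc]
      push_cast
      exact Int.ModEq.sum fun i _ => hsb i v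
    have h2 : (c : ℤ) ^ 2 ≤ n ^ 2 := by
      obtain ⟨z, hz⟩ := (Int.modEq_iff_dvd.1 h1)
      have hnz : n = c - p * z := by linarith
      have hc0 : (0 : ℤ) ≤ c := Int.natCast_nonneg _
      have hcp : 2 * (c : ℤ) + 1 ≤ p := by exact_mod_cast hp3
      rcases lt_trichotomy z 0 with h | h | h
      · have : (c : ℤ) ≤ n := by nlinarith
        exact pow_le_pow_left₀ hc0 this 2
      · rw [hnz, h]; simp
      · have : (c : ℤ) ≤ -n := by nlinarith
        calc (c : ℤ) ^ 2 ≤ (-n) ^ 2 := pow_le_pow_left₀ hc0 this 2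
          _ = n ^ 2 := by ring
    have h3 : ((c : ℤ) : ℝ) = S := by
      rw [hS, hc]; push_cast; rfl
    have h4 : ((n : ℤ) : ℝ) = ∑ i ∈ R, (s i : ℝ) * (A i v : ℝ) := by
      rw [hn]; push_cast; rfl
    rw [← h3, ← h4]
    exact_mod_cast h2
  have h1 : w * S ^ 2 ≤ K * R.card := by
    calc w * S ^ 2 = ∑ _v : W, S ^ 2 := by simp [hwdef]
      _ ≤ ∑ v : W, (∑ i ∈ R, (s i : ℝ) * (A i v : ℝ)) ^ 2 := Finset.sum_le_sum fun v _ => hlow v
      _ ≤ _ := hform'
  linarith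

/-- variant: the rows have no zero entry -/
theorem rows_bound' {W I : Type*} [Fintype W] [Fintype I] {p : ℕ} (K : ℝ)
    (hK0 : 0 < K) (A : I → W → ℤ) (hA0 : ∀ i w, A i w ≠ 0)
    (hA : ∀ i, ∃ a : ℤ, ∀ w, A i w ≡ a [ZMOD p])
    (hform : ∀ x : W → ℝ, ∑ i, (∑ w, x w * A i w) ^ 2 ≤ K * ∑ w, x w ^ 2)
    (hodd : ¬ 2 ∣ p) (hK : 2 * K ≤ (p - 3) * Fintype.card W) :
    (Fintype.card I : ℝ) * Fintype.card W ≤ K := by
  refine rows_bound K hK0.le A (fun i => ?_) hform hodd hK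
  obtain ⟨a, ha⟩ := hA i
  refine ⟨a, fun hpa => ?_, ha⟩
  have hp3 : (0 : ℝ) < (p - 3) * Fintype.card W := lt_of_lt_of_le (by positivity) hK
  have hW : 0 < (Fintype.card W : ℝ) := by
    by_contra h
    have h0 : (Fintype.card W : ℝ) = 0 := le_antisymm (not_lt.1 h) (Nat.cast_nonneg _)
    rw [h0, mul_zero] at hp3
    exact lt_irrefl _ hp3
  have h1 := dual_bound K hK0.le (fun i w => (A i w : ℝ)) hform {i} (fun _ => 1) (fun _ => by norm_num)
  simp only [Finset.sum_singleton, one_mul, Finset.card_singleton, Nat.cast_one, mul_one] at h1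
  have h2 : ∀ w, (p : ℝ) ^ 2 ≤ (A i w : ℝ) ^ 2 := by
    intro w
    have h3 : (p : ℤ) ∣ A i w := (Int.ModEq.dvd_iff (ha w)).2 hpa
    obtain ⟨c, hc⟩ := h3
    have hc0 : c ≠ 0 := by
      rintro rfl
      exact hA0 i w (by rw [hc, mul_zero])
    have h4 : 1 ≤ c ^ 2 := by
      have := sq_pos_of_ne_zero hc0
      omega
    have h5 : (p : ℤ) ^ 2 ≤ A i w ^ 2 := by
      rw [hc, mul_pow]
      exact le_mul_of_one_le_right (sq_nonneg _) h4
    exact_mod_cast h5
  have h3 : (Fintype.card W : ℝ) * (p : ℝ) ^ 2 ≤ K := by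
    calc (Fintype.card W : ℝ) * (p : ℝ) ^ 2 = ∑ _w : W, (p : ℝ) ^ 2 := by simp
      _ ≤ ∑ w, (A i w : ℝ) ^ 2 := Finset.sum_le_sum fun w _ => h2 w
      _ ≤ _ := h1
  have h6 : 2 * ((Fintype.card W : ℝ) * (p : ℝ) ^ 2) ≤ (p - 3) * Fintype.card W := by linarith
  have h7 : 2 * (p : ℝ) ^ 2 ≤ p - 3 := by
    apply le_of_mul_le_mul_right _ hW
    linarith
  nlinarith [sq_nonneg ((p : ℝ) - 1)]

end P179Y
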