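import Vale.Agent.P179.H143.CFun

/-!
# The `p`-regular part of an element
-/

namespace P179C

open Subgroup

variable {p : ℕ} [hp : Fact p.Prime] {G : Type*} [Group G]

theorem prExp_spec (n : ℕ) (hn : n ≠ 0) :
    ordProj[p] n ∣ prExp p n ∧ prExp p n ≡ 1 [MOD ordCompl[p] n] := by
  have h : ∃ e : ℕ, ordProj[p] n ∣ e ∧ e ≡ 1 [MOD ordCompl[p] n] := by
    have hc : Nat.Coprime (ordProj[p] n) (ordCompl[p] n) :=
      (Nat.coprime_ordCompl hp.out hn).pow_left _
    obtain ⟨e, h1, h2⟩ := Nat.chineseRemainder hc 0 1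
    exact ⟨e, (Nat.modEq_zero_iff_dvd).1 h1, h2⟩
  unfold prExp
  rw [dif_pos h]
  exact h.choose_spec

/-- characterisation of the exponents -/
theorem pow_eq_pr [Finite G] (y : G) (e : ℕ) (h1 : ordProj[p] (orderOf y) ∣ e)
    (h2 : e ≡ 1 [MOD ordCompl[p] (orderOf y)]) : y ^ e = pr p y := by
  have hn : orderOf y ≠ 0 := (orderOf_pos y).ne'
  obtain ⟨h3, h4⟩ := prExp_spec (p := p) (orderOf y) hn
  unfold pr
  rw [pow_eq_pow_iff_modEq]
  have hc : Nat.Coprime (ordProj[p] (orderOf y)) (ordCompl[p] (orderOf y)) :=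
    (Nat.coprime_ordCompl hp.out hn).pow_left _
  have h5 : e ≡ prExp p (orderOf y) [MOD ordProj[p] (orderOf y) * ordCompl[p] (orderOf y)] := by
    rw [← Nat.modEq_and_modEq_iff_modEq_mul hc]
    exact ⟨((Nat.modEq_zero_iff_dvd).2 h1).trans ((Nat.modEq_zero_iff_dvd).2 h3).symm,
      h2.trans h4.symm⟩
  rwa [Nat.ordProj_mul_ordCompl_eq_self] at h5

theorem pr_regular [Finite G] (y : G) : ¬ p ∣ orderOf (pr p y) := by
  have hn : orderOf y ≠ 0 := (orderOf_pos y).ne'
  obtain ⟨h3, -⟩ := prExp_spec (p := p) (orderOf y) hn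
  have h1 : orderOf (pr p y) ∣ ordCompl[p] (orderOf y) := by
    apply orderOf_dvd_of_pow_eq_one
    unfold pr
    rw [← pow_mul, ← orderOf_dvd_iff_pow_eq_one]
    conv_lhs => rw [← Nat.ordProj_mul_ordCompl_eq_self (orderOf y) p]
    exact Nat.mul_dvd_mul h3 dvd_rfl
  exact fun h => Nat.not_dvd_ordCompl hp.out hn (h.trans h1)

omit hp in
theorem pr_commute (y : G) : Commute y (pr p y) := (Commute.refl y).pow_right _

theorem pr_sing [Finite G] (y : G) : ∃ n : ℕ, (y * (pr p y)⁻¹) ^ p ^ n = 1 := by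
  have hn : orderOf y ≠ 0 := (orderOf_pos y).ne'
  obtain ⟨-, h4⟩ := prExp_spec (p := p) (orderOf y) hn
  refine ⟨(orderOf y).factorization p, ?_⟩
  have hcomm : Commute y (pr p y)⁻¹ := (pr_commute y).inv_right
  rw [hcomm.mul_pow, inv_pow, mul_inv_eq_one]
  unfold pr
  rw [← pow_mul, pow_eq_pow_iff_modEq]
  have := Nat.ModEq.mul_left' (ordProj[p] (orderOf y)) h4
  rw [Nat.ordProj_mul_ordCompl_eq_self, mul_one] at this
  rw [mul_comm (prExp p (orderOf y))]
  exact this.symm

omit hp in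
theorem orderOf_conj (g y : G) : orderOf (g * y * g⁻¹) = orderOf y := by
  have := orderOf_injective (MulAut.conj g).toMonoidHom (MulAut.conj g).injective y
  simpa using this

omit hp in
theorem pr_conj (g y : G) : pr p (g * y * g⁻¹) = g * pr p y * g⁻¹ := by
  unfold pr
  rw [orderOf_conj, conj_pow]

omit hp in
theorem pr_map {H : Type*} [Group H] (f : G →* H) (hf : Function.Injective f) (y : G) :
    pr p (f y) = f (pr p y) := by
  unfold pr
  rw [orderOf_injective f hf, map_pow]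

omit hp in
theorem pr_coe {H : Subgroup G} (y : H) : ((pr p y : H) : G) = pr p (y : G) :=
  (pr_map H.subtype (Subgroup.subtype_injective H) y).symm

theorem pr_eq [Finite G] {u v : G} (huv : Commute u v) (hu : ¬ p ∣ orderOf u)
    (hv : ∃ n : ℕ, v ^ p ^ n = 1) : pr p (u * v) = u := by
  obtain ⟨n, hn⟩ := hv
  obtain ⟨m, -, hm⟩ := (Nat.dvd_prime_pow hp.out).1 (orderOf_dvd_of_pow_eq_one hn)
  have hcop : Nat.Coprime (orderOf u) (orderOf v) := by
    rw [hm]
    exact (((Nat.Prime.coprime_iff_not_dvd hp.out).2 hu).pow_left _).symm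
  have ho : orderOf (u * v) = p ^ m * orderOf u := by
    rw [huv.orderOf_mul_eq_mul_orderOf_of_coprime hcop, hm, mul_comm]
  have hu0 : orderOf u ≠ 0 := (orderOf_pos u).ne'
  have h1 : (orderOf (u * v)).factorization p = m := by
    rw [ho, Nat.factorization_mul (pow_ne_zero _ hp.out.ne_zero) hu0, Finsupp.add_apply,
      Nat.factorization_eq_zero_of_not_dvd hu, hp.out.factorization_pow, Finsupp.single_eq_same,
      add_zero]
  have h2 : ordProj[p] (orderOf (u * v)) = orderOf v := by rw [h1, hm]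
  have h3 : ordCompl[p] (orderOf (u * v)) = orderOf u := by
    rw [h1, ho, Nat.mul_div_cancel_left _ (pow_pos hp.out.pos _)]
  obtain ⟨h4, h5⟩ := prExp_spec (p := p) (orderOf (u * v)) (orderOf_pos _).ne'
  rw [h2] at h4
  rw [h3] at h5
  unfold pr
  rw [huv.mul_pow, orderOf_dvd_iff_pow_eq_one.1 h4, mul_one]
  conv_rhs => rw [← pow_one u]
  rwa [pow_eq_pow_iff_modEq]

theorem pr_of_regular [Finite G] {u : G} (hu : ¬ p ∣ orderOf u) : pr p u = u := by
  have := pr_eq (p := p) (Commute.one_right u) hu ⟨0, by simp⟩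
  rwa [mul_one] at this

theorem pr_pr [Finite G] (y : G) : pr p (pr p y) = pr p y := pr_of_regular (pr_regular y)

/-- A large power of `p` as exponent gives the `p`-regular part. -/
theorem exists_pow_eq_pr (p : ℕ) [hp : Fact p.Prime] (G : Type*) [Group G] [Finite G] (M : ℕ) :
    ∃ m : ℕ, M ≤ m ∧ ∀ g : G, g ^ p ^ m = pr p g := by
  set N := Nat.card G with hN
  have hN0 : N ≠ 0 := Nat.card_pos.ne'
  have hc : Nat.Coprime p (ordCompl[p] N) := Nat.coprime_ordCompl hp.out hN0
  set t := Nat.totient (ordCompl[p] N) with ht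
  have ht0 : 0 < t := Nat.totient_pos.2 (Nat.ordCompl_pos p hN0)
  refine ⟨t * (N + M), ?_, ?_⟩
  · exact (Nat.le_add_left M N).trans (Nat.le_mul_of_pos_left _ ht0)
  intro g
  have hdvd : orderOf g ∣ N := orderOf_dvd_natCard g
  apply pow_eq_pr
  · apply pow_dvd_pow
    have h1 : (orderOf g).factorization p ≤ N := by
      have h2 := (Nat.factorization_lt p (orderOf_pos g).ne').le
      have h3 : orderOf g ≤ N := Nat.le_of_dvd (Nat.pos_of_ne_zero hN0) hdvd
      exact h2.trans h3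
    exact h1.trans ((Nat.le_add_right N M).trans (Nat.le_mul_of_pos_left _ ht0))
  · have h1 : ordCompl[p] (orderOf g) ∣ ordCompl[p] N := Nat.ordCompl_dvd_ordCompl_of_dvd hdvd p
    have h2 : p ^ (t * (N + M)) ≡ 1 [MOD ordCompl[p] N] := by
      rw [pow_mul]
      have := (Nat.ModEq.pow_totient hc).pow (N + M)
      rwa [one_pow] at this
    exact h2.of_dvd h1

end P179C
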