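import Vale.Agent.P179.H143.Words

/-!
# The action of the group algebra on class functions, and traces
-/

namespace P179C

open Finset

variable {K F : Type*} [Group K] [Fintype K]

theorem lin_add [CommRing F] (f : K → F) (x y : MonoidAlgebra F K) :
    lin f (x + y) = lin f x + lin f y := by
  simp [lin, add_mul, Finset.sum_add_distrib]

theorem lin_smul [CommRing F] (f : K → F) (c : F) (x : MonoidAlgebra F K) :
    lin f (c • x) = c * lin f x := by
  simp [lin, Finset.mul_sum, mul_assoc]

omit [Group K] in
theorem lin_single [CommRing F] (f : K → F) (g : K) (c : F) :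
    lin f (MonoidAlgebra.single g c) = c * f g := by
  classical
  simp [lin, MonoidAlgebra.coeff_single, Finsupp.single_apply]

/-- `lin f` as a linear map. -/
noncomputable def linL [CommRing F] (f : K → F) : MonoidAlgebra F K →ₗ[F] F where
  toFun := lin f
  map_add' := lin_add f
  map_smul' := fun c x => by rw [lin_smul]; rfl

theorem linL_apply [CommRing F] (f : K → F) (x : MonoidAlgebra F K) : linL f x = lin f x := rfl

theorem lin_sum [CommRing F] (f : K → F) {ι : Type*} (s : Finset ι) (x : ι → MonoidAlgebra F K) :
    lin f (∑ i ∈ s, x i) = ∑ i ∈ s, lin f (x i) := by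
  rw [← linL_apply, map_sum]; rfl

omit [Group K] in
theorem eq_sum_single [CommRing F] (x : MonoidAlgebra F K) :
    x = ∑ g, MonoidAlgebra.single g (x.coeff g) := by
  classical
  ext k
  rw [MonoidAlgebra.coeff_sum, Finsupp.finsetSum_apply, Finset.sum_eq_single k]
  · simp
  · intro y _ hy
    simp [hy]
  · simp

/-- `lin f (a * y)` in terms of the coefficients of `a`. -/
theorem lin_mul_single [CommRing F] (f : K → F) (a : MonoidAlgebra F K) (y : K) :
    lin f (a * MonoidAlgebra.single y 1) = ∑ g, a.coeff g * f (g * y) := by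
  classical
  conv_lhs => rw [eq_sum_single a, Finset.sum_mul, lin_sum]
  refine Finset.sum_congr rfl fun g _ => ?_
  rw [MonoidAlgebra.single_mul_single, lin_single, mul_one]

/-- The operator `f ↦ (y ↦ f (a y))`. -/
noncomputable def T [CommRing F] (a : MonoidAlgebra F K) : (K → F) →ₗ[F] (K → F) where
  toFun f := fun y => lin f (a * MonoidAlgebra.single y 1)
  map_add' f g := by
    funext y
    simp [lin_mul_single, mul_add, Finset.sum_add_distrib]
  map_smul' c f := by
    funext y
    simp only [lin_mul_single, Pi.smul_apply, smul_eq_mul, RingHom.id_apply, Finset.mul_sum]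
    exact Finset.sum_congr rfl fun g _ => by ring

theorem T_apply [CommRing F] (a : MonoidAlgebra F K) (f : K → F) (y : K) :
    T a f y = ∑ g, a.coeff g * f (g * y) := lin_mul_single f a y

theorem lin_T [CommRing F] (a b : MonoidAlgebra F K) (f : K → F) :
    lin (T a f) b = lin f (a * b) := by
  classical
  conv_rhs => rw [eq_sum_single b, Finset.mul_sum, lin_sum]
  rw [lin]
  refine Finset.sum_congr rfl fun g _ => ?_
  have : a * MonoidAlgebra.single g (b.coeff g) =
      b.coeff g • (a * MonoidAlgebra.single g 1) := by
    rw [← mul_smul_comm, MonoidAlgebra.smul_single', mul_one]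
  rw [this, lin_smul]
  rfl

theorem T_mul [CommRing F] (a b : MonoidAlgebra F K) : T (a * b) = T b ∘ₗ T a := by
  apply LinearMap.ext
  intro f
  funext y
  change lin f (a * b * MonoidAlgebra.single y 1) = lin (T a f) (b * MonoidAlgebra.single y 1)
  rw [lin_T, mul_assoc]

theorem T_one [CommRing F] : T (1 : MonoidAlgebra F K) = 1 := by
  apply LinearMap.ext
  intro f
  funext y
  change lin f (1 * MonoidAlgebra.single y 1) = f y
  rw [one_mul, lin_single, one_mul]

theorem T_pow [CommRing F] (a : MonoidAlgebra F K) (n : ℕ) : T (a ^ n) = T a ^ n := by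
  induction n with
  | zero => rw [pow_zero, pow_zero, T_one]
  | succ n ih =>
    rw [pow_succ, T_mul, ih, pow_succ', Module.End.mul_eq_comp]

/-- **Trace.** A subspace of functions with a dual family of functions and points. -/
theorem trace_restrict [Field F] {I : Type*} [Fintype I] [DecidableEq I] (V : Submodule F (K → F))
    (y : I → K) (b : I → K → F) (hb : ∀ i, b i ∈ V) (hdual : ∀ i j, b i (y j) = if i = j then 1 else 0)
    (hspan : ∀ f ∈ V, f = ∑ i, f (y i) • b i)
    (S : (K → F) →ₗ[F] (K → F)) (hS : ∀ f ∈ V, S f ∈ V) :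
    LinearMap.trace F V (S.restrict hS) = ∑ i, S (b i) (y i) := by
  classical
  let e : V ≃ₗ[F] (I → F) :=
    { toFun := fun f i => f.1 (y i)
      map_add' := fun f g => rfl
      map_smul' := fun c f => rfl
      invFun := fun c => ⟨∑ i, c i • b i, V.sum_mem fun i _ => V.smul_mem _ (hb i)⟩
      left_inv := fun f => Subtype.ext (hspan f.1 f.2).symm
      right_inv := fun c => by
        funext j
        simp only [Finset.sum_apply, Pi.smul_apply, hdual, smul_eq_mul, mul_ite, mul_one, mul_zero]
        simp }
  rw [← LinearMap.trace_conj' _ e, LinearMap.trace_eq_matrix_trace F (Pi.basisFun F I),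
    Matrix.trace]
  refine Finset.sum_congr rfl fun i _ => ?_
  rw [Matrix.diag_apply, LinearMap.toMatrix_apply]
  simp only [Pi.basisFun_apply, Pi.basisFun_repr]
  change (S (e.symm (Pi.single i 1)).1) (y i) = S (b i) (y i)
  have h : (e.symm (Pi.single i 1)).1 = b i := by
    change ∑ j, (Pi.single i (1 : F) : I → F) j • b j = b i
    rw [Finset.sum_eq_single i]
    · simp
    · intro j _ hj
      simp [hj]
    · simp
  rw [h]

/-- Traces of `p`-power powers over the prime field. -/
theorem trace_pow_eq (p : ℕ) [Fact p.Prime] {V : Type*} [AddCommGroup V] [Module (ZMod p) V]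
    [Module.Finite (ZMod p) V] (S : Module.End (ZMod p) V) (m : ℕ) :
    LinearMap.trace (ZMod p) V (S ^ p ^ m) = LinearMap.trace (ZMod p) V S := by
  classical
  induction m with
  | zero => rw [pow_zero, pow_one]
  | succ m ih =>
    rw [pow_succ, pow_mul, ← ih]
    set b := Module.finBasis (ZMod p) V
    rw [LinearMap.trace_eq_matrix_trace _ b, LinearMap.trace_eq_matrix_trace _ b]
    have : LinearMap.toMatrix b b ((S ^ p ^ m) ^ p) = (LinearMap.toMatrix b b (S ^ p ^ m)) ^ p := by
      have := map_pow (LinearMap.toMatrixAlgEquiv b) (S ^ p ^ m) p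
      exact this
    rw [this, ZMod.trace_pow_card, ZMod.pow_card]

end P179C
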