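import Vale.Agent.P179.H143.Cls
import Vale.Agent.P179.H143.TrOn

/-!
# The spaces of class functions and of `p`-regular class functions; traces
-/

namespace P179C

open Subgroup Finset P179H524

open scoped Classical

variable {K : Type*} [Group K] [Fintype K]

/-- The element of the group algebra with integer coefficients `z`. -/
noncomputable def toF (F : Type*) [CommRing F] (z : K → ℤ) : MonoidAlgebra F K :=
  ∑ g, MonoidAlgebra.single g (z g : F)

omit [Group K] in
theorem coeff_toF (F : Type*) [CommRing F] (z : K → ℤ) (g : K) :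
    (toF F z).coeff g = (z g : F) := by
  rw [toF, MonoidAlgebra.coeff_sum, Finsupp.finsetSum_apply, Finset.sum_eq_single g]
  · simp
  · intro y _ hy
    simp [hy]
  · simp

/-- class functions -/
def Vcl (F : Type*) [Field F] (K : Type*) [Group K] : Submodule F (K → F) where
  carrier := {f | IsCF f}
  add_mem' := fun {f g} hf hg t x => by
    change f _ + g _ = f x + g x
    rw [hf, hg]
  zero_mem' := fun t x => rfl
  smul_mem' := fun c f hf t x => by
    change c • f _ = c • f x
    rw [hf]

/-- class functions which only depend on the `p`-regular part -/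
def Vreg (p : ℕ) (F : Type*) [Field F] (K : Type*) [Group K] : Submodule F (K → F) where
  carrier := {f | IsCF f ∧ ∀ g, f g = f (pr p g)}
  add_mem' := fun {f g} hf hg => ⟨(Vcl F K).add_mem hf.1 hg.1, fun x => by
    change f _ + g _ = f _ + g _
    rw [hf.2 x, hg.2 x]⟩
  zero_mem' := ⟨(Vcl F K).zero_mem, fun x => rfl⟩
  smul_mem' := fun c f hf => ⟨(Vcl F K).smul_mem c hf.1, fun x => by
    change c • f _ = c • f _
    rw [hf.2 x]⟩

omit [Fintype K] in
theorem mem_Vcl {F : Type*} [Field F] {f : K → F} : f ∈ Vcl F K ↔ IsCF f := Iff.rfl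

omit [Fintype K] in
theorem mem_Vreg {p : ℕ} {F : Type*} [Field F] {f : K → F} :
    f ∈ Vreg p F K ↔ IsCF f ∧ ∀ g, f g = f (pr p g) := Iff.rfl

/-- `T a` preserves class functions if the coefficients of `a` are a class function. -/
theorem T_Vcl {F : Type*} [Field F] (a : MonoidAlgebra F K) (ha : IsCF fun g => a.coeff g)
    (f : K → F) (hf : f ∈ Vcl F K) : T a f ∈ Vcl F K := by
  intro t y
  rw [T_apply, T_apply, ← Equiv.sum_comp (MulAut.conj t).toEquiv]
  refine Finset.sum_congr rfl fun g _ => ?_
  have h1 : (MulAut.conj t).toEquiv g = t * g * t⁻¹ := rfl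
  rw [h1]
  have h2 := ha t g
  simp only at h2
  rw [h2]
  have h3 : t * g * t⁻¹ * (t * y * t⁻¹) = t * (g * y) * t⁻¹ := by group
  rw [h3, hf]

theorem isCF_toF (F : Type*) [CommRing F] (z : K → ℤ) (hz : IsCF z) :
    IsCF fun g => (toF F z).coeff g := by
  intro t g
  simp only [coeff_toF]
  rw [hz]

/-- Elements whose coefficients are class functions commute with everything. -/
theorem commute_of_isCF {F : Type*} [CommRing F] (a : MonoidAlgebra F K)
    (ha : IsCF fun g => a.coeff g) (b : MonoidAlgebra F K) : Commute a b := by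
  have key : ∀ y : K, a * MonoidAlgebra.single y 1 = MonoidAlgebra.single y 1 * a := by
    intro y
    ext g
    have h1 : (a * MonoidAlgebra.single y 1 : MonoidAlgebra F K).coeff g = a.coeff (g * y⁻¹) * 1 := by
      have := MonoidAlgebra.coeff_mul_single_apply a (1 : F) y g
      exact this
    have h2 : (MonoidAlgebra.single y 1 * a : MonoidAlgebra F K).coeff g = 1 * a.coeff (y⁻¹ * g) := by
      have := MonoidAlgebra.coeff_single_mul_apply a (1 : F) y g
      exact this
    rw [h1, h2, mul_one, one_mul]
    have h3 := ha y (y⁻¹ * g)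
    simp only at h3
    rw [← h3]
    congr 1
    group
  rw [Commute, SemiconjBy]
  conv_lhs => rw [eq_sum_single b, Finset.mul_sum]
  conv_rhs => rw [eq_sum_single b, Finset.sum_mul]
  refine Finset.sum_congr rfl fun y _ => ?_
  have h4 : (MonoidAlgebra.single y (b.coeff y) : MonoidAlgebra F K) =
      b.coeff y • MonoidAlgebra.single y 1 := by
    rw [MonoidAlgebra.smul_single', mul_one]
  rw [h4, mul_smul_comm, smul_mul_assoc, key]

omit [Fintype K] in
/-- The coefficients of elements commuting with the group are class functions. -/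
theorem isCF_of_commute {F : Type*} [CommRing F] (a : MonoidAlgebra F K)
    (ha : ∀ y : K, Commute a (MonoidAlgebra.single y 1)) : IsCF fun g => a.coeff g := by
  intro t g
  have h := congrArg (fun x : MonoidAlgebra F K => x.coeff (t * g)) (ha t).eq
  have h1 : (a * MonoidAlgebra.single t 1 : MonoidAlgebra F K).coeff (t * g) =
      a.coeff (t * g * t⁻¹) * 1 :=
    MonoidAlgebra.coeff_mul_single_apply a (1 : F) t (t * g)
  have h2 : (MonoidAlgebra.single t 1 * a : MonoidAlgebra F K).coeff (t * g) =
      1 * a.coeff (t⁻¹ * (t * g)) :=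
    MonoidAlgebra.coeff_single_mul_apply a (1 : F) t (t * g)
  rw [h1, h2, mul_one, one_mul, inv_mul_cancel_left] at h
  exact h

theorem isCF_pow {F : Type*} [CommRing F] (a : MonoidAlgebra F K)
    (ha : IsCF fun g => a.coeff g) (n : ℕ) : IsCF fun g => (a ^ n).coeff g :=
  isCF_of_commute _ fun _ => (commute_of_isCF a ha _).pow_left n

section charp

variable (p : ℕ) [hp : Fact p.Prime] {F : Type*} [Field F] [CharP F p]

omit [Fact p.Prime] in
theorem intCast_pow [Fact p.Prime] (n : ℤ) (m : ℕ) : (n : F) ^ p ^ m = n := by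
  have := map_intCast (iterateFrobenius F p m) n
  rwa [iterateFrobenius_def] at this

/-- For `x` with coefficients in the prime field, and `f` depending only on `p`-regular parts. -/
theorem lin_pow_reg (m : ℕ) (hm : ∀ g : K, g ^ p ^ m = pr p g) (f : K → F) (hf : IsCF f)
    (x : MonoidAlgebra F K) (hx : ∀ g, x.coeff g ^ p ^ m = x.coeff g) :
    lin f (x ^ p ^ m) = lin (fun g => f (pr p g)) x := by
  rw [lin_pow p m f (fun g x => hf g x), lin]
  exact Finset.sum_congr rfl fun g _ => by rw [hx, hm]

/-- `T z` preserves `Vreg`. -/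
theorem T_Vreg (z : K → ℤ) (hz : IsCF z) (f : K → F) (hf : f ∈ Vreg p F K) :
    T (toF F z) f ∈ Vreg p F K := by
  refine ⟨T_Vcl _ (isCF_toF F z hz) f hf.1, fun y => ?_⟩
  obtain ⟨m, -, hm⟩ := exists_pow_eq_pr p K 0
  have hf' : (fun g => f (pr p g)) = f := funext fun g => (hf.2 g).symm
  have hcoef : ∀ (y g : K), (toF F z * MonoidAlgebra.single y 1 : MonoidAlgebra F K).coeff g ^ p ^ m =
      (toF F z * MonoidAlgebra.single y 1 : MonoidAlgebra F K).coeff g := by
    intro y g
    have h1 : (toF F z * MonoidAlgebra.single y 1 : MonoidAlgebra F K).coeff g =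
        (toF F z).coeff (g * y⁻¹) * 1 :=
      MonoidAlgebra.coeff_mul_single_apply (toF F z) (1 : F) y g
    rw [h1, coeff_toF, mul_one, intCast_pow p]
  have key : ∀ y : K, T (toF F z) f y = lin f (toF F z ^ p ^ m * MonoidAlgebra.single (pr p y) 1) := by
    intro y
    have h1 := lin_pow_reg p m hm f hf.1 (toF F z * MonoidAlgebra.single y 1) (hcoef y)
    rw [hf'] at h1
    have h2 : (toF F z * MonoidAlgebra.single y 1 : MonoidAlgebra F K) ^ p ^ m =
        toF F z ^ p ^ m * MonoidAlgebra.single (pr p y) 1 := by
      rw [(commute_of_isCF _ (isCF_toF F z hz) _).mul_pow, MonoidAlgebra.single_pow, hm, one_pow]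
    rw [h2] at h1
    exact h1.symm
  rw [key y, key (pr p y), pr_pr]

end charp

/-- The indicator family for `Vcl`. -/
noncomputable def bcl (F : Type*) [Field F] (c : ConjClasses K) : K → F :=
  fun g => if ConjClasses.mk g = c then 1 else 0

omit [Fintype K] in
theorem mk_out (c : ConjClasses K) : ConjClasses.mk c.out = c := Quotient.out_eq c

theorem trace_Vcl {F : Type*} [Field F] (z : K → ℤ) (hz : IsCF z) :
    LinearMap.trace F (Vcl F K) ((T (toF F z)).restrict (T_Vcl _ (isCF_toF F z hz))) =
      ((∑ c : ConjClasses K, qTr z c.out : ℤ) : F) := by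
  rw [trace_restrict (Vcl F K) (fun c : ConjClasses K => c.out) (fun c => bcl F c)]
  · push_cast
    refine Finset.sum_congr rfl fun c _ => ?_
    rw [T_apply, qTr]
    push_cast
    refine Finset.sum_congr rfl fun g _ => ?_
    rw [coeff_toF, bcl]
    have : ConjClasses.mk (g * c.out) = c ↔ IsConj c.out (g * c.out) := by
      rw [← ConjClasses.mk_eq_mk_iff_isConj, mk_out, eq_comm]
    simp only [this]
    split_ifs <;> simp
  · intro c t x
    simp only [bcl]
    have : ConjClasses.mk (t * x * t⁻¹) = ConjClasses.mk x :=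
      ConjClasses.mk_eq_mk_iff_isConj.2 (isConj_iff.2 ⟨t, rfl⟩).symm
    rw [this]
  · intro c c'
    simp only [bcl, mk_out]
    by_cases h : c = c'
    · simp [h]
    · simp [h, Ne.symm h]
  · intro f hf
    funext g
    rw [Finset.sum_apply, Finset.sum_eq_single (ConjClasses.mk g)]
    · simp only [Pi.smul_apply, bcl, if_true, smul_eq_mul, mul_one]
      apply IsCF.isConj hf
      rw [← ConjClasses.mk_eq_mk_iff_isConj, mk_out]
    · intro c _ hc
      simp [bcl, Ne.symm hc]
    · simp

/-- The indicator family for `Vreg`. -/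
noncomputable def breg (p : ℕ) (F : Type*) [Field F] (c : ConjClasses K) : K → F :=
  fun g => if ConjClasses.mk (pr p g) = c then 1 else 0

omit [Fintype K] in
theorem isConj_regular {p : ℕ} {a b : K} (h : IsConj a b) : ¬ p ∣ orderOf a ↔ ¬ p ∣ orderOf b := by
  obtain ⟨t, rfl⟩ := isConj_iff.1 h
  rw [orderOf_conj]

theorem trace_Vreg (p : ℕ) [hp : Fact p.Prime] {F : Type*} [Field F] [CharP F p] (z : K → ℤ)
    (hz : IsCF z) :
    LinearMap.trace F (Vreg p F K) ((T (toF F z)).restrict (T_Vreg p z hz)) =
      ((∑ c : ConjClasses K, qL p z c.out : ℤ) : F) := by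
  have hfin : Fintype {c : ConjClasses K // ¬ p ∣ orderOf c.out} := Fintype.ofFinite _
  rw [trace_restrict (Vreg p F K) (fun c : {c : ConjClasses K // ¬ p ∣ orderOf c.out} => c.1.out)
    (fun c => breg p F c.1)]
  · push_cast
    rw [← Finset.sum_filter_add_sum_filter_not univ
      (fun c : ConjClasses K => ¬ p ∣ orderOf c.out)]
    have h0 : ∑ c ∈ univ.filter (fun c : ConjClasses K => ¬ ¬ p ∣ orderOf c.out),
        (qL p z c.out : F) = 0 := by
      apply Finset.sum_eq_zero
      intro c hc
      have hc' := (mem_filter.1 hc).2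
      have : qL p z c.out = 0 := by
        rw [qL]
        apply Finset.sum_eq_zero
        intro g _
        rw [if_neg]
        intro h
        exact hc' ((isConj_regular h).2 (pr_regular _))
      rw [this]; simp
    rw [h0, add_zero]
    symm
    rw [Finset.sum_subtype (p := fun c : ConjClasses K => ¬ p ∣ orderOf c.out) _ (by
      intro c; simp)]
    refine Finset.sum_congr rfl fun c _ => ?_
    rw [T_apply, qL]
    push_cast
    refine Finset.sum_congr rfl fun g _ => ?_
    rw [coeff_toF, breg]
    have : ConjClasses.mk (pr p (g * c.1.out)) = c.1 ↔ IsConj c.1.out (pr p (g * c.1.out)) := by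
      rw [← ConjClasses.mk_eq_mk_iff_isConj, mk_out, eq_comm]
    simp only [this]
    split_ifs <;> simp
  · intro c
    refine ⟨?_, ?_⟩
    · intro t x
      simp only [breg]
      have : ConjClasses.mk (pr p (t * x * t⁻¹)) = ConjClasses.mk (pr p x) := by
        rw [pr_conj]
        exact ConjClasses.mk_eq_mk_iff_isConj.2 (isConj_iff.2 ⟨t, rfl⟩).symm
      rw [this]
    · intro g
      simp only [breg, pr_pr]
  · intro c c'
    simp only [breg]
    rw [pr_of_regular c'.2, mk_out]
    by_cases h : c = c'
    · simp [h]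
    · rw [if_neg h, if_neg]
      intro h'
      exact h (Subtype.ext h'.symm)
  · intro f hf
    funext g
    have hreg : ¬ p ∣ orderOf (ConjClasses.mk (pr p g)).out := by
      have h1 : IsConj (ConjClasses.mk (pr p g)).out (pr p g) := by
        rw [← ConjClasses.mk_eq_mk_iff_isConj, mk_out]
      exact (isConj_regular h1).2 (pr_regular g)
    rw [Finset.sum_apply, Finset.sum_eq_single ⟨ConjClasses.mk (pr p g), hreg⟩]
    · simp only [Pi.smul_apply, breg, if_true, smul_eq_mul, mul_one]
      rw [hf.2 g]
      apply IsCF.isConj hf.1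
      rw [← ConjClasses.mk_eq_mk_iff_isConj, mk_out]
    · intro c _ hc
      have : ConjClasses.mk (pr p g) ≠ c.1 := by
        intro h
        exact hc (Subtype.ext h.symm)
      simp [breg, this]
    · simp

end P179C
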