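import Vale.Agent.P179.H143.RegBlock
import Vale.Agent.P179.H905.N4

/-!
# (N2) Block orthogonality on `p`-sections
-/

namespace P179P

open P179H524 P179C P179A Finset

open P179X (IrrB SameSec pp)

open scoped Classical

/-- the ring of algebraic integers -/
abbrev AA : Type := integralClosure ℤ ℂ

section Aux

variable {k : Type*} [Field k] (p : ℕ) [hp : Fact p.Prime] [CharP k p] (red : AA →+* k)

omit hp in
theorem red_natCast_p : red (p : AA) = 0 := by
  rw [map_natCast, CharP.cast_eq_zero]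

/-- If `v * I` is divisible by all powers of `p` and `red v ≠ 0` then `I = 0`. -/
theorem eq_zero_of_dvd (I : AA) (h : ∀ j : ℕ, ∃ v : AA, red v ≠ 0 ∧ (p : AA) ^ j ∣ v * I) :
    I = 0 := by
  by_contra hI
  -- a nonzero integer multiple
  have h1 : ∃ c : ℤ, c ≠ 0 ∧ ∃ I' : AA, I * I' = (c : AA) := by
    have hint : IsIntegral ℤ I := Algebra.IsIntegral.isIntegral I
    have h2 := Ideal.comap_ne_bot_of_integral_mem (R := ℤ) (I := Ideal.span {I}) hI
      (Ideal.mem_span_singleton_self I) hint
    obtain ⟨c, hc, hc0⟩ := Submodule.exists_mem_ne_zero_of_ne_bot h2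
    rw [Ideal.mem_comap, Ideal.mem_span_singleton] at hc
    obtain ⟨I', hI'⟩ := hc
    exact ⟨c, hc0, I', by rw [← hI']; rfl⟩
  obtain ⟨c, hc0, I', hII'⟩ := h1
  obtain ⟨c', hcs, hc'⟩ := (Int.finiteMultiplicity_iff.2
    ⟨by simpa using hp.out.one_lt.ne', hc0⟩ : FiniteMultiplicity (p : ℤ) c).exists_eq_pow_mul_and_not_dvd
  set s := multiplicity (p : ℤ) c with hs
  obtain ⟨v, hv, d, hd⟩ := h (s + 1)
  have hp0 : (p : AA) ≠ 0 := by
    have := hp.out.ne_zero
    exact_mod_cast this
  have h3 : v * (c' : AA) = p * (d * I') := by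
    have h4 : (p : AA) ^ s * (v * (c' : AA)) = (p : AA) ^ s * (p * (d * I')) := by
      have h5 : v * I * I' = (p : AA) ^ (s + 1) * d * I' := by rw [hd]
      rw [mul_assoc v, hII', hcs] at h5
      push_cast at h5
      calc (p : AA) ^ s * (v * (c' : AA)) = v * ((p : AA) ^ s * (c' : AA)) := by ring
        _ = _ := by rw [h5]; ring
    exact mul_left_cancel₀ (pow_ne_zero _ hp0) h4
  have h6 := congrArg red h3
  rw [map_mul, map_mul, red_natCast_p p red, zero_mul, map_intCast] at h6
  rcases mul_eq_zero.1 h6 with h7 | h7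
  · exact hv h7
  · exact hc' ((CharP.intCast_eq_zero_iff k p c').1 h7)

end Aux

section Main

variable {k : Type*} [Field k] (p : ℕ) [hp : Fact p.Prime] [CharP k p] (red : AA →+* k)

/-- values of characters as algebraic integers -/
noncomputable def chA {G : Type*} [Group G] [Finite G] (χ : Irr G) (g : G) : AA :=
  ⟨χ.1 g, χ.integral g⟩

theorem chA_isCF {G : Type*} [Group G] [Finite G] (χ : Irr G) : IsCF (chA χ) :=
  fun g x => Subtype.ext (χ.conj g x)

variable {G : Type*} [Group G] [Fintype G]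

/-- central characters as algebraic integers -/
noncomputable def omA (χ : Irr G) (z : G → ℤ) (hz : IsCF z) : AA :=
  ⟨om χ.1 z, isIntegral_om χ.2 hz⟩

theorem cv_chA (χ : Irr G) (z : G → ℤ) (hz : IsCF z) :
    cv (fun g => (z g : AA)) (chA χ) = fun y => omA χ z hz * chA χ y := by
  ext y
  have h1 := sum_mul_irr χ (z := fun g => (z g : ℂ)) (fun t x => congrArg (fun n : ℤ => (n : ℂ)) (hz t x)) y
  rw [← om_eq_omC] at h1
  rw [cv]
  push_cast
  simp only [chA, omA]
  rw [← h1]

theorem cv_add {R : Type*} [CommRing R] (z F F' : G → R) : cv z (F + F') = cv z F + cv z F' := by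
  ext y
  simp only [cv, Pi.add_apply, mul_add, Finset.sum_add_distrib]

theorem cv_smul {R : Type*} [CommRing R] (z F : G → R) (c : R) :
    cv z (fun y => c * F y) = fun y => c * cv z F y := by
  ext y
  simp only [cv, Finset.mul_sum]
  exact Finset.sum_congr rfl fun g _ => by ring

theorem cv_iter_add {R : Type*} [CommRing R] (z F F' : G → R) (n : ℕ) :
    (cv z)^[n] (F + F') = (cv z)^[n] F + (cv z)^[n] F' := by
  induction n with
  | zero => rfl
  | succ n ih => simp only [Function.iterate_succ', Function.comp_apply, ih, cv_add]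

theorem cv_iter_chA (χ : Irr G) (z : G → ℤ) (hz : IsCF z) (n : ℕ) :
    (cv (fun g => (z g : AA)))^[n] (chA χ) = fun y => omA χ z hz ^ n * chA χ y := by
  induction n with
  | zero => ext y; simp
  | succ n ih =>
    rw [Function.iterate_succ', Function.comp_apply, ih, cv_smul, cv_chA χ z hz]
    funext y
    simp only [pow_succ]
    ring

/-- adjunction -/
theorem sum_chA_cv (χ : Irr G) (z : G → ℤ) (hz : IsCF z) (F : G → AA) :
    ∑ y, chA χ y⁻¹ * cv (fun g => (z g : AA)) F y = omA χ z hz * ∑ y, chA χ y⁻¹ * F y := by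
  simp only [cv, Finset.mul_sum]
  rw [Finset.sum_comm]
  have h1 : ∀ g : G, ∑ y : G, chA χ y⁻¹ * ((z g : AA) * F (g * y)) =
      ∑ y : G, (z g : AA) * chA χ (g * y⁻¹) * F y := by
    intro g
    rw [← Equiv.sum_comp (Equiv.mulLeft g) (fun y => (z g : AA) * chA χ (g * y⁻¹) * F y)]
    refine Finset.sum_congr rfl fun y _ => ?_
    rw [Equiv.coe_mulLeft]
    have h2 : chA χ (g * (g * y)⁻¹) = chA χ y⁻¹ := by
      have := chA_isCF χ g y⁻¹
      rw [← this]
      congr 1
      group
    rw [h2]; ring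
  rw [Finset.sum_congr rfl fun g _ => h1 g, Finset.sum_comm]
  refine Finset.sum_congr rfl fun y _ => ?_
  rw [← Finset.sum_mul]
  have h3 := congrFun (cv_chA χ z hz) y⁻¹
  rw [cv] at h3
  rw [h3]; ring

theorem sum_chA_cv_iter (χ : Irr G) (z : G → ℤ) (hz : IsCF z) (F : G → AA) (n : ℕ) :
    ∑ y, chA χ y⁻¹ * (cv (fun g => (z g : AA)))^[n] F y =
      omA χ z hz ^ n * ∑ y, chA χ y⁻¹ * F y := by
  induction n with
  | zero => simp
  | succ n ih =>
    simp only [Function.iterate_succ', Function.comp_apply]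
    rw [sum_chA_cv χ z hz, ih, pow_succ]; ring

/-- **Block orthogonality on sections**, for two characters. -/
theorem sec_orth_two (χ ψ : Irr G) (z : G → ℤ) (hz : IsCF z)
    (hne : red (omA χ z hz) ≠ red (omA ψ z hz)) (S : Set G)
    (hS : ∀ a b : G, pp p a = pp p b → (a ∈ S ↔ b ∈ S)) (hSc : ∀ a t : G, t * a * t⁻¹ ∈ S ↔ a ∈ S) :
    ∑ y : G, (if y ∈ S then ψ.1 y * χ.1 y⁻¹ else 0) = 0 := by
  set F1 : G → AA := fun y => if y ∈ S then chA ψ y else 0 with hF1
  set F2 : G → AA := fun y => if y ∈ S then 0 else chA ψ y with hF2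
  have hF : F1 + F2 = chA ψ := by
    ext y
    simp only [hF1, hF2, Pi.add_apply]
    split_ifs <;> simp
  have hF1cf : IsCF F1 := by
    intro t y
    have := chA_isCF ψ t y
    simp only [hF1, hSc, this]
  have hF2cf : IsCF F2 := by
    intro t y
    have := chA_isCF ψ t y
    simp only [hF2, hSc, this]
  have hzA : IsCF (fun g => (z g : AA)) := fun t x => congrArg (fun n : ℤ => (n : AA)) (hz t x)
  set I : AA := ∑ y, chA χ y⁻¹ * F1 y with hI
  have hI0 : I = 0 := by
    apply eq_zero_of_dvd p red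
    intro j
    set m := j + (Nat.card G).factorization p with hm
    refine ⟨omA χ z hz ^ p ^ m - omA ψ z hz ^ p ^ m, ?_, ?_⟩
    · rw [map_sub, map_pow, map_pow, ← sub_pow_char_pow]
      exact pow_ne_zero _ (sub_ne_zero.2 hne)
    · -- pointwise
      have hpt : ∀ y : G, (p : AA) ^ j ∣ (cv (fun g => (z g : AA)))^[p ^ m] F1 y -
          omA ψ z hz ^ p ^ m * F1 y := by
        intro y
        have hjm : (p : AA) ^ j ∣ (p : AA) ^ (m - (Nat.card G).factorization p + 1) :=
          pow_dvd_pow _ (by omega)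
        by_cases hy : y ∈ S
        · have h1 := lemW p (fun g => (z g : AA)) F2 hzA hF2cf y (by
            intro q hq
            have : q ∈ S := (hS q y hq).2 hy
            simp only [hF2, if_pos this]) m (by omega)
          have h2 := congrFun (cv_iter_add (fun g => (z g : AA)) F1 F2 (p ^ m)) y
          rw [hF, cv_iter_chA ψ z hz, Pi.add_apply] at h2
          have h3 : (cv (fun g => (z g : AA)))^[p ^ m] F1 y - omA ψ z hz ^ p ^ m * F1 y =
              -(cv (fun g => (z g : AA)))^[p ^ m] F2 y := by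
            have : F1 y = chA ψ y := by simp only [hF1, if_pos hy]
            simp only at h2
            rw [this, h2]; ring
          rw [h3, dvd_neg]
          exact hjm.trans h1
        · have h1 := lemW p (fun g => (z g : AA)) F1 hzA hF1cf y (by
            intro q hq
            have : q ∉ S := fun h => hy ((hS q y hq).1 h)
            simp only [hF1, if_neg this]) m (by omega)
          have : F1 y = 0 := by simp only [hF1, if_neg hy]
          rw [this, mul_zero, sub_zero]
          exact hjm.trans h1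
      have h4 : (omA χ z hz ^ p ^ m - omA ψ z hz ^ p ^ m) * I =
          ∑ y, chA χ y⁻¹ * ((cv (fun g => (z g : AA)))^[p ^ m] F1 y -
            omA ψ z hz ^ p ^ m * F1 y) := by
        simp only [mul_sub, Finset.sum_sub_distrib]
        rw [sum_chA_cv_iter χ z hz, sub_mul, hI]
        congr 1
        rw [Finset.mul_sum]
        exact Finset.sum_congr rfl fun y _ => by ring
      rw [h4]
      exact Finset.dvd_sum fun y _ => (hpt y).mul_left _
  have h5 : ∑ y : G, (if y ∈ S then ψ.1 y * χ.1 y⁻¹ else 0) = ((I : AA) : ℂ) := by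
    rw [hI]
    push_cast
    refine Finset.sum_congr rfl fun y _ => ?_
    simp only [hF1]
    split_ifs
    · simp only [chA]
      ring
    · simp
  rw [h5, hI0]
  rfl

/-- characters in different blocks are separated by an integral class function -/
theorem exists_sep {G : Type*} [Group G] [Fintype G] {B : MonoidAlgebra k G} (χ ψ : Irr G)
    (hχ : CharInBlock red χ.1 B) (hψ : ¬ CharInBlock red ψ.1 B) :
    ∃ (z : G → ℤ) (hz : IsCF z), red (omA χ z hz) ≠ red (omA ψ z hz) := by
  by_contra hcon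
  push Not at hcon
  apply hψ
  intro g
  rw [hχ g, ← om_ind χ.2 g, ← om_ind ψ.2 g]
  have h1 := hcon (ind (ConjClasses.mk g)) (isCF_ind _)
  rw [redC_of_mem red (isIntegral_om χ.2 (isCF_ind _)),
    redC_of_mem red (isIntegral_om ψ.2 (isCF_ind _))]
  exact h1

theorem sum_IrrB {G : Type*} [Group G] [Finite G] (B : MonoidAlgebra k G) (F : (G → ℂ) → ℂ) :
    ∑ χ ∈ IrrB red B, F χ = ∑ χ : Irr G, if CharInBlock red χ.1 B then F χ.1 else 0 := by
  rw [← Finset.sum_filter]
  symm
  refine Finset.sum_bij (fun χ _ => χ.1) ?_ ?_ ?_ ?_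
  · intro χ hχ
    unfold P179X.IrrB
    rw [mem_filter, P179X.mem_Irr]
    exact ⟨χ.2, (mem_filter.1 hχ).2⟩
  · intro a _ b _ h
    exact Subtype.ext h
  · intro χ hχ
    unfold P179X.IrrB at hχ
    rw [mem_filter, P179X.mem_Irr] at hχ
    exact ⟨⟨χ, hχ.1⟩, mem_filter.2 ⟨mem_univ _, hχ.2⟩, rfl⟩
  · intro χ _
    rfl

/-- **(N2)** Block orthogonality on `p`-sections. -/
theorem sec_orth {G : Type*} [Group G] [Finite G] (B : MonoidAlgebra k G) (x y : G)
    (hxy : ¬ SameSec p x y) : ∑ χ ∈ IrrB red B, χ x * χ y⁻¹ = 0 := by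
  have := Fintype.ofFinite G
  set S : Set G := {t | SameSec p x t} with hS
  have hS1 : ∀ a b : G, pp p a = pp p b → (a ∈ S ↔ b ∈ S) := by
    intro a b h
    simp only [hS, Set.mem_ofPred_eq, SameSec, h]
  have hS2 : ∀ a t : G, t * a * t⁻¹ ∈ S ↔ a ∈ S := by
    intro a t
    simp only [hS, Set.mem_ofPred_eq, SameSec, pp_conj]
    have h6 : IsConj (pp p a) (t * pp p a * t⁻¹) := isConj_iff.2 ⟨t, rfl⟩
    exact ⟨fun h => h.trans h6.symm, fun h => h.trans h6⟩
  -- the two parts of the kernel
  set K : G → ℂ := fun t => ∑ χ : Irr G, if CharInBlock red χ.1 B then χ.1 x * χ.1 t⁻¹ else 0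
    with hK
  set K' : G → ℂ := fun t => ∑ χ : Irr G, if CharInBlock red χ.1 B then 0 else χ.1 x * χ.1 t⁻¹
    with hK'
  have hsum : ∀ t : G, t ∉ S → K t + K' t = 0 := by
    intro t ht
    have h1 : K t + K' t = ∑ χ : Irr G, χ.1 x * χ.1 t⁻¹ := by
      simp only [hK, hK']
      rw [← Finset.sum_add_distrib]
      exact Finset.sum_congr rfl fun χ _ => by split_ifs <;> simp
    rw [h1, col_orth]
    have h2 : IsEmpty {g : G // g * x * g⁻¹ = t} := by
      refine ⟨fun g => ht ?_⟩
      have h3 : x ∈ S := IsConj.refl _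
      rw [← g.2]
      exact (hS2 x g.1).2 h3
    rw [Nat.card_of_isEmpty, Nat.cast_zero]
  have hconj : ∀ t : G, (starRingEnd ℂ) (K t) =
      ∑ χ : Irr G, if CharInBlock red χ.1 B then χ.1 x⁻¹ * χ.1 t else 0 := by
    intro t
    simp only [hK, map_sum]
    refine Finset.sum_congr rfl fun χ _ => ?_
    split_ifs
    · rw [map_mul, ← χ.inv_eq_conj, ← χ.inv_eq_conj, inv_inv]
    · exact map_zero _
  have hzero : ∀ χ ψ : Irr G, CharInBlock red χ.1 B → ¬ CharInBlock red ψ.1 B →
      ∑ t : G, (if t ∈ S then 0 else χ.1 t * ψ.1 t⁻¹) = 0 := by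
    intro χ ψ hχ hψ
    obtain ⟨z, hz, hne⟩ := exists_sep red χ ψ hχ hψ
    have h1 := sec_orth_two p red ψ χ z hz hne.symm S hS1 hS2
    have h2 := row_orth χ ψ
    have hne' : χ ≠ ψ := by rintro rfl; exact hψ hχ
    rw [if_neg hne'] at h2
    have h3 : ∑ t : G, (if t ∈ S then χ.1 t * ψ.1 t⁻¹ else 0) +
        ∑ t : G, (if t ∈ S then 0 else χ.1 t * ψ.1 t⁻¹) = ∑ g : G, χ.1 g * ψ.1 g⁻¹ := by
      rw [← Finset.sum_add_distrib]
      exact Finset.sum_congr rfl fun t _ => by split_ifs <;> simp
    rw [h1, h2, zero_add] at h3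
    exact h3
  have hnorm : ∑ t : G, (if t ∈ S then 0 else K t * (starRingEnd ℂ) (K t)) = 0 := by
    have h1 : ∀ t : G, (if t ∈ S then 0 else K t * (starRingEnd ℂ) (K t)) =
        -∑ ψ : Irr G, ∑ χ : Irr G, (if CharInBlock red ψ.1 B then 0 else
          if CharInBlock red χ.1 B then
            ψ.1 x * χ.1 x⁻¹ * (if t ∈ S then 0 else χ.1 t * ψ.1 t⁻¹) else 0) := by
      intro t
      by_cases ht : t ∈ S
      · rw [if_pos ht]
        symm
        rw [neg_eq_zero]
        refine Finset.sum_eq_zero fun ψ _ => Finset.sum_eq_zero fun χ _ => ?_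
        rw [if_pos ht, mul_zero]
        split_ifs <;> rfl
      · rw [if_neg ht, hconj]
        have h2 : K t = - K' t := eq_neg_of_add_eq_zero_left (hsum t ht)
        rw [h2, neg_mul, neg_inj]
        simp only [hK']
        rw [Finset.sum_mul_sum]
        refine Finset.sum_congr rfl fun ψ _ => Finset.sum_congr rfl fun χ _ => ?_
        rw [if_neg ht]
        split_ifs <;> ring
    rw [Finset.sum_congr rfl fun t _ => h1 t, Finset.sum_neg_distrib, neg_eq_zero,
      Finset.sum_comm]
    refine Finset.sum_eq_zero fun ψ _ => ?_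
    rw [Finset.sum_comm]
    refine Finset.sum_eq_zero fun χ _ => ?_
    by_cases hψ : CharInBlock red ψ.1 B
    · simp only [if_pos hψ, Finset.sum_const_zero]
    · by_cases hχ : CharInBlock red χ.1 B
      · simp only [if_neg hψ, if_pos hχ]
        rw [← Finset.mul_sum, hzero χ ψ hχ hψ, mul_zero]
      · simp only [if_neg hψ, if_neg hχ, Finset.sum_const_zero]
  have hKy : K y = 0 := by
    have h1 : ∑ t : G, (if t ∈ S then (0 : ℝ) else ‖K t‖ ^ 2) = 0 := by
      have h2 : ((∑ t : G, (if t ∈ S then (0 : ℝ) else ‖K t‖ ^ 2) : ℝ) : ℂ) = 0 := by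
        rw [← hnorm]
        push_cast
        refine Finset.sum_congr rfl fun t _ => ?_
        split_ifs
        · simp
        · rw [Complex.mul_conj, Complex.normSq_eq_norm_sq]
      exact_mod_cast h2
    rw [Finset.sum_eq_zero_iff_of_nonneg (fun t _ => by split_ifs <;> positivity)] at h1
    have h2 := h1 y (mem_univ y)
    rw [if_neg (show y ∉ S from hxy)] at h2
    exact norm_eq_zero.1 (by simpa using h2)
  rw [sum_IrrB]
  exact hKy

end Main

end P179P
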