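import Vale.Agent.P179.H905.TwoMT0
import Vale.Agent.P179.H526.YDefs

/-!
# (C1c) The second main theorem, kernel form
-/

namespace P179P

open P179H524 P179C P179A Finset

open P179X (IrrB SameSec pp)

open scoped Classical

section

variable {k : Type*} [Field k] (red : AA →+* k) {G : Type*} [Group G] [Fintype G]

theorem lam_sum {ι : Type*} (χ : G → ℂ) (s : Finset ι) (f : ι → G → k) :
    lam red χ (∑ i ∈ s, f i) = ∑ i ∈ s, lam red χ (f i) := by
  induction s using Finset.induction_on with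
  | empty => simp [lam]
  | insert i s hi ih => rw [Finset.sum_insert hi, Finset.sum_insert hi, lam_add, ih]

theorem lam_res_eq (H : Subgroup G) (ζ : Irr H) {z : G → k} (hz : IsCF z)
    [Fintype (ConjClasses G)] :
    lam red ζ.1 (fun h : H => z h) =
      ∑ D : ConjClasses G, z D.out * redC red (om ζ.1 (fun h : H => ind D (h : G))) := by
  have h1 : (fun h : H => z h) =
      ∑ D : ConjClasses G, z D.out • (fun h : H => ((ind D (h : G) : ℤ) : k)) := by
    ext h
    rw [Finset.sum_apply]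
    simp only [Pi.smul_apply, smul_eq_mul]
    exact cf_eq_sum hz (h : G)
  rw [h1, lam_sum]
  refine Finset.sum_congr rfl fun D _ => ?_
  rw [lam_smul, lam_int red ζ.2 (isCF_restr (isCF_ind D) H)]

omit [Fintype G] in
theorem lam_eq_sum [Finite G] (χ : Irr G) (z : G → k) [Fintype (ConjClasses G)] :
    lam red χ.1 z = ∑ D : ConjClasses G, z D.out * redC red (om χ.1 (ind D)) := by
  unfold lam
  rw [finsum_eq_sum_of_fintype]

theorem sep_G_H (χ : Irr G) (H : Subgroup G) (ζ : Irr H) {z : G → k} (hz : IsCF z)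
    (hne : lam red χ.1 z ≠ lam red ζ.1 (fun h : H => z h)) :
    ∃ (z : G → ℤ) (hz : IsCF z), red (omA χ z hz) ≠
      red (omA ζ (fun h : H => z h) (isCF_restr hz H)) := by
  have := Fintype.ofFinite (ConjClasses G)
  by_contra hcon
  push Not at hcon
  apply hne
  rw [lam_eq_sum, lam_res_eq red H ζ hz]
  refine Finset.sum_congr rfl fun D _ => ?_
  congr 1
  rw [redC_of_mem red (isIntegral_om χ.2 (isCF_ind _)),
    redC_of_mem red (isIntegral_om ζ.2 (isCF_restr (isCF_ind D) H))]
  exact hcon (ind D) (isCF_ind D)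

theorem sep_H_H (H : Subgroup G) (ψ ζ : Irr H) {z : G → k} (hz : IsCF z)
    (hne : lam red ψ.1 (fun h : H => z h) ≠ lam red ζ.1 (fun h : H => z h)) :
    ∃ (z : H → ℤ) (hz : IsCF z), red (omA ψ z hz) ≠ red (omA ζ z hz) := by
  have := Fintype.ofFinite (ConjClasses G)
  by_contra hcon
  push Not at hcon
  apply hne
  rw [lam_res_eq red H ψ hz, lam_res_eq red H ζ hz]
  refine Finset.sum_congr rfl fun D _ => ?_
  congr 1
  rw [redC_of_mem red (isIntegral_om ψ.2 (isCF_restr (isCF_ind D) H)),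
    redC_of_mem red (isIntegral_om ζ.2 (isCF_restr (isCF_ind D) H))]
  exact hcon _ (isCF_restr (isCF_ind D) H)

end

section

variable {k : Type*} [Field k] (p : ℕ) [hp : Fact p.Prime] [CharP k p] (red : AA →+* k)
  {G : Type*} [Group G] [Fintype G]

omit [Fintype G] in
theorem mul_u_isCF {R : Type*} {F : G → R} (hF : IsCF F) (u : G) (H : Subgroup G)
    (hH : ∀ x, x ∈ H ↔ x * u = u * x) : IsCF fun h : H => F (h * u) := by
  intro t x
  have h1 : ((t * x * t⁻¹ : H) : G) * u = t * ((x : G) * u) * (t : G)⁻¹ := by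
    have h2 : (t : G)⁻¹ * u = u * (t : G)⁻¹ := by
      have := (hH t).1 t.2
      rw [inv_mul_eq_iff_eq_mul, ← mul_assoc, this, mul_inv_cancel_right]
    push_cast
    rw [mul_assoc _ (t : G)⁻¹ u, h2]; simp only [mul_assoc]
  change F (((t * x * t⁻¹ : H) : G) * u) = F (x * u)
  rw [h1, hF]

/-- column orthogonality in `G` and in `C(u)` -/
theorem col_orth_centralizer (u : G) (hu : ∃ a : ℕ, u ^ p ^ a = 1) (H : Subgroup G)
    (hH : ∀ x, x ∈ H ↔ x * u = u * x) (s t : H) (hs : ¬ p ∣ orderOf s) (ht : ¬ p ∣ orderOf t) :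
    ∑ χ : Irr G, χ.1 (s * u) * χ.1 (t * u)⁻¹ = ∑ ψ : Irr H, ψ.1 s * ψ.1 t⁻¹ := by
  rw [col_orth, col_orth]
  congr 1
  have hpp : ∀ x : H, ¬ p ∣ orderOf x → pp p ((x : G) * u) = u := by
    intro x hx
    rw [(hH x).1 x.2]
    refine pp_eq ((hH x).1 x.2).symm hu ?_
    rwa [Subgroup.orderOf_coe]
  refine Nat.card_congr
    { toFun := fun g => ⟨⟨g.1, ?_⟩, ?_⟩
      invFun := fun h => ⟨h.1, ?_⟩
      left_inv := fun _ => rfl
      right_inv := fun _ => rfl }
  · rw [hH]
    have h1 := pp_conj (p := p) g.1 ((s : G) * u)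
    rw [g.2, hpp s hs, hpp t ht] at h1
    exact mul_inv_eq_iff_eq_mul.1 h1.symm
  · have h1 := pp_conj (p := p) g.1 ((s : G) * u)
    rw [g.2, hpp s hs, hpp t ht] at h1
    apply Subtype.ext
    have h2 : g.1 * (s * u) * g.1⁻¹ = t * u := g.2
    have h3 : g.1 * (s : G) * g.1⁻¹ * (g.1 * u * g.1⁻¹) = g.1 * (s * u) * g.1⁻¹ := by group
    have h4 : g.1 * (s : G) * g.1⁻¹ * u = t * u := by
      calc g.1 * (s : G) * g.1⁻¹ * u = g.1 * (s : G) * g.1⁻¹ * (g.1 * u * g.1⁻¹) := by rw [← h1]
        _ = _ := h3.trans h2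
    exact mul_right_cancel h4
  · have h1 : (h.1 : G) * s * (h.1 : G)⁻¹ = t := congrArg Subtype.val h.2
    have h2 := (hH h.1).1 h.1.2
    have h3 : (h.1 : G) * (s * u) * (h.1 : G)⁻¹ =
        ((h.1 : G) * s * (h.1 : G)⁻¹) * ((h.1 : G) * u * (h.1 : G)⁻¹) := by group
    rw [h3, h1, h2, mul_inv_cancel_right]

/-- **(C1c)** kernel form of the second main theorem. -/
theorem kernel_form (u : G) (hu : ∃ a : ℕ, u ^ p ^ a = 1) (H : Subgroup G)
    (hH : ∀ x, x ∈ H ↔ x * u = u * x) (l : (G → k) → k) (s t : H) (hs : ¬ p ∣ orderOf s)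
    (ht : ¬ p ∣ orderOf t) :
    ∑ χ : Irr G, (if P179Y.InL red l χ.1 then χ.1 (s * u) * χ.1 (t * u)⁻¹ else 0) =
      ∑ ψ : Irr H, (if P179Y.IndL red H l ψ.1 then ψ.1 s * ψ.1 t⁻¹ else 0) := by
  set M : Prop → H → ℂ := fun q x => ∑ χ : Irr G,
    (if (P179Y.InL red l χ.1 ↔ q) then χ.1 (x * u) * χ.1 (t * u)⁻¹ else 0) with hM
  set N : Prop → H → ℂ := fun q x => ∑ ψ : Irr H,
    (if (P179Y.IndL red H l ψ.1 ↔ q) then ψ.1 x * ψ.1 t⁻¹ else 0) with hN
  set D : Prop → H → ℂ := fun q x => if ¬ p ∣ orderOf x then M q x - N q x else 0 with hD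
  have hsum : ∀ x, D True x + D False x = 0 := by
    intro x
    simp only [hD]
    by_cases hx : ¬ p ∣ orderOf x
    · rw [if_pos hx, if_pos hx]
      have h1 : M True x + M False x = ∑ χ : Irr G, χ.1 (x * u) * χ.1 (t * u)⁻¹ := by
        simp only [hM]
        rw [← Finset.sum_add_distrib]
        exact Finset.sum_congr rfl fun χ _ => by
          by_cases h : P179Y.InL red l χ.1 <;> simp [h]
      have h2 : N True x + N False x = ∑ ψ : Irr H, ψ.1 x * ψ.1 t⁻¹ := by
        simp only [hN]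
        rw [← Finset.sum_add_distrib]
        exact Finset.sum_congr rfl fun χ _ => by
          by_cases h : P179Y.IndL red H l χ.1 <;> simp [h]
      have h3 := col_orth_centralizer p u hu H hH x t hx ht
      rw [← h1, ← h2] at h3
      linear_combination h3
    · rw [if_neg hx, if_neg hx, add_zero]
  -- orthogonality
  have horth : ∀ (q : Prop) (ζ : Irr H), ¬ (P179Y.IndL red H l ζ.1 ↔ q) →
      ∑ x : H, D q x * ζ.1 x⁻¹ = 0 := by
    intro q ζ hζ
    have e1 : ∑ x : H, D q x * ζ.1 x⁻¹ =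
        ∑ x : H, (if ¬ p ∣ orderOf x then M q x * ζ.1 x⁻¹ else 0) -
          ∑ x : H, (if ¬ p ∣ orderOf x then N q x * ζ.1 x⁻¹ else 0) := by
      rw [← Finset.sum_sub_distrib]
      refine Finset.sum_congr rfl fun x _ => ?_
      simp only [hD]
      split_ifs <;> ring
    have e2 : ∑ x : H, (if ¬ p ∣ orderOf x then M q x * ζ.1 x⁻¹ else 0) = 0 := by
      have h1 : ∀ x : H, (if ¬ p ∣ orderOf x then M q x * ζ.1 x⁻¹ else 0) =
          ∑ χ : Irr G, (if (P179Y.InL red l χ.1 ↔ q) then χ.1 (t * u)⁻¹ *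
            (if ¬ p ∣ orderOf x then χ.1 (x * u) * ζ.1 x⁻¹ else 0) else 0) := by
        intro x
        simp only [hM]
        split_ifs with h
        · simp
        · rw [Finset.sum_mul]
          refine Finset.sum_congr rfl fun χ _ => ?_
          split_ifs <;> ring
      rw [Finset.sum_congr rfl fun x _ => h1 x, Finset.sum_comm]
      refine Finset.sum_eq_zero fun χ _ => ?_
      by_cases hχ : (P179Y.InL red l χ.1 ↔ q)
      · simp only [if_pos hχ]
        rw [← Finset.mul_sum]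
        have h2 : ∃ z : G → k, ∃ _ : IsCF z, lam red χ.1 z ≠ lam red ζ.1 (fun h : H => z h) := by
          by_contra hcon
          push Not at hcon
          apply hζ
          rw [← hχ]
          exact ⟨fun h z hz => (hcon z hz).trans (h z hz), fun h z hz => (hcon z hz).symm.trans (h z hz)⟩
        obtain ⟨z, hz, hne⟩ := h2
        obtain ⟨z', hz', hne'⟩ := sep_G_H red χ H ζ hz hne
        rw [two_mt p red χ u hu H hH ζ z' hz' hne', mul_zero]
      · simp only [if_neg hχ, Finset.sum_const_zero]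
    have e3 : ∑ x : H, (if ¬ p ∣ orderOf x then N q x * ζ.1 x⁻¹ else 0) = 0 := by
      have h1 : ∀ x : H, (if ¬ p ∣ orderOf x then N q x * ζ.1 x⁻¹ else 0) =
          ∑ ψ : Irr H, (if (P179Y.IndL red H l ψ.1 ↔ q) then ψ.1 t⁻¹ *
            (if ¬ p ∣ orderOf x then ψ.1 x * ζ.1 x⁻¹ else 0) else 0) := by
        intro x
        simp only [hN]
        split_ifs with h
        · simp
        · rw [Finset.sum_mul]
          refine Finset.sum_congr rfl fun χ _ => ?_
          split_ifs <;> ring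
      rw [Finset.sum_congr rfl fun x _ => h1 x, Finset.sum_comm]
      refine Finset.sum_eq_zero fun ψ _ => ?_
      by_cases hψ : (P179Y.IndL red H l ψ.1 ↔ q)
      · simp only [if_pos hψ]
        rw [← Finset.mul_sum]
        have h2 : ∃ z : G → k, ∃ _ : IsCF z,
            lam red ψ.1 (fun h : H => z h) ≠ lam red ζ.1 (fun h : H => z h) := by
          by_contra hcon
          push Not at hcon
          apply hζ
          rw [← hψ]
          exact ⟨fun h z hz => (hcon z hz).trans (h z hz), fun h z hz => (hcon z hz).symm.trans (h z hz)⟩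
        obtain ⟨z, hz, hne⟩ := h2
        obtain ⟨z', hz', hne'⟩ := sep_H_H red H ψ ζ hz hne
        obtain ⟨S, hS⟩ : ∃ S : Set H, ∀ y, y ∈ S ↔ ¬ p ∣ orderOf y :=
          ⟨{y | ¬ p ∣ orderOf y}, fun y => by rw [Set.mem_ofPred_eq]⟩
        have h3 := sec_orth_two p red ζ ψ z' hz' hne'.symm S (by
          intro a b hab
          rw [hS, hS, ← pp_eq_one_iff, ← pp_eq_one_iff, hab]) (by
          intro a t
          rw [hS, hS, P179C.orderOf_conj])
        have h4 : ∑ x : H, (if ¬ p ∣ orderOf x then ψ.1 x * ζ.1 x⁻¹ else 0) = 0 :=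
          (Finset.sum_congr rfl fun x _ => if_congr (hS x).symm rfl rfl).trans h3
        rw [h4, mul_zero]
      · simp only [if_neg hψ, Finset.sum_const_zero]
    rw [e1, e2, e3, sub_zero]
  have hDcf : ∀ q, IsCF (D q) := by
    intro q y x
    have h1 : M q (y * x * y⁻¹) = M q x := by
      simp only [hM]
      refine Finset.sum_congr rfl fun χ _ => ?_
      have := mul_u_isCF χ.isCF u H hH y x
      simp only at this
      rw [this]
    have h2 : N q (y * x * y⁻¹) = N q x := by
      simp only [hN]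
      refine Finset.sum_congr rfl fun χ _ => ?_
      rw [χ.conj]
    simp only [hD]
    rw [h1, h2, P179C.orderOf_conj]
  have hzero : ∀ ζ : Irr H, ∑ x : H, D True x * ζ.1 x⁻¹ = 0 := by
    intro ζ
    by_cases hζ : P179Y.IndL red H l ζ.1
    · have h1 := horth False ζ (by simp [hζ])
      have h2 : ∀ x, D True x = - D False x := fun x => eq_neg_of_add_eq_zero_left (hsum x)
      simp only [h2, neg_mul, Finset.sum_neg_distrib]
      rw [h1, neg_zero]
    · exact horth True ζ (by simp [hζ])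
  have hfin : D True s = 0 := by
    rw [cf_expand (hDcf True) s]
    refine Finset.sum_eq_zero fun ζ _ => ?_
    rw [hzero ζ]; ring
  simp only [hD, if_pos hs] at hfin
  have h1 := sub_eq_zero.1 hfin
  simp only [hM, hN, iff_true] at h1
  exact h1

end

end P179P

namespace P179Y

open P179H524 P179C P179A Finset P179P

open scoped Classical

/-- **(C1c)** -/
theorem KK_eq {k : Type*} [Field k] (p : ℕ) [hp : Fact p.Prime] [CharP k p]
    (red : integralClosure ℤ ℂ →+* k) {G : Type*} [Group G] [Fintype G] (u : G)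
    (hu : ∃ a : ℕ, u ^ p ^ a = 1) (H : Subgroup G)
    (hH : ∀ x, x ∈ H ↔ x * u = u * x) (l : (G → k) → k) (s t : H) (hs : ¬ p ∣ orderOf s)
    (ht : ¬ p ∣ orderOf t) :
    KK red l (s * u) (t * u) = ∑ ψ : Irr H, (if IndL red H l ψ.1 then ψ.1 s * ψ.1 t⁻¹ else 0) :=
  kernel_form p red u hu H hH l s t hs ht

/-- **(C1c)**, with `u` on the left -/
theorem KK_eq' {k : Type*} [Field k] (p : ℕ) [hp : Fact p.Prime] [CharP k p]
    (red : integralClosure ℤ ℂ →+* k) {G : Type*} [Group G] [Fintype G] (u : G)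
    (hu : ∃ a : ℕ, u ^ p ^ a = 1) (H : Subgroup G)
    (hH : ∀ x, x ∈ H ↔ x * u = u * x) (l : (G → k) → k) (s t : H) (hs : ¬ p ∣ orderOf s)
    (ht : ¬ p ∣ orderOf t) :
    KK red l (u * s) (u * t) = ∑ ψ : Irr H, (if IndL red H l ψ.1 then ψ.1 s * ψ.1 t⁻¹ else 0) := by
  rw [← (hH s).1 s.2, ← (hH t).1 t.2]
  exact KK_eq p red u hu H hH l s t hs ht

end P179Y
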