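import Mathlib

/-!
# Lemma M

A statement on finite abelian groups: if `I ≤ A` has index `< p ^ a`, `A` has an element of order
`p ^ a` and `ψ : I → T ≤ A` is injective, then some nontrivial `U ≤ T ∩ I` satisfies `ψ U = U`.
-/

namespace P179H143

open Subgroup Function

variable {A : Type*} [CommGroup A]

/-- `X ^ (p ^ i)` -/
def powSub (p i : ℕ) (X : Subgroup A) : Subgroup A := X.map (powMonoidHom (p ^ i))

/-- the elements of order dividing `p` in `X ^ (p ^ i)` -/
def socl (p i : ℕ) (X : Subgroup A) : Subgroup A := powSub p i X ⊓ (powMonoidHom p : A →* A).ker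

theorem mem_powSub {p i : ℕ} {X : Subgroup A} {z : A} :
    z ∈ powSub p i X ↔ ∃ w ∈ X, w ^ (p ^ i) = z := by
  simp [powSub, Subgroup.mem_map]

theorem mem_socl {p i : ℕ} {X : Subgroup A} {z : A} :
    z ∈ socl p i X ↔ (∃ w ∈ X, w ^ (p ^ i) = z) ∧ z ^ p = 1 := by
  simp [socl, mem_powSub, Subgroup.mem_inf, MonoidHom.mem_ker]

theorem powSub_succ (p i : ℕ) (X : Subgroup A) :
    powSub p (i + 1) X = (powSub p i X).map (powMonoidHom p) := by
  ext z
  simp only [mem_powSub, Subgroup.mem_map, powMonoidHom_apply]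
  constructor
  · rintro ⟨w, hw, rfl⟩
    exact ⟨w ^ p ^ i, ⟨w, hw, rfl⟩, by rw [← pow_mul, pow_succ]⟩
  · rintro ⟨v, ⟨w, hw, rfl⟩, rfl⟩
    exact ⟨w, hw, by rw [← pow_mul, pow_succ]⟩

theorem card_map_mul_card_inf_ker [Finite A] (f : A →* A) (K : Subgroup A) :
    Nat.card K = Nat.card (K ⊓ f.ker : Subgroup A) * Nat.card (K.map f) := by
  have h1 : Nat.card (K.map f) = Nat.card (f.domRestrict K).range := by
    rw [MonoidHom.domRestrict_range]
  have h2 : Nat.card (f.domRestrict K).range = Nat.card (K ⧸ (f.domRestrict K).ker) :=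
    Nat.card_congr (QuotientGroup.quotientKerEquivRange (f.domRestrict K)).symm.toEquiv
  have h3 : Nat.card (f.domRestrict K).ker = Nat.card (K ⊓ f.ker : Subgroup A) := by
    rw [MonoidHom.ker_domRestrict, inf_comm, ← Subgroup.inf_subgroupOf_right]
    exact Nat.card_congr (Subgroup.subgroupOfEquivOfLe inf_le_right).toEquiv
  rw [h1, h2, ← h3, mul_comm]
  exact Subgroup.card_eq_card_quotient_mul_card_subgroup _

theorem card_powSub [Finite A] (p i : ℕ) (X : Subgroup A) :
    Nat.card (powSub p i X) = Nat.card (socl p i X) * Nat.card (powSub p (i + 1) X) := by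
  rw [powSub_succ, socl]
  exact card_map_mul_card_inf_ker _ _

theorem powSub_zero (p : ℕ) (X : Subgroup A) : powSub p 0 X = X := by
  ext z; simp [mem_powSub]

theorem powSub_mono {p i : ℕ} {X Y : Subgroup A} (h : X ≤ Y) : powSub p i X ≤ powSub p i Y :=
  Subgroup.map_mono h

theorem socl_mono {p i : ℕ} {X Y : Subgroup A} (h : X ≤ Y) : socl p i X ≤ socl p i Y :=
  inf_le_inf_right _ (powSub_mono h)

theorem mul_card_socl_le [Finite A] {p i : ℕ} [hp : Fact p.Prime] {X Y : Subgroup A} (h : X ≤ Y)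
    (hne : socl p i X ≠ socl p i Y) : p * Nat.card (socl p i X) ≤ Nat.card (socl p i Y) := by
  have hle := socl_mono (p := p) (i := i) h
  have hrel : Nat.card (socl p i X) * (socl p i X).relIndex (socl p i Y)
      = Nat.card (socl p i Y) := by
    have := Subgroup.relIndex_mul_relIndex ⊥ (socl p i X) (socl p i Y) bot_le hle
    rwa [Subgroup.relIndex_bot_left, Subgroup.relIndex_bot_left] at this
  have hpg : IsPGroup p (socl p i Y) := by
    intro z
    refine ⟨1, ?_⟩
    have := (mem_socl.1 z.2).2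
    ext
    simpa using this
  have hne1 : (socl p i X).relIndex (socl p i Y) ≠ 1 := by
    intro h1
    exact hne (le_antisymm hle (Subgroup.relIndex_eq_one.1 h1))
  have hdvd : p ∣ (socl p i X).relIndex (socl p i Y) := by
    obtain ⟨n, hn⟩ := (IsPGroup.iff_card.1 hpg)
    have hd : (socl p i X).relIndex (socl p i Y) ∣ p ^ n := by
      rw [← hn, ← hrel]; exact dvd_mul_left _ _
    obtain ⟨m, -, hm⟩ := (Nat.dvd_prime_pow hp.out).1 hd
    rw [hm] at hne1 ⊢
    refine dvd_pow_self p ?_
    rintro rfl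
    exact hne1 (pow_zero p)
  have hpos : 0 < (socl p i X).relIndex (socl p i Y) := by
    rcases Nat.eq_zero_or_pos ((socl p i X).relIndex (socl p i Y)) with h0 | h0
    · rw [h0, mul_zero] at hrel
      exact absurd hrel.symm (Nat.card_pos).ne'
    · exact h0
  have := Nat.le_of_dvd hpos hdvd
  rw [← hrel, mul_comm]
  exact Nat.mul_le_mul_left _ this

theorem card_bound [Finite A] {p : ℕ} [hp : Fact p.Prime] {X Y : Subgroup A} (h : X ≤ Y) (k : ℕ)
    (hk : ∀ i < k, socl p i X ≠ socl p i Y) :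
    p ^ k * Nat.card X * Nat.card (powSub p k Y) ≤ Nat.card Y * Nat.card (powSub p k X) := by
  induction k with
  | zero => simp [powSub_zero, mul_comm]
  | succ k ih =>
    have ih' := ih (fun i hi => hk i (Nat.lt_succ_of_lt hi))
    have h1 := mul_card_socl_le (p := p) (i := k) h (hk k (Nat.lt_succ_self k))
    rw [card_powSub p k Y, card_powSub p k X] at ih'
    have hX : 0 < Nat.card (socl p k X) := Nat.card_pos
    refine Nat.le_of_mul_le_mul_left ?_ hX
    calc Nat.card (socl p k X) * (p ^ (k + 1) * Nat.card X * Nat.card (powSub p (k + 1) Y))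
        = p ^ k * Nat.card X * ((p * Nat.card (socl p k X)) * Nat.card (powSub p (k + 1) Y)) := by
          ring
      _ ≤ p ^ k * Nat.card X * (Nat.card (socl p k Y) * Nat.card (powSub p (k + 1) Y)) := by
          gcongr
      _ ≤ Nat.card Y * (Nat.card (socl p k X) * Nat.card (powSub p (k + 1) X)) := ih'
      _ = Nat.card (socl p k X) * (Nat.card Y * Nat.card (powSub p (k + 1) X)) := by ring

theorem exists_socl_eq [Finite A] {p : ℕ} [hp : Fact p.Prime] {X Y : Subgroup A} (h : X ≤ Y)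
    (a : ℕ) (hcard : Nat.card Y < p ^ a * Nat.card X) : ∃ i < a, socl p i X = socl p i Y := by
  by_contra hcon
  push Not at hcon
  have h1 := card_bound (p := p) h a hcon
  have h2 : Nat.card (powSub p a X) ≤ Nat.card (powSub p a Y) :=
    Subgroup.card_le_of_le (powSub_mono h)
  have h3 : 0 < Nat.card (powSub p a Y) := Nat.card_pos
  have h4 : p ^ a * Nat.card X * Nat.card (powSub p a Y) ≤
      Nat.card Y * Nat.card (powSub p a Y) := h1.trans (Nat.mul_le_mul_left _ h2)
  exact absurd (Nat.le_of_mul_le_mul_right h4 h3) (not_le.2 hcard)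

/-- **Lemma M.** -/
theorem lemM [Finite A] {p : ℕ} [hp : Fact p.Prime] (T I : Subgroup A) (ψ : I →* A)
    (hψ : Injective ψ) (hψT : ∀ z, ψ z ∈ T) (a : ℕ) (x : A) (hx : orderOf x = p ^ a)
    (hcard : Nat.card A < p ^ a * Nat.card I) :
    ∃ U : Subgroup A, U ≠ ⊥ ∧ U ≤ T ∧ ∃ hU : U ≤ I, ∀ (z : A) (hz : z ∈ U), ψ ⟨z, hU hz⟩ ∈ U := by
  obtain ⟨i, hia, hi⟩ := exists_socl_eq (p := p) (X := I) (Y := ⊤) le_top a
    (by rwa [Subgroup.card_top])
  have hUI : socl p i (⊤ : Subgroup A) ≤ I := by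
    rw [← hi]
    intro z hz
    obtain ⟨⟨w, hw, rfl⟩, -⟩ := mem_socl.1 hz
    exact I.pow_mem hw _
  -- the image of `socl p i I` under `ψ` is contained in `socl p i T`
  have himg : ∀ (z : A) (hz : z ∈ socl p i (⊤ : Subgroup A)), ψ ⟨z, hUI hz⟩ ∈ socl p i T := by
    intro z hz
    have hz' := hz
    rw [← hi] at hz'
    obtain ⟨⟨w, hw, hwz⟩, hz1⟩ := mem_socl.1 hz'
    refine mem_socl.2 ⟨⟨ψ ⟨w, hw⟩, hψT _, ?_⟩, ?_⟩
    · rw [← map_pow]
      congr 1
      ext
      simpa using hwz
    · rw [← map_pow]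
      have : (⟨z, hUI hz⟩ : I) ^ p = 1 := by
        ext; simpa using hz1
      rw [this, map_one]
  have hcardle : Nat.card (socl p i (⊤ : Subgroup A)) ≤ Nat.card (socl p i T) := by
    let f : socl p i (⊤ : Subgroup A) → socl p i T := fun z => ⟨ψ ⟨z.1, hUI z.2⟩, himg z.1 z.2⟩
    refine Nat.card_le_card_of_injective f ?_
    intro z z' hzz'
    have := congrArg Subtype.val hzz'
    have h2 := congrArg Subtype.val (hψ this)
    exact Subtype.ext h2
  have hTtop : socl p i T = socl p i (⊤ : Subgroup A) :=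
    Subgroup.eq_of_le_of_card_ge (socl_mono le_top) hcardle
  refine ⟨socl p i (⊤ : Subgroup A), ?_, ?_, hUI, ?_⟩
  · intro hbot
    have hmem : x ^ (p ^ (a - 1)) ∈ socl p i (⊤ : Subgroup A) := by
      refine mem_socl.2 ⟨⟨x ^ (p ^ (a - 1 - i)), mem_top _, ?_⟩, ?_⟩
      · rw [← pow_mul, ← pow_add]
        congr 2
        omega
      · rw [← pow_mul, ← pow_succ]
        have : a - 1 + 1 = a := by omega
        rw [this, ← hx, pow_orderOf_eq_one]
    rw [hbot, Subgroup.mem_bot] at hmem
    have hd := orderOf_dvd_of_pow_eq_one hmem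
    rw [hx] at hd
    have := (Nat.pow_dvd_pow_iff_le_right hp.out.one_lt).1 hd
    omega
  · rw [← hTtop]
    intro z hz
    obtain ⟨⟨w, hw, rfl⟩, -⟩ := mem_socl.1 hz
    exact T.pow_mem hw _
  · intro z hz
    have := himg z hz
    rwa [hTtop] at this

end P179H143
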