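import Vale.Agent.P179.H143.LemM

/-!
# Lemma Q

`T ≤ A` abelian `p`-subgroups of a group, `y` an element such that `T` contains no nontrivial
subgroup `U` with `y⁻¹ U y ≤ U`. Then the order of every `z ∈ A` divides `[A : A ∩ y⁻¹ T y]`.
-/

namespace P179H143

open Subgroup Function

theorem lemQ {G : Type*} [Group G] (p : ℕ) [hp' : Fact p.Prime] (T A : Subgroup G) [Finite A]
    (hTA : T ≤ A) (hA : ∀ a ∈ A, ∀ b ∈ A, a * b = b * a) (hp : IsPGroup p A) (y : G) (z : G)
    (hz : z ∈ A)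
    (hno : ∀ U : Subgroup G, U ≤ T → (∀ t ∈ U, y⁻¹ * t * y ∈ U) → U = ⊥) :
    Nat.card (A ⊓ T.map (MulAut.conj y⁻¹).toMonoidHom : Subgroup G) * orderOf z ∣
      Nat.card A := by
  classical
  let _ : CommGroup A := { (inferInstance : Group A) with
    mul_comm := fun a b => Subtype.ext (hA a.1 a.2 b.1 b.2) }
  set I₀ : Subgroup G := A ⊓ T.map (MulAut.conj y⁻¹).toMonoidHom with hI₀
  have hmemI : ∀ w : G, w ∈ I₀ ↔ w ∈ A ∧ y * w * y⁻¹ ∈ T := by
    intro w
    rw [hI₀, Subgroup.mem_inf, Subgroup.mem_map]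
    refine and_congr_right fun _ => ?_
    constructor
    · rintro ⟨t, ht, rfl⟩
      simpa [mul_assoc] using ht
    · intro h
      exact ⟨_, h, by simp [mul_assoc]⟩
  have hI₀A : I₀ ≤ A := inf_le_left
  set I : Subgroup A := I₀.subgroupOf A with hI
  have hcardI : Nat.card I = Nat.card I₀ :=
    Nat.card_congr (Subgroup.subgroupOfEquivOfLe hI₀A).toEquiv
  -- the order of `z`
  obtain ⟨a, ha⟩ : ∃ a : ℕ, orderOf (⟨z, hz⟩ : A) = p ^ a :=
    (IsPGroup.iff_orderOf.1 hp) _
  have hz' : orderOf z = p ^ a := by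
    rw [← ha]
    exact (Subgroup.orderOf_mk z hz).symm
  -- the homomorphism `ψ : I → A`
  let ψ : I →* A :=
    { toFun := fun w => ⟨y * (w : A) * y⁻¹, hTA ((hmemI _).1 (Subgroup.mem_subgroupOf.1 w.2)).2⟩
      map_one' := by ext; simp
      map_mul' := by intro a b; ext; simp [mul_assoc] }
  have hψ : Injective ψ := by
    intro w w' h
    have := congrArg Subtype.val h
    simp only [ψ, MonoidHom.coe_mk, OneHom.coe_mk] at this
    have h2 : ((w : A) : G) = ((w' : A) : G) := by simpa using this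
    exact Subtype.ext (Subtype.ext h2)
  have hψT : ∀ w, ψ w ∈ T.subgroupOf A := by
    intro w
    exact Subgroup.mem_subgroupOf.2 ((hmemI _).1 (Subgroup.mem_subgroupOf.1 w.2)).2
  rw [hz', ← hcardI]
  -- cards are powers of `p`
  obtain ⟨n, hn⟩ := (IsPGroup.iff_card (p := p) (G := A)).1 hp
  have hdvd : Nat.card I ∣ Nat.card A := Subgroup.card_subgroup_dvd_card I
  obtain ⟨m, hmn, hm⟩ := (Nat.dvd_prime_pow hp'.out).1 (hn ▸ hdvd)
  by_cases hle : p ^ a * Nat.card I ≤ Nat.card A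
  · rw [hm, hn, ← pow_add] at hle
    have := (Nat.pow_le_pow_iff_right hp'.out.one_lt).1 hle
    rw [hm, hn, ← pow_add]
    exact pow_dvd_pow p (by omega)
  · exfalso
    rw [not_le] at hle
    obtain ⟨U, hU1, hUT, hUI, hUψ⟩ := lemM (p := p) (T.subgroupOf A) I ψ hψ hψT a ⟨z, hz⟩ ha hle
    -- `ψ` maps `U` onto `U`
    have hsurj : ∀ t ∈ U, ∃ (t' : A) (ht' : t' ∈ U), ψ ⟨t', hUI ht'⟩ = t := by
      let f : U → U := fun t => ⟨ψ ⟨t.1, hUI t.2⟩, hUψ t.1 t.2⟩
      have hf : Injective f := by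
        intro t t' h
        have h1 := hψ (congrArg Subtype.val h)
        exact Subtype.ext (Subtype.mk.inj h1)
      have hf' : Surjective f := Finite.surjective_of_injective hf
      intro t ht
      obtain ⟨t', ht'⟩ := hf' ⟨t, ht⟩
      exact ⟨t'.1, t'.2, congrArg Subtype.val ht'⟩
    have hbot := hno (U.map A.subtype) ?_ ?_
    · apply hU1
      rwa [Subgroup.map_eq_bot_iff_of_injective _ (Subgroup.subtype_injective A)] at hbot
    · rintro _ ⟨t, ht, rfl⟩
      exact Subgroup.mem_subgroupOf.1 (hUT ht)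
    · rintro _ ⟨t, ht, rfl⟩
      obtain ⟨t', ht', he⟩ := hsurj t ht
      refine ⟨t', ht', ?_⟩
      have := congrArg Subtype.val he
      simp only [ψ, MonoidHom.coe_mk, OneHom.coe_mk] at this
      simp only [Subgroup.coe_subtype]
      rw [← this]
      group

/-- The same with the index. -/
theorem lemmaQ {G : Type*} [Group G] (p : ℕ) [hp' : Fact p.Prime] (T A : Subgroup G) [Finite A]
    (hTA : T ≤ A) (hA : ∀ a ∈ A, ∀ b ∈ A, a * b = b * a) (hp : IsPGroup p A) (y : G) (z : G)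
    (hz : z ∈ A)
    (hno : ∀ U : Subgroup G, U ≤ T → (∀ t ∈ U, y⁻¹ * t * y ∈ U) → U = ⊥) :
    orderOf z ∣ (A ⊓ T.map (MulAut.conj y⁻¹).toMonoidHom).relIndex A := by
  have h := lemQ p T A hTA hA hp y z hz hno
  set I₀ : Subgroup G := A ⊓ T.map (MulAut.conj y⁻¹).toMonoidHom with hI₀
  have h1 := Subgroup.relIndex_mul_relIndex ⊥ I₀ A bot_le inf_le_left
  rw [Subgroup.relIndex_bot_left, Subgroup.relIndex_bot_left] at h1
  rw [← h1] at h
  have : Finite I₀ := Finite.of_injective _ (Subgroup.inclusion_injective (inf_le_left : I₀ ≤ A))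
  exact Nat.dvd_of_mul_dvd_mul_left Nat.card_pos h

end P179H143
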