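import Vale.Agent.P179.H143.Words
import Vale.Agent.P179.H143.Pr

/-!
# Lemma W: `p`-power convolution powers and `p`-sections

`R` a commutative ring, `z F : K → R` class functions, `F q = 0` whenever the `p`-part of `q` is the
`p`-part of `y`; then `p ^ (m - a + 1)` divides `(z^{p^m} * F)(y)`, `p ^ a = |K|_p`, `m ≥ a`.
-/

namespace P179C

open Finset P179H524

/-! ### Orbits -/

/-- Sum of an invariant function over a set with a permutation `σ` of `p`-power order: if the
function vanishes on the fixed points of `σ ^ p ^ i`, then the sum is divisible by `p ^ (i+1)`. -/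
theorem perm_sum_dvd {X R : Type*} [Fintype X] [CommRing R] (p : ℕ) [hp : Fact p.Prime]
    (σ : Equiv.Perm X) (M : ℕ) (hσ : σ ^ p ^ M = 1) (φ : X → R) (hφ : ∀ x, φ (σ x) = φ x) (i : ℕ)
    (h0 : ∀ x, (σ ^ p ^ i) x = x → φ x = 0) : (p : R) ^ (i + 1) ∣ ∑ x, φ x := by
  classical
  let G := Subgroup.zpowers σ
  have := Fintype.ofFinite (MulAction.orbitRel.Quotient G X)
  have hinv : ∀ (g : G) (x : X), φ (g • x) = φ x := by
    rintro ⟨g, hg⟩ x
    obtain ⟨n, rfl⟩ := Subgroup.mem_zpowers_iff.1 hg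
    change φ ((σ ^ n) x) = φ x
    have h1 : ∀ (k : ℕ) (x : X), φ ((σ ^ k) x) = φ x := by
      intro k
      induction k with
      | zero => intro x; rfl
      | succ k ih => intro x; rw [pow_succ', Equiv.Perm.mul_apply, hφ, ih]
    obtain ⟨k, rfl | rfl⟩ := n.eq_nat_or_neg
    · rw [zpow_natCast]; exact h1 k x
    · rw [zpow_neg, zpow_natCast]
      have h2 := h1 k ((σ ^ k)⁻¹ x)
      have h3 : (σ ^ k) ((σ ^ k)⁻¹ x) = x := (σ ^ k).apply_symm_apply x
      rw [h3] at h2
      exact h2.symm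
  have h1 : ∑ x, φ x = ∑ ω : MulAction.orbitRel.Quotient G X,
      (Fintype.card (MulAction.orbit G ω.out) : R) * φ ω.out := by
    rw [← (MulAction.selfEquivSigmaOrbits G X).symm.sum_comp, Fintype.sum_sigma]
    refine Finset.sum_congr rfl fun ω _ => ?_
    have h2 : ∀ x : MulAction.orbit G ω.out,
        φ ((MulAction.selfEquivSigmaOrbits G X).symm ⟨ω, x⟩) = φ ω.out := by
      rintro ⟨_, g, rfl⟩
      exact hinv g _
    rw [Finset.sum_congr rfl fun x _ => h2 x, Finset.sum_const, nsmul_eq_mul, Finset.card_univ]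
  rw [h1]
  refine Finset.dvd_sum fun ω _ => ?_
  by_cases hz : φ ω.out = 0
  · rw [hz, mul_zero]; exact dvd_zero _
  refine Dvd.dvd.mul_right ?_ _
  have hper : Function.minimalPeriod (fun x : X => σ x) ω.out =
      Fintype.card (MulAction.orbit G ω.out) := MulAction.minimalPeriod_eq_card σ ω.out
  have hit : ∀ (n : ℕ), (fun x : X => σ x)^[n] ω.out = (σ ^ n) ω.out := by
    intro n
    rw [← Equiv.Perm.iterate_eq_pow]
  have hdvd : Function.minimalPeriod (fun x : X => σ x) ω.out ∣ p ^ M := by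
    apply Function.IsPeriodicPt.minimalPeriod_dvd
    change (fun x : X => σ x)^[p ^ M] ω.out = ω.out
    rw [hit, hσ]; rfl
  obtain ⟨j, -, hj⟩ := (Nat.dvd_prime_pow hp.out).1 hdvd
  rw [← hper, hj]
  have hij : i + 1 ≤ j := by
    by_contra hcon
    apply hz
    apply h0
    rw [← hit]
    have h3 : Function.IsPeriodicPt (fun x : X => σ x) (p ^ j) ω.out := by
      rw [← hj]; exact Function.isPeriodicPt_minimalPeriod _ _
    exact h3.trans_dvd (pow_dvd_pow p (by omega))
  push_cast
  exact pow_dvd_pow _ hij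

/-! ### Twisted rotation -/

section Trot

variable {K : Type*} [Group K]

/-- The periodic extension of the word `w`, twisted by `u`. -/
def ext {n : ℕ} (u : K) (w : Fin (n + 1) → K) (j : ℕ) : K :=
  u ^ (j / (n + 1)) * w (Fin.ofNat (n + 1) j) * (u ^ (j / (n + 1)))⁻¹

theorem ext_coe {n : ℕ} (u : K) (w : Fin (n + 1) → K) (i : Fin (n + 1)) : ext u w i = w i := by
  have h1 : (i : ℕ) / (n + 1) = 0 := Nat.div_eq_of_lt i.2
  have h2 : Fin.ofNat (n + 1) (i : ℕ) = i := by
    apply Fin.ext
    simp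
  rw [ext, h1, h2]
  simp

theorem ext_add {n : ℕ} (u : K) (w : Fin (n + 1) → K) (j : ℕ) :
    ext u w (j + (n + 1)) = u * ext u w j * u⁻¹ := by
  have h1 : (j + (n + 1)) / (n + 1) = j / (n + 1) + 1 := Nat.add_div_right j (Nat.succ_pos n)
  have h2 : Fin.ofNat (n + 1) (j + (n + 1)) = Fin.ofNat (n + 1) j := by
    apply Fin.ext
    simp
  rw [ext, ext, h1, h2, pow_succ']
  simp [mul_assoc]

theorem ext_add_mul {n : ℕ} (u : K) (w : Fin (n + 1) → K) (k j : ℕ) :
    ext u w (j + (n + 1) * k) = u ^ k * ext u w j * (u ^ k)⁻¹ := by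
  induction k with
  | zero => simp
  | succ k ih =>
    rw [Nat.mul_succ, ← add_assoc, ext_add, ih, pow_succ']
    simp [mul_assoc]

theorem ext_injective {n : ℕ} (u : K) {w w' : Fin (n + 1) → K} (h : ∀ j, ext u w j = ext u w' j) :
    w = w' := by
  funext i
  rw [← ext_coe u w, ← ext_coe u w', h]

/-- Twisted rotation. -/
def trot (n : ℕ) (u : K) : Equiv.Perm (Fin (n + 1) → K) where
  toFun w := Fin.snoc (α := fun _ => K) (Fin.tail w) (u * w 0 * u⁻¹)
  invFun w := Fin.cons (u⁻¹ * w (Fin.last n) * u) (Fin.init w)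
  left_inv w := by
    funext i
    refine Fin.cases ?_ (fun i => ?_) i
    · simp [mul_assoc]
    · simp [Fin.tail]
  right_inv w := by
    funext i
    refine Fin.lastCases ?_ (fun i => ?_) i
    · simp [mul_assoc]
    · simp [Fin.init]

theorem ext_trot {n : ℕ} (u : K) (w : Fin (n + 1) → K) (j : ℕ) :
    ext u (trot n u w) j = ext u w (j + 1) := by
  -- it is enough to treat `j ≤ n`
  have key : ∀ j : ℕ, j < n + 1 → ext u (trot n u w) j = ext u w (j + 1) := by
    intro j hj
    have h1 := ext_coe u (trot n u w) ⟨j, hj⟩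
    rw [show ((⟨j, hj⟩ : Fin (n + 1)) : ℕ) = j from rfl] at h1
    rw [h1]
    change (Fin.snoc (α := fun _ => K) (Fin.tail w) (u * w 0 * u⁻¹) : Fin (n + 1) → K) ⟨j, hj⟩ = _
    rcases Nat.lt_or_ge j n with hjn | hjn
    · have h2 : (⟨j, hj⟩ : Fin (n + 1)) = Fin.castSucc ⟨j, hjn⟩ := rfl
      rw [h2, Fin.snoc_castSucc]
      have h3 := ext_coe u w ⟨j + 1, by omega⟩
      exact h3.symm
    · have h4 : j = n := by omega
      subst h4
      have h2 : (⟨j, hj⟩ : Fin (j + 1)) = Fin.last j := rfl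
      rw [h2, Fin.snoc_last]
      have h3 := ext_add u w 0
      rw [zero_add] at h3
      rw [h3]
      have h5 := ext_coe u w 0
      rw [show (((0 : Fin (j + 1)) : ℕ)) = 0 from rfl] at h5
      rw [h5]
  have h1 : j = j % (n + 1) + (n + 1) * (j / (n + 1)) := (Nat.mod_add_div j (n + 1)).symm
  have h2 := key (j % (n + 1)) (Nat.mod_lt _ (Nat.succ_pos n))
  rw [h1, ext_add_mul, h2, add_right_comm, ext_add_mul]

theorem ext_trot_pow {n : ℕ} (u : K) (k : ℕ) (w : Fin (n + 1) → K) (j : ℕ) :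
    ext u ((trot n u ^ k) w) j = ext u w (j + k) := by
  induction k generalizing j with
  | zero => rfl
  | succ k ih =>
    rw [pow_succ', Equiv.Perm.mul_apply, ext_trot, ih]
    congr 1
    omega

theorem trot_pow_eq_one {n : ℕ} (u : K) (k : ℕ) (hu : u ^ k = 1) :
    trot n u ^ ((n + 1) * k) = 1 := by
  ext w : 1
  apply ext_injective u
  intro j
  rw [ext_trot_pow, ext_add_mul, hu]
  simp

/-- product of the first terms of a sequence -/
def rp (f : ℕ → K) : ℕ → K
  | 0 => 1
  | n + 1 => rp f n * f n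

theorem rp_add (f : ℕ → K) (a b : ℕ) : rp f (a + b) = rp f a * rp (fun j => f (a + j)) b := by
  induction b with
  | zero => simp [rp]
  | succ b ih => rw [← add_assoc, rp, ih, rp, mul_assoc]

theorem rp_mul {f : ℕ → K} {a : ℕ} (hf : ∀ j, f (j + a) = f j) (b : ℕ) :
    rp f (a * b) = rp f a ^ b := by
  have h1 : ∀ b j, f (j + a * b) = f j := by
    intro b
    induction b with
    | zero => intro j; simp
    | succ b ih => intro j; rw [Nat.mul_succ, ← add_assoc, hf, ih]
  induction b with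
  | zero => simp [rp]
  | succ b ih =>
    rw [Nat.mul_succ, rp_add, ih, pow_succ]
    congr 2
    funext j
    rw [add_comm, h1]

theorem rp_congr {f f' : ℕ → K} {a : ℕ} (h : ∀ j < a, f j = f' j) : rp f a = rp f' a := by
  induction a with
  | zero => rfl
  | succ a ih => rw [rp, rp, ih fun j hj => h j (by omega), h a (by omega)]

theorem rp_mem {f : ℕ → K} (H : Subgroup K) (hf : ∀ j, f j ∈ H) (a : ℕ) : rp f a ∈ H := by
  induction a with
  | zero => exact H.one_mem
  | succ a ih => exact H.mul_mem ih (hf a)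

theorem wprod_eq_rp {n : ℕ} (u : K) (w : Fin (n + 1) → K) : wprod w = rp (ext u w) (n + 1) := by
  have h : ∀ (n : ℕ) (w : Fin n → K) (f : ℕ → K), (∀ i : Fin n, f i = w i) → wprod w = rp f n := by
    intro n
    induction n with
    | zero => intro w f _; simp [wprod, rp]
    | succ n ih =>
      intro w f hf
      rw [wprod, List.ofFn_succ', List.concat_eq_append, List.prod_append, List.prod_singleton, rp]
      have h1 := ih (fun i => w i.castSucc) f fun i => by
        rw [← hf i.castSucc]; rfl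
      rw [← wprod, h1, ← hf (Fin.last n)]
      rfl
  exact h _ w _ fun i => ext_coe u w i

theorem wprod_trot {n : ℕ} (u : K) (w : Fin (n + 1) → K) :
    wprod (trot n u w) * u = (w 0)⁻¹ * (wprod w * u) * w 0 := by
  have h : wprod w = w 0 * (List.ofFn fun i : Fin n => w i.succ).prod := by
    rw [wprod, List.ofFn_succ, List.prod_cons]
  rw [wprod, List.ofFn_succ', List.concat_eq_append, List.prod_append, List.prod_singleton]
  have h1 : (fun i : Fin n => trot n u w i.castSucc) = fun i => w i.succ := by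
    funext i
    change (Fin.snoc (α := fun _ => K) (Fin.tail w) (u * w 0 * u⁻¹) : Fin (n + 1) → K) _ = _
    rw [Fin.snoc_castSucc]
    rfl
  have h2 : trot n u w (Fin.last n) = u * w 0 * u⁻¹ := by
    change (Fin.snoc (α := fun _ => K) (Fin.tail w) (u * w 0 * u⁻¹) : Fin (n + 1) → K) _ = _
    rw [Fin.snoc_last]
  rw [h1, h2, h]
  group

theorem prod_trot {R : Type*} [CommMonoid R] {n : ℕ} (u : K) (z : K → R)
    (hz : ∀ x, z (u * x * u⁻¹) = z x) (w : Fin (n + 1) → K) :
    ∏ i, z (trot n u w i) = ∏ i, z (w i) := by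
  rw [Fin.prod_univ_castSucc, Fin.prod_univ_succ, mul_comm]
  congr 1
  · change z ((Fin.snoc (α := fun _ => K) (Fin.tail w) (u * w 0 * u⁻¹) : Fin (n + 1) → K) _) = _
    rw [Fin.snoc_last, hz]
  · refine Finset.prod_congr rfl fun i _ => ?_
    change z ((Fin.snoc (α := fun _ => K) (Fin.tail w) (u * w 0 * u⁻¹) : Fin (n + 1) → K) _) = _
    rw [Fin.snoc_castSucc]
    rfl

/-- The words fixed by a power of the twisted rotation. -/
theorem trot_fixed {n a b : ℕ} (hab : a * b = n + 1) (u : K) (w : Fin (n + 1) → K)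
    (h : (trot n u ^ a) w = w) : (∀ j, u * ext u w j = ext u w j * u) ∧
      wprod w = rp (ext u w) a ^ b := by
  have h1 : ∀ j, ext u w (j + a) = ext u w j := by
    intro j
    rw [← ext_trot_pow, h]
  have h2 : ∀ b j, ext u w (j + a * b) = ext u w j := by
    intro b
    induction b with
    | zero => intro j; simp
    | succ b ih => intro j; rw [Nat.mul_succ, ← add_assoc, h1, ih]
  constructor
  · intro j
    have h3 := h2 b j
    rw [hab, ext_add] at h3
    exact mul_inv_eq_iff_eq_mul.1 h3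
  · rw [wprod_eq_rp u, ← hab, rp_mul h1]

end Trot

/-! ### Lemma W -/

section W

variable {K R : Type*} [Group K] [Fintype K] [CommRing R]

/-- the core of Lemma W -/
theorem lemW_core (p : ℕ) [hp : Fact p.Prime] (z F : K → R) (u : K) (a : ℕ) (hu : u ^ p ^ a = 1)
    (hz : ∀ x, z (u * x * u⁻¹) = z x) (hF : IsCF F) (c : ℕ) (hc : ∀ x : K, ¬ p ∣ orderOf (x ^ p ^ c))
    (hF0 : ∀ β : K, u * β = β * u → ¬ p ∣ orderOf β → F (β * u) = 0) (i : ℕ) :
    (p : R) ^ (i + 1) ∣ ∑ w : Fin (p ^ (i + c)) → K, (∏ j, z (w j)) * F (wprod w * u) := by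
  obtain ⟨n, hn⟩ : ∃ n, p ^ (i + c) = n + 1 :=
    ⟨p ^ (i + c) - 1, by have := pow_pos hp.out.pos (i + c); omega⟩
  rw [hn]
  refine perm_sum_dvd p (trot n u) (i + c + a) ?_ _ ?_ i ?_
  · rw [pow_add, hn]
    exact trot_pow_eq_one u _ hu
  · intro w
    rw [prod_trot u z hz, wprod_trot]
    have := hF (w 0)⁻¹ (wprod w * u)
    rw [inv_inv] at this
    rw [this]
  · intro w hw
    obtain ⟨h1, h2⟩ := trot_fixed (a := p ^ i) (b := p ^ c) (by rw [← pow_add, hn]) u w hw
    have h3 : u * rp (ext u w) (p ^ i) = rp (ext u w) (p ^ i) * u := by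
      have := rp_mem (f := ext u w) (Subgroup.centralizer {u}) (fun j => by
        rw [Subgroup.mem_centralizer_singleton_iff]; exact (h1 j).symm) (p ^ i)
      rw [Subgroup.mem_centralizer_singleton_iff] at this
      exact this.symm
    rw [h2, hF0, mul_zero]
    · exact (Commute.pow_right (show Commute u _ from h3) _).eq
    · exact hc _

/-- The convolution operator of `z`. -/
def cv (z F : K → R) (y : K) : R := ∑ g, z g * F (g * y)

theorem cv_isCF (z F : K → R) (hz : IsCF z) (hF : IsCF F) : IsCF (cv z F) := by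
  intro t y
  rw [cv, cv, ← Equiv.sum_comp (MulAut.conj t).toEquiv]
  refine Finset.sum_congr rfl fun g _ => ?_
  have h1 : (MulAut.conj t).toEquiv g = t * g * t⁻¹ := rfl
  have h2 : t * g * t⁻¹ * (t * y * t⁻¹) = t * (g * y) * t⁻¹ := by group
  rw [h1, h2, hz, hF]

theorem cv_iterate_isCF (z F : K → R) (hz : IsCF z) (hF : IsCF F) (n : ℕ) :
    IsCF ((cv z)^[n] F) := by
  induction n with
  | zero => exact hF
  | succ n ih => rw [Function.iterate_succ']; exact cv_isCF z _ hz ih

theorem cv_iterate (z F : K → R) (n : ℕ) (y : K) :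
    (cv z)^[n] F y = ∑ w : Fin n → K, (∏ j, z (w j)) * F (wprod w * y) := by
  induction n generalizing F with
  | zero => simp [wprod]
  | succ n ih =>
    rw [Function.iterate_succ, Function.comp_apply, ih]
    rw [← Equiv.sum_comp (Fin.consEquiv fun _ : Fin (n + 1) => K), Fintype.sum_prod_type_right]
    refine Finset.sum_congr rfl fun w _ => ?_
    rw [cv, Finset.mul_sum]
    refine Finset.sum_congr rfl fun g _ => ?_
    have h1 : wprod (Fin.consEquiv (fun _ : Fin (n + 1) => K) (g, w)) = g * wprod w := by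
      rw [wprod, wprod, List.ofFn_succ, List.prod_cons]
      rfl
    have h2 : ∏ j, z (Fin.consEquiv (fun _ : Fin (n + 1) => K) (g, w) j) =
        z g * ∏ j, z (w j) := by
      rw [Fin.prod_univ_succ]
      rfl
    rw [h1, h2, mul_assoc g]
    ring

/-- Untwisting the `p`-regular part. -/
theorem cv_iterate_shift (z F : K → R) (hz : IsCF z) (hF : IsCF F) (h : K) (n : ℕ) (x : K) :
    (cv z)^[n] F (x * h ^ n) = (cv fun g => z (g * h⁻¹))^[n] F x := by
  induction n generalizing x with
  | zero => simp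
  | succ n ih =>
    rw [Function.iterate_succ', Function.comp_apply, Function.iterate_succ', Function.comp_apply,
      cv, cv, ← Equiv.sum_comp (Equiv.mulLeft h⁻¹)]
    refine Finset.sum_congr rfl fun g _ => ?_
    rw [← ih, Equiv.coe_mulLeft]
    have h1 : z (h⁻¹ * g) = z (g * h⁻¹) := by
      have := hz h (h⁻¹ * g)
      rw [← this]
      congr 1
      group
    have h2 : (cv z)^[n] F (h⁻¹ * g * (x * h ^ (n + 1))) = (cv z)^[n] F (g * (x * h ^ n)) := by
      have := cv_iterate_isCF z F hz hF n h (h⁻¹ * g * (x * h ^ (n + 1)))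
      rw [← this]
      congr 1
      rw [pow_succ]
      group
    rw [h1, h2, ← mul_assoc g]

omit [Fintype K] in
theorem not_dvd_orderOf_pow (p : ℕ) [hp : Fact p.Prime] [Finite K] (x : K) :
    ¬ p ∣ orderOf (x ^ p ^ (Nat.card K).factorization p) := by
  have hK : Nat.card K ≠ 0 := Nat.card_pos.ne'
  intro h
  have h1 : orderOf (x ^ p ^ (Nat.card K).factorization p) ∣ ordCompl[p] (Nat.card K) := by
    apply orderOf_dvd_of_pow_eq_one
    rw [← pow_mul, Nat.ordProj_mul_ordCompl_eq_self]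
    exact pow_card_eq_one'
  exact Nat.not_dvd_ordCompl hp.out hK (h.trans h1)

/-- **Lemma W.** -/
theorem lemW (p : ℕ) [hp : Fact p.Prime] (z F : K → R) (hz : IsCF z) (hF : IsCF F) (y : K)
    (hF0 : ∀ q : K, q * (pr p q)⁻¹ = y * (pr p y)⁻¹ → F q = 0) (m : ℕ)
    (hm : (Nat.card K).factorization p ≤ m) :
    (p : R) ^ (m - (Nat.card K).factorization p + 1) ∣ (cv z)^[p ^ m] F y := by
  set c := (Nat.card K).factorization p with hcdef
  obtain ⟨a, ha⟩ : ∃ a : ℕ, (y * (pr p y)⁻¹) ^ p ^ a = 1 := pr_sing y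
  set u := y * (pr p y)⁻¹ with hudef
  have hcomm : Commute u (pr p y) :=
    ((pr_commute (p := p) y).mul_left (Commute.inv_left (Commute.refl _)))
  have hy : y = u * pr p y := by rw [hudef]; group
  -- a root of the `p`-regular part
  obtain ⟨e, he⟩ : ∃ e : ℕ, (pr p y ^ p ^ m) ^ e = pr p y := by
    apply exists_pow_eq_self_of_coprime
    exact ((Nat.Prime.coprime_iff_not_dvd hp.out).2 (pr_regular y)).pow_left m
  have hroot : (pr p y ^ e) ^ p ^ m = pr p y := by rw [← pow_mul, mul_comm, pow_mul, he]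
  have h1 : (cv z)^[p ^ m] F y = (cv fun g => z (g * (pr p y ^ e)⁻¹))^[p ^ m] F u := by
    rw [← cv_iterate_shift z F hz hF, hroot, ← hy]
  rw [h1, cv_iterate]
  obtain ⟨i, rfl⟩ : ∃ i, m = i + c := ⟨m - c, by omega⟩
  rw [Nat.add_sub_cancel]
  refine lemW_core p (fun g => z (g * (pr p y ^ e)⁻¹)) F u a ha ?_ hF c
    (fun x => not_dvd_orderOf_pow p x) ?_ i
  · intro x
    have h2 : u⁻¹ * (pr p y ^ e)⁻¹ = (pr p y ^ e)⁻¹ * u⁻¹ :=
      ((hcomm.pow_right e).inv_inv).eq
    have h3 : u * x * u⁻¹ * (pr p y ^ e)⁻¹ = u * (x * (pr p y ^ e)⁻¹) * u⁻¹ := by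
      rw [mul_assoc, h2]; group
    rw [h3, hz]
  · intro β hβ hreg
    apply hF0
    have h4 : pr p (β * u) = β := pr_eq (p := p) (show Commute β u from hβ.symm) hreg ⟨a, ha⟩
    rw [h4, ← hβ]
    group

end W

end P179C
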