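import Vale.Agent.P179.H905.MA

/-!
# Theorem M, part D: the non-free triples cancel (nonabelian `P`, twisted by `t`)
-/

namespace P179M

open P179A Subgroup

open scoped Classical Pointwise

variable {G : Type*} [Group G]

/-- The smallest subgroup containing `F` and normalised by `t`. -/
def tcl (t : G) (F : Finset G) : Subgroup G :=
  sInf {V : Subgroup G | (F : Set G) ⊆ V ∧ t ∈ normalizer (V : Set G)}

theorem subset_tcl (t : G) (F : Finset G) : ∀ f ∈ F, f ∈ tcl t F := by
  intro f hf
  rw [tcl, mem_sInf]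
  intro V hV
  exact hV.1 hf

theorem tcl_le {t : G} {F : Finset G} {V : Subgroup G} (h1 : ∀ f ∈ F, f ∈ V)
    (h2 : t ∈ normalizer (V : Set G)) : tcl t F ≤ V :=
  sInf_le ⟨h1, h2⟩

theorem mem_normalizer_tcl (t : G) (F : Finset G) :
    t ∈ normalizer ((tcl t F : Subgroup G) : Set G) := by
  rw [mem_normalizer_iff]
  intro z
  constructor
  · intro hz
    rw [tcl, mem_sInf] at hz ⊢
    intro V hV
    exact (mem_normalizer_iff.1 hV.2 z).1 (hz V hV)
  · intro hz
    rw [tcl, mem_sInf] at hz ⊢
    intro V hV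
    exact (mem_normalizer_iff.1 hV.2 z).2 (hz V hV)

theorem tcl_ne_bot {t : G} {F : Finset G} {f : G} (hf : f ∈ F) (h1 : f ≠ 1) : tcl t F ≠ ⊥ := by
  intro h
  have := subset_tcl t F f hf
  rw [h, mem_bot] at this
  exact h1 this

variable {p : ℕ} {g : G} {P : Subgroup G}

/-- `t` normalises `U P w` if `w` is fixed by `t` up to the twist. -/
theorem mem_normalizer_U [Finite G] {w : Tri G} {t : G} {n : ℕ} (hch : IsPChain p w.s)
    (ht : t ∈ P) (h : s1^[n] w = t • w) : t ∈ normalizer ((U P w : Subgroup G) : Set G) := by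
  rw [s1_iterate] at h
  have h1 : w.x = t * w.x * t⁻¹ := congrArg Tri.x h
  have h2 : w.y * w.x ^ n = t * w.y * t⁻¹ := congrArg Tri.y h
  have h3 : w.s = MulAut.conj t • w.s := congrArg Tri.s h
  refine mem_normalizer_fintype fun v hv => ?_
  obtain ⟨hv1, hv2, hv3, hv4⟩ := mem_U.1 hv
  have hts : t ∈ stab w.s := mem_stab_of_conj_smul_eq hch.2 h3.symm
  have c1 : Commute (t * v * t⁻¹) w.x := by
    have : (t * v * t⁻¹) * (t * w.x * t⁻¹) = (t * w.x * t⁻¹) * (t * v * t⁻¹) := by
      calc (t * v * t⁻¹) * (t * w.x * t⁻¹) = t * (v * w.x) * t⁻¹ := by group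
        _ = t * (w.x * v) * t⁻¹ := by rw [hv2]
        _ = (t * w.x * t⁻¹) * (t * v * t⁻¹) := by group
    rw [← h1] at this
    exact this
  have c2 : Commute (t * v * t⁻¹) (w.y * w.x ^ n) := by
    have : (t * v * t⁻¹) * (t * w.y * t⁻¹) = (t * w.y * t⁻¹) * (t * v * t⁻¹) := by
      calc (t * v * t⁻¹) * (t * w.y * t⁻¹) = t * (v * w.y) * t⁻¹ := by group
        _ = t * (w.y * v) * t⁻¹ := by rw [hv3]
        _ = (t * w.y * t⁻¹) * (t * v * t⁻¹) := by group
    rw [← h2] at this
    exact this
  have c3 : Commute (t * v * t⁻¹) w.y := by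
    have h4 := c2.mul_right (c1.pow_right n).inv_right
    rwa [mul_inv_cancel_right] at h4
  exact mem_U.2 ⟨mul_mem (mul_mem ht hv1) (inv_mem ht), c1, c3,
    mul_mem (mul_mem hts hv4) (inv_mem hts)⟩

/-- The sum over the triples with `F ⊆ U P w` vanishes. -/
theorem sum_subset_eq_zero [Finite G] (hP : IsPGroup p P) {t : G} (ht : t ∈ P) (n : ℕ)
    {F : Finset G} {f : G} (hf : f ∈ F) (h1 : f ≠ 1) :
    ∑ w ∈ (OF p g).filter (fun w => s1^[n] w = t • w ∧ ∀ f ∈ F, f ∈ U P w),
      (-1 : ℤ) ^ w.s.card = 0 := by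
  by_cases hFP : ∀ f ∈ F, f ∈ P
  · set V := tcl t F with hV
    have hVP : V ≤ P := tcl_le hFP (le_normalizer ht)
    have hV1 : V ≠ ⊥ := tcl_ne_bot hf h1
    have hVU : ∀ w : Tri G, InO p g w → s1^[n] w = t • w → (∀ f ∈ F, f ∈ U P w) → V ≤ U P w :=
      fun w hw h2 h3 => tcl_le h3 (mem_normalizer_U hw.chain ht h2)
    have hpV : IsPGroup p V := hP.to_le hVP
    refine Finset.sum_involution (fun w _ => tg V w) ?_ ?_ ?_ ?_
    · intro w hw
      simp only [tg]
      rw [neg_one_pow_card_tog]; ring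
    · intro w hw _ h
      have := congrArg Tri.s h
      exact tog_ne _ _ this
    · intro w hw
      rw [Finset.mem_filter, mem_OF] at hw ⊢
      obtain ⟨hw1, hw2, hw3⟩ := hw
      have hle := hVU w hw1 hw2 hw3
      have hVT : V ≤ T P w := hle.trans inf_le_left
      have hVs : ∀ v ∈ V, v ∈ stab w.s := fun v hv => (mem_T.1 (hVT hv)).2.2
      refine ⟨hw1.tg hP hVT hV1
        (mem_normalizer_of_comm fun v hv => (mem_U.1 (hle hv)).2.2.1.symm), ?_, ?_⟩
      · rw [s1_iterate] at hw2 ⊢
        have e1 : w.x = t * w.x * t⁻¹ := congrArg Tri.x hw2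
        have e2 : w.y * w.x ^ n = t * w.y * t⁻¹ := congrArg Tri.y hw2
        have e3 : w.s = MulAut.conj t • w.s := congrArg Tri.s hw2
        apply Tri.ext
        · exact e1
        · exact e2
        · simp only [rm, tg, smul_s]
          rw [smul_tog, ← e3]
          congr 1
          have h5 := mem_normalizer_tcl t F
          rw [← hV, mem_normalizer_iff_map] at h5
          exact h5.symm
      · intro f hf
        have hfU := hw3 f hf
        obtain ⟨k1, k2, k3, k4⟩ := mem_U.1 hfU
        refine mem_U.2 ⟨k1, k2, k3, ?_⟩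
        exact (mem_stab_tog hw1.chain hpV hV1 hVs
          (le_normalizer (subset_tcl t F f hf))).2 k4
    · intro w hw
      exact tg_tg _ _
  · push Not at hFP
    obtain ⟨f', hf', hf'P⟩ := hFP
    rw [Finset.filter_false_of_mem, Finset.sum_empty]
    intro w _ hw
    exact hf'P (mem_U.1 (hw.2 f' hf')).1

/-- **Part D.** The triples with nontrivial `U P w` cancel. -/
theorem sum_nonfree_twisted [Finite G] (hP : IsPGroup p P) {t : G} (ht : t ∈ P) (n : ℕ) :
    ∑ w ∈ (OF p g).filter (fun w => s1^[n] w = t • w ∧ U P w ≠ ⊥),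
      (-1 : ℤ) ^ w.s.card = 0 := by
  have : Fintype G := Fintype.ofFinite G
  -- the nontrivial elements of `U P w`
  let A : Tri G → Finset G := fun w => Finset.univ.filter (fun f => f ∈ U P w ∧ f ≠ 1)
  have hA : ∀ w, U P w ≠ ⊥ ↔ (A w).Nonempty := by
    intro w
    rw [Ne, Subgroup.eq_bot_iff_forall]
    push Not
    constructor
    · rintro ⟨x, hx, hx1⟩
      exact ⟨x, by simp [A, hx, hx1]⟩
    · rintro ⟨x, hx⟩
      simp only [A, Finset.mem_filter, Finset.mem_univ, true_and] at hx
      exact ⟨x, hx.1, hx.2⟩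
  set X := (OF p g).filter (fun w => s1^[n] w = t • w) with hX
  -- the powerset of `G \ 1`
  let B : Finset G := Finset.univ.filter (fun f => f ≠ 1)
  have hAB : ∀ w, A w ⊆ B := by
    intro w f hf
    simp only [A, B, Finset.mem_filter, Finset.mem_univ, true_and] at hf ⊢
    exact hf.2
  have key : ∀ w ∈ X, (if U P w ≠ ⊥ then (-1 : ℤ) ^ w.s.card else 0) =
      - ∑ F ∈ B.powerset.filter (fun F => F.Nonempty), (-1 : ℤ) ^ F.card *
        (if ∀ f ∈ F, f ∈ U P w then (-1 : ℤ) ^ w.s.card else 0) := by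
    intro w _
    have h1 : ∑ F ∈ (A w).powerset, (-1 : ℤ) ^ F.card = if A w = ∅ then 1 else 0 :=
      Finset.sum_powerset_neg_one_pow_card
    have h2 : ∑ F ∈ (A w).powerset, (-1 : ℤ) ^ F.card =
        1 + ∑ F ∈ B.powerset.filter (fun F => F.Nonempty),
          (-1 : ℤ) ^ F.card * (if ∀ f ∈ F, f ∈ U P w then 1 else 0) := by
      have h3 : (A w).powerset = insert ∅ (B.powerset.filter
          (fun F => F.Nonempty ∧ ∀ f ∈ F, f ∈ U P w)) := by
        ext F
        simp only [Finset.mem_powerset, Finset.mem_insert, Finset.mem_filter]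
        constructor
        · intro hF
          rcases Finset.eq_empty_or_nonempty F with h | h
          · exact Or.inl h
          · refine Or.inr ⟨hF.trans (hAB w), h, fun f hf => ?_⟩
            have := hF hf
            simp only [A, Finset.mem_filter, Finset.mem_univ, true_and] at this
            exact this.1
        · rintro (h | ⟨h3, h4, h5⟩)
          · rw [h]; exact Finset.empty_subset _
          · intro f hf
            have := h3 hf
            simp only [B, Finset.mem_filter, Finset.mem_univ, true_and] at this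
            simp only [A, Finset.mem_filter, Finset.mem_univ, true_and]
            exact ⟨h5 f hf, this⟩
      rw [h3, Finset.sum_insert (by simp)]
      simp only [Finset.card_empty, pow_zero, mul_ite, mul_one, mul_zero]
      rw [← Finset.sum_filter, Finset.filter_filter]
    have h4 : ∑ F ∈ B.powerset.filter (fun F => F.Nonempty), (-1 : ℤ) ^ F.card *
        (if ∀ f ∈ F, f ∈ U P w then (-1 : ℤ) ^ w.s.card else 0) =
        (∑ F ∈ B.powerset.filter (fun F => F.Nonempty), (-1 : ℤ) ^ F.card *
        (if ∀ f ∈ F, f ∈ U P w then 1 else 0)) * (-1 : ℤ) ^ w.s.card := by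
      rw [Finset.sum_mul]
      refine Finset.sum_congr rfl fun F _ => ?_
      split_ifs <;> ring
    rw [h4]
    rw [h2] at h1
    by_cases h5 : A w = ∅
    · rw [if_pos h5] at h1
      have h6 : ¬ U P w ≠ ⊥ := by
        rw [hA, h5]; simp
      rw [if_neg h6]
      have h7 := add_eq_left.1 h1
      rw [h7]; ring
    · rw [if_neg h5] at h1
      have h6 : U P w ≠ ⊥ := (hA w).2 (Finset.nonempty_iff_ne_empty.2 h5)
      rw [if_pos h6]
      have h7 := eq_neg_of_add_eq_zero_right h1
      rw [h7]; ring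
  have h8 : (OF p g).filter (fun w => s1^[n] w = t • w ∧ U P w ≠ ⊥) =
      X.filter (fun w => U P w ≠ ⊥) := by
    rw [hX, Finset.filter_filter]
  rw [h8, Finset.sum_filter, Finset.sum_congr rfl key, Finset.sum_neg_distrib, Finset.sum_comm,
    neg_eq_zero]
  refine Finset.sum_eq_zero fun F hF => ?_
  rw [Finset.mem_filter] at hF
  obtain ⟨f, hf⟩ := hF.2
  have hf1 : f ≠ 1 := by
    have := Finset.mem_powerset.1 hF.1 hf
    simp only [B, Finset.mem_filter, Finset.mem_univ, true_and] at this
    exact this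
  rw [← Finset.mul_sum, ← Finset.sum_filter, hX, Finset.filter_filter]
  refine mul_eq_zero_of_right _ ?_
  have h9 := sum_subset_eq_zero (g := g) hP ht n hf hf1
  rw [← h9]
  refine Finset.sum_congr ?_ fun _ _ => rfl
  ext w
  simp only [Finset.mem_filter]

/-- The signed sum over all twisted fixed triples is the sum over the free ones. -/
theorem sum_free_twisted [Finite G] (hP : IsPGroup p P) {t : G} (ht : t ∈ P) (n : ℕ) :
    ∑ w ∈ (OF p g).filter (fun w => s1^[n] w = t • w ∧ U P w = ⊥), (-1 : ℤ) ^ w.s.card =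
      ∑ w ∈ (OF p g).filter (fun w => s1^[n] w = t • w), (-1 : ℤ) ^ w.s.card := by
  rw [← Finset.sum_filter_add_sum_filter_not ((OF p g).filter (fun w => s1^[n] w = t • w))
    (fun w => U P w = ⊥), Finset.filter_filter, Finset.filter_filter]
  have := sum_nonfree_twisted (p := p) (g := g) hP ht n
  rw [this, add_zero]

end P179M
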