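import Vale.Agent.P179.H143.MainY
import Vale.Agent.P179.H143.IneqT
import Vale.Agent.P179.H526.FDP

/-!
# (MAIN+) the number of `p`-rational characters, inertial form
-/

namespace P179Y

open P179H524 P179C P179A Finset P179P Subgroup

open P179X (pp SameSec IrrB Srat)

open scoped Classical

/-- The number of regular elements. -/
theorem card_Reg (p : ℕ) [hp : Fact p.Prime] {G : Type*} [Group G] [Finite G]
    (P : Subgroup G) (hP : IsPGroup p P) (N : Subgroup G) :
    Nat.card P * (p + 1 - (centralizer (P : Set G)).relIndex N) ≤ p * Nat.card {w : G // w ∈ P ∧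
      ∀ n ∈ N, n * w * n⁻¹ = w → n ∈ centralizer (P : Set G)} := by
  set C : Subgroup G := centralizer (P : Set G) with hC
  let Q := N ⧸ C.subgroupOf N
  have := Fintype.ofFinite Q
  have := Fintype.ofFinite G
  have hQ : Fintype.card Q = C.relIndex N := by
    rw [← Nat.card_eq_fintype_card]
    rfl
  let F : Q → Finset G := fun c => univ.filter fun w =>
    w ∈ P ∧ ((c.out : N) : G) * w * ((c.out : N) : G)⁻¹ = w
  let R : Finset G := univ.filter fun w => (w ∈ P ∧ ∀ n ∈ N, n * w * n⁻¹ = w → n ∈ C)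
  let PF : Finset G := univ.filter fun w => w ∈ P
  have hPF : PF.card = Nat.card P := by
    rw [Nat.card_eq_fintype_card, Fintype.card_subtype]
  have hR : R.card = Nat.card {w : G // (w ∈ P ∧ ∀ n ∈ N, n * w * n⁻¹ = w → n ∈ C)} := by
    rw [Nat.card_eq_fintype_card, Fintype.card_subtype]
  -- covering
  have hcov : PF ⊆ R ∪ (univ.filter fun c : Q => c ≠ QuotientGroup.mk 1).biUnion F := by
    intro w hw
    have hwP : w ∈ P := (mem_filter.1 hw).2
    rw [mem_union]
    by_cases hreg : (w ∈ P ∧ ∀ n ∈ N, n * w * n⁻¹ = w → n ∈ C)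
    · exact Or.inl (mem_filter.2 ⟨mem_univ _, hreg⟩)
    · right
      have h1 : ∃ n ∈ N, n * w * n⁻¹ = w ∧ n ∉ C := by
        by_contra hcon
        push Not at hcon
        exact hreg ⟨hwP, hcon⟩
      obtain ⟨n, hn, hnw, hnC⟩ := h1
      rw [mem_biUnion]
      refine ⟨QuotientGroup.mk ⟨n, hn⟩, mem_filter.2 ⟨mem_univ _, ?_⟩, mem_filter.2
        ⟨mem_univ _, hwP, ?_⟩⟩
      · intro h
        rw [QuotientGroup.eq] at h
        have h' : (n : G)⁻¹ * 1 ∈ C := h
        rw [mul_one] at h'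
        exact hnC (by simpa using inv_mem h')
      · set m : N := (QuotientGroup.mk (⟨n, hn⟩ : N) : Q).out with hm
        have h2 : (QuotientGroup.mk m : Q) = QuotientGroup.mk ⟨n, hn⟩ := Quotient.out_eq' _
        rw [QuotientGroup.eq] at h2
        have h3 : (m : G)⁻¹ * n ∈ C := h2
        have h4 : ((m : G)⁻¹ * n) * w = w * ((m : G)⁻¹ * n) := (mem_centralizer_iff.1 h3 w hwP).symm
        have h5 : n * w = w * n := mul_inv_eq_iff_eq_mul.1 hnw
        rw [mul_inv_eq_iff_eq_mul]
        have h6 : (m : G)⁻¹ * (w * n) = w * ((m : G)⁻¹ * n) := by rw [← h4, mul_assoc, h5]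
        have h7 : (m : G)⁻¹ * w = w * (m : G)⁻¹ := by
          have := congrArg (· * n⁻¹) h6
          simpa [mul_assoc] using this
        have h8 := congrArg (fun x => (m : G) * x * m) h7
        simp only [mul_assoc, mul_inv_cancel_left, inv_mul_cancel, mul_one] at h8
        exact h8.symm
  -- the size of the pieces
  have hpiece : ∀ c : Q, c ≠ QuotientGroup.mk 1 → p * (F c).card ≤ Nat.card P := by
    intro c hc
    let S : Subgroup P := (centralizer {((c.out : N) : G)}).subgroupOf P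
    have h1 : (F c).card = Nat.card S := by
      rw [Nat.card_eq_fintype_card]
      refine Finset.card_bij (i := fun w hw => (⟨⟨w, (mem_filter.1 hw).2.1⟩, ?_⟩ : S))
        (fun _ _ => mem_univ _) ?_ ?_ |>.trans Finset.card_univ
      · rw [Subgroup.mem_subgroupOf, mem_centralizer_singleton_iff]
        have := (mem_filter.1 hw).2.2
        exact (mul_inv_eq_iff_eq_mul.1 this).symm
      · intro a ha b hb hab
        exact congrArg (fun x : S => ((x : P) : G)) hab
      · intro b _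
        refine ⟨((b : P) : G), mem_filter.2 ⟨mem_univ _, (b : P).2, ?_⟩, rfl⟩
        have := mem_centralizer_singleton_iff.1 (Subgroup.mem_subgroupOf.1 b.2)
        rw [mul_inv_eq_iff_eq_mul]
        exact this.symm
    have h2 : S ≠ ⊤ := by
      intro htop
      apply hc
      have h3 : (c.out : N) ∈ C.subgroupOf N := by
        rw [Subgroup.mem_subgroupOf]
        change ((c.out : N) : G) ∈ centralizer (P : Set G)
        rw [mem_centralizer_iff]
        intro y hy
        have h4 : (⟨y, hy⟩ : P) ∈ S := by rw [htop]; exact mem_top _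
        exact mem_centralizer_singleton_iff.1 (Subgroup.mem_subgroupOf.1 h4)
      have h5 : (QuotientGroup.mk (c.out : N) : Q) = c := Quotient.out_eq' c
      rw [← h5, QuotientGroup.eq, mul_one]
      exact inv_mem h3
    obtain ⟨n, hn⟩ := hP.index S
    have h3 : n ≠ 0 := by
      rintro rfl
      rw [pow_zero, Subgroup.index_eq_one] at hn
      exact h2 hn
    have h4 : p ∣ S.index := by rw [hn]; exact dvd_pow_self p h3
    rw [h1, ← Subgroup.card_mul_index S, mul_comm]
    exact Nat.mul_le_mul_left _ (Nat.le_of_dvd (Nat.pos_of_ne_zero (by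
      rw [hn]; exact pow_ne_zero _ hp.out.ne_zero)) h4)
  have h1 : PF.card ≤ R.card + ∑ c ∈ univ.filter (fun c : Q => c ≠ QuotientGroup.mk 1), (F c).card :=
    (card_le_card hcov).trans ((card_union_le _ _).trans (Nat.add_le_add_left card_biUnion_le _))
  have h2 : p * ∑ c ∈ univ.filter (fun c : Q => c ≠ QuotientGroup.mk 1), (F c).card ≤
      (C.relIndex N - 1) * Nat.card P := by
    rw [Finset.mul_sum]
    refine (Finset.sum_le_card_nsmul _ _ (Nat.card P) fun c hc => hpiece c (mem_filter.1 hc).2).trans ?_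
    rw [smul_eq_mul]
    refine Nat.mul_le_mul_right _ ?_
    rw [Finset.filter_ne', Finset.card_erase_of_mem (mem_univ _), Finset.card_univ, hQ]
  have he : 1 ≤ C.relIndex N := by
    rw [← hQ]; exact Fintype.card_pos
  rw [hPF, hR] at h1
  have h3 : p * Nat.card P ≤ p * Nat.card {w : G // (w ∈ P ∧ ∀ n ∈ N, n * w * n⁻¹ = w → n ∈ C)} + (C.relIndex N - 1) * Nat.card P := by
    calc p * Nat.card P ≤ p * (Nat.card {w : G // (w ∈ P ∧ ∀ n ∈ N, n * w * n⁻¹ = w → n ∈ C)} +
          ∑ c ∈ univ.filter (fun c : Q => c ≠ QuotientGroup.mk 1), (F c).card) := Nat.mul_le_mul_left _ h1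
      _ = p * Nat.card {w : G // (w ∈ P ∧ ∀ n ∈ N, n * w * n⁻¹ = w → n ∈ C)} +
          p * ∑ c ∈ univ.filter (fun c : Q => c ≠ QuotientGroup.mk 1), (F c).card :=
          mul_add _ _ _
      _ ≤ _ := Nat.add_le_add_left h2 _
  obtain ⟨e', he'⟩ : ∃ e', C.relIndex N = e' + 1 := ⟨C.relIndex N - 1, by omega⟩
  rw [he'] at h3 ⊢
  rw [Nat.add_sub_cancel] at h3
  have h4 : p + 1 - (e' + 1) = p - e' := by omega
  rw [h4, Nat.mul_sub]
  have h5 : Nat.card P * p = p * Nat.card P := mul_comm _ _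
  have h6 : Nat.card P * e' = e' * Nat.card P := mul_comm _ _
  omega


section Main

variable {k : Type*} [Field k] (p : ℕ) [hp : Fact p.Prime] [CharP k p]
  (red : integralClosure ℤ ℂ →+* k) {G : Type} [Group G] [Fintype G]

/-- **(MAIN+)** -/
theorem mainT {B : MonoidAlgebra k G} {D : Subgroup G} {l : (G → k) → k} (hl : BP p D l)
    (hD : IsPGroup p D) (hab : D ≤ centralizer (D : Set G))
    (hlB : ∀ χ : Irr G, InL red l χ.1 ↔ CharInBlock red χ.1 B)
    (hH : 2 * ((Nat.card D : ℝ) * (centralizer (D : Set G)).relIndex (stabT D l)) ≤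
      ((p : ℝ) - 3) * Nat.card {w : G // RegT D l w}) {m : ℕ} (hm : m.Coprime (Nat.card G))
    (hm1 : m ≡ 1 [MOD ordCompl[p] (Nat.card G)])
    (hgen : ∀ j : ℕ, ¬ p ∣ j → ∃ i : ℕ, m ^ i ≡ j [MOD ordProj[p] (Nat.card G)])
    -- the local data
    (φ : ∀ w : G, (centralizer {w} : Subgroup G) → ℂ)
    (hND : ∀ w, RegT D l w → ND red p (lres (centralizer {w}) l) (Nat.card D) (φ w))
    {κ : k} (hκ : κ ≠ 0) (hK5 : ∀ w, RegT D l w → K5P red (centralizer {w}) l w κ)
    (hsq : ∀ w w', RegT D l w → RegT D l w' → ∀ a b a' b' : ℕ, ¬ p ∣ a → ¬ p ∣ b → ¬ p ∣ a' →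
      ¬ p ∣ b' → (a : ℂ) * Nat.card (centralizer {w} : Subgroup G) = b * (Nat.card D * φ w 1) →
      (a' : ℂ) * Nat.card (centralizer {w'} : Subgroup G) = b' * (Nat.card D * φ w' 1) →
      ((b : k) * a') ^ 2 = (a * b') ^ 2) :
    (Srat red m B).card < p := by
  set q := Nat.card D with hqdef
  set T : Subgroup G := stabT D l with hT
  set e := (centralizer (D : Set G)).relIndex T with he
  have hq : q ≠ 0 := Nat.card_pos.ne'
  have hq1 : 1 ≤ q := Nat.card_pos
  have hq0 : (q : ℂ) ≠ 0 := by exact_mod_cast hq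
  have hG0 : (Nat.card G : ℂ) ≠ 0 := by exact_mod_cast Nat.card_pos.ne'
  let W := {w : G // RegT D l w}
  have : Fintype W := Fintype.ofFinite W
  have he1 : 1 ≤ e := Nat.pos_of_ne_zero (by
    have : Finite (T ⧸ (centralizer (D : Set G)).subgroupOf T) := inferInstance
    exact Nat.card_pos.ne')
  have hHmem : ∀ w : G, ∀ x, x ∈ (centralizer {w} : Subgroup G) ↔ x * w = w * x := by
    intro w x
    rw [mem_centralizer_singleton_iff]
  have hpel : ∀ w : W, ∃ a : ℕ, w.1 ^ p ^ a = 1 := by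
    intro w
    obtain ⟨n, hn⟩ := hD ⟨w.1, w.2.1⟩
    exact ⟨n, by simpa using congrArg Subtype.val hn⟩
  let I := {χ // χ ∈ Srat red m B}
  have hSmem : ∀ χ ∈ Srat red m B, χ ∈ IrrB red B ∧ ∀ g, χ (g ^ m) = χ g := by
    intro χ hχ
    simp only [P179X.Srat, mem_filter] at hχ
    exact hχ
  let toIrr : I → Irr G := fun χ => ⟨χ.1, isIrr_of_mem_IrrB (hSmem χ.1 χ.2).1⟩
  have hinj : Function.Injective toIrr := fun χ ψ h => Subtype.ext (congrArg (fun x : Irr G => x.1) h)
  have hInL : ∀ χ : I, InL red l (toIrr χ).1 := by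
    intro χ
    rw [hlB]
    have h1 := (hSmem χ.1 χ.2).1
    unfold P179X.IrrB at h1
    exact (mem_filter.1 h1).2
  set M : W → Irr G → ℂ := fun w χ => dn p (centralizer {w.1}) q (φ w.1) w.1 χ.1 with hM
  -- integrality
  have hint : ∀ (χ : I) (w : W), ∃ c : ℤ, M w (toIrr χ) = c := fun χ w =>
    dn_int p red _ hq (hND w.1 w.2) w.1 (hpel w) (hHmem w.1) (toIrr χ) hm hm1 hgen
      (hSmem χ.1 χ.2).2
  choose d hd using hint
  -- units
  have hunit : ∀ w : W, ∃ a b : ℕ, ¬ p ∣ a ∧ ¬ p ∣ b ∧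
      (a : ℂ) * Nat.card (centralizer {w.1} : Subgroup G) = b * (q * φ w.1 1) := fun w =>
    (hND w.1 w.2).unit
  choose a b ha hb hunit using hunit
  have hcast : ∀ n : ℕ, ¬ p ∣ n → (n : k) ≠ 0 := fun n hn => by
    rw [Ne, CharP.cast_eq_zero_iff k p]; exact hn
  -- the congruences
  have hcong : ∀ (χ : I) (w : W), ∃ X : AA, (X : ℂ) * (q * (toIrr χ).1 1) =
      a w * Nat.card G * d χ w ∧ red X = b w * κ := by
    intro χ w
    obtain ⟨X, h1, h2⟩ := cong p red (centralizer {w.1}) hq (hND w.1 w.2) (hb w) (hunit w) w.1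
      (hHmem w.1) hl.smul (hK5 w.1 w.2) (toIrr χ) (hInL χ)
    exact ⟨X, by rw [h1, ← hd χ w], h2⟩
  choose X hX hXred using hcong
  have hd0 : ∀ χ w, d χ w ≠ 0 := by
    intro χ w h0
    have h1 := hX χ w
    rw [h0, Int.cast_zero, mul_zero] at h1
    rcases mul_eq_zero.1 h1 with h | h
    · have h2 : X χ w = 0 := Subtype.ext h
      have h3 := hXred χ w
      rw [h2, map_zero] at h3
      exact mul_ne_zero (hcast _ (hb w)) hκ h3.symm
    · exact mul_ne_zero hq0 (toIrr χ).one_ne_zero h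
  -- comparison of two regular elements
  have hcomp : ∀ (χ : I) (w w' : W), (b w : k) * a w' * d χ w' = b w' * a w * d χ w := by
    intro χ w w'
    have h1 : X χ w * ((a w' : AA) * (d χ w' : AA)) = X χ w' * ((a w : AA) * (d χ w : AA)) := by
      apply Subtype.ext
      push_cast
      have h2 := hX χ w
      have h3 := hX χ w'
      have hχ0 := (toIrr χ).one_ne_zero
      apply mul_right_cancel₀ (mul_ne_zero hq0 hχ0)
      apply mul_right_cancel₀ hG0
      calc (X χ w : ℂ) * (a w' * d χ w') * (q * (toIrr χ).1 1) * Nat.card G =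
          (X χ w * (q * (toIrr χ).1 1)) * (a w' * Nat.card G * d χ w') := by ring
        _ = (a w * Nat.card G * d χ w) * (X χ w' * (q * (toIrr χ).1 1)) := by rw [h2, h3]
        _ = _ := by ring
    have h2 := congrArg red h1
    simp only [map_mul, map_natCast, map_intCast, hXred] at h2
    apply mul_left_cancel₀ hκ
    linear_combination h2
  -- arithmetic of the hypothesis
  have hWle : Nat.card W ≤ q := by
    rw [hqdef]
    exact Nat.card_le_card_of_injective (fun w : W => (⟨w.1, w.2.1⟩ : D)) fun w w' h =>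
      Subtype.ext (congrArg (fun x : D => (x : G)) h)
  have hp4 : (3 : ℝ) < p := by
    by_contra hcon
    have h1 : ((p : ℝ) - 3) * Nat.card W ≤ 0 := by
      apply mul_nonpos_of_nonpos_of_nonneg
      · linarith
      · positivity
    have h2 : (0 : ℝ) < 2 * ((q : ℝ) * e) := by positivity
    linarith
  have hodd : ¬ 2 ∣ p := by
    intro h
    have h1 : p = 2 := ((Nat.prime_dvd_prime_iff_eq Nat.prime_two hp.out).1 h).symm
    rw [h1] at hp4
    norm_num at hp4
  -- signs
  by_cases hW : IsEmpty W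
  · exfalso
    have h1 : Nat.card W = 0 := Nat.card_of_isEmpty
    have h2 : (0 : ℝ) < 2 * ((q : ℝ) * e) := by positivity
    have h3 : (Nat.card {w : G // RegT D l w} : ℝ) = 0 := by exact_mod_cast h1
    rw [h3, mul_zero] at hH
    linarith
  rw [not_isEmpty_iff] at hW
  obtain ⟨w₀⟩ := hW
  have hsign : ∀ w : W, ∃ ε : ℤ, (ε = 1 ∨ ε = -1) ∧ (b w : k) * a w₀ = ε * (a w * b w₀) := by
    intro w
    have h1 := hsq w.1 w₀.1 w.2 w₀.2 (a w) (b w) (a w₀) (b w₀) (ha w) (hb w) (ha w₀) (hb w₀)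
      (hunit w) (hunit w₀)
    rcases sq_eq_sq_iff_eq_or_eq_neg.1 h1 with h | h
    · exact ⟨1, Or.inl rfl, by rw [h]; simp⟩
    · exact ⟨-1, Or.inr rfl, by rw [h]; simp⟩
  choose ε hε hεeq using hsign
  set A : I → W → ℤ := fun χ w => ε w * d χ w with hA
  have hε2 : ∀ w, ε w * ε w = 1 := by
    intro w
    rcases hε w with h | h <;> rw [h] <;> norm_num
  have hAmod : ∀ (χ : I) (w : W), ((A χ w : ℤ) : k) = d χ w₀ := by
    intro χ w
    have h1 := hcomp χ w w₀
    rw [hεeq w] at h1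
    have h2 : ((a w * b w₀ : ℕ) : k) ≠ 0 := by
      apply hcast
      intro h
      rcases hp.out.dvd_mul.1 h with h | h
      · exact ha w h
      · exact hb w₀ h
    push_cast at h2
    have h3 : (ε w : k) * d χ w₀ = d χ w := by
      apply mul_left_cancel₀ h2
      linear_combination h1
    simp only [hA]
    push_cast
    rw [← h3, ← mul_assoc]
    have h4 : (ε w : k) * ε w = 1 := by
      rw [← Int.cast_mul, hε2, Int.cast_one]
    rw [h4, one_mul]
  -- the quadratic form
  have hgramM : ∀ w w' : W, ∑ χ, M w χ * (starRingEnd ℂ) (M w' χ) = 0 ∨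
      (∑ χ, M w χ * (starRingEnd ℂ) (M w' χ) = q ∧
        ∃ g : G, g * w.1 * g⁻¹ = w'.1 ∧ ∀ z : G → k, InvOn (centralizer {w'.1}) z →
          l (fun x => z (g * x * g⁻¹)) = l z) := fun w w' =>
    gram p red (centralizer {w.1}) (centralizer {w'.1}) hq (hND w.1 w.2) (hND w'.1 w'.2)
      w.1 w'.1 (hpel w) (hpel w') (hHmem w.1) (hHmem w'.1)
  have hfus : ∀ w w' : W, ∑ χ, M w χ * (starRingEnd ℂ) (M w' χ) ≠ 0 →
      ∃ n ∈ T, n * w.1 * n⁻¹ = w'.1 := by
    intro w w' hne
    rcases hgramM w w' with h | ⟨-, g, hg, hz⟩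
    · exact absurd h hne
    · obtain ⟨n, hn, hn2⟩ := fusionT hl hD hab (w := w.1) (g := g) w.2.1 (by rw [hg]; exact w'.2)
        (by
          rw [hg]
          intro z hzI
          have := hz z hzI
          unfold cj
          rw [inv_inv]
          exact this)
      exact ⟨n, hn, hn2.trans hg⟩
  have hcount : ∀ w : W, (univ.filter fun w' : W =>
      ∑ χ, M w χ * (starRingEnd ℂ) (M w' χ) ≠ 0).card ≤ e := by
    intro w
    set C : Subgroup G := centralizer (D : Set G) with hC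
    have := Fintype.ofFinite (T ⧸ C.subgroupOf T)
    have hQ : Fintype.card (T ⧸ C.subgroupOf T) = e := by
      rw [← Nat.card_eq_fintype_card]
      rfl
    rw [← hQ, ← Finset.card_univ]
    have h1 : ∀ w' : W, ∃ c : T ⧸ C.subgroupOf T,
        (∑ χ, M w χ * (starRingEnd ℂ) (M w' χ) ≠ 0 →
          ((c.out : T) : G) * w.1 * ((c.out : T) : G)⁻¹ = w'.1) := by
      intro w'
      by_cases h : ∑ χ, M w χ * (starRingEnd ℂ) (M w' χ) ≠ 0
      · obtain ⟨n, hn, hn2⟩ := hfus w w' h
        refine ⟨QuotientGroup.mk ⟨n, hn⟩, fun _ => ?_⟩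
        set t : T := (QuotientGroup.mk (⟨n, hn⟩ : T) : T ⧸ C.subgroupOf T).out with ht
        have h2 : (QuotientGroup.mk t : T ⧸ C.subgroupOf T) = QuotientGroup.mk ⟨n, hn⟩ :=
          Quotient.out_eq' _
        rw [QuotientGroup.eq] at h2
        have h3 : (t : G)⁻¹ * n ∈ C := h2
        have h4 : w.1 * ((t : G)⁻¹ * n) = ((t : G)⁻¹ * n) * w.1 :=
          mem_centralizer_iff.1 h3 w.1 w.2.1
        rw [← hn2]
        calc (t : G) * w.1 * (t : G)⁻¹ = t * (w.1 * ((t : G)⁻¹ * n)) * n⁻¹ := by group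
          _ = t * (((t : G)⁻¹ * n) * w.1) * n⁻¹ := by rw [h4]
          _ = _ := by group
      · exact ⟨QuotientGroup.mk 1, fun h' => absurd h' h⟩
    choose c hc using h1
    refine Finset.card_le_card_of_injOn c (fun _ _ => mem_univ _) ?_
    intro w' hw' w'' hw'' hcc
    have h2 := hc w' (mem_filter.1 (Finset.mem_coe.1 hw')).2
    have h3 := hc w'' (mem_filter.1 (Finset.mem_coe.1 hw'')).2
    rw [hcc] at h2
    exact Subtype.ext (h2.symm.trans h3)
  have hquad := quad_bound M q e (fun w w' => (hgramM w w').imp_right And.left) hcount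
  have hform : ∀ x : W → ℝ, ∑ χ : I, (∑ w, x w * (A χ w : ℝ)) ^ 2 ≤ (q * e : ℝ) * ∑ w, x w ^ 2 := by
    intro x
    have h1 := hquad (fun w => x w * ε w)
    have h2 : ∑ w, (x w * (ε w : ℝ)) ^ 2 = ∑ w, x w ^ 2 := by
      refine Finset.sum_congr rfl fun w _ => ?_
      have : (ε w : ℝ) * ε w = 1 := by exact_mod_cast hε2 w
      calc (x w * (ε w : ℝ)) ^ 2 = x w ^ 2 * (ε w * ε w) := by ring
        _ = _ := by rw [this, mul_one]
    rw [h2] at h1
    have h3 : ∑ χ : I, ‖∑ w, ((x w * (ε w : ℝ) : ℝ) : ℂ) * M w (toIrr χ)‖ ^ 2 ≤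
        ∑ ψ, ‖∑ w, ((x w * (ε w : ℝ) : ℝ) : ℂ) * M w ψ‖ ^ 2 := by
      rw [← Finset.sum_image (s := (univ : Finset I)) (g := toIrr)
        (f := fun ψ => ‖∑ w, ((x w * (ε w : ℝ) : ℝ) : ℂ) * M w ψ‖ ^ 2) (fun x _ y _ h => hinj h)]
      exact Finset.sum_le_sum_of_subset_of_nonneg (Finset.subset_univ _) fun ψ _ _ => by positivity
    have h4 : ∀ χ : I, ‖∑ w, ((x w * (ε w : ℝ) : ℝ) : ℂ) * M w (toIrr χ)‖ ^ 2 =
        (∑ w, x w * (A χ w : ℝ)) ^ 2 := by
      intro χ
      have h5 : ∑ w, ((x w * (ε w : ℝ) : ℝ) : ℂ) * M w (toIrr χ) =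
          ((∑ w, x w * (A χ w : ℝ) : ℝ) : ℂ) := by
        push_cast
        refine Finset.sum_congr rfl fun w _ => ?_
        rw [hd χ w]
        simp only [hA]
        push_cast
        ring
      rw [h5, Complex.norm_real, Real.norm_eq_abs, sq_abs]
    rw [Finset.sum_congr rfl fun χ _ => h4 χ] at h3
    exact h3.trans h1
  have hcardW : Nat.card {w : G // RegT D l w} = Fintype.card W := by
    rw [Nat.card_eq_fintype_card]
  have hK0 : (0 : ℝ) < (q : ℝ) * e := by positivity
  have hfin := rows_bound' (p := p) ((q : ℝ) * e) hK0 A (fun χ w => by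
      simp only [hA]
      refine mul_ne_zero ?_ (hd0 χ w)
      rcases hε w with h | h <;> rw [h] <;> norm_num) (fun χ => ⟨d χ w₀, fun w => by
      have h1 := hAmod χ w
      rw [← sub_eq_zero, ← Int.cast_sub, CharP.intCast_eq_zero_iff k p] at h1
      exact (Int.modEq_iff_dvd.2 (by
        have := (dvd_neg (α := ℤ)).2 h1
        rwa [neg_sub] at this))⟩) hform hodd (by rw [← hcardW]; exact hH)
  have hcardI : Fintype.card I = (Srat red m B).card := Fintype.card_coe _
  rw [← hcardI]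
  have hWpos : (0 : ℝ) < Fintype.card W := by
    exact_mod_cast Fintype.card_pos_iff.2 ⟨w₀⟩
  rw [hcardW] at hH
  have h1 : 2 * (Fintype.card I : ℝ) ≤ p - 3 := by
    apply le_of_mul_le_mul_right _ hWpos
    linarith
  have h2 : (Fintype.card I : ℝ) < p := by
    have : (0 : ℝ) ≤ Fintype.card I := Nat.cast_nonneg _
    linarith
  exact_mod_cast h2

end Main

end P179Y
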