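import Vale.Agent.P179.H143.Sign
import Vale.Agent.P179.H526.KY
import Vale.Agent.P179.H234.K5

/-!
# (TRANSPORT) comparison of the units at two regular elements
-/

namespace P179Y

open P179H524 P179C P179A Finset P179P Subgroup

open scoped Classical

section

variable {k : Type*} [Field k] (p : ℕ) (red : integralClosure ℤ ℂ →+* k)

/-- `ND` and isomorphisms -/
theorem ND.comp {K K' : Type*} [Group K] [Group K'] [Finite K] [Finite K'] (e : K' ≃* K)
    {l : (K → k) → k} {l' : (K' → k) → k} (hll : ∀ z : K → k, l' (fun x => z (e x)) = l z) {q : ℕ}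
    {φ : K → ℂ} (hφ : ND red p l q φ) : ND red p l' q (fun x => φ (e x)) := by
  have hin : ∀ {χ : K → ℂ}, IsIrrChar χ → (InL red l χ ↔ InL red l' (fun x => χ (e x))) := by
    intro χ hχ
    constructor
    · intro h z hz
      have h1 : IsCF (fun x => z (e.symm x)) := by
        intro t x
        simp only [map_mul, map_inv]
        exact hz _ _
      have h2 : z = fun x => (fun y => z (e.symm y)) (e x) := by
        funext x; simp
      rw [h2, lam_comp red e hχ h1, h _ h1]
      exact (hll _).symm
    · intro h z hz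
      have h1 : IsCF (fun x => z (e x)) := by
        intro t x
        simp only [map_mul, map_inv]
        exact hz _ _
      rw [← lam_comp red e hχ hz, h _ h1, hll]
  have hord : ∀ x : K', orderOf (e x) = orderOf x := fun x => e.orderOf_eq x
  refine ⟨hφ.irr.comp e.toMonoidHom e.surjective, (hin hφ.irr).1 hφ.mem, ?_, ?_, ?_, ?_⟩
  · intro χ hχ s hs
    have h1 : IsIrrChar (fun x => χ.1 (e.symm x)) := χ.2.comp e.symm.toMonoidHom e.symm.surjective
    have h2 : InL red l (fun x => χ.1 (e.symm x)) := by
      rw [hin h1]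
      simpa using hχ
    have := hφ.eq ⟨_, h1⟩ h2 (e s) (by rw [hord]; exact hs)
    simpa using this
  · rw [← hφ.card]
    refine Nat.card_congr ⟨fun χ => ⟨⟨fun x => χ.1.1 (e.symm x),
      χ.1.2.comp e.symm.toMonoidHom e.symm.surjective⟩, ?_⟩, fun χ => ⟨⟨fun x => χ.1.1 (e x),
      χ.1.2.comp e.toMonoidHom e.surjective⟩, (hin χ.1.2).1 χ.2⟩, ?_, ?_⟩
    · refine (hin (χ.1.2.comp e.symm.toMonoidHom e.symm.surjective)).2 ?_
      have := χ.2
      simpa using this
    · intro χ
      apply Subtype.ext; apply Subtype.ext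
      funext x
      simp
    · intro χ
      apply Subtype.ext; apply Subtype.ext
      funext x
      simp
  · have := Fintype.ofFinite K
    have := Fintype.ofFinite K'
    rw [Nat.card_congr e.toEquiv, ← hφ.nrm, rsum_eq, rsum_eq]
    congr 1
    refine Finset.sum_bij (fun s _ => e s) ?_ ?_ ?_ ?_
    · intro s hs
      rw [mem_filter] at hs ⊢
      rw [hord]
      exact ⟨mem_univ _, hs.2⟩
    · intro s _ t _ h
      exact e.injective h
    · intro s hs
      refine ⟨e.symm s, ?_, by simp⟩
      rw [mem_filter] at hs ⊢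
      refine ⟨mem_univ _, ?_⟩
      rw [← hord]
      simpa using hs.2
    · intro s _
      simp
  · obtain ⟨a, b, ha, hb, h⟩ := hφ.unit
    refine ⟨a, b, ha, hb, ?_⟩
    rw [Nat.card_congr e.toEquiv, map_one]
    exact h

/-- the double centralisers -/
def ccEquiv {G : Type*} [Group G] (u w : G) (huw : u * w = w * u) :
    (centralizer {(⟨u, mem_centralizer_singleton_iff.2 huw⟩ :
      (centralizer {w} : Subgroup G))} : Subgroup (centralizer {w} : Subgroup G)) ≃*
    (centralizer {(⟨w, mem_centralizer_singleton_iff.2 huw.symm⟩ :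
      (centralizer {u} : Subgroup G))} : Subgroup (centralizer {u} : Subgroup G)) where
  toFun x := ⟨⟨((x : (centralizer {w} : Subgroup G)) : G), mem_centralizer_singleton_iff.2
    (congrArg Subtype.val (mem_centralizer_singleton_iff.1 x.2))⟩, mem_centralizer_singleton_iff.2
    (Subtype.ext (mem_centralizer_singleton_iff.1 x.1.2))⟩
  invFun x := ⟨⟨((x : (centralizer {u} : Subgroup G)) : G), mem_centralizer_singleton_iff.2
    (congrArg Subtype.val (mem_centralizer_singleton_iff.1 x.2))⟩, mem_centralizer_singleton_iff.2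
    (Subtype.ext (mem_centralizer_singleton_iff.1 x.1.2))⟩
  left_inv _ := rfl
  right_inv _ := rfl
  map_mul' _ _ := rfl

theorem lres_lres_cc {G : Type*} [Group G] (u w : G) (huw : u * w = w * u) (l : (G → k) → k)
    (z : (centralizer {(⟨w, mem_centralizer_singleton_iff.2 huw.symm⟩ :
      (centralizer {u} : Subgroup G))} : Subgroup (centralizer {u} : Subgroup G)) → k) :
    lres (centralizer {(⟨u, mem_centralizer_singleton_iff.2 huw⟩ :
        (centralizer {w} : Subgroup G))}) (lres (centralizer {w}) l)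
      (fun x => z (ccEquiv u w huw x)) =
    lres (centralizer {(⟨w, mem_centralizer_singleton_iff.2 huw.symm⟩ :
        (centralizer {u} : Subgroup G))}) (lres (centralizer {u}) l) z := by
  unfold lres
  congr 1
  funext g
  unfold ext
  by_cases hw : g ∈ (centralizer {w} : Subgroup G)
  · rw [dif_pos hw]
    by_cases hu : g ∈ (centralizer {u} : Subgroup G)
    · rw [dif_pos hu, dif_pos (mem_centralizer_singleton_iff.2
        (Subtype.ext (mem_centralizer_singleton_iff.1 hu))), dif_pos (mem_centralizer_singleton_iff.2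
        (Subtype.ext (mem_centralizer_singleton_iff.1 hw)))]
      rfl
    · rw [dif_neg hu, dif_neg]
      intro h
      exact hu (mem_centralizer_singleton_iff.2
        (congrArg Subtype.val (mem_centralizer_singleton_iff.1 h)))
  · rw [dif_neg hw]
    by_cases hu : g ∈ (centralizer {u} : Subgroup G)
    · rw [dif_pos hu, dif_neg]
      intro h
      exact hw (mem_centralizer_singleton_iff.2
        (congrArg Subtype.val (mem_centralizer_singleton_iff.1 h)))
    · rw [dif_neg hu]

end

section

variable {k : Type*} [Field k] [IsAlgClosed k] (p : ℕ) [hp : Fact p.Prime] [CharP k p]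
  (red : integralClosure ℤ ℂ →+* k) {G : Type} [Group G] [Fintype G]

include hp in
/-- K5 for regular elements in the form `K5P` -/
theorem K5P_of {D : Subgroup G} {l : (G → k) → k} (hl : BP p D l)
    (hD : IsPGroup p D) (hab : D ≤ centralizer (D : Set G)) {u : G} (hu : RegEl D u) :
    K5P red (centralizer {u}) l u ((centralizer (D : Set G)).relIndex (stabT D l) : k) := by
  intro e he hee hle hlam
  exact K5 p red hl hD hab hu he hee hle fun ψ hψ => by rw [hlam ψ, if_neg hψ]

/-- the statement of Theorem N, for all groups in `Type` -/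
def ThmN : Prop := ∀ (K : Type) [Group K] [Fintype K] (D : Subgroup K) (l : (K → k) → k),
  BP p D l → IsPGroup p D → D ≤ centralizer (D : Set K) →
  normalizer (D : Set K) ≤ centralizer (D : Set K) → ∃ φ, ND red p l (Nat.card D) φ

include hp in
theorem tr1 {D : Subgroup G} {l : (G → k) → k} (hl : BP p D l)
    (hD : IsPGroup p D) (hab : D ≤ centralizer (D : Set G)) {w : G} (hw : RegEl D w) {u : G}
    (hu : u ∈ D) (huw : u * w = w * u)
    {φ : (centralizer {w} : Subgroup G) → ℂ} (hφ : ND red p (lres (centralizer {w}) l) (Nat.card D) φ)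
    {ψ : (centralizer {(⟨u, mem_centralizer_singleton_iff.2 huw⟩ :
      (centralizer {w} : Subgroup G))} : Subgroup (centralizer {w} : Subgroup G)) → ℂ}
    (hψ : ND red p (lres (centralizer {(⟨u, mem_centralizer_singleton_iff.2 huw⟩ :
      (centralizer {w} : Subgroup G))}) (lres (centralizer {w}) l)) (Nat.card D) ψ)
    {a b a' b' : ℕ} (hb' : ¬ p ∣ b')
    (hab1 : (a : ℂ) * Nat.card (centralizer {w} : Subgroup G) = b * (Nat.card D * φ 1))
    (hab2 : (a' : ℂ) * Nat.card (centralizer {(⟨u, mem_centralizer_singleton_iff.2 huw⟩ :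
      (centralizer {w} : Subgroup G))} : Subgroup (centralizer {w} : Subgroup G)) =
      b' * (Nat.card D * ψ 1)) :
    ((b' : k) * a) ^ 2 = (a' * b) ^ 2 := by
  have hDH := le_cent_of_mem hw.1 hab
  have hCH := cent_le_of_mem (D := D) hw.1
  have hlH := hl.restrict hDH hCH
  have hDp : IsPGroup p (D.subgroupOf (centralizer {w})) := hD.comap_subtype
  have habH : D.subgroupOf (centralizer {w}) ≤
      centralizer ((D.subgroupOf (centralizer {w}) : Subgroup (centralizer {w} : Subgroup G)) :
        Set (centralizer {w} : Subgroup G)) := by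
    intro x hx
    rw [mem_cent_subgroupOf hDH]
    exact hab (by simpa [Subgroup.mem_subgroupOf] using hx)
  have hreg : RegEl (D.subgroupOf (centralizer {w})) (⟨u, mem_centralizer_singleton_iff.2 huw⟩ :
      (centralizer {w} : Subgroup G)) :=
    ⟨Subgroup.mem_subgroupOf.2 hu, fun n hn _ => hw.norm_le hab hn⟩
  have hK5 := K5P_of p red hlH hDp habH hreg
  rw [hw.relIndex_stabT hab, Nat.cast_one] at hK5
  obtain ⟨n, hn⟩ := hD ⟨u, hu⟩
  have hun : (⟨u, mem_centralizer_singleton_iff.2 huw⟩ :
      (centralizer {w} : Subgroup G)) ^ p ^ n = 1 := by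
    apply Subtype.ext
    have := congrArg Subtype.val hn
    simpa using this
  exact sign_aux p red _ Nat.card_pos.ne' hφ hψ hb' hab1 hab2 _ hun
    (fun x => mem_centralizer_singleton_iff) hlH.smul hK5

include hp in
/-- **(TRANSPORT)** -/
theorem hsq_of (hN : ThmN p red) {D : Subgroup G} {l : (G → k) → k} (hl : BP p D l)
    (hD : IsPGroup p D) (hab : D ≤ centralizer (D : Set G))
    (φ : ∀ w : G, (centralizer {w} : Subgroup G) → ℂ)
    (hND : ∀ w, RegEl D w → ND red p (lres (centralizer {w}) l) (Nat.card D) (φ w)) :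
    ∀ w w', RegEl D w → RegEl D w' → ∀ a b a' b' : ℕ, ¬ p ∣ a → ¬ p ∣ b → ¬ p ∣ a' →
      ¬ p ∣ b' → (a : ℂ) * Nat.card (centralizer {w} : Subgroup G) = b * (Nat.card D * φ w 1) →
      (a' : ℂ) * Nat.card (centralizer {w'} : Subgroup G) = b' * (Nat.card D * φ w' 1) →
      ((b : k) * a') ^ 2 = (a * b') ^ 2 := by
  intro w u hw hu a b a' b' ha hb ha' hb' h1 h2
  have huw : u * w = w * u := mem_centralizer_iff.1 (hab hw.1) u hu.1
  have hDH := le_cent_of_mem hw.1 hab
  have hCH := cent_le_of_mem (D := D) hw.1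
  have hlH := hl.restrict hDH hCH
  have hDp : IsPGroup p (D.subgroupOf (centralizer {w})) := hD.comap_subtype
  have habH : D.subgroupOf (centralizer {w}) ≤
      centralizer ((D.subgroupOf (centralizer {w}) : Subgroup (centralizer {w} : Subgroup G)) :
        Set (centralizer {w} : Subgroup G)) := by
    intro x hx
    rw [mem_cent_subgroupOf hDH]
    exact hab (by simpa [Subgroup.mem_subgroupOf] using hx)
  set K : Subgroup G := centralizer {w} with hKdef
  set DK : Subgroup K := D.subgroupOf K with hDK
  set u' : K := ⟨u, mem_centralizer_singleton_iff.2 huw⟩ with hu'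
  set H : Subgroup K := centralizer {u'} with hH
  have hu'D : u' ∈ DK := Subgroup.mem_subgroupOf.2 hu.1
  have hDH2 := le_cent_of_mem hu'D habH
  have hCH2 := cent_le_of_mem (D := DK) hu'D
  have hlH2 := hlH.restrict hDH2 hCH2
  have hDp2 : IsPGroup p (DK.subgroupOf H) := hDp.comap_subtype
  have habH2 : DK.subgroupOf H ≤ centralizer ((DK.subgroupOf H : Subgroup H) : Set H) := by
    intro x hx
    rw [mem_cent_subgroupOf hDH2]
    exact habH (Subgroup.mem_subgroupOf.1 hx)
  have hnorm2 : normalizer ((DK.subgroupOf H : Subgroup H) : Set H) ≤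
      centralizer ((DK.subgroupOf H : Subgroup H) : Set H) := by
    intro x hx
    rw [mem_norm_subgroupOf hDH2] at hx
    rw [mem_cent_subgroupOf hDH2]
    exact hw.norm_le hab hx
  obtain ⟨ψ, hψ⟩ := hN H (DK.subgroupOf H) _ hlH2 hDp2 habH2 hnorm2
  have hcardD : Nat.card (DK.subgroupOf H) = Nat.card D := by
    rw [Nat.card_congr (Subgroup.subgroupOfEquivOfLe hDH2).toEquiv,
      Nat.card_congr (Subgroup.subgroupOfEquivOfLe hDH).toEquiv]
  rw [hcardD] at hψ
  obtain ⟨a'', b'', ha'', hb'', h3⟩ := hψ.unit
  have h4 := tr1 p red hl hD hab hw hu.1 huw (hND w hw) hψ hb'' h1 h3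
  -- transport
  have hψ' := hψ.comp p red (ccEquiv w u huw.symm) (l' := lres (centralizer {(⟨w,
    mem_centralizer_singleton_iff.2 huw.symm⟩ : (centralizer {u} : Subgroup G))})
    (lres (centralizer {u}) l)) (fun z => lres_lres_cc w u huw.symm l z)
  have h5 : (a'' : ℂ) * Nat.card (centralizer {(⟨w, mem_centralizer_singleton_iff.2 huw.symm⟩ :
      (centralizer {u} : Subgroup G))} : Subgroup (centralizer {u} : Subgroup G)) =
      b'' * (Nat.card D * (fun x => ψ (ccEquiv w u huw.symm x)) 1) := by
    rw [Nat.card_congr (ccEquiv w u huw.symm).toEquiv]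
    simp only [map_one]
    exact h3
  have h6 := tr1 p red hl hD hab hu hw.1 huw.symm (hND u hu) hψ' hb'' h2 h5
  have hcast : ∀ n : ℕ, ¬ p ∣ n → (n : k) ≠ 0 := fun n hn => by
    rw [Ne, CharP.cast_eq_zero_iff k p]; exact hn
  have h7 : ((a'' : k) * b'') ^ 2 ≠ 0 := pow_ne_zero _ (mul_ne_zero (hcast _ ha'') (hcast _ hb''))
  apply mul_left_cancel₀ h7
  have h8 : ((a'' : k) * b) ^ 2 * ((b'' : k) * a') ^ 2 =
      ((b'' : k) * a) ^ 2 * ((a'' : k) * b') ^ 2 := by rw [← h4, h6]
  linear_combination h8

end

end P179Y
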