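import Vale.Agent.P179.H143.MainY
import Vale.Agent.P179.H143.Transp

/-!
# (MAIN), from Theorem N
-/

namespace P179Y

open P179H524 P179C P179A Finset P179P Subgroup

open P179X (pp SameSec IrrB Srat autOrd)

open scoped Classical

section

variable {k : Type*} [Field k] [IsAlgClosed k] (p : ℕ) [hp : Fact p.Prime] [CharP k p]
  (red : integralClosure ℤ ℂ →+* k) {G : Type} [Group G] [Fintype G]

include hp in
/-- the local data -/
theorem exists_ND (hN : ThmN p red) {D : Subgroup G} {l : (G → k) → k} (hl : BP p D l)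
    (hD : IsPGroup p D) (hab : D ≤ centralizer (D : Set G)) {w : G} (hw : RegEl D w) :
    ∃ φ, ND red p (lres (centralizer {w}) l) (Nat.card D) φ := by
  have hDH := le_cent_of_mem hw.1 hab
  have hCH := cent_le_of_mem (D := D) hw.1
  have hlH := hl.restrict hDH hCH
  have hDp : IsPGroup p (D.subgroupOf (centralizer {w})) := hD.comap_subtype
  have habH : D.subgroupOf (centralizer {w}) ≤
      centralizer ((D.subgroupOf (centralizer {w}) : Subgroup (centralizer {w} : Subgroup G)) :
        Set (centralizer {w} : Subgroup G)) := by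
    intro x hx
    rw [mem_cent_subgroupOf hDH]
    exact hab (by simpa [Subgroup.mem_subgroupOf] using hx)
  obtain ⟨φ, hφ⟩ := hN (centralizer {w} : Subgroup G) (D.subgroupOf (centralizer {w})) _ hlH hDp
    habH (hw.norm_le hab)
  rw [Nat.card_congr (Subgroup.subgroupOfEquivOfLe hDH).toEquiv] at hφ
  exact ⟨φ, hφ⟩

theorem relIndex_stabT_ne_zero {D : Subgroup G} (l : (G → k) → k) (he4 : 4 * autOrd D ≤ p) :
    ((centralizer (D : Set G)).relIndex (stabT D l) : k) ≠ 0 := by
  have h1 := relIndex_stabT_dvd D l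
  have h2 : (centralizer (D : Set G)).relIndex (normalizer (D : Set G)) = autOrd D := rfl
  rw [h2] at h1
  rw [Ne, CharP.cast_eq_zero_iff k p]
  intro h
  have h3 : p ∣ autOrd D := h.trans h1
  have h4 : 0 < autOrd D := by
    have : 0 < Nat.card (normalizer (D : Set G) ⧸
      (centralizer (D : Set G)).subgroupOf (normalizer (D : Set G))) := Nat.card_pos
    exact this
  have := Nat.le_of_dvd h4 h3
  omega

/-- **(MAIN)** -/
theorem mainY2 (hN : ThmN p red) {B : MonoidAlgebra k G} {D : Subgroup G} {l : (G → k) → k}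
    (hl : BP p D l) (hD : IsPGroup p D) (hab : D ≤ centralizer (D : Set G))
    (hlB : ∀ χ : Irr G, InL red l χ.1 ↔ CharInBlock red χ.1 B)
    (he4 : 4 * autOrd D ≤ p) {m : ℕ} (hm : m.Coprime (Nat.card G))
    (hm1 : m ≡ 1 [MOD ordCompl[p] (Nat.card G)])
    (hgen : ∀ j : ℕ, ¬ p ∣ j → ∃ i : ℕ, m ^ i ≡ j [MOD ordProj[p] (Nat.card G)]) :
    (Srat red m B).card < p := by
  have h1 : ∀ w : G, ∃ φ : (centralizer {w} : Subgroup G) → ℂ, RegEl D w →
      ND red p (lres (centralizer {w}) l) (Nat.card D) φ := by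
    intro w
    by_cases hw : RegEl D w
    · obtain ⟨φ, hφ⟩ := exists_ND p red hN hl hD hab hw
      exact ⟨φ, fun _ => hφ⟩
    · exact ⟨0, fun h => absurd h hw⟩
  choose φ hφ using h1
  exact mainY p red hl hD hab hlB he4 hm hm1 hgen φ hφ (relIndex_stabT_ne_zero p l he4)
    (fun w hw => K5P_of p red hl hD hab hw) (hsq_of p red hN hl hD hab φ hφ)

end

end P179Y
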