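import Vale.Agent.P179.H166.KN7

/-!
# The defect groups below a block, 1: the `p`-parts seen by a Brauer pair
-/

namespace P179L

open Subgroup Finset P179H524 P179A P179C P179P P179Y MonoidAlgebra

open scoped Classical

universe u

section V

variable {p : ℕ} [hp : Fact p.Prime] {k : Type u} [Field k] {K : Type} [Group K] [Fintype K]
  {R : Subgroup K} {l : (K → k) → k}

omit [Fintype K] in
theorem invOn_ext {H : Subgroup K} {a : H → k} (ha : IsCF a) : InvOn H (ext H a) := by
  constructor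
  · intro h hh x
    by_cases hx : x ∈ H
    · rw [ext_of_mem H a hx, ext_of_mem H a (mul_mem (mul_mem hh hx) (inv_mem hh))]
      exact ha ⟨h, hh⟩ ⟨x, hx⟩
    · rw [ext_of_not_mem H a hx, ext_of_not_mem H a]
      intro h1
      apply hx
      have h2 := mul_mem (mul_mem (inv_mem hh) h1) hh
      have e1 : h⁻¹ * (h * x * h⁻¹) * h = x := by group
      rwa [e1] at h2
  · intro x hx
    exact ext_of_not_mem H a hx

omit hp in
/-- the functional of a Brauer pair on `C_K(R)` -/
theorem isHomCF_lres (hl : BP p R l) : IsHomCF (lres (centralizer (R : Set K)) l) where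
  add a b := by rw [lres, P179Y.ext_add, hl.add]; rfl
  smul c a := by rw [lres, P179Y.ext_smul, hl.smul]; rfl
  one := by
    refine Eq.trans (congrArg l ?_) hl.one
    funext g
    by_cases hC : g ∈ centralizer (R : Set K)
    · rw [ext_of_mem _ _ hC]
      by_cases hg : g = 1
      · rw [if_pos hg, if_pos (Subtype.ext hg)]
      · rw [if_neg hg, if_neg (fun h => hg (congrArg Subtype.val h))]
    · rw [ext_of_not_mem _ _ hC, if_neg]
      rintro rfl
      exact hC (one_mem _)
  mul a b ha hb := by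
    rw [lres, ext_conv, hl.mul _ _ (invOn_ext ha) (invOn_ext hb)]; rfl

variable [IsAlgClosed k] [CharP k p]

/-- the `p`-parts of the elements of `C_K(R)` whose classes have nonzero value -/
theorem pp_mem_of_cls_ne (hl : BP p R l) (c : centralizer (R : Set K))
    (hc : lres (centralizer (R : Set K)) l (cls k c) ≠ 0) : (c : K) * (pr p (c : K))⁻¹ ∈ R := by
  let C : Subgroup K := centralizer (R : Set K)
  have hμ : IsHomCF (lres C l) := isHomCF_lres hl
  obtain ⟨a, ha, hla, haR⟩ : ∃ a, InvOn C a ∧ l a ≠ 0 ∧ ∀ x, a x ≠ 0 →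
    ∀ P : Subgroup K, IsPGroup p P → P ≤ centralizer {x} → P ≤ C → P ≤ R := hl.dfct
  -- the restriction of `a`
  let a' : C → k := fun x => a x
  have ha' : IsCF a' := fun g x => ha.1 g g.2 x
  have hext : ext C a' = a := by
    funext x
    by_cases hx : x ∈ C
    · rw [ext_of_mem C a' hx]
    · rw [ext_of_not_mem C a' hx, ha.2 x hx]
  have hla' : lres C l a' ≠ 0 := by
    rw [lres, hext]
    exact hla
  -- the block
  obtain ⟨B, hB, hBl⟩ := homBlockStmt hμ.toAlgHom
  have hval : ∀ z : C → k, IsCF z → centralChar B (mkF z) = lres C l z := fun z hz => by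
    rw [← hμ.toAlgHom_mkF hz, hBl]
  have hb : IsCF (fun g => B.coeff g) := (P179C.mem_center_iff _).1 hB.1
  have hbb : conv (fun g => B.coeff g) (fun g => B.coeff g) = fun g => B.coeff g := by
    funext g
    rw [← coeff_mul_eq_conv, hB.2.1]
  obtain ⟨w, hw, hBw⟩ := exists_mul_of_centralChar_ne hB (mkF_mem ha') (by
    rw [hval _ ha']; exact hla')
  -- the product of `B` and the class of `c`
  have hne : B * mkF (cls k c) ≠ 0 := by
    intro h0
    have h1 := map_mul hμ.toAlgHom ⟨B, hB.1⟩ ⟨mkF (cls k c), mkF_mem (isCF_cls c)⟩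
    have h2 : (⟨B, hB.1⟩ * ⟨mkF (cls k c), mkF_mem (isCF_cls c)⟩ :
        Subalgebra.center k (MonoidAlgebra k C)) = 0 := Subtype.ext h0
    rw [h2, map_zero, hμ.toAlgHom_mkF (isCF_cls c), hBl] at h1
    change (0 : k) = centralChar B B * _ at h1
    rw [charBlockStmt B B hB hB, if_pos rfl, one_mul] at h1
    exact hc h1.symm
  obtain ⟨y, hy⟩ : ∃ y, (B * mkF (cls k c)).coeff y ≠ 0 := by
    by_contra hcon
    push Not at hcon
    apply hne
    ext y
    rw [hcon y]
    rfl
  -- the `p`-part of `y` is conjugate to the `p`-part of `c`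
  have hcp := pr_sing (p := p) c
  have hcr := pr_regular (p := p) c
  have hcc : Commute (pr p c) (c * (pr p c)⁻¹) :=
    ((pr_commute c).symm).mul_right (Commute.refl _).inv_right
  have hce : c = pr p c * (c * (pr p c)⁻¹) := by
    rw [hcc.eq]; group
  obtain ⟨D', hD'⟩ := exists_sylCent p (pr p c * (c * (pr p c)⁻¹))
  have hy1 : conv (fun g => B.coeff g) (cls k (pr p c * (c * (pr p c)⁻¹))) y ≠ 0 := by
    rw [← hce]
    rw [coeff_mul_eq_conv] at hy
    simpa only [coeff_mkF] using hy
  obtain ⟨s, hs, -⟩ := supp_mul_cls (p := p) hb hbb hcr hcp hcc hD' hy1 ⊥ IsPGroup.of_bot bot_le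
  -- the `p`-part of `y` lies in `R`
  have hyp := pr_sing (p := p) y
  have hyR : ((y * (pr p y)⁻¹ : C) : K) ∈ R := by
    have h1 : conv a' (fun g => (w * mkF (cls k c)).coeff g) y ≠ 0 := by
      have h2 : B * mkF (cls k c) = mkF a' * (w * mkF (cls k c)) := by
        rw [← mul_assoc, ← hBw]
      rw [h2, coeff_mul_eq_conv] at hy
      simpa only [coeff_mkF] using hy
    have hcw : IsCF (fun g => (w * mkF (cls k c)).coeff g) :=
      (P179C.mem_center_iff _).1 (mul_mem hw (mkF_mem (isCF_cls c)))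
    have hPp : IsPGroup p (zpowers (y * (pr p y)⁻¹)) := by
      obtain ⟨n, hn⟩ := hyp
      rintro ⟨_, i, rfl⟩
      refine ⟨n, Subtype.ext ?_⟩
      change ((y * (pr p y)⁻¹) ^ i) ^ p ^ n = 1
      rw [← zpow_natCast, ← zpow_mul, mul_comm, zpow_mul, zpow_natCast, hn, one_zpow]
    have hPy : zpowers (y * (pr p y)⁻¹) ≤ centralizer {y} := by
      rw [zpowers_le, mem_centralizer_singleton_iff]
      exact ((Commute.refl y).mul_left (pr_commute y).symm.inv_left).eq
    obtain ⟨z, hz1, hz2⟩ := exists_of_conv_ne p _ hPp hPy (fun q _ => ha' q) (fun q _ => hcw q) h1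
    refine haR (z : K) hz2 ((zpowers (y * (pr p y)⁻¹)).map C.subtype) (hPp.map _) ?_ ?_
      ⟨_, mem_zpowers _, rfl⟩
    · rintro _ ⟨t, ht, rfl⟩
      have h3 := mem_centralizer_singleton_iff.1 (hz1 ht)
      rw [mem_centralizer_singleton_iff]
      exact congrArg Subtype.val h3
    · rintro _ ⟨t, ht, rfl⟩
      exact t.2
  -- so the two are equal
  have h4 : c * (pr p c)⁻¹ = y * (pr p y)⁻¹ := by
    have h5 : ((y * (pr p y)⁻¹ : C) : K) * s = s * ((y * (pr p y)⁻¹ : C) : K) :=
      mem_centralizer_iff.1 s.2 _ hyR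
    have h6 : (y * (pr p y)⁻¹) * s = s * (y * (pr p y)⁻¹) := Subtype.ext h5
    have h7 : pr p c * (c * (pr p c)⁻¹) * (pr p (pr p c * (c * (pr p c)⁻¹)))⁻¹ =
        c * (pr p c)⁻¹ := by rw [← hce]
    rw [← hs, mul_assoc, h6, ← mul_assoc, inv_mul_cancel, one_mul]
  have h8 : (c : K) * (pr p (c : K))⁻¹ = ((c * (pr p c)⁻¹ : C) : K) := by
    have h9 : pr p (c : K) = ((pr p c : C) : K) := pr_map C.subtype C.subtype_injective c
    rw [h9]
    rfl
  rw [h8, h4]
  exact hyR

end V

end P179L
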