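import Vale.Agent.P179.H143.CDefs

/-!
# The objects in the reduction theorem for the blockwise Alperin weight conjecture
-/

namespace P179B

open Subgroup P179H524

section

variable {G : Type*} [Group G]

/-- A (possibly empty) chain of nontrivial `p`-subgroups of `G`. -/
def IsChainOf (p : ℕ) (s : Finset (Subgroup G)) : Prop :=
  (∀ Q ∈ s, IsPGroup p Q ∧ Q ≠ ⊥) ∧ ∀ Q ∈ s, ∀ R ∈ s, Q ≤ R ∨ R ≤ Q

/-- `x` normalises all members of `s`. -/
def Fixes (x : G) (s : Finset (Subgroup G)) : Prop := ∀ Q ∈ s, x ∈ normalizer (Q : Set G)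

/-- The sum of `(-1) ^ |s|` over all triples `(s, x, y)`, where `s` is a chain of nontrivial
`p`-subgroups of `G` and `x`, `y` are elements of `G` normalising all members of `s` with
`x y x⁻¹ y⁻¹ = g`. -/
noncomputable def commSum (p : ℕ) (g : G) : ℤ :=
  ∑ᶠ t : {t : Finset (Subgroup G) × G × G // IsChainOf p t.1 ∧ Fixes t.2.1 t.1 ∧
    Fixes t.2.2 t.1 ∧ t.2.1 * t.2.2 * t.2.1⁻¹ * t.2.2⁻¹ = g}, (-1) ^ t.1.1.card

/-- `P` is not abelian; if `p = 2`, there is `k ∈ P` of order `8`, conjugate in `P` to all its odd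
powers, with `k ^ 4 ∈ ⟨g⟩`; if `p = 3`, there is `k ∈ P` of order `9`, conjugate in `P` to `k ^ 4`,
with `k ^ 3 ∈ ⟨g⟩`. -/
def IsExcSubgroup (p : ℕ) (g : G) (P : Subgroup G) : Prop :=
  (∃ a ∈ P, ∃ b ∈ P, a * b ≠ b * a) ∧
    (p = 2 → ∃ k ∈ P, orderOf k = 8 ∧ k ^ 4 ∈ zpowers g ∧
      ∀ e, Odd e → ∃ c ∈ P, c * k * c⁻¹ = k ^ e) ∧
    (p = 3 → ∃ k ∈ P, orderOf k = 9 ∧ k ^ 3 ∈ zpowers g ∧ ∃ c ∈ P, c * k * c⁻¹ = k ^ 4)

/-- `O_p(G) = 1`, the order of `g` is divisible by `p` but not by `p ^ 2`, and `C_G(g)` has a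
`p`-subgroup `P` with `IsExcSubgroup p g P`. -/
def Exceptional (p : ℕ) (g : G) : Prop :=
  (∀ R : Subgroup G, R.Normal → IsPGroup p R → R = ⊥) ∧ p ∣ orderOf g ∧ ¬ p ^ 2 ∣ orderOf g ∧
    ∃ P : Subgroup G, IsPGroup p P ∧ P ≤ centralizer {g} ∧ IsExcSubgroup p g P

end

/-- The class `𝒞` of groups is closed under wreath products with groups of order `p`. -/
def WreathClosed (p : ℕ) (𝒞 : ∀ (G : Type) [Group G], Prop) : Prop :=
  ∀ (G : Type) [Group G] [Finite G] (C : Type) [Group C], Nat.card C = p → 𝒞 G → 𝒞 (G ≀ᵣ C)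

/-- The class `𝒞` of groups is closed under subgroups and under quotients by normal
`p`-subgroups. -/
def SectionClosed (p : ℕ) (𝒞 : ∀ (G : Type) [Group G], Prop) : Prop :=
  (∀ (G : Type) [Group G] [Finite G] (H : Subgroup G), 𝒞 G → 𝒞 H) ∧
    ∀ (G : Type) [Group G] [Finite G] (N : Subgroup G) [N.Normal], IsPGroup p N → 𝒞 G → 𝒞 (G ⧸ N)

section

variable (p : ℕ) {k : Type*} [Field k] (red : integralClosure ℤ ℂ →+* k)
  (𝒞 : ∀ (G : Type) [Group G], Prop)

/-- The blockwise Alperin weight conjecture for all `p`-blocks of the finite groups in `𝒞`. -/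
def WeightConj : Prop :=
  ∀ (G : Type) [Group G] [Finite G], 𝒞 G → ∀ B : MonoidAlgebra k G, IsBlock B →
    numSimpleIn B = numWeightsIn p red B

/-- The blockwise Alperin weight conjecture modulo `p` for all `p`-blocks of the finite groups
in `𝒞`. -/
def WeightConjMod : Prop :=
  ∀ (G : Type) [Group G] [Finite G], 𝒞 G → ∀ B : MonoidAlgebra k G, IsBlock B →
    numSimpleIn B ≡ numWeightsIn p red B [MOD p]

/-- For all finite groups `G` in `𝒞` and all `g ∈ G` of order divisible by `p`, the number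
`p |C_G(g)|` divides `commSum p g`. -/
def CommDivisible : Prop :=
  ∀ (G : Type) [Group G] [Finite G], 𝒞 G → ∀ g : G, p ∣ orderOf g →
    (p * Nat.card (centralizer ({g} : Set G)) : ℤ) ∣ commSum p g

/-- For all finite groups `G` in `𝒞` and all exceptional `g ∈ G`, the number
`p |C_G(g)|` divides `commSum p g`. -/
def CommDivisibleExc : Prop :=
  ∀ (G : Type) [Group G] [Finite G], 𝒞 G → ∀ g : G, Exceptional p g →
    (p * Nat.card (centralizer ({g} : Set G)) : ℤ) ∣ commSum p g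

end

end P179B
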