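import Vale.Agent.P179.H143.NI1
import Vale.Agent.P179.H166.Z14

/-!
# The defect groups below a block, 2: they contain the central element
-/

namespace P179L

open Subgroup Finset P179H524 P179A P179C P179P P179K P179R P179Y MonoidAlgebra

open scoped Classical

universe u

/-- The `p`-subgroups `P` of the centralisers of the elements `y` in the support of `z` that
contain the `p`-part of `y` embed in `D`, with the `p`-part of `y` mapped to `v`. -/
def LocAt (p : ℕ) {D : Type} [Group D] (v : D) {H : Type} [Group H] (z : H → ℤ) : Prop :=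
  ∀ y, z y ≠ 0 → ∀ P : Subgroup H, IsPGroup p P → P ≤ centralizer {y} →
    ∀ hy : y * (pr p y)⁻¹ ∈ P, ∃ φ : P →* D, Function.Injective φ ∧ φ ⟨_, hy⟩ = v

theorem LocAt.res {p : ℕ} {D : Type} [Group D] {v : D} {G : Type} [Group G] [Finite G]
    {z : G → ℤ} (h : LocAt p v z) (H : Subgroup G) : LocAt p v (res H z) := by
  intro y hy P hP hPy hyP
  have h1 : (y : G) * (pr p (y : G))⁻¹ = H.subtype (y * (pr p y)⁻¹) := by
    rw [map_mul, map_inv, ← pr_map H.subtype H.subtype_injective y]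
    rfl
  have h2 : (y : G) * (pr p (y : G))⁻¹ ∈ P.map H.subtype := by
    rw [h1]
    exact mem_map_of_mem _ hyP
  obtain ⟨φ, hφ, hφv⟩ := h (y : G) hy (P.map H.subtype) (hP.map _) (by
    rintro _ ⟨a, ha, rfl⟩
    have h2 := mem_centralizer_singleton_iff.mp (hPy ha)
    exact mem_centralizer_singleton_iff.mpr (congrArg Subtype.val h2)) h2
  let e := P.equivMapOfInjective H.subtype H.subtype_injective
  refine ⟨φ.comp e.toMonoidHom, hφ.comp e.injective, ?_⟩
  rw [← hφv]
  exact congrArg φ (Subtype.ext h1.symm)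

section

variable {p : ℕ} [hp : Fact p.Prime] {k : Type u} [Field k] [IsAlgClosed k] [CharP k p]

/-- **The location lemma.** The defect groups of the blocks of `H / R` at which the image of `z`
does not vanish are quotients of subgroups of `D` that contain `v`, by nontrivial normal
subgroups. -/
theorem loc_block {D : Type} [Group D] {v : D} {H : Type} [Group H] [Finite H] (R : Subgroup H)
    [R.Normal] (hR : IsPGroup p R) (hR1 : R ≠ ⊥) {z : H → ℤ} (hz : IsCF z) (hloc : LocAt p v z)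
    (Z : Subalgebra.center k (MonoidAlgebra k (H ⧸ R)))
    (hZ : ∀ g, Z.1.coeff g = ((push (QuotientGroup.mk' R) z g : ℤ) : k))
    {B : MonoidAlgebra k (H ⧸ R)} (hB : IsBlock B) (hBZ : centralChar B Z.1 ≠ 0)
    {E : Subgroup (H ⧸ R)} (hE : IsDefectGroup B E) :
    ∃ (A : Subgroup D) (f : A →* E), v ∈ A ∧ Function.Surjective f ∧ f.ker ≠ ⊥ := by
  have := Fintype.ofFinite H
  have := Fintype.ofFinite (H ⧸ R)
  obtain ⟨hEp, l, hl, hlz⟩ := exists_BP_of_block (p := p) B hB E hE
  set π : H →* H ⧸ R := QuotientGroup.mk' R with hπ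
  have hπs : Function.Surjective π := QuotientGroup.mk'_surjective R
  have hker : π.ker = R := QuotientGroup.ker_mk' R
  have hZcf : IsCF (fun g => Z.1.coeff g) := (P179C.mem_center_iff _).1 Z.2
  have hne : l (fun g => Z.1.coeff g) ≠ 0 := by
    rw [hlz _ hZcf, mkF_coeff]
    exact hBZ
  let zC : centralizer (E : Set (H ⧸ R)) → k := fun c => Z.1.coeff (c : H ⧸ R)
  have hzC : IsCF zC := fun g y => hZcf (g : H ⧸ R) (y : H ⧸ R)
  have hne' : lres (centralizer (E : Set (H ⧸ R))) l zC ≠ 0 := by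
    intro h0
    apply hne
    rw [← h0, lres]
    exact hl.toBP0.congr fun x hx => by rw [ext_of_mem _ _ hx]
  obtain ⟨c, hc1, hc2⟩ := exists_cls_ne (isHomCF_lres hl) hzC hne'
  have hpp := pp_mem_of_cls_ne hl c hc2
  have hcz : ¬ (p : ℤ) ∣ push π z (c : H ⧸ R) := by
    intro h1
    apply hc1
    change Z.1.coeff (c : H ⧸ R) = 0
    rw [hZ]
    exact (CharP.intCast_eq_zero_iff k p _).2 h1
  -- the preimage of the defect group
  set P : Subgroup H := E.comap π with hPdef
  have hP : IsPGroup p P := hEp.comap_of_ker_isPGroup π (by rw [hker]; exact hR)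
  let act : MulAction P {h : H // π h = (c : H ⧸ R)} :=
    { smul := fun g h => ⟨g.1 * h.1 * g.1⁻¹, by
        have h1 : π g.1 * (c : H ⧸ R) = c * π g.1 := mem_centralizer_iff.1 c.2 _ g.2
        rw [map_mul, map_mul, map_inv, h.2, h1, mul_inv_cancel_right]⟩
      one_smul := fun h => Subtype.ext (by
        change (1 : H) * h.1 * 1⁻¹ = h.1
        simp)
      mul_smul := fun g g' h => Subtype.ext (by
        change (g.1 * g'.1) * h.1 * (g.1 * g'.1)⁻¹ = g.1 * (g'.1 * h.1 * g'.1⁻¹) * g.1⁻¹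
        group) }
  rw [push, finsum_eq_sum_of_fintype] at hcz
  obtain ⟨h, hh, hzh⟩ := Q7.sum_fixed p hP (fun h : {h : H // π h = (c : H ⧸ R)} => z h.1)
    (fun g x => hz g.1 x.1) hcz
  have hPh : P ≤ centralizer {h.1} := by
    intro g hg
    rw [mem_centralizer_singleton_iff]
    have h1 := congrArg Subtype.val (hh ⟨g, hg⟩)
    have h2 : g * h.1 * g⁻¹ = h.1 := h1
    exact mul_inv_eq_iff_eq_mul.1 h2
  have hhP : h.1 * (pr p h.1)⁻¹ ∈ P := by
    change π (h.1 * (pr p h.1)⁻¹) ∈ E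
    rw [map_mul, map_inv, Q7.map_pr p π h.1 (orderOf_pos h.1).ne', h.2]
    exact hpp
  obtain ⟨φ, hφ, hφv⟩ := hloc h.1 (fun h0 => hzh (by rw [h0]; exact dvd_zero _)) P hP hPh hhP
  let r : P →* E := (π.comp P.subtype).codRestrict E fun x => x.2
  have hr : Function.Surjective r := by
    rintro ⟨y, hy⟩
    obtain ⟨x, rfl⟩ := hπs y
    exact ⟨⟨x, hy⟩, rfl⟩
  let e : P ≃* φ.range := φ.ofInjective hφ
  refine ⟨φ.range, r.comp e.symm.toMonoidHom, ⟨_, hφv⟩, hr.comp e.symm.surjective, ?_⟩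
  intro hbot
  apply hR1
  rw [eq_bot_iff]
  intro x hx
  have hx1 : π x = 1 := by
    rw [← MonoidHom.mem_ker, hker]
    exact hx
  have hxP : x ∈ P := by
    change π x ∈ E
    rw [hx1]
    exact one_mem E
  have h3 : e ⟨x, hxP⟩ ∈ (r.comp e.symm.toMonoidHom).ker := by
    rw [MonoidHom.mem_ker]
    change r (e.symm (e ⟨x, hxP⟩)) = 1
    rw [MulEquiv.symm_apply_apply]
    exact Subtype.ext hx1
  rw [hbot, mem_bot, MulEquiv.map_eq_one_iff] at h3
  exact mem_bot.2 (congrArg Subtype.val h3)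

/-- the support of `B` times the class of `x v` -/
theorem locAt_of_supp {G : Type} [Group G] [Fintype G] {b : G → k} (hb : IsCF b)
    (hbb : conv b b = b) {x v : G} (hx : ¬ p ∣ orderOf x) (hv : ∃ n : ℕ, v ^ p ^ n = 1)
    (hxv : Commute x v) {D : Subgroup G} (hD : SylCent p (x * v) D) (hvD : v ∈ D) {z : G → ℤ}
    (hz : ∀ y, z y ≠ 0 → conv b (cls k (x * v)) y ≠ 0) : LocAt p (⟨v, hvD⟩ : D) z := by
  intro y hy P hP hPy hyP
  obtain ⟨s, hs1, hs2⟩ := supp_mul_cls (p := p) hb hbb hx hv hxv hD (hz y hy) P hP hPy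
  refine ⟨((MulAut.conj s⁻¹).toMonoidHom.comp P.subtype).codRestrict D (fun x => ?_), ?_, ?_⟩
  · have := hs2 x x.2
    simpa using this
  · intro x y hxy
    have h1 := congrArg Subtype.val hxy
    have h2 : MulAut.conj s⁻¹ (x : G) = MulAut.conj s⁻¹ (y : G) := h1
    exact Subtype.ext ((MulAut.conj s⁻¹).injective h2)
  · apply Subtype.ext
    change s⁻¹ * (y * (pr p y)⁻¹) * s⁻¹⁻¹ = v
    rw [inv_inv]
    exact hs1

end

end P179L
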