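import Vale.Agent.P179.H143.NI2
import Vale.Agent.P179.H166.Z15

/-!
# The defect groups below a block, 3: the main theorem
-/

namespace P179L

open Subgroup Finset P179H524 P179A P179K P179R P179Y P179C P179N MonoidAlgebra

open P179B (GoodSection)

open scoped Classical Pointwise

universe u

/-- `D` is good, and there is a central element `v` of `D` such that all epimorphic images with
nontrivial kernel of the subgroups of `D` that contain `v` are nice. -/
inductive Nice (p : ℕ) : (D : Type) → [Group D] → Prop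
  | mk (D : Type) [Group D] (good : GoodSection p D) (v : D) (hv : v ∈ center D)
      (h : ∀ (A : Subgroup D) (K : Type) [Group K] (f : A →* K), v ∈ A →
        Function.Surjective f → f.ker ≠ ⊥ → Nice p K) : Nice p D

section

variable {p : ℕ} [hp : Fact p.Prime] {k : Type u} [Field k] [IsAlgClosed k] [CharP k p]
  (red : integralClosure ℤ ℂ →+* k)

/-- **The Knörr–Robinson sum of a block is `l(B) - |W_p(B)|` modulo `p`** if the congruence holds
at the stabilisers of the nonempty chains for the classes at the central element `v`. -/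
theorem krSum_eq_loc {G : Type} [Group G] [Finite G] (O : ValuationSubring ℂ)
    [CharP (IsLocalRing.ResidueField O) p]
    (hred : ∀ (a : ℂ) (ha : a ∈ integralClosure ℤ ℂ), O.valuation a < 1 ↔ red ⟨a, ha⟩ = 0)
    {B : MonoidAlgebra k G} (hB : IsBlock B) {D : Subgroup G} (hD : IsDefectGroup B D)
    (w : D) (hw : w ∈ center D) (hw1 : w ≠ 1)
    (hcong : ∀ s : Finset (Subgroup G), IsPChain p s → s.Nonempty → ∀ z : stab s → ℤ, IsCF z →
      LocAt p w z → Cong O (Nat.card (stab s)) (nL p z) (nW p z)) :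
    ((P179B.krSum p B : ℤ) : k) = (numSimpleIn B : k) - numWeightsIn p red B := by
  have := Fintype.ofFinite G
  have := Fintype.ofFinite (ConjClasses G)
  have := Fintype.ofFinite (Quot (P179B.NChain.Conj (p := p) (G := G)))
  have := Fintype.ofFinite (Quot (P179H524.Weight.Conj (p := p) (G := G)))
  -- the class
  obtain ⟨x, l, hl, hlz, hBx, hlx, hSyl, hxreg⟩ := exists_elt_of_block (p := p) hB hD
  have hDp : IsPGroup p D := hSyl.pgp
  obtain ⟨v, hv⟩ := w
  have hv1 : v ≠ 1 := fun h => hw1 (Subtype.ext h)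
  have hvc : ∀ a ∈ D, a * v = v * a := fun a ha =>
    congrArg Subtype.val (mem_center_iff.1 hw ⟨a, ha⟩)
  have hvp : ∃ n : ℕ, v ^ p ^ n = 1 := by
    obtain ⟨a, ha⟩ := hDp ⟨v, hv⟩
    exact ⟨a, congrArg Subtype.val ha⟩
  have hxv : Commute x v := (mem_centralizer_singleton_iff.1 (hSyl.le hv)).symm
  have hb : IsCF (fun g => B.coeff g) := (P179C.mem_center_iff _).1 hB.1
  have hbb : conv (fun g => B.coeff g) (fun g => B.coeff g) = fun g => B.coeff g := by
    funext g
    rw [← coeff_mul_eq_conv, hB.2.1]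
  have hc := mkF_mem (isCF_cls (k := k) (x * v))
  obtain ⟨n', hn', hln⟩ := BP.cls_mul hl hSyl hxreg hv hvc
  have hcB : centralChar B (mkF (cls k (x * v))) ≠ 0 := by
    rw [← hlz _ (isCF_cls _), hln]
    refine mul_ne_zero ?_ hlx
    rwa [Ne, CharP.cast_eq_zero_iff k p]
  obtain ⟨Φ, hΦ1, hΦ2⟩ := exists_Phi (p := p) hB
  obtain ⟨r, μ, hμ1, hμ2⟩ := exists_L p (k := k) (G := G)
  let F : Subalgebra.center k (MonoidAlgebra k G) := ⟨B, hB.1⟩ * ⟨_, hc⟩
  have key : Φ F = ∑ i, μ i F - ∑ q : Quot (P179H524.Weight.Conj (p := p) (G := G)),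
      mu p red q.out F := by
    rw [eq_sum_center F]
    simp only [map_sum, map_smul, smul_eq_mul]
    rw [Finset.sum_comm (s := (Finset.univ : Finset (Fin r))), Finset.sum_comm (s := (Finset.univ :
      Finset (Quot (P179H524.Weight.Conj (p := p) (G := G))))), ← Finset.sum_sub_distrib]
    refine Finset.sum_congr rfl fun C _ => ?_
    rw [← Finset.mul_sum, ← Finset.mul_sum, ← mul_sub]
    by_cases hC : F.1.coeff C.out = 0
    · rw [hC, zero_mul, zero_mul]
    · congr 1
      have hC' : (B * mkF (cls k (x * v))).coeff C.out ≠ 0 := hC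
      have hy : ∀ y, ind C y ≠ 0 → conv (fun g => B.coeff g) (cls k (x * v)) y ≠ 0 := by
        intro y hy
        have h1 := out_of_ind (mul_mem hB.1 hc) hC' hy
        rw [coeff_mul_eq_conv] at h1
        simpa only [coeff_mkF] using h1
      have hsylv := SylCent.mul_central hSyl hv hvc hxreg
      have hdz := P179C.dz_sing p O (ind C) (isCF_ind C) (fun y hy' => by
        by_contra hyreg
        have hbot : IsPGroup p (⊥ : Subgroup G) := IsPGroup.of_bot
        obtain ⟨s, hs1, -⟩ := supp_mul_cls (p := p) hb hbb hxreg hvp hxv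
          hsylv (hy y hy') ⊥ hbot bot_le
        rw [pr_of_regular hyreg, mul_inv_cancel, mul_one, inv_mul_cancel] at hs1
        exact hv1 hs1.symm)
      have hloc : LocAt p (⟨v, hv⟩ : D) (ind C) :=
        locAt_of_supp hb hbb hxreg hvp hxv hsylv hv hy
      have hT := TT_cong (p := p) O (isCF_ind C) (fun s hs hne =>
        hcong s hs hne _ (isCF_res _ (isCF_ind C)) (hloc.res _)) hdz
      have hint : nW p (ind C) / Nat.card G ∈ integralClosure ℤ ℂ := isIntegral_nW' (isCF_ind C)
      have h4 : ((C2.tau p (ind C) : ℤ) : ℂ) ∈ integralClosure ℤ ℂ := intCast_mem _ _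
      have h5 : ((TT p (ind C) : ℤ) : ℂ) ∈ integralClosure ℤ ℂ := intCast_mem _ _
      rw [hred _ (sub_mem h5 (sub_mem h4 hint))] at hT
      have h6 : (⟨(TT p (ind C) : ℂ) - ((C2.tau p (ind C) : ℂ) - nW p (ind C) / Nat.card G),
          sub_mem h5 (sub_mem h4 hint)⟩ : integralClosure ℤ ℂ) =
          ((TT p (ind C) : ℤ) : integralClosure ℤ ℂ) -
          (((C2.tau p (ind C) : ℤ) : integralClosure ℤ ℂ) - ⟨nW p (ind C) / Nat.card G, hint⟩) := rfl
      have hZ : ∀ g, (⟨classSum k C.out, classSum_mem_center C.out⟩ :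
          Subalgebra.center k (MonoidAlgebra k G)).1.coeff g = ((ind C g : ℤ) : k) :=
        fun g => coeff_classSum_out C g
      rw [h6, map_sub, map_sub, map_intCast, map_intCast, sub_eq_zero, hμ2 (ind C) _ hZ,
        ← redC_of_mem red hint, redC_nW p red (isCF_ind C) _ hZ] at hT
      rw [hΦ1 (ind C) _ hZ, hT]
  have h1 := hΦ2 ⟨_, hc⟩
  have h2 := sum_homs_block μ hB ⟨_, hc⟩
  have h3 := sum_homs_block (fun q : Quot (P179H524.Weight.Conj (p := p) (G := G)) =>
      mu p red q.out) hB ⟨_, hc⟩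
  have h4 : ((P179B.krSum p B : ℤ) : k) * centralChar B (mkF (cls k (x * v))) =
      (Nat.card {i // μ i ⟨B, hB.1⟩ = 1} : k) * centralChar B (mkF (cls k (x * v))) -
      (Nat.card {q : Quot (P179H524.Weight.Conj (p := p) (G := G)) //
        mu p red q.out ⟨B, hB.1⟩ = 1} : k) * centralChar B (mkF (cls k (x * v))) := by
    rw [← h2, ← h3, ← h1]
    exact key
  rw [← sub_mul] at h4
  have h5 := mul_right_cancel₀ hcB h4
  rw [← hμ1 B hB.1, ← numWc_eq_card p red hB.1, ← numWeightsIn_eq_numWc p red hB] at h5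
  exact h5

/-- the congruence for a group with a nontrivial normal `p`-subgroup, for the class functions at
the central element -/
theorem cong_of_locAt (O : ValuationSubring ℂ) [CharP (IsLocalRing.ResidueField O) p]
    (hred : ∀ (a : ℂ) (ha : a ∈ integralClosure ℤ ℂ), O.valuation a < 1 ↔ red ⟨a, ha⟩ = 0)
    {D : Type} [Group D] {w : D} {H : Type} [Group H] [Finite H] (R : Subgroup H) [R.Normal]
    (hR : IsPGroup p R) (hR1 : R ≠ ⊥)
    (ih : ∀ (B : MonoidAlgebra k (H ⧸ R)), IsBlock B → ∀ E : Subgroup (H ⧸ R),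
      IsDefectGroup B E → (∃ (A : Subgroup D) (f : A →* E), w ∈ A ∧ Function.Surjective f ∧
        f.ker ≠ ⊥) → numSimpleIn B ≡ numWeightsIn p red B [MOD p])
    {z : H → ℤ} (hz : IsCF z) (hloc : LocAt p w z) :
    Cong O (Nat.card H) (nL p z) (nW p z) := by
  have hq1 := nL_quot p R hR z hz
  have hq2 := nW_quot p R hR z hz
  have hzq := isCF_push _ (QuotientGroup.mk'_surjective R) hz
  obtain ⟨Z, hZ⟩ := exists_central k hzq
  have h5 : Cong O (Nat.card (H ⧸ R)) (nL p (push (QuotientGroup.mk' R) z))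
      (nW p (push (QuotientGroup.mk' R) z)) := by
    refine cong_of_blocks' p red O hred hzq Z hZ fun B' hB' hBZ => ?_
    obtain ⟨E, hE⟩ := exists_defectGroup B' hB'.1
    exact ih B' hB' E hE (loc_block R hR hR1 hz hloc Z hZ hB' hBZ hE)
  have h2 : Nat.card H = Nat.card (H ⧸ R) * Nat.card R :=
    card_eq_card_quotient_mul_card_subgroup R
  have h4 : 0 < Nat.card (H ⧸ R) := Nat.card_pos
  have h4' : 0 < Nat.card R := Nat.card_pos
  unfold Cong at h5 ⊢
  rw [hq1, hq2, h2]
  have h6 : (Nat.card R : ℂ) ≠ 0 := by exact_mod_cast h4'.ne'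
  have h7 : (Nat.card (H ⧸ R) : ℂ) ≠ 0 := by exact_mod_cast h4.ne'
  convert h5 using 2
  push_cast
  field_simp

theorem card_quot_lt {H : Type} [Group H] [Finite H] (R : Subgroup H) (hR1 : R ≠ ⊥) :
    Nat.card (H ⧸ R) < Nat.card H := by
  have h2 : Nat.card H = Nat.card (H ⧸ R) * Nat.card R :=
    card_eq_card_quotient_mul_card_subgroup R
  have h4 : 0 < Nat.card (H ⧸ R) := Nat.card_pos
  have h3 : 1 < Nat.card R := by
    have := (Subgroup.nontrivial_iff_ne_bot R).2 hR1
    exact Finite.one_lt_card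
  rw [h2]
  nlinarith

/-- **The main theorem.** -/
theorem nice_main : ∀ (n : ℕ) (G : Type) [Group G] [Finite G], Nat.card G = n →
    ∀ B : MonoidAlgebra k G, IsBlock B → ∀ D : Subgroup G, IsDefectGroup B D → Nice p D →
      numSimpleIn B ≡ numWeightsIn p red B [MOD p] := by
  intro n
  induction n using Nat.strong_induction_on with
  | _ n ih =>
  intro G _ _ hn B hB D hD hnice
  have := Fintype.ofFinite G
  obtain ⟨O, hO, hred⟩ := exists_O p red
  obtain ⟨hgood, v, hv, hnext⟩ : GoodSection p D ∧ ∃ v ∈ center D, ∀ (A : Subgroup D) (K : Type)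
      [Group K] (f : A →* K), v ∈ A → Function.Surjective f → f.ker ≠ ⊥ → Nice p K := by
    cases hnice with
    | mk _ good v hv h => exact ⟨good, v, hv, h⟩
  by_cases hD1 : D = ⊥
  · have h1 := P179B.theoremGood2 p red B (hB : P179B.IsBlock B) D hD ⟨hgood, fun H N _ hN => by
      exfalso
      apply hN
      rw [eq_bot_iff]
      intro a _
      have h2 : (((a : H) : D) : G) = 1 := mem_bot.1 (hD1.le ((a : H) : D).2)
      rw [mem_bot]
      exact Subtype.ext (Subtype.ext h2)⟩
    rwa [P179B.numSimpleIn_eq, P179B.numWeightsIn_eq] at h1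
  obtain ⟨x, l, hl, hlz, hBx, hlx, hSyl, hxreg⟩ := exists_elt_of_block (p := p) hB hD
  have hDp : IsPGroup p D := hSyl.pgp
  -- we may assume that the central element is not trivial
  obtain ⟨w, hw, hw1, hnextw⟩ : ∃ w ∈ center D, w ≠ 1 ∧ ∀ (A : Subgroup D) (K : Type)
      [Group K] (f : A →* K), w ∈ A → Function.Surjective f → f.ker ≠ ⊥ → Nice p K := by
    by_cases hv1 : v = 1
    · have hnt : Nontrivial D := (Subgroup.nontrivial_iff_ne_bot D).2 hD1
      have hc := hDp.center_nontrivial
      obtain ⟨u, hu⟩ := exists_ne (1 : center D)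
      refine ⟨(u : D), u.2, fun h => hu (Subtype.ext h), fun A K _ f _ => ?_⟩
      exact hnext A K f (by rw [hv1]; exact one_mem A)
    · exact ⟨v, hv, hv1, hnext⟩
  -- the congruence for the groups with a nontrivial normal `p`-subgroup
  have key : ∀ (H : Type) [Group H] [Finite H], Nat.card H ≤ n → ∀ (R : Subgroup H) [R.Normal],
      IsPGroup p R → R ≠ ⊥ → ∀ z : H → ℤ, IsCF z → LocAt p w z →
        Cong O (Nat.card H) (nL p z) (nW p z) := by
    intro H _ _ hH R _ hR hR1 z hz hloc
    refine cong_of_locAt red O hred R hR hR1 ?_ hz hloc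
    rintro B' hB' E hE ⟨A, f, hA, hf, hk⟩
    exact ih (Nat.card (H ⧸ R)) ((card_quot_lt R hR1).trans_le hH) (H ⧸ R) rfl B' hB' E hE
      (hnextw A E f hA hf hk)
  by_cases hO' : OpTrivial p G
  · -- no nontrivial normal `p`-subgroups
    have h1 := P179B.theoremKR (p := p) (k := k) (hB : P179B.IsBlock B) hD hD1 hgood
    have h2 := krSum_eq_loc red O hred hB hD w hw hw1 (fun s hs hne z hz hloc => by
      obtain ⟨Q, hQ, hmin⟩ := P179K.exists_least hs hne
      have hQs : Q ≤ stab s := le_stab.2 fun T hT => P179K.le_normalizer_of_le (hmin T hT)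
      have hnorm : (Q.subgroupOf (stab s)).Normal := by
        refine ⟨fun n hn g => ?_⟩
        rw [mem_subgroupOf] at hn ⊢
        exact (mem_normalizer_iff.mp (mem_stab.mp g.2 Q hQ) _).mp hn
      have hQp : IsPGroup p (Q.subgroupOf (stab s)) :=
        (hs.1 Q hQ).1.of_equiv (subgroupOfEquivOfLe hQs).symm
      have hQ1 : Q.subgroupOf (stab s) ≠ ⊥ := by
        intro h3
        rw [subgroupOf_eq_bot, disjoint_iff, inf_eq_left.mpr hQs] at h3
        exact (hs.1 Q hQ).2 h3
      exact key (stab s) (hn ▸ card_le_card_group _) (Q.subgroupOf (stab s)) hQp hQ1 z hz hloc)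
    rw [(CharP.intCast_eq_zero_iff k p _).2 h1, eq_comm, sub_eq_zero] at h2
    exact (CharP.natCast_eq_natCast k p).1 h2
  · simp only [OpTrivial, not_forall] at hO'
    obtain ⟨R, hR, hRp, hR1⟩ := hO'
    have hv' : ((w : D) : G) ∈ D := w.2
    have hvc : ∀ a ∈ D, a * (w : G) = (w : G) * a := fun a ha =>
      congrArg Subtype.val (mem_center_iff.1 hw ⟨a, ha⟩)
    have hvp : ∃ n : ℕ, (w : G) ^ p ^ n = 1 := by
      obtain ⟨a, ha⟩ := hDp w
      exact ⟨a, congrArg Subtype.val ha⟩
    have hxv : Commute x (w : G) := (mem_centralizer_singleton_iff.1 (hSyl.le hv')).symm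
    have hb : IsCF (fun g => B.coeff g) := (P179C.mem_center_iff _).1 hB.1
    have hbb : conv (fun g => B.coeff g) (fun g => B.coeff g) = fun g => B.coeff g := by
      funext g
      rw [← coeff_mul_eq_conv, hB.2.1]
    have hc := mkF_mem (isCF_cls (k := k) (x * (w : G)))
    obtain ⟨n', hn', hln⟩ := BP.cls_mul hl hSyl hxreg hv' hvc
    refine block_modEq_of_supp p red O hred hB hc (by
      rw [← hlz _ (isCF_cls _), hln]
      refine mul_ne_zero ?_ hlx
      rwa [Ne, CharP.cast_eq_zero_iff k p]) fun C hC => ?_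
    have hy : ∀ y, ind C y ≠ 0 → conv (fun g => B.coeff g) (cls k (x * (w : G))) y ≠ 0 := by
      intro y hy
      have h1 := out_of_ind (mul_mem hB.1 hc) hC hy
      rw [coeff_mul_eq_conv] at h1
      simpa only [coeff_mkF] using h1
    exact key G hn.le R hRp hR1 (ind C) (isCF_ind C)
      (locAt_of_supp hb hbb hxreg hvp hxv (SylCent.mul_central hSyl hv' hvc hxreg) hv' hy)

end

end P179L
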