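import Vale.Agent.P179.H143.NI3
import Vale.Agent.P179.H166.Z18

/-!
# Families of nice groups
-/

namespace P179L

open Subgroup P179H524

open P179B (GoodSection GoodCentre CharCrit QuotientsGood ThreeAbelian exists_center_orderOf)

section

variable {p : ℕ}

theorem card_image_lt {D : Type} [Group D] [Finite D] (A : Subgroup D) (K : Type) [Group K]
    (f : A →* K) (hf : Function.Surjective f) (hk : f.ker ≠ ⊥) : Nat.card K < Nat.card D := by
  have h1 : Nat.card K = Nat.card (A ⧸ f.ker) :=
    (Nat.card_congr (QuotientGroup.quotientKerEquivOfSurjective f hf).toEquiv).symm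
  rw [h1]
  exact (card_quot_lt f.ker hk).trans_le (card_le_card_group A)

/-- the groups all whose sections are good are nice -/
theorem nice_of_secAll : ∀ (n : ℕ) (D : Type) [Group D] [Finite D], Nat.card D = n →
    P179C.SecAll (GoodSection p) D → Nice p D := by
  intro n
  induction n using Nat.strong_induction_on with
  | _ n ih =>
  intro D _ _ hn h
  refine Nice.mk D h.self 1 (one_mem _) fun A K _ f _ hf hk => ?_
  have hfin : Finite K := Finite.of_surjective f hf
  exact ih (Nat.card K) (hn ▸ card_image_lt A K f hf hk) K rfl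
    ((P179C.SecAll.of_inj h A.subtype A.subtype_injective).of_surj f hf)

/-- the old class -/
theorem nice_of_quotientsGood {D : Type} [Group D] [Finite D] (h : QuotientsGood p D) :
    Nice p D := by
  refine Nice.mk D h.1 1 (one_mem _) fun A K _ f _ hf hk => ?_
  have hfin : Finite K := Finite.of_surjective f hf
  exact nice_of_secAll (Nat.card K) K rfl
    ((P179B.secNT_of h).secAll A.subtype A.subtype_injective f hf hk)

/-- a class of pairs closed under the sections that contain the central element, all of whose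
members are good, consists of nice groups -/
theorem nice_of_class (F : ∀ (D : Type) [Group D], D → Prop)
    (hgood : ∀ (D : Type) [Group D] [Finite D] (c : D), IsPGroup p D → F D c → GoodSection p D)
    (hcen : ∀ (D : Type) [Group D] (c : D), F D c → c ∈ center D)
    (hsec : ∀ (D : Type) [Group D] (c : D), F D c → ∀ (A : Subgroup D) (K : Type) [Group K]
      (f : A →* K) (hc : c ∈ A), Function.Surjective f → F K (f ⟨c, hc⟩)) :
    ∀ (n : ℕ) (D : Type) [Group D] [Finite D] (c : D), Nat.card D = n → IsPGroup p D → F D c →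
      Nice p D := by
  intro n
  induction n using Nat.strong_induction_on with
  | _ n ih =>
  intro D _ _ c hn hD h
  refine Nice.mk D (hgood D c hD h) c (hcen D c h) fun A K _ f hc hf hk => ?_
  have hfin : Finite K := Finite.of_surjective f hf
  exact ih (Nat.card K) (hn ▸ card_image_lt A K f hf hk) K (f ⟨c, hc⟩) rfl
    ((hD.to_subgroup A).of_surjective f hf) (hsec D c h A K f hc hf)

end

section

variable {D : Type} [Group D]

theorem mem_commutator_coe {A : Subgroup D} {a : A} (ha : a ∈ commutator A) :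
    (a : D) ∈ commutator D := by
  have h1 : (commutator A).map A.subtype ≤ commutator D := by
    rw [commutator_def, map_commutator, commutator_def]
    exact commutator_mono le_top le_top
  exact h1 (mem_map_of_mem A.subtype ha)

theorem exists_of_mem_commutator {A : Type} [Group A] {K : Type} [Group K] (f : A →* K)
    (hf : Function.Surjective f) {x : K} (hx : x ∈ commutator K) : ∃ a ∈ commutator A, f a = x := by
  have h1 : (commutator A).map f = commutator K := by
    rw [commutator_def, map_commutator, commutator_def, map_top_of_surjective f hf]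
  rw [← h1] at hx
  exact hx

/-- `b a = [b,a] a b` -/
theorem comm_mem (a b : D) : b * a * b⁻¹ * a⁻¹ ∈ commutator D := by
  rw [commutator_def]
  exact commutator_mem_commutator (mem_top b) (mem_top a)

theorem eq_one_of_mem {p : ℕ} {c : D} (hc : ∃ n : ℕ, c ^ p ^ n = 1) (h : c ∈ zpowers (c ^ p)) :
    c = 1 := by
  obtain ⟨i, hi⟩ := mem_zpowers_iff.1 h
  have h1 : c ^ ((p : ℤ) * i) = c := by
    rw [zpow_mul, zpow_natCast]
    exact hi
  have h2 : ∀ n : ℕ, c ^ (((p : ℤ) * i) ^ n) = c := by
    intro n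
    induction n with
    | zero => rw [pow_zero, zpow_one]
    | succ n ih => rw [pow_succ, zpow_mul, ih, h1]
  obtain ⟨n, hn⟩ := hc
  have h3 := h2 n
  rw [mul_pow, zpow_mul] at h3
  have h4 : c ^ ((p : ℤ) ^ n) = 1 := by
    have h5 : ((p : ℤ) ^ n) = ((p ^ n : ℕ) : ℤ) := by push_cast; rfl
    rw [h5, zpow_natCast, hn]
  rw [h4, one_zpow] at h3
  exact h3.symm

end

section

variable {K : Type} [Group K] [Finite K]

/-- `p`-groups with trivial commutator subgroup -/
theorem good_of_comm {p : ℕ} (h : commutator K = ⊥) : GoodSection p K := by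
  by_cases hs : Subsingleton K
  · exact Or.inl hs
  · rw [not_subsingleton_iff_nontrivial] at hs
    obtain ⟨v, hv⟩ := exists_ne (1 : K)
    refine Or.inr (Or.inl ⟨v, mem_center_iff.2 fun g => ?_, Or.inl fun h1 => hv ?_⟩)
    · have h1 := comm_mem v g
      rw [h, mem_bot] at h1
      rw [mul_inv_eq_one, mul_inv_eq_iff_eq_mul] at h1
      exact h1
    · rw [h] at h1
      exact mem_bot.1 h1

/-- `2`-groups with commutator subgroup of exponent `2` -/
theorem good_two (hK : IsPGroup 2 K) (h : ∀ x ∈ commutator K, x ^ 2 = 1) : GoodSection 2 K := by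
  have hp : Fact (Nat.Prime 2) := ⟨Nat.prime_two⟩
  by_cases hs : Subsingleton K
  · exact Or.inl hs
  · rw [not_subsingleton_iff_nontrivial] at hs
    obtain ⟨v, hv, hvo⟩ := exists_center_orderOf hK
    refine Or.inr (Or.inl ⟨v, hv, Or.inr ⟨hvo, Or.inl ⟨rfl, 1, ?_, ?_⟩⟩⟩)
    · intro k hk he
      exfalso
      obtain ⟨y, hy⟩ := isConj_iff.1 (he 3 (by decide))
      have h1 : k ^ 2 ∈ commutator K := by
        have h2 := comm_mem k y
        rw [hy] at h2
        have h3 : k ^ 3 * k⁻¹ = k ^ 2 := by group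
        rwa [h3] at h2
      have h2 := h _ h1
      rw [← pow_mul] at h2
      norm_num at h2
      rw [hk] at h2
      rw [h2, orderOf_one] at hvo
      exact absurd hvo (by norm_num)
    · intro k _
      rfl

open scoped commutatorElement in
/-- the commutator subgroup of a `3`-abelian `3`-group has exponent `3` -/
theorem cube_eq_one (hK : IsPGroup 3 K) (h : ThreeAbelian K) {x : K} (hx : x ∈ commutator K) :
    x ^ 3 = 1 := by
  let S : Subgroup K :=
    { carrier := {c | c ^ 3 = 1}
      mul_mem' := fun {a b} ha hb => by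
        change (a * b) ^ 3 = 1
        rw [h, show a ^ 3 = 1 from ha, show b ^ 3 = 1 from hb, one_mul]
      one_mem' := one_pow 3
      inv_mem' := fun {a} ha => by
        change (a⁻¹) ^ 3 = 1
        rw [inv_pow, show a ^ 3 = 1 from ha, inv_one] }
  have hS : commutator K ≤ S := by
    rw [commutator_def, commutator_le]
    intro x _ y _
    change ⁅x, y⁆ ^ 3 = 1
    rw [commutatorElement_def, h, h, h, inv_pow, inv_pow, h.comm hK (x ^ 3) y]
    group
  exact hS hx

/-- `3`-groups which are `3`-abelian modulo `⟨c ^ 9⟩` -/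
theorem good_three (hK : IsPGroup 3 K) {c : K} (hc : c ∈ center K)
    (h : ∀ x y : K, ∃ i : ℤ, (x * y) ^ 3 = x ^ 3 * y ^ 3 * (c ^ 9) ^ i) : GoodSection 3 K := by
  by_cases hcc : c ∈ commutator K
  · -- the quotient by `⟨c ^ 9⟩`
    have hn : (zpowers (c ^ 9)).Normal := by
      refine ⟨fun n hn g => ?_⟩
      have h1 : n ∈ center K := (zpowers_le.2 (pow_mem hc 9)) hn
      rw [mem_center_iff] at h1
      rw [h1 g, mul_inv_cancel_right]
      exact hn
    have h3 : ThreeAbelian (K ⧸ zpowers (c ^ 9)) := by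
      intro x y
      obtain ⟨a, rfl⟩ := QuotientGroup.mk_surjective x
      obtain ⟨b, rfl⟩ := QuotientGroup.mk_surjective y
      obtain ⟨i, hi⟩ := h a b
      have h4 : (QuotientGroup.mk ((c ^ 9) ^ i) : K ⧸ zpowers (c ^ 9)) = 1 :=
        (QuotientGroup.eq_one_iff _).2 (mem_zpowers_iff.2 ⟨i, rfl⟩)
      rw [← QuotientGroup.mk_mul, ← QuotientGroup.mk_pow, hi, QuotientGroup.mk_mul, h4, mul_one,
        QuotientGroup.mk_mul, QuotientGroup.mk_pow, QuotientGroup.mk_pow]
    have h5 : (QuotientGroup.mk c : K ⧸ zpowers (c ^ 9)) ∈ commutator (K ⧸ zpowers (c ^ 9)) := by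
      have h6 : (commutator K).map (QuotientGroup.mk' (zpowers (c ^ 9))) ≤
          commutator (K ⧸ zpowers (c ^ 9)) := by
        rw [commutator_def, map_commutator, commutator_def]
        exact commutator_mono le_top le_top
      exact h6 (mem_map_of_mem _ hcc)
    have h6 := cube_eq_one (hK.to_quotient _) h3 h5
    rw [← QuotientGroup.mk_pow, QuotientGroup.eq_one_iff] at h6
    have h7 : c ^ 3 = 1 := by
      refine eq_one_of_mem (p := 3) ?_ ?_
      · obtain ⟨n, hn⟩ := hK c
        exact ⟨n, by rw [← pow_mul, mul_comm, pow_mul, hn, one_pow]⟩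
      · rw [← pow_mul]
        exact h6
    refine ThreeAbelian.goodSection hK fun x y => ?_
    obtain ⟨i, hi⟩ := h x y
    rw [hi, show (9 : ℕ) = 3 * 3 by norm_num, pow_mul, h7, one_pow, one_zpow, mul_one]
  · exact Or.inr (Or.inl ⟨c, hc, Or.inl hcc⟩)

end

/-- `c` is in the centre of `D`, and `D' ≤ ⟨c ^ p⟩`, or `p = 2` and the squares of the elements of
`D'` are in `⟨c ^ 4⟩`, or `p = 3` and `(x y) ^ 3 = x ^ 3 y ^ 3` modulo `⟨c ^ 9⟩` in `D`. -/
def PowerPair (p : ℕ) (D : Type) [Group D] (c : D) : Prop :=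
  c ∈ center D ∧ (commutator D ≤ zpowers (c ^ p) ∨
    (p = 2 ∧ ∀ x ∈ commutator D, x ^ 2 ∈ zpowers (c ^ 4)) ∨
    (p = 3 ∧ ∀ x y : D, ∃ i : ℤ, (x * y) ^ 3 = x ^ 3 * y ^ 3 * (c ^ 9) ^ i))

/-- There is such an element of `D`. -/
def PowerCentre (p : ℕ) (D : Type) [Group D] : Prop := ∃ c : D, PowerPair p D c

theorem PowerPair.good {p : ℕ} {K : Type} [Group K] [Finite K] {c : K} (hK : IsPGroup p K)
    (h : PowerPair p K c) : GoodSection p K := by
  obtain ⟨hc, h⟩ := h
  by_cases hcc : c ∈ commutator K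
  · have hpow : ∀ m : ℕ, ∃ n : ℕ, (c ^ m) ^ p ^ n = 1 := by
      intro m
      obtain ⟨n, hn⟩ := hK c
      exact ⟨n, by rw [← pow_mul, mul_comm, pow_mul, hn, one_pow]⟩
    rcases h with h | ⟨rfl, h⟩ | ⟨rfl, h⟩
    · have h1 := eq_one_of_mem (p := p) (by simpa using hpow 1) (h hcc)
      apply good_of_comm
      rw [eq_bot_iff]
      refine h.trans ?_
      rw [h1, one_pow, zpowers_one_eq_bot]
    · have h1 : c ^ 2 = 1 := by
        refine eq_one_of_mem (p := 2) (hpow 2) ?_
        rw [← pow_mul]
        exact h c hcc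
      refine good_two hK fun x hx => ?_
      have h2 := h x hx
      rw [show (4 : ℕ) = 2 * 2 by norm_num, pow_mul, h1, one_pow, zpowers_one_eq_bot,
        mem_bot] at h2
      exact h2
    · exact good_three hK hc h
  · exact Or.inr (Or.inl ⟨c, hc, Or.inl hcc⟩)

theorem PowerPair.section {p : ℕ} {D : Type} [Group D] {c : D} (h : PowerPair p D c)
    (A : Subgroup D) (K : Type) [Group K] (f : A →* K) (hcA : c ∈ A)
    (hf : Function.Surjective f) : PowerPair p K (f ⟨c, hcA⟩) := by
  obtain ⟨hc, h⟩ := h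
  have hcenter : ∀ a : A, (a : D) ∈ center D → f a ∈ center K := by
    intro a ha
    rw [mem_center_iff]
    intro g
    obtain ⟨b, rfl⟩ := hf g
    rw [← map_mul, ← map_mul]
    exact congrArg f (Subtype.ext (mem_center_iff.1 ha b))
  have hz : ∀ (a : A) (m : ℕ), (a : D) ∈ zpowers (c ^ m) → f a ∈ zpowers (f ⟨c, hcA⟩ ^ m) := by
    intro a m ha
    obtain ⟨i, hi⟩ := mem_zpowers_iff.1 ha
    refine mem_zpowers_iff.2 ⟨i, ?_⟩
    rw [← map_pow, ← map_zpow]
    exact congrArg f (Subtype.ext (by simpa using hi))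
  refine ⟨hcenter _ hc, ?_⟩
  rcases h with h | ⟨hp, h⟩ | ⟨hp, h⟩
  · left
    intro x hx
    obtain ⟨a, ha, rfl⟩ := exists_of_mem_commutator f hf hx
    exact hz a p (h (mem_commutator_coe ha))
  · right; left
    refine ⟨hp, fun x hx => ?_⟩
    obtain ⟨a, ha, rfl⟩ := exists_of_mem_commutator f hf hx
    have h1 := hz (a ^ 2) 4 (h _ (mem_commutator_coe ha))
    rwa [map_pow] at h1
  · right; right
    refine ⟨hp, fun x y => ?_⟩
    obtain ⟨a, rfl⟩ := hf x
    obtain ⟨b, rfl⟩ := hf y
    obtain ⟨i, hi⟩ := h a b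
    refine ⟨i, ?_⟩
    rw [← map_mul, ← map_pow, ← map_pow, ← map_pow, ← map_pow, ← map_zpow, ← map_mul, ← map_mul]
    exact congrArg f (Subtype.ext (by simpa using hi))

theorem PowerCentre.nice {p : ℕ} {D : Type} [Group D] [Finite D]
    (hD : IsPGroup p D) (h : PowerCentre p D) : Nice p D := by
  obtain ⟨c, hc⟩ := h
  exact nice_of_class (p := p) (fun D _ c => PowerPair p D c)
    (fun D _ _ c hD h => PowerPair.good hD h) (fun D _ c h => h.1)
    (fun D _ c h A K _ f hcA hf => PowerPair.section h A K f hcA hf) (Nat.card D) D c rfl hD hc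

end P179L
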