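import Vale.Agent.P179.H166.Plus

/-!
# Reduction theorem R, parts R1 and R2

The blockwise weight conjecture modulo `p` is equivalent to a divisibility property of the sums
`SS p g` (for all finite groups).
-/

namespace P179R

open Subgroup P179H524 P179A P179C P179K MonoidAlgebra

open scoped Classical Pointwise

universe u

/-- For all finite groups `G` and all `p`-singular `g ∈ G`: `p |C_G(g)|` divides the sum of the
numbers `W p x y` over the pairs `(x, y)` with `[x, y] = g`. -/
def DivS (p : ℕ) : Prop :=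
  ∀ (G : Type) [Group G] [Finite G] [Fintype G] (g : G), p ∣ orderOf g →
    ((Nat.card (centralizer ({g} : Set G)) * p : ℕ) : ℤ) ∣ SS p g

section R1

variable {p : ℕ} [hp : Fact p.Prime]

theorem goodClass_true (h : DivS p) : GoodClass p (fun _ _ _ => True) := by
  refine ⟨fun _ _ _ _ _ _ => trivial, fun _ _ _ _ _ _ _ => trivial, ?_⟩
  intro G _ _ _ g q hq h0 P hP hPg _ _
  have hord : p ∣ orderOf g := by
    have h1 : orderOf (g ^ q) ∣ orderOf g := orderOf_pow_dvd q
    obtain ⟨n, hn⟩ := hq g
    obtain ⟨m, -, hm⟩ := (Nat.dvd_prime_pow hp.out).mp (orderOf_dvd_of_pow_eq_one hn)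
    rcases Nat.eq_zero_or_pos m with rfl | hm0
    · exfalso
      rw [pow_zero, orderOf_eq_one_iff] at hm
      exact h0 hm
    · exact (dvd_pow_self p hm0.ne').trans (hm ▸ h1)
  have h1 := h G g hord
  have h2 : Nat.card P ∣ Nat.card (centralizer ({g} : Set G)) := by
    have hle : P ≤ centralizer ({g} : Set G) := fun a ha =>
      mem_centralizer_singleton_iff.2 (hPg a ha)
    exact Subgroup.card_dvd_of_le hle
  refine dvd_trans ?_ h1
  exact_mod_cast Nat.mul_dvd_mul_right h2 p

theorem exists_defectGroup {k : Type*} [Field k] {G : Type*} [Group G] [Finite G]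
    (B : MonoidAlgebra k G) (hB : B ∈ Subalgebra.center k (MonoidAlgebra k G)) :
    ∃ D : Subgroup G, IsDefectGroup B D := by
  have h1 : IsRelTrace B (⊤ : Subgroup G) := by
    refine ⟨B, fun d _ => ?_, ?_⟩
    · unfold conjBy
      have := (Subalgebra.mem_center_iff.1 hB) (MonoidAlgebra.single d 1)
      rw [this, mul_assoc, single_mul_single, mul_inv_cancel, mul_one,
        ← MonoidAlgebra.one_def, mul_one]
    · have : Subsingleton (G ⧸ (⊤ : Subgroup G)) := QuotientGroup.subsingleton_quotient_top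
      have hu : Unique (G ⧸ (⊤ : Subgroup G)) := uniqueOfSubsingleton (QuotientGroup.mk 1)
      rw [finsum_unique]
      have hconj : ∀ d : G, conjBy d B = B := by
        intro d
        unfold conjBy
        have := (Subalgebra.mem_center_iff.1 hB) (MonoidAlgebra.single d 1)
        rw [this, mul_assoc, single_mul_single, mul_inv_cancel, mul_one,
          ← MonoidAlgebra.one_def, mul_one]
      exact (hconj _).symm
  obtain ⟨D, -, hD⟩ := exists_minimal_le_of_wellFoundedLT (IsRelTrace B) ⊤ h1
  exact ⟨D, hD⟩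

/-- **(R1)** -/
theorem R1 (h : DivS p) {k : Type u} [Field k] [IsAlgClosed k] [CharP k p]
    (red : integralClosure ℤ ℂ →+* k) {G : Type} [Group G] [Finite G]
    (B : MonoidAlgebra k G) (hB : IsBlock B) :
    numSimpleIn B ≡ numWeightsIn p red B [MOD p] := by
  obtain ⟨D, hD⟩ := exists_defectGroup B hB.1
  exact theoremC_good p (goodClass_true h) red B hB D hD fun _ _ _ => trivial

end R1

section Homs

variable {k : Type u} [Field k] [IsAlgClosed k] {G : Type} [Group G] [Finite G]

theorem sum_homs_aux {ι : Type*} [Fintype ι]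
    (μ : ι → (Subalgebra.center k (MonoidAlgebra k G) →ₐ[k] k)) (β : ι → MonoidAlgebra k G)
    (hβ : ∀ i, IsBlock (β i)) (hμ : ∀ i z, μ i z = centralChar (β i) z)
    (F : Finset (MonoidAlgebra k G)) (hFB : ∀ B ∈ F, IsBlock B) (hβF : ∀ i, β i ∈ F)
    (z : Subalgebra.center k (MonoidAlgebra k G)) :
    ∑ i, μ i z = ∑ B ∈ F, (if hB : B ∈ Subalgebra.center k (MonoidAlgebra k G) then
        (Nat.card {i // μ i ⟨B, hB⟩ = 1} : k) * centralChar B z else 0) := by
  rw [← Finset.sum_fiberwise_of_maps_to (s := Finset.univ) (t := F) (g := β)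
    (fun i _ => hβF i)]
  refine Finset.sum_congr rfl fun B hB => ?_
  rw [dif_pos (hFB B hB).1]
  have h3 : ∀ i, μ i ⟨B, (hFB B hB).1⟩ = 1 ↔ β i = B := by
    intro i
    rw [hμ]
    change centralChar (β i) B = 1 ↔ _
    rw [charBlockStmt (β i) B (hβ i) (hFB B hB)]
    by_cases h : β i = B
    · rw [if_pos h]; simp [h]
    · rw [if_neg h]; simp [h]
  have h4 : Nat.card {i // μ i ⟨B, (hFB B hB).1⟩ = 1} =
      (Finset.univ.filter fun i => β i = B).card := by
    rw [Nat.card_eq_fintype_card, Fintype.card_subtype]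
    congr 1
    ext i
    simp only [Finset.mem_filter, Finset.mem_univ, true_and]
    exact h3 i
  rw [h4, ← nsmul_eq_mul, ← Finset.sum_const]
  refine Finset.sum_congr rfl fun i hi => ?_
  rw [hμ i z, (Finset.mem_filter.1 hi).2]

/-- families of homomorphisms with the same multiplicities have the same sum -/
theorem sum_homs_eq {ι κ : Type*} [Fintype ι] [Fintype κ]
    (μ : ι → (Subalgebra.center k (MonoidAlgebra k G) →ₐ[k] k))
    (ν : κ → (Subalgebra.center k (MonoidAlgebra k G) →ₐ[k] k))
    (h : ∀ (B : MonoidAlgebra k G) (hB : IsBlock B),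
      (Nat.card {i // μ i ⟨B, hB.1⟩ = 1} : k) = (Nat.card {j // ν j ⟨B, hB.1⟩ = 1} : k))
    (z : Subalgebra.center k (MonoidAlgebra k G)) : ∑ i, μ i z = ∑ j, ν j z := by
  have h1 : ∀ i, ∃ B : MonoidAlgebra k G, IsBlock B ∧ ∀ z, μ i z = centralChar B z := fun i =>
    homBlockStmt (μ i)
  have h2 : ∀ j, ∃ B : MonoidAlgebra k G, IsBlock B ∧ ∀ z, ν j z = centralChar B z := fun j =>
    homBlockStmt (ν j)
  choose β hβ hμ using h1
  choose γ hγ hν using h2
  set F : Finset (MonoidAlgebra k G) := Finset.univ.image β ∪ Finset.univ.image γ with hF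
  have hFB : ∀ B ∈ F, IsBlock B := by
    intro B hB
    rw [hF, Finset.mem_union, Finset.mem_image, Finset.mem_image] at hB
    rcases hB with ⟨i, -, rfl⟩ | ⟨j, -, rfl⟩
    · exact hβ i
    · exact hγ j
  rw [sum_homs_aux μ β hβ hμ F hFB (fun i => Finset.mem_union_left _
      (Finset.mem_image_of_mem β (Finset.mem_univ i))),
    sum_homs_aux ν γ hγ hν F hFB (fun i => Finset.mem_union_right _
      (Finset.mem_image_of_mem γ (Finset.mem_univ i)))]
  refine Finset.sum_congr rfl fun B hB => ?_
  rw [dif_pos (hFB B hB).1, dif_pos (hFB B hB).1, h B (hFB B hB)]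

end Homs

section Weights

variable (p : ℕ) [hp : Fact p.Prime] {k : Type u} [Field k] [CharP k p]
  (red : integralClosure ℤ ℂ →+* k) {G : Type} [Group G] [Finite G]

/-- the homomorphism of a weight -/
noncomputable def mu (w : P179H524.Weight p G) :
    Subalgebra.center k (MonoidAlgebra k G) →ₐ[k] k :=
  haveI := Fintype.ofFinite G
  haveI := Fintype.ofFinite (normalizer (w.Q : Set G))
  muHom red w

theorem mu_int (w : P179H524.Weight p G) {z : G → ℤ} (hz : IsCF z)
    (Z : Subalgebra.center k (MonoidAlgebra k G)) (hZ : ∀ g, Z.1.coeff g = (z g : k)) :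
    mu p red w Z = redC red (wOm w z) := by
  have := Fintype.ofFinite G
  have := Fintype.ofFinite (normalizer (w.Q : Set G))
  have := Fintype.ofFinite (NQ w.Q)
  have h0 : mu p red w Z = muHom red w Z := by
    unfold mu
    congr 1
  rw [h0, muHom_apply]
  have h1 : (fun n : normalizer (w.Q : Set G) => Z.1.coeff (n : G)) =
      fun n : normalizer (w.Q : Set G) => ((res (normalizer (w.Q : Set G)) z n : ℤ) : k) := by
    funext n
    exact hZ n
  rw [h1, lam_int red (isIrrChar_infl w) (isCF_res _ hz)]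
  congr 1
  exact (om_push (QuotientGroup.mk' (w.Q.subgroupOf (normalizer (w.Q : Set G)))) w.φ
    (res (normalizer (w.Q : Set G)) z)).symm

/-- conjugate weights have the same homomorphism -/
theorem mu_conj {a b : P179H524.Weight p G} (h : a.Conj b) :
    (mu p red a : Subalgebra.center k (MonoidAlgebra k G) →ₐ[k] k) = mu p red b := by
  refine eq_of_classSum _ _ fun g => ?_
  have h1 : ∀ x, (⟨classSum k g, classSum_mem_center g⟩ :
      Subalgebra.center k (MonoidAlgebra k G)).1.coeff x = ((ind (ConjClasses.mk g) x : ℤ) : k) := by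
    intro x
    exact coeff_classSum g x
  rw [mu_int p red a (isCF_ind _) _ h1, mu_int p red b (isCF_ind _) _ h1,
    wOm_conj h (isCF_ind _)]

/-- the number of classes of weights `w` with `mu w e = 1` -/
noncomputable def numWc (e : MonoidAlgebra k G) : ℕ :=
  Nat.card (Quot fun a b : {w : P179H524.Weight p G //
    ∃ he : e ∈ Subalgebra.center k (MonoidAlgebra k G), mu p red w ⟨e, he⟩ = 1} =>
      P179H524.Weight.Conj a.1 b.1)

theorem numWc_eq_card {e : MonoidAlgebra k G}
    (he : e ∈ Subalgebra.center k (MonoidAlgebra k G)) :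
    numWc p red e = Nat.card {q : Quot (P179H524.Weight.Conj (p := p) (G := G)) //
      mu p red q.out ⟨e, he⟩ = 1} := by
  have := Fintype.ofFinite (Quot (P179H524.Weight.Conj (p := p) (G := G)))
  unfold numWc
  rw [card_quot_subtype (P179H524.Weight.Conj (p := p) (G := G)) (conj_equivalence p G)
      (fun w => ∃ he : e ∈ Subalgebra.center k (MonoidAlgebra k G), mu p red w ⟨e, he⟩ = 1)
      (fun a b hab => by rw [mu_conj p red hab]),
    Nat.card_eq_fintype_card, Fintype.card_subtype]
  congr 1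
  ext q
  simp only [Finset.mem_filter, Finset.mem_univ, true_and]
  exact ⟨fun ⟨_, h⟩ => h, fun h => ⟨he, h⟩⟩

theorem weightInBlock_iff_mu1 [IsAlgClosed k] (w : P179H524.Weight p G) {B : MonoidAlgebra k G}
    (hB : IsBlock B) : WeightInBlock red w B ↔ mu p red w ⟨B, hB.1⟩ = 1 := by
  have := Fintype.ofFinite G
  have := Fintype.ofFinite (normalizer (w.Q : Set G))
  have h0 : ∀ z, mu p red w z = muHom red w z := by
    intro z
    unfold mu
    congr 1
  rw [weightInBlock_iff_mu red w blockHomStmt homBlockStmt]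
  constructor
  · intro h
    rw [h0, h]
    change centralChar B B = 1
    rw [charBlockStmt B B hB hB, if_pos rfl]
  · intro h
    obtain ⟨B', hB', hl⟩ := homBlockStmt (muHom red w)
    have h5 : muHom red w ⟨B, hB.1⟩ = if B' = B then 1 else 0 := by
      rw [hl]
      exact charBlockStmt B' B hB' hB
    rw [h0, h5] at h
    have h6 : B' = B := by
      by_contra hne
      rw [if_neg hne] at h
      exact zero_ne_one h
    intro z
    rw [hl, h6]

theorem numWeightsIn_eq_numWc [IsAlgClosed k] {B : MonoidAlgebra k G} (hB : IsBlock B) :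
    numWeightsIn p red B = numWc p red B := by
  have h : (fun w : P179H524.Weight p G => WeightInBlock red w B) =
      fun w => ∃ he : B ∈ Subalgebra.center k (MonoidAlgebra k G), mu p red w ⟨B, he⟩ = 1 := by
    funext w
    rw [weightInBlock_iff_mu1 p red w hB]
    exact propext ⟨fun h => ⟨hB.1, h⟩, fun ⟨_, h⟩ => h⟩
  have key : ∀ P Q : P179H524.Weight p G → Prop, P = Q →
      Nat.card (Quot fun a b : {w // P w} => P179H524.Weight.Conj a.1 b.1) =
      Nat.card (Quot fun a b : {w // Q w} => P179H524.Weight.Conj a.1 b.1) := by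
    rintro P Q rfl
    rfl
  exact key _ _ h

/-- the sum of the homomorphisms of the weights -/
theorem redC_nW {z : G → ℤ} (hz : IsCF z)
    [Fintype (Quot (P179H524.Weight.Conj (p := p) (G := G)))]
    (Z : Subalgebra.center k (MonoidAlgebra k G)) (hZ : ∀ g, Z.1.coeff g = (z g : k)) :
    redC red (nW p z / Nat.card G) =
      ∑ q : Quot (P179H524.Weight.Conj (p := p) (G := G)), mu p red q.out Z := by
  have hG : (Nat.card G : ℂ) ≠ 0 := by exact_mod_cast Nat.card_pos.ne'
  rw [nW_eq hz, mul_div_cancel_left₀ _ hG, finsum_eq_sum_of_fintype,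
    redC_sum red _ _ fun q _ => isIntegral_wOm _ hz]
  exact Finset.sum_congr rfl fun q _ => (mu_int p red q.out hz Z hZ).symm

end Weights

section Lam

variable {k : Type u} [Field k] {G : Type} [Group G] {r : ℕ} {d : Fin r → ℕ}

theorem scalar_spec [∀ i, NeZero (d i)]
    (f : MonoidAlgebra k G →ₐ[k] Π i, Matrix (Fin (d i)) (Fin (d i)) k)
    (hf : Function.Surjective f) (z : Subalgebra.center k (MonoidAlgebra k G)) (i : Fin r) :
    f z.1 i = Matrix.scalar _ (f z.1 i 0 0) := by
  obtain ⟨l, hl⟩ := C2.exists_scalar f hf z.1 z.2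
  have h1 : f z.1 i 0 0 = l i := by
    rw [hl]
    simp
  rw [h1, hl]

/-- The central character of the `i`-th simple module. -/
noncomputable def lamM [∀ i, NeZero (d i)]
    (f : MonoidAlgebra k G →ₐ[k] Π i, Matrix (Fin (d i)) (Fin (d i)) k)
    (hf : Function.Surjective f) (i : Fin r) : Subalgebra.center k (MonoidAlgebra k G) →ₐ[k] k where
  toFun z := f z.1 i 0 0
  map_one' := by
    change f 1 i 0 0 = 1
    rw [map_one, Pi.one_apply, Matrix.one_apply_eq]
  map_mul' z w := by
    change f (z.1 * w.1) i 0 0 = f z.1 i 0 0 * f w.1 i 0 0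
    rw [map_mul, Pi.mul_apply]
    conv_lhs => rw [scalar_spec f hf z i, scalar_spec f hf w i, ← map_mul]
    simp
  map_zero' := by
    change f 0 i 0 0 = 0
    rw [map_zero]
    rfl
  map_add' z w := by
    change f (z.1 + w.1) i 0 0 = f z.1 i 0 0 + f w.1 i 0 0
    rw [map_add]
    rfl
  commutes' c := by
    change f (algebraMap k (MonoidAlgebra k G) c) i 0 0 = c
    rw [AlgHom.commutes, Pi.algebraMap_apply, Matrix.algebraMap_matrix_apply, if_pos rfl]
    rfl

theorem lamM_spec [∀ i, NeZero (d i)]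
    (f : MonoidAlgebra k G →ₐ[k] Π i, Matrix (Fin (d i)) (Fin (d i)) k)
    (hf : Function.Surjective f) (i : Fin r) (z : Subalgebra.center k (MonoidAlgebra k G)) :
    f z.1 i = Matrix.scalar _ (lamM f hf i z) := scalar_spec f hf z i

end Lam

section Simple

variable (p : ℕ) [hp : Fact p.Prime] {k : Type u} [Field k] [IsAlgClosed k] [CharP k p]
  {G : Type} [Group G] [Finite G]

/-- the homomorphisms of the simple modules -/
theorem exists_L : ∃ (r : ℕ) (μ : Fin r → (Subalgebra.center k (MonoidAlgebra k G) →ₐ[k] k)),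
    (∀ (e : MonoidAlgebra k G) (he : e ∈ Subalgebra.center k (MonoidAlgebra k G)),
      numSimpleIn e = Nat.card {i // μ i ⟨e, he⟩ = 1}) ∧
    ∀ z : G → ℤ, ∀ Z : Subalgebra.center k (MonoidAlgebra k G),
      (∀ g, Z.1.coeff g = (z g : k)) → ((C2.tau p z : ℤ) : k) = ∑ i, μ i Z := by
  have := Fintype.ofFinite G
  have : Finite (C2.Om p G) := Quotient.finite _
  have := Fintype.ofFinite (C2.Om p G)
  obtain ⟨r, d, hd, f, hf, hker⟩ := exists_wedderburn k G
  refine ⟨r, lamM f hf, fun e he => ?_, fun z Z hZ => ?_⟩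
  · exact C2.numSimpleIn_eq_card f hf hker e (fun i => lamM f hf i ⟨e, he⟩)
      (fun i => lamM_spec f hf i ⟨e, he⟩)
  · rw [C2.trace_formula p f hf hker Z.1 (fun i => lamM f hf i Z)
      (fun i => lamM_spec f hf i Z), C2.tau, finsum_eq_sum_of_fintype]
    push_cast
    refine Finset.sum_congr rfl fun ω _ => ?_
    rw [finsum_eq_sum_of_fintype]
    push_cast
    refine Finset.sum_congr rfl fun g _ => ?_
    rw [hZ g]

end Simple

section R2

variable (p : ℕ) [hp : Fact p.Prime] {k : Type u} [Field k] [IsAlgClosed k] [CharP k p]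
  (red : integralClosure ℤ ℂ →+* k)

/-- `z` as an element of the centre of the group algebra -/
theorem exists_central (k : Type u) [Field k] {G : Type} [Group G] [Finite G] {z : G → ℤ}
    (hz : IsCF z) : ∃ Z : Subalgebra.center k (MonoidAlgebra k G), ∀ g, Z.1.coeff g = (z g : k) := by
  have := Fintype.ofFinite G
  let X : MonoidAlgebra k G := ∑ g, MonoidAlgebra.single g (z g : k)
  have hX : ∀ g, X.coeff g = (z g : k) := by
    intro g
    simp only [X, MonoidAlgebra.coeff_sum, Finsupp.coe_finsetSum, Finset.sum_apply,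
      MonoidAlgebra.coeff_single, Finsupp.single_apply]
    simp
  refine ⟨⟨X, ?_⟩, hX⟩
  rw [P179C.mem_center_iff]
  intro g x
  change X.coeff (g * x * g⁻¹) = X.coeff x
  rw [hX, hX, hz]

/-- the congruence between the functionals, from the blockwise conjecture mod `p` -/
theorem cong_of_blocks {G : Type} [Group G] [Finite G]
    (h : ∀ B : MonoidAlgebra k G, IsBlock B → numSimpleIn B ≡ numWeightsIn p red B [MOD p])
    (O : ValuationSubring ℂ)
    (hred : ∀ (a : ℂ) (ha : a ∈ integralClosure ℤ ℂ), O.valuation a < 1 ↔ red ⟨a, ha⟩ = 0)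
    {z : G → ℤ} (hz : IsCF z) : Cong O (Nat.card G) (nL p z) (nW p z) := by
  have := Fintype.ofFinite (Quot (P179H524.Weight.Conj (p := p) (G := G)))
  have hG : (Nat.card G : ℂ) ≠ 0 := by exact_mod_cast Nat.card_pos.ne'
  obtain ⟨r, μ, hμ1, hμ2⟩ := exists_L p (k := k) (G := G)
  obtain ⟨Z, hZ⟩ := exists_central k hz
  have h1 : ∑ i, μ i Z = ∑ q : Quot (P179H524.Weight.Conj (p := p) (G := G)),
      mu p red q.out Z := by
    refine sum_homs_eq μ (fun q : Quot (P179H524.Weight.Conj (p := p) (G := G)) =>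
      mu p red q.out) (fun B hB => ?_) Z
    rw [← hμ1 B hB.1, ← numWc_eq_card p red hB.1, ← numWeightsIn_eq_numWc p red hB]
    exact (CharP.natCast_eq_natCast k p).mpr (h B hB)
  have hint : nW p z / Nat.card G ∈ integralClosure ℤ ℂ := isIntegral_nW' hz
  have h2 : ((C2.tau p z : ℤ) : k) = red ⟨nW p z / Nat.card G, hint⟩ := by
    rw [hμ2 z Z hZ, h1, ← redC_nW p red hz Z hZ, redC_of_mem red hint]
  unfold Cong
  have h3 : ((nL p z : ℤ) - nW p z) / (Nat.card G : ℂ) =
      (C2.tau p z : ℂ) - nW p z / Nat.card G := by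
    rw [C2.nL_eq_tau p z hz]
    push_cast
    rw [sub_div, mul_div_cancel_left₀ _ hG]
  rw [h3]
  have h4 : ((C2.tau p z : ℤ) : ℂ) ∈ integralClosure ℤ ℂ := intCast_mem _ _
  refine (hred _ (sub_mem h4 hint)).mpr ?_
  have h5 : (⟨(C2.tau p z : ℂ) - nW p z / Nat.card G, sub_mem h4 hint⟩ : integralClosure ℤ ℂ) =
      ((C2.tau p z : ℤ) : integralClosure ℤ ℂ) - ⟨nW p z / Nat.card G, hint⟩ := rfl
  rw [h5, map_sub, map_intCast, h2, sub_self]

/-- **(R2)** -/
theorem R2 (h : ∀ (G : Type) [Group G] [Finite G] (B : MonoidAlgebra k G), IsBlock B →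
    numSimpleIn B ≡ numWeightsIn p red B [MOD p]) : DivS p := by
  intro G _ _ _ g hg
  obtain ⟨O, hO, hred⟩ := exists_O p red
  have hG0 : Nat.card G ≠ 0 := Nat.card_pos.ne'
  have hGC : (Nat.card G : ℂ) ≠ 0 := by exact_mod_cast hG0
  set z : G → ℤ := fun x => if x ∈ MulAction.orbit (ConjAct G) g then 1 else 0 with hzdef
  have hzmem : ∀ h x : G, h * x * h⁻¹ ∈ MulAction.orbit (ConjAct G) g ↔
      x ∈ MulAction.orbit (ConjAct G) g := by
    intro h x
    rw [← ConjAct.toConjAct_smul]
    constructor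
    · rintro ⟨c, hc⟩
      refine ⟨(ConjAct.toConjAct h)⁻¹ * c, ?_⟩
      change ((ConjAct.toConjAct h)⁻¹ * c) • g = x
      rw [mul_smul]
      change (ConjAct.toConjAct h)⁻¹ • (c • g) = x
      rw [show c • g = ConjAct.toConjAct h • x from hc, inv_smul_smul]
    · rintro ⟨c, hc⟩
      refine ⟨ConjAct.toConjAct h * c, ?_⟩
      change (ConjAct.toConjAct h * c) • g = _
      rw [mul_smul, show c • g = x from hc]
  have hz : IsCF z := by
    intro h x
    simp only [hzdef, hzmem]
  have hzs : ∀ x, z x ≠ 0 → p ∣ orderOf x := by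
    intro x hx
    have h1 : x ∈ MulAction.orbit (ConjAct G) g := by
      by_contra hcon
      exact hx (if_neg hcon)
    obtain ⟨c, hc⟩ := h1
    obtain ⟨c, rfl⟩ := ConjAct.toConjAct.surjective c
    have h2 : c * g * c⁻¹ = x := by rw [← ConjAct.toConjAct_smul]; exact hc
    rw [← h2]
    have h3 : orderOf (c * g * c⁻¹) = orderOf g := by
      have := MulEquiv.orderOf_eq (MulAut.conj c) g
      simpa using this
    rw [h3]; exact hg
  -- the alternating sum
  have := Fintype.ofFinite (neChains p G)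
  have hB := stepL p G z hz
  have hC := KR_W p z hz
  have hF : O.valuation ((∑ s : neChains p G, (-1 : ℂ) ^ s.1.card *
      ((nL p (res (stab s.1) z) : ℂ) - nW p (res (stab s.1) z))) / Nat.card G) < 1 := by
    refine orb_sum_val O (fun s : neChains p G => (-1 : ℂ) ^ s.1.card *
      ((nL p (res (stab s.1) z) : ℂ) - nW p (res (stab s.1) z))) ?_ ?_
    · intro g s
      have key : ∀ t : Finset (Subgroup G), (-1 : ℂ) ^ (g • t).card *
          ((nL p (res (stab (g • t)) z) : ℂ) - nW p (res (stab (g • t)) z)) =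
          (-1 : ℂ) ^ t.card * ((nL p (res (stab t) z) : ℂ) - nW p (res (stab t) z)) := by
        intro t
        rw [card_smul, ← nL_comp (stabEquiv g t), ← nW_comp (stabEquiv g t),
          res_stab_smul hz g t]
      exact key s.1
    · intro s
      rw [stabilizer_neChains, mul_div_assoc, map_mul, map_pow]
      have h3 : O.valuation (-1 : ℂ) = 1 := by rw [Valuation.map_neg, map_one]
      rw [h3, one_pow, one_mul]
      exact cong_of_blocks p red (h (stab s.1)) O hred (isCF_res _ hz)
  have hE : O.valuation (((nL p z : ℂ) - nW p z) / Nat.card G) < 1 :=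
    cong_of_blocks p red (h G) O hred hz
  have e' : ∃ e : G ≃* stab (∅ : Finset (Subgroup G)), ∀ x, (e x : G) = x := by
    rw [P179K.stab_empty]; exact ⟨topEquiv.symm, fun _ => rfl⟩
  obtain ⟨e, he⟩ := e'
  have h4 : (fun x => res (stab (∅ : Finset (Subgroup G))) z (e x)) = z := by
    ext x
    exact congrArg z (he x)
  have hD : O.valuation ((∑ s ∈ chains p G, (-1 : ℂ) ^ s.card *
      ((nL p (res (stab s) z) : ℂ) - nW p (res (stab s) z))) / Nat.card G) < 1 := by
    rw [sum_chains_eq', add_div]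
    refine O.valuation.map_add_lt ?_ hF
    rw [Finset.card_empty, pow_zero, one_mul, ← nL_comp e, ← nW_comp e, h4]
    exact hE
  -- hence `FF p z ≡ |G| dz z`
  have hFF : O.valuation (((FF p z : ℤ) : ℂ) / Nat.card G) < 1 := by
    have h2 : ((FF p z : ℤ) : ℂ) / Nat.card G =
        ((∑ s ∈ chains p G, (-1) ^ s.card *
          (nTr (res (stab s) z) - nL p (res (stab s) z)) : ℤ) : ℂ) / Nat.card G +
        ((∑ s ∈ chains p G, (-1 : ℂ) ^ s.card *
          ((nL p (res (stab s) z) : ℂ) - nW p (res (stab s) z))) / Nat.card G + dz p z) := by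
      have h5 : dz p z = (∑ s ∈ chains p G, (-1) ^ s.card * nW p (res (stab s) z)) /
          Nat.card G := by
        rw [hC, mul_div_cancel_left₀ _ hGC]
      rw [h5, ← add_div, ← add_div]
      congr 1
      unfold FF
      push_cast
      simp only [← Finset.sum_add_distrib]
      exact Finset.sum_congr rfl fun s _ => by ring
    rw [h2]
    refine O.valuation.map_add_lt (valuation_of_dvd O hG0 hB) (O.valuation.map_add_lt hD ?_)
    have h6 := dz_sing p O z hz hzs
    unfold Cong at h6
    rwa [Nat.cast_one, div_one, sub_zero] at h6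
  -- divisibility
  obtain ⟨t, ht⟩ := card_dvd_FF (p := p) z hz
  rw [ht] at hFF
  have h7 : (((Nat.card G : ℤ) * t : ℤ) : ℂ) / Nat.card G = (t : ℂ) := by
    push_cast
    rw [mul_div_cancel_left₀ _ hGC]
  rw [h7] at hFF
  have h8 : (p : ℤ) ∣ t := by
    have h9 : (t : ℂ) ∈ integralClosure ℤ ℂ := intCast_mem _ t
    have h10 := (hred _ h9).mp hFF
    have h11 : (⟨(t : ℂ), h9⟩ : integralClosure ℤ ℂ) = ((t : ℤ) : integralClosure ℤ ℂ) := rfl
    rw [h11, map_intCast] at h10
    exact (CharP.intCast_eq_zero_iff k p t).1 h10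
  have h12 : FF p z = (Nat.card (MulAction.orbit (ConjAct G) g) : ℤ) * SS p g := by
    rw [FF_eq_SS]
    have h13 : ∀ x : G, z x * SS p x = if x ∈ MulAction.orbit (ConjAct G) g then SS p g else 0 := by
      intro x
      simp only [hzdef]
      by_cases hx : x ∈ MulAction.orbit (ConjAct G) g
      · rw [if_pos hx, if_pos hx, one_mul]
        obtain ⟨c, hc⟩ := hx
        obtain ⟨c, rfl⟩ := ConjAct.toConjAct.surjective c
        have h14 : c * g * c⁻¹ = x := by rw [← ConjAct.toConjAct_smul]; exact hc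
        rw [← h14, SS_conj]
      · rw [if_neg hx, if_neg hx, zero_mul]
    rw [Finset.sum_congr rfl fun x _ => h13 x, ← Finset.sum_filter, Finset.sum_const, nsmul_eq_mul]
    congr 2
    rw [← Fintype.card_subtype, ← Nat.card_eq_fintype_card]
  obtain ⟨c, hc⟩ := h8
  have h15 := card_orbit_conj g
  have ho : (Nat.card (MulAction.orbit (ConjAct G) g) : ℤ) ≠ 0 := by
    intro h0
    have : Nat.card (MulAction.orbit (ConjAct G) g) = 0 := by exact_mod_cast h0
    rw [this, zero_mul] at h15
    exact hG0 h15.symm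
  refine ⟨c, ?_⟩
  apply mul_left_cancel₀ ho
  rw [← h12, ht, hc, ← h15]
  push_cast
  ring

end R2

end P179R
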