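import Vale.Agent.P179.H143.R1
import Vale.Agent.P179.H524.WDefs

/-!
# Reduction theorem R: central idempotents, induction on the power of `p`
-/

namespace P179R

open Subgroup P179H524 P179A P179C P179K P179P MonoidAlgebra

open scoped Classical

universe u

theorem sum_quotC {N : Type*} [Group N] [Fintype N] (R : Subgroup N) [Fintype (N ⧸ R)]
    (f : N ⧸ R → ℂ) : ∑ x : N, f (QuotientGroup.mk x) = Nat.card R * ∑ q, f q := by
  have := Fintype.ofFinite R
  rw [← (Subgroup.groupEquivQuotientProdSubgroup (s := R)).symm.sum_comp, Fintype.sum_prod_type]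
  have h : ∀ (q : N ⧸ R) (r : R),
      (QuotientGroup.mk ((Subgroup.groupEquivQuotientProdSubgroup (s := R)).symm (q, r)) : N ⧸ R) = q := by
    intro q r
    have h1 := (Subgroup.groupEquivQuotientProdSubgroup (s := R)).apply_symm_apply (q, r)
    exact congrArg Prod.fst h1
  simp only [h, Finset.sum_const, Finset.card_univ, nsmul_eq_mul, Finset.mul_sum,
    Nat.card_eq_fintype_card]

/-- an irreducible character constant on the cosets of `R` comes from `N / R` -/
theorem irr_descend {N : Type*} [Group N] [Finite N] (R : Subgroup N) [R.Normal] (χ : Irr N)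
    (h : ∀ r ∈ R, ∀ x, χ.1 (x * r) = χ.1 x) :
    ∃ θ : Irr (N ⧸ R), ∀ x : N, θ.1 (QuotientGroup.mk x) = χ.1 x := by
  have := Fintype.ofFinite N
  have := Fintype.ofFinite (N ⧸ R)
  by_contra hcon
  push Not at hcon
  let θ0 : N ⧸ R → ℂ := Quotient.lift χ.1 (by
    intro a b hab
    have h1 : a⁻¹ * b ∈ R := QuotientGroup.leftRel_apply.1 hab
    have h2 := h _ h1 a
    rw [mul_inv_cancel_left] at h2
    exact h2.symm)
  have hθ : ∀ x : N, θ0 (QuotientGroup.mk x) = χ.1 x := fun _ => rfl
  have hcf : IsCF θ0 := by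
    intro g x
    obtain ⟨g, rfl⟩ := QuotientGroup.mk_surjective g
    obtain ⟨x, rfl⟩ := QuotientGroup.mk_surjective x
    change θ0 (QuotientGroup.mk (g * x * g⁻¹)) = θ0 (QuotientGroup.mk x)
    rw [hθ, hθ]
    exact χ.conj g x
  have hR : (Nat.card R : ℂ) ≠ 0 := by exact_mod_cast Nat.card_pos.ne'
  have hc : ∀ ψ : Irr (N ⧸ R), ∑ g, θ0 g * ψ.1 g⁻¹ = 0 := by
    intro ψ
    apply mul_left_cancel₀ hR
    rw [mul_zero, ← sum_quotC R (fun g => θ0 g * ψ.1 g⁻¹)]
    let ψ' : Irr N := ⟨fun x => ψ.1 (QuotientGroup.mk' R x),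
      ψ.2.comp (QuotientGroup.mk' R) (QuotientGroup.mk'_surjective R)⟩
    have h1 : χ ≠ ψ' := by
      intro h2
      obtain ⟨x, hx⟩ := hcon ψ
      apply hx
      rw [h2]
      rfl
    have h3 := row_orth χ ψ'
    rw [if_neg h1] at h3
    rw [← h3]
    rfl
  have h1 := cf_expand hcf (QuotientGroup.mk 1)
  rw [hθ] at h1
  apply χ.one_ne_zero
  rw [h1]
  refine Finset.sum_eq_zero fun ψ _ => ?_
  rw [hc, mul_zero, zero_mul]

section Bij

variable {p : ℕ} [hp : Fact p.Prime] {G : Type} [Group G] [Finite G]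

/-- the weight as a function -/
noncomputable def toWF (w : P179H524.Weight p G) : WF p G where
  R := w.Q
  χ := toFn w.Q w.φ
  pgp := w.isPGroup
  supp _ hx := toFn_neg _ _ hx
  irr := by
    have h : (fun n : normalizer (w.Q : Set G) => toFn w.Q w.φ n) = Weight.infl w := by
      funext n
      exact toFn_pos _ _ n.2
    rw [h]
    exact isIrrChar_infl w
  triv r hr x := by
    by_cases hx : x ∈ normalizer (w.Q : Set G)
    · have hr' : r ∈ normalizer (w.Q : Set G) := le_normalizer hr
      rw [toFn_pos _ _ hx, toFn_pos _ _ (mul_mem hx hr')]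
      congr 1
      rw [QuotientGroup.eq]
      change (x * r)⁻¹ * x ∈ w.Q
      rw [mul_inv_rev, mul_assoc, inv_mul_cancel, mul_one]
      exact inv_mem hr
    · rw [toFn_neg _ _ hx, toFn_neg]
      intro h
      exact hx (by simpa using mul_mem h (inv_mem (le_normalizer hr)))
  dz := by
    obtain ⟨-, d, hd, hdp⟩ := w.defectZero
    have h1 : toFn w.Q w.φ 1 = d := by
      rw [toFn_pos _ _ (one_mem _), ← hd]
      rfl
    refine ⟨d, h1, ?_⟩
    have hd0 : d ≠ 0 := by
      rintro rfl
      have h2 := Irr.one_ne_zero (G := NQ w.Q) ⟨w.φ, w.defectZero.1⟩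
      rw [Nat.cast_zero] at hd
      exact h2 hd
    have h2 : Nat.card (normalizer (w.Q : Set G)) = Nat.card (NQ w.Q) * Nat.card w.Q := by
      rw [Subgroup.card_eq_card_quotient_mul_card_subgroup
        (w.Q.subgroupOf (normalizer (w.Q : Set G)))]
      congr 1
      exact Nat.card_congr (Subgroup.subgroupOfEquivOfLe le_normalizer).toEquiv
    rw [h2, Nat.factorization_mul hd0 Nat.card_pos.ne',
      Nat.factorization_mul Nat.card_pos.ne' Nat.card_pos.ne', Finsupp.add_apply,
      Finsupp.add_apply, hdp]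

theorem toWF_surjective : Function.Surjective (toWF (p := p) (G := G)) := by
  intro w
  let R' : Subgroup (normalizer (w.R : Set G)) := w.R.subgroupOf (normalizer (w.R : Set G))
  obtain ⟨θ, hθ⟩ := irr_descend R' ⟨_, w.irr⟩ (fun r hr x => w.triv r
    (Subgroup.mem_subgroupOf.1 hr) x)
  have hdz : IsDefectZeroChar p θ.1 := by
    refine ⟨θ.2, ?_⟩
    obtain ⟨d, hd, hdp⟩ := w.dz
    refine ⟨d, ?_, ?_⟩
    · have := hθ 1
      rw [← hd]
      exact this
    · have hd0 : d ≠ 0 := by
        rintro rfl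
        have h2 := Irr.one_ne_zero (G := normalizer (w.R : Set G)) ⟨_, w.irr⟩
        rw [Nat.cast_zero] at hd
        exact h2 hd
      have h2 : Nat.card (normalizer (w.R : Set G)) = Nat.card (NQ w.R) * Nat.card w.R := by
        rw [Subgroup.card_eq_card_quotient_mul_card_subgroup
          (w.R.subgroupOf (normalizer (w.R : Set G)))]
        congr 1
        exact Nat.card_congr (Subgroup.subgroupOfEquivOfLe le_normalizer).toEquiv
      rw [h2, Nat.factorization_mul hd0 Nat.card_pos.ne',
        Nat.factorization_mul Nat.card_pos.ne' Nat.card_pos.ne', Finsupp.add_apply,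
        Finsupp.add_apply] at hdp
      exact Nat.add_right_cancel hdp
  refine ⟨⟨w.R, w.pgp, θ.1, hdz⟩, ?_⟩
  have h1 : toFn w.R θ.1 = w.χ := by
    funext x
    by_cases hx : x ∈ normalizer (w.R : Set G)
    · rw [toFn_pos _ _ hx]
      exact hθ ⟨x, hx⟩
    · rw [toFn_neg _ _ hx, w.supp x hx]
  obtain ⟨R, χ, h2, h3, h4, h5, h6⟩ := w
  simp only [toWF, WF.mk.injEq, true_and]
  exact h1

theorem rel_toWF (a b : P179H524.Weight p G) : WF.Rel (toWF a) (toWF b) ↔ a.Conj b := by
  rw [Weight.conj_iff]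
  constructor
  · rintro ⟨g, h1, h2⟩
    refine ⟨g, ?_⟩
    refine Pr.ext ?_ ?_
    · rw [Pr.smul_Q]
      ext x
      rw [mem_map_equiv]
      change (MulAut.conj g).symm x ∈ a.Q ↔ x ∈ b.Q
      rw [MulAut.conj_symm_apply]
      exact (h1 x).symm
    · funext x
      rw [Pr.smul_Φ]
      exact (h2 x).symm
  · rintro ⟨g, hg⟩
    refine ⟨g, fun x => ?_, fun x => ?_⟩
    · have h1 := congrArg Pr.Q hg
      rw [Pr.smul_Q] at h1
      have h2 : x ∈ (toWF b).R ↔ x ∈ b.pr.Q := Iff.rfl
      rw [h2, ← h1, mem_map_equiv, MulAut.conj_symm_apply]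
      rfl
    · have h1 := congrFun (congrArg Pr.Φ hg) x
      rw [Pr.smul_Φ] at h1
      exact h1.symm

variable {k : Type u} [Field k] [CharP k p] (red : integralClosure ℤ ℂ →+* k)

theorem in_toWF (w : P179H524.Weight p G) (e : MonoidAlgebra k G)
    (he : e ∈ Subalgebra.center k (MonoidAlgebra k G)) :
    (toWF w).In red e ↔ mu p red w ⟨e, he⟩ = 1 := by
  have := Fintype.ofFinite G
  have := Fintype.ofFinite (normalizer (w.Q : Set G))
  have h0 : mu p red w ⟨e, he⟩ = muHom red w ⟨e, he⟩ := by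
    unfold mu
    congr 1
  rw [h0, muHom_apply]
  have h1 : (fun n : normalizer (w.Q : Set G) => toFn w.Q w.φ n) = Weight.infl w := by
    funext n
    exact toFn_pos _ _ n.2
  unfold WF.In
  change lam red (fun n : normalizer (w.Q : Set G) => toFn w.Q w.φ n) _ = 1 ↔ _
  rw [h1]
  rfl

/-- the two counts of weights agree -/
theorem numW_eq_numWc (e : MonoidAlgebra k G)
    (he : e ∈ Subalgebra.center k (MonoidAlgebra k G)) : numW p red e = numWc p red e := by
  symm
  unfold numW numWc
  refine Nat.card_congr ?_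
  have hin : ∀ w : P179H524.Weight p G,
      (∃ he : e ∈ Subalgebra.center k (MonoidAlgebra k G), mu p red w ⟨e, he⟩ = 1) ↔
      (toWF w).In red e := fun w => by
    rw [in_toWF red w e he]
    exact ⟨fun ⟨_, h⟩ => h, fun h => ⟨he, h⟩⟩
  let f : {w : P179H524.Weight p G //
      ∃ he : e ∈ Subalgebra.center k (MonoidAlgebra k G), mu p red w ⟨e, he⟩ = 1} →
      {w : WF p G // w.In red e} := fun w => ⟨toWF w.1, (hin w.1).1 w.2⟩
  have hf : Function.Bijective f := by
    constructor
    · intro a b hab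
      have h1 : toWF a.1 = toWF b.1 := congrArg Subtype.val hab
      apply Subtype.ext
      apply Weight.pr_injective
      exact Pr.ext (congrArg WF.R h1) (congrArg WF.χ h1)
    · intro w
      obtain ⟨w', hw'⟩ := toWF_surjective w.1
      exact ⟨⟨w', (hin w').2 (by rw [hw']; exact w.2)⟩, Subtype.ext hw'⟩
  exact Quot.congr (Equiv.ofBijective f hf) fun a b => (rel_toWF a.1 b.1).symm

end Bij

section R3a

variable (p : ℕ) [hp : Fact p.Prime] {k : Type u} [Field k] [IsAlgClosed k] [CharP k p]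
  (red : integralClosure ℤ ℂ →+* k) {G : Type} [Group G] [Finite G]

theorem hom_idem (μ : Subalgebra.center k (MonoidAlgebra k G) →ₐ[k] k)
    {e : Subalgebra.center k (MonoidAlgebra k G)} (hee : e * e = e) : μ e = 0 ∨ μ e = 1 := by
  have h1 : μ e * μ e = μ e := by rw [← map_mul, hee]
  rcases eq_or_ne (μ e) 0 with h | h
  · exact Or.inl h
  · exact Or.inr (mul_left_cancel₀ h (by rw [h1, mul_one]))

theorem sum_homs_card {ι : Type*} [Fintype ι]
    (μ : ι → (Subalgebra.center k (MonoidAlgebra k G) →ₐ[k] k))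
    {e : Subalgebra.center k (MonoidAlgebra k G)} (hee : e * e = e) :
    ∑ i, μ i e = (Nat.card {i // μ i e = 1} : k) := by
  have h1 : ∀ i, μ i e = if μ i e = 1 then 1 else 0 := by
    intro i
    rcases hom_idem (μ i) hee with h | h
    · rw [h, if_neg zero_ne_one]
    · rw [h, if_pos rfl]
  rw [Finset.sum_congr rfl fun i _ => h1 i, Finset.sum_boole, Nat.card_eq_fintype_card,
    Fintype.card_subtype]

/-- **(R3a)** from blocks to central idempotents -/
theorem R3a (h : ∀ B : MonoidAlgebra k G, IsBlock B →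
      numSimpleIn B ≡ numWeightsIn p red B [MOD p]) (e : MonoidAlgebra k G)
    (he : e ∈ Subalgebra.center k (MonoidAlgebra k G)) (hee : e * e = e) :
    numSimpleIn e ≡ numW p red e [MOD p] := by
  have := Fintype.ofFinite (Quot (P179H524.Weight.Conj (p := p) (G := G)))
  obtain ⟨r, μ, hμ1, -⟩ := exists_L p (k := k) (G := G)
  have h1 := sum_homs_eq μ (fun q : Quot (P179H524.Weight.Conj (p := p) (G := G)) =>
      mu p red q.out) (fun B hB => by
    rw [← hμ1 B hB.1, ← numWc_eq_card p red hB.1, ← numWeightsIn_eq_numWc p red hB]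
    exact (CharP.natCast_eq_natCast k p).mpr (h B hB)) ⟨e, he⟩
  have hee' : (⟨e, he⟩ : Subalgebra.center k (MonoidAlgebra k G)) * ⟨e, he⟩ = ⟨e, he⟩ :=
    Subtype.ext hee
  rw [sum_homs_card μ hee', sum_homs_card _ hee', ← hμ1 e he, ← numWc_eq_card p red he,
    ← numW_eq_numWc red e he] at h1
  exact (CharP.natCast_eq_natCast k p).mp h1

end R3a

section R3e

variable (p : ℕ) [hp : Fact p.Prime] {k : Type u} [Field k] [IsAlgClosed k] [CharP k p]

/-- the formula for the weights of wreath products -/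
def WrStmt (p : ℕ) [Fact p.Prime] (k : Type u) [Field k] [IsAlgClosed k] [CharP k p] : Prop :=
  ∀ (red : integralClosure ℤ ℂ →+* k) (G : Type) [Group G] [Finite G] (Q : Type) [Group Q]
    [Fintype Q] (_ : Nat.card Q = p) (e : MonoidAlgebra k G)
    (_ : e ∈ Subalgebra.center k (MonoidAlgebra k G)) (_ : e * e = e),
    p * numW p red (ehat Q e) + numW p red e =
      numW p red e ^ p + p * numW p (((frobeniusEquiv k p).symm : k →+* k).comp red) e

theorem exists_group_card (p : ℕ) [hp : Fact p.Prime] :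
    ∃ (Q : Type) (_ : Group Q) (_ : Fintype Q), Nat.card Q = p := by
  have : NeZero p := ⟨hp.out.ne_zero⟩
  exact ⟨Multiplicative (ZMod p), inferInstance, inferInstance, by simp⟩

theorem pow_dvd_pow_sub {p : ℕ} (hp : p.Prime) {n : ℕ} (hn : 1 ≤ n) {a b : ℤ}
    (h : (p : ℤ) ^ n ∣ a - b) : (p : ℤ) ^ (n + 1) ∣ a ^ p - b ^ p := by
  have h1 : (p : ℤ) ∣ a - b := (dvd_pow_self _ (by omega)).trans h
  have h2 : (p : ℤ) ∣ ∑ i ∈ Finset.range p, a ^ i * b ^ (p - 1 - i) := by
    have h3 : ∀ i ∈ Finset.range p, a ^ i * b ^ (p - 1 - i) ≡ b ^ (p - 1) [ZMOD p] := by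
      intro i hi
      have h4 : a ≡ b [ZMOD p] := (Int.modEq_iff_dvd.2 h1).symm
      have h5 := (h4.pow i).mul_right (b ^ (p - 1 - i))
      have h6 : b ^ i * b ^ (p - 1 - i) = b ^ (p - 1) := by
        rw [← pow_add]
        congr 1
        have := Finset.mem_range.1 hi
        omega
      rwa [h6] at h5
    have h4 : ∑ i ∈ Finset.range p, a ^ i * b ^ (p - 1 - i) ≡
        ∑ _i ∈ Finset.range p, b ^ (p - 1) [ZMOD p] := Int.ModEq.sum h3
    rw [Finset.sum_const, Finset.card_range, nsmul_eq_mul] at h4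
    have h5 : (p : ℤ) * b ^ (p - 1) ≡ 0 [ZMOD p] := by
      rw [Int.modEq_zero_iff_dvd]
      exact dvd_mul_right _ _
    exact Int.modEq_zero_iff_dvd.1 (h4.trans h5)
  have h3 : (∑ i ∈ Finset.range p, a ^ i * b ^ (p - 1 - i)) * (a - b) = a ^ p - b ^ p :=
    Commute.geom_sum₂_mul (Commute.all a b) p
  rw [← h3, pow_succ, mul_comm ((p : ℤ) ^ n)]
  exact mul_dvd_mul h2 h

/-- **(R3e)** -/
theorem R3e (hW : WrStmt p k)
    (h : ∀ (red : integralClosure ℤ ℂ →+* k) (G : Type) [Group G] [Finite G]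
      (e : MonoidAlgebra k G), e ∈ Subalgebra.center k (MonoidAlgebra k G) → e * e = e →
      numSimpleIn e ≡ numW p red e [MOD p]) :
    ∀ n : ℕ, 1 ≤ n → ∀ (red : integralClosure ℤ ℂ →+* k) (G : Type) [Group G] [Finite G]
      (e : MonoidAlgebra k G), e ∈ Subalgebra.center k (MonoidAlgebra k G) → e * e = e →
      ((p : ℤ) ^ n) ∣ (numSimpleIn e : ℤ) - numW p red e := by
  intro n hn
  induction n, hn using Nat.le_induction with
  | base =>
    intro red G _ _ e he hee
    rw [pow_one]
    have := (Nat.modEq_iff_dvd.1 (h red G e he hee).symm)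
    exact this
  | succ n hn ih =>
    intro red G _ _ e he hee
    have := Fintype.ofFinite G
    obtain ⟨Q, hQg, hQf, hQ⟩ := exists_group_card p
    have hfin : Finite (G ≀ᵣ Q) := inferInstance
    have h1 := numSimpleIn_ehat (p := p) (Q := Q) hQ e he hee
    have h2 := hW red G Q hQ e he hee
    have h3 := ih red (G ≀ᵣ Q) (ehat Q e) (ehat_mem e he) (ehat_idem e hee)
    have h4 := ih red G e he hee
    have h5 := ih (((frobeniusEquiv k p).symm : k →+* k).comp red) G e he hee
    set l : ℤ := (numSimpleIn e : ℤ)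
    set w : ℤ := (numW p red e : ℤ)
    set w2 : ℤ := (numW p (((frobeniusEquiv k p).symm : k →+* k).comp red) e : ℤ)
    set lh : ℤ := (numSimpleIn (ehat Q e) : ℤ)
    set wh : ℤ := (numW p red (ehat Q e) : ℤ)
    have h1' : (p : ℤ) * lh = l ^ p + (p - 1) * l := by
      have h6 : ((p * numSimpleIn (ehat Q e) : ℕ) : ℤ) =
          ((numSimpleIn e ^ p + (p - 1) * numSimpleIn e : ℕ) : ℤ) := by rw [h1]
      rw [Nat.cast_mul, Nat.cast_add, Nat.cast_pow, Nat.cast_mul,
        Nat.cast_sub hp.out.one_lt.le, Nat.cast_one] at h6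
      exact h6
    have h2' : (p : ℤ) * wh + w = w ^ p + p * w2 := by
      have h6 := congrArg (fun n : ℕ => (n : ℤ)) h2
      simp only [Nat.cast_mul, Nat.cast_add, Nat.cast_pow] at h6
      exact h6
    have h6 : l - w = (l ^ p - w ^ p) + p * (l - w2) - p * (lh - wh) := by
      linear_combination h1' - h2'
    rw [h6]
    refine dvd_sub (dvd_add (pow_dvd_pow_sub hp.out hn h4) ?_) ?_
    · rw [pow_succ, mul_comm ((p : ℤ) ^ n)]
      exact mul_dvd_mul_left _ h5
    · rw [pow_succ, mul_comm ((p : ℤ) ^ n)]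
      exact mul_dvd_mul_left _ h3

/-- the reduction theorem for central idempotents -/
theorem eq_of_all_modEq (hW : WrStmt p k)
    (h : ∀ (red : integralClosure ℤ ℂ →+* k) (G : Type) [Group G] [Finite G]
      (e : MonoidAlgebra k G), e ∈ Subalgebra.center k (MonoidAlgebra k G) → e * e = e →
      numSimpleIn e ≡ numW p red e [MOD p])
    (red : integralClosure ℤ ℂ →+* k) (G : Type) [Group G] [Finite G]
    (e : MonoidAlgebra k G) (he : e ∈ Subalgebra.center k (MonoidAlgebra k G)) (hee : e * e = e) :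
    numSimpleIn e = numW p red e := by
  have h1 := R3e p hW h
  by_contra hne
  have hne' : (numSimpleIn e : ℤ) - numW p red e ≠ 0 := by
    intro h0
    apply hne
    have : (numSimpleIn e : ℤ) = numW p red e := sub_eq_zero.1 h0
    exact_mod_cast this
  set d := ((numSimpleIn e : ℤ) - numW p red e).natAbs with hd
  have hd0 : 0 < d := Int.natAbs_pos.2 hne'
  have h2 := h1 (d + 1) (by omega) red G e he hee
  have h3 : p ^ (d + 1) ∣ d := by
    have := Int.natAbs_dvd_natAbs.2 h2
    rw [Int.natAbs_pow, Int.natAbs_natCast] at this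
    exact this
  have h4 := Nat.le_of_dvd hd0 h3
  have h5 : d + 1 < p ^ (d + 1) := Nat.lt_pow_self hp.out.one_lt
  omega

/-- **Theorem R**, from the wreath product formula -/
theorem theoremR_of (hW : WrStmt p k) (hS : DivS p) (red : integralClosure ℤ ℂ →+* k)
    {G : Type} [Group G] [Finite G] (B : MonoidAlgebra k G) (hB : IsBlock B) :
    numSimpleIn B = numWeightsIn p red B := by
  rw [numWeightsIn_eq_numWc p red hB, ← numW_eq_numWc red B hB.1]
  exact eq_of_all_modEq p hW (fun red G _ _ e he hee =>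
    R3a p red (fun B hB => R1 hS red B hB) e he hee) red G B hB.1 hB.2.1

end R3e

end P179R
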