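import Vale.Agent.P179.H143.R3
import Vale.Agent.P179.H166.PPClass

/-!
# Reduction theorem R for classes of finite groups, and the sharpened divisibility criterion
-/

namespace P179R

open Subgroup P179H524 P179A P179C P179K MonoidAlgebra

open scoped Classical Pointwise

universe u

section Toggle

variable {p : ℕ} {G : Type*} [Group G]

theorem tog_isPChain_normal {U : Subgroup G} [hUn : U.Normal] {s : Finset (Subgroup G)}
    (hs : IsPChain p s) (hU : IsPGroup p U) (hU1 : U ≠ ⊥) : IsPChain p (tog U s) := by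
  classical
  constructor
  · intro Q hQ
    rcases mem_tog.1 hQ with h | h
    · exact hs.1 Q h.1
    · rw [h.1]
      constructor
      · rcases lowSup_eq U hs.2 with h1 | h1
        · unfold togR; rw [h1, bot_sup_eq]; exact hU
        · unfold togR
          exact (hs.1 _ h1.1).1.to_sup_of_normal_right hU
      · intro h2
        have := le_togR U s
        rw [h2, le_bot_iff] at this
        exact hU1 this
  · intro Q hQ Q' hQ' _
    simp only [Finset.mem_coe, mem_tog] at hQ hQ'
    rcases hQ with hQ | hQ <;> rcases hQ' with hQ' | hQ'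
    · exact hs.2.total hQ.1 hQ'.1
    · rw [hQ'.1]
      by_cases h : U ≤ Q
      · exact Or.inr (le_of_mem_of_le hs.2 hQ.1 h)
      · exact Or.inl (le_togR_of_mem hQ.1 h)
    · rw [hQ.1]
      by_cases h : U ≤ Q'
      · exact Or.inl (le_of_mem_of_le hs.2 hQ'.1 h)
      · exact Or.inr (le_togR_of_mem hQ'.1 h)
    · rw [hQ.1, hQ'.1]; exact Or.inl le_rfl

theorem mem_stab_tog_normal {U : Subgroup G} [hUn : U.Normal] {s : Finset (Subgroup G)}
    (hs : IsPChain p s) (hU : IsPGroup p U) (hU1 : U ≠ ⊥) {g : G} :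
    g ∈ stab (tog U s) ↔ g ∈ stab s := by
  have hg : g ∈ normalizer (U : Set G) := by
    rw [Subgroup.normalizer_eq_top]
    exact mem_top g
  constructor
  · intro h
    have := mem_stab_tog_of_mem (tog_isPChain_normal hs hU hU1).2 hg h
    rwa [tog_tog] at this
  · exact mem_stab_tog_of_mem hs.2 hg

/-- if `O_p(G) ≠ 1`, all the numbers `W p x y` vanish -/
theorem W_eq_zero_of_normal [Finite G] (U : Subgroup G) [U.Normal] (hU : IsPGroup p U)
    (hU1 : U ≠ ⊥) (x y : G) : W p x y = 0 := by
  unfold W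
  have := sum_tog_eq_zero U ((chains p G).filter fun s => x ∈ stab s ∧ y ∈ stab s)
      (fun s hs' => by
        rw [Finset.mem_filter, mem_chains] at hs' ⊢
        exact ⟨tog_isPChain_normal hs'.1 hU hU1,
          (mem_stab_tog_normal hs'.1 hU hU1).mpr hs'.2.1,
          (mem_stab_tog_normal hs'.1 hU hU1).mpr hs'.2.2⟩)
      (fun _ => (1 : ℤ)) (fun _ _ => rfl)
  simpa using this

theorem SS_eq_zero_of_normal [Finite G] [Fintype G] (h : ¬ OpTrivial p G) (g : G) :
    SS p g = 0 := by
  simp only [OpTrivial, not_forall] at h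
  obtain ⟨U, hU, hUp, hU1⟩ := h
  unfold SS
  exact Finset.sum_eq_zero fun t _ => W_eq_zero_of_normal U hUp hU1 t.1 t.2

end Toggle

section R2

variable (p : ℕ) [hp : Fact p.Prime] {k : Type u} [Field k] [IsAlgClosed k] [CharP k p]
  (red : integralClosure ℤ ℂ →+* k)

/-- **(R2)** for a group and its subgroups -/
theorem R2_local {G : Type} [Group G] [Finite G] [Fintype G]
    (hG1 : ∀ B : MonoidAlgebra k G, IsBlock B → numSimpleIn B ≡ numWeightsIn p red B [MOD p])
    (hH : ∀ (H : Subgroup G) (B : MonoidAlgebra k H), IsBlock B →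
      numSimpleIn B ≡ numWeightsIn p red B [MOD p]) (g : G) (hg : p ∣ orderOf g) :
    ((Nat.card (centralizer ({g} : Set G)) * p : ℕ) : ℤ) ∣ SS p g := by
  obtain ⟨O, hO, hred⟩ := exists_O p red
  have hG0 : Nat.card G ≠ 0 := Nat.card_pos.ne'
  have hGC : (Nat.card G : ℂ) ≠ 0 := by exact_mod_cast hG0
  set z : G → ℤ := fun x => if x ∈ MulAction.orbit (ConjAct G) g then 1 else 0 with hzdef
  have hzmem : ∀ h x : G, h * x * h⁻¹ ∈ MulAction.orbit (ConjAct G) g ↔
      x ∈ MulAction.orbit (ConjAct G) g := by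
    intro h x
    rw [← ConjAct.toConjAct_smul]
    constructor
    · rintro ⟨c, hc⟩
      refine ⟨(ConjAct.toConjAct h)⁻¹ * c, ?_⟩
      change ((ConjAct.toConjAct h)⁻¹ * c) • g = x
      rw [mul_smul]
      change (ConjAct.toConjAct h)⁻¹ • (c • g) = x
      rw [show c • g = ConjAct.toConjAct h • x from hc, inv_smul_smul]
    · rintro ⟨c, hc⟩
      refine ⟨ConjAct.toConjAct h * c, ?_⟩
      change (ConjAct.toConjAct h * c) • g = _
      rw [mul_smul, show c • g = x from hc]
  have hz : IsCF z := by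
    intro h x
    simp only [hzdef, hzmem]
  have hzs : ∀ x, z x ≠ 0 → p ∣ orderOf x := by
    intro x hx
    have h1 : x ∈ MulAction.orbit (ConjAct G) g := by
      by_contra hcon
      exact hx (if_neg hcon)
    obtain ⟨c, hc⟩ := h1
    obtain ⟨c, rfl⟩ := ConjAct.toConjAct.surjective c
    have h2 : c * g * c⁻¹ = x := by rw [← ConjAct.toConjAct_smul]; exact hc
    rw [← h2]
    have h3 : orderOf (c * g * c⁻¹) = orderOf g := by
      have := MulEquiv.orderOf_eq (MulAut.conj c) g
      simpa using this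
    rw [h3]; exact hg
  -- the alternating sum
  have := Fintype.ofFinite (neChains p G)
  have hB := stepL p G z hz
  have hC := KR_W p z hz
  have hF : O.valuation ((∑ s : neChains p G, (-1 : ℂ) ^ s.1.card *
      ((nL p (res (stab s.1) z) : ℂ) - nW p (res (stab s.1) z))) / Nat.card G) < 1 := by
    refine orb_sum_val O (fun s : neChains p G => (-1 : ℂ) ^ s.1.card *
      ((nL p (res (stab s.1) z) : ℂ) - nW p (res (stab s.1) z))) ?_ ?_
    · intro g s
      have key : ∀ t : Finset (Subgroup G), (-1 : ℂ) ^ (g • t).card *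
          ((nL p (res (stab (g • t)) z) : ℂ) - nW p (res (stab (g • t)) z)) =
          (-1 : ℂ) ^ t.card * ((nL p (res (stab t) z) : ℂ) - nW p (res (stab t) z)) := by
        intro t
        rw [card_smul, ← nL_comp (stabEquiv g t), ← nW_comp (stabEquiv g t),
          res_stab_smul hz g t]
      exact key s.1
    · intro s
      rw [stabilizer_neChains, mul_div_assoc, map_mul, map_pow]
      have h3 : O.valuation (-1 : ℂ) = 1 := by rw [Valuation.map_neg, map_one]
      rw [h3, one_pow, one_mul]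
      exact cong_of_blocks p red (hH (stab s.1)) O hred (isCF_res _ hz)
  have hE : O.valuation (((nL p z : ℂ) - nW p z) / Nat.card G) < 1 :=
    cong_of_blocks p red hG1 O hred hz
  have e' : ∃ e : G ≃* stab (∅ : Finset (Subgroup G)), ∀ x, (e x : G) = x := by
    rw [P179K.stab_empty]; exact ⟨topEquiv.symm, fun _ => rfl⟩
  obtain ⟨e, he⟩ := e'
  have h4 : (fun x => res (stab (∅ : Finset (Subgroup G))) z (e x)) = z := by
    ext x
    exact congrArg z (he x)
  have hD : O.valuation ((∑ s ∈ chains p G, (-1 : ℂ) ^ s.card *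
      ((nL p (res (stab s) z) : ℂ) - nW p (res (stab s) z))) / Nat.card G) < 1 := by
    rw [sum_chains_eq', add_div]
    refine O.valuation.map_add_lt ?_ hF
    rw [Finset.card_empty, pow_zero, one_mul, ← nL_comp e, ← nW_comp e, h4]
    exact hE
  -- hence `FF p z ≡ |G| dz z`
  have hFF : O.valuation (((FF p z : ℤ) : ℂ) / Nat.card G) < 1 := by
    have h2 : ((FF p z : ℤ) : ℂ) / Nat.card G =
        ((∑ s ∈ chains p G, (-1) ^ s.card *
          (nTr (res (stab s) z) - nL p (res (stab s) z)) : ℤ) : ℂ) / Nat.card G +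
        ((∑ s ∈ chains p G, (-1 : ℂ) ^ s.card *
          ((nL p (res (stab s) z) : ℂ) - nW p (res (stab s) z))) / Nat.card G + dz p z) := by
      have h5 : dz p z = (∑ s ∈ chains p G, (-1) ^ s.card * nW p (res (stab s) z)) /
          Nat.card G := by
        rw [hC, mul_div_cancel_left₀ _ hGC]
      rw [h5, ← add_div, ← add_div]
      congr 1
      unfold FF
      push_cast
      simp only [← Finset.sum_add_distrib]
      exact Finset.sum_congr rfl fun s _ => by ring
    rw [h2]
    refine O.valuation.map_add_lt (valuation_of_dvd O hG0 hB) (O.valuation.map_add_lt hD ?_)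
    have h6 := dz_sing p O z hz hzs
    unfold Cong at h6
    rwa [Nat.cast_one, div_one, sub_zero] at h6
  -- divisibility
  obtain ⟨t, ht⟩ := card_dvd_FF (p := p) z hz
  rw [ht] at hFF
  have h7 : (((Nat.card G : ℤ) * t : ℤ) : ℂ) / Nat.card G = (t : ℂ) := by
    push_cast
    rw [mul_div_cancel_left₀ _ hGC]
  rw [h7] at hFF
  have h8 : (p : ℤ) ∣ t := by
    have h9 : (t : ℂ) ∈ integralClosure ℤ ℂ := intCast_mem _ t
    have h10 := (hred _ h9).mp hFF
    have h11 : (⟨(t : ℂ), h9⟩ : integralClosure ℤ ℂ) = ((t : ℤ) : integralClosure ℤ ℂ) := rfl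
    rw [h11, map_intCast] at h10
    exact (CharP.intCast_eq_zero_iff k p t).1 h10
  have h12 : FF p z = (Nat.card (MulAction.orbit (ConjAct G) g) : ℤ) * SS p g := by
    rw [FF_eq_SS]
    have h13 : ∀ x : G, z x * SS p x = if x ∈ MulAction.orbit (ConjAct G) g then SS p g else 0 := by
      intro x
      simp only [hzdef]
      by_cases hx : x ∈ MulAction.orbit (ConjAct G) g
      · rw [if_pos hx, if_pos hx, one_mul]
        obtain ⟨c, hc⟩ := hx
        obtain ⟨c, rfl⟩ := ConjAct.toConjAct.surjective c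
        have h14 : c * g * c⁻¹ = x := by rw [← ConjAct.toConjAct_smul]; exact hc
        rw [← h14, SS_conj]
      · rw [if_neg hx, if_neg hx, zero_mul]
    rw [Finset.sum_congr rfl fun x _ => h13 x, ← Finset.sum_filter, Finset.sum_const, nsmul_eq_mul]
    congr 2
    rw [← Fintype.card_subtype, ← Nat.card_eq_fintype_card]
  obtain ⟨c, hc⟩ := h8
  have h15 := card_orbit_conj g
  have ho : (Nat.card (MulAction.orbit (ConjAct G) g) : ℤ) ≠ 0 := by
    intro h0
    have : Nat.card (MulAction.orbit (ConjAct G) g) = 0 := by exact_mod_cast h0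
    rw [this, zero_mul] at h15
    exact hG0 h15.symm
  refine ⟨c, ?_⟩
  apply mul_left_cancel₀ ho
  rw [← h12, ht, hc, ← h15]
  push_cast
  ring

end R2

/-! ### Classes of finite groups -/

/-- a class of groups closed under subgroups and under quotients by normal `p`-subgroups -/
structure SubQuot (p : ℕ) (𝒞 : ∀ (G : Type) [Group G], Prop) : Prop where
  sub : ∀ (G : Type) [Group G] [Finite G] (H : Subgroup G), 𝒞 G → 𝒞 H
  quot : ∀ (G : Type) [Group G] [Finite G] (N : Subgroup G) [N.Normal], IsPGroup p N →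
    𝒞 G → 𝒞 (G ⧸ N)

/-- The exceptional `p`-subgroups `P` of the centraliser of `g`. -/
def ExcP (p : ℕ) {G : Type*} [Group G] (g : G) (P : Subgroup G) : Prop :=
  (∃ a ∈ P, ∃ b ∈ P, a * b ≠ b * a) ∧
    (p = 2 → ∃ k ∈ P, orderOf k = 8 ∧ k ^ 4 ∈ zpowers g ∧
      ∀ e, Odd e → ∃ c ∈ P, c * k * c⁻¹ = k ^ e) ∧
    (p = 3 → ∃ k ∈ P, orderOf k = 9 ∧ k ^ 3 ∈ zpowers g ∧ ∃ c ∈ P, c * k * c⁻¹ = k ^ 4)

/-- The divisibility for the groups in `𝒞`, in its sharpest form. -/
def DivC (p : ℕ) (𝒞 : ∀ (G : Type) [Group G], Prop) : Prop :=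
  ∀ (G : Type) [Group G] [Finite G] [Fintype G], 𝒞 G → OpTrivial p G →
    ∀ (g : G), p ∣ orderOf g → ¬ p ^ 2 ∣ orderOf g →
    (∃ P : Subgroup G, IsPGroup p P ∧ P ≤ centralizer {g} ∧ ExcP p g P) →
    ((Nat.card (centralizer ({g} : Set G)) * p : ℕ) : ℤ) ∣ SS p g

theorem excP_of_not {p : ℕ} {G : Type*} [Group G] {g : G} {P : Subgroup G} {m : ℕ}
    (h0 : g ^ m ≠ 1) (h0' : (g ^ m) ^ p = 1) (hab : ∃ a ∈ P, ∃ b ∈ P, a * b ≠ b * a)
    (h : ¬ ((p = 2 ∧ ∀ k ∈ P, k ^ 4 = g ^ m → ∃ e, e ≡ 1 [MOD p] ∧ ∀ c ∈ P, c * k * c⁻¹ ≠ k ^ e) ∨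
      (p = 3 ∧ ∀ k ∈ P, k ^ 3 = g ^ m → ∃ e, e ≡ 1 [MOD p] ∧ ∀ c ∈ P, c * k * c⁻¹ ≠ k ^ e))) :
    ExcP p g P := by
  rw [not_or] at h
  refine ⟨hab, ?_, ?_⟩
  · rintro rfl
    have h1 := h.1
    simp only [true_and, not_forall] at h1
    obtain ⟨k, hk, hk4, hk'⟩ := h1
    refine ⟨k, hk, ?_, ?_, ?_⟩
    · have : orderOf k = 2 ^ (2 + 1) := by
        refine orderOf_eq_prime_pow ?_ ?_
        · rw [show (2 : ℕ) ^ 2 = 4 by norm_num, hk4]; exact h0
        · rw [pow_succ, pow_mul, show (2 : ℕ) ^ 2 = 4 by norm_num, hk4, h0']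
      rw [this]; norm_num
    · rw [hk4]
      exact npow_mem_zpowers g m
    · intro e he
      by_contra hcon
      apply hk'
      refine ⟨e, ?_, ?_⟩
      · obtain ⟨r, rfl⟩ := he
        unfold Nat.ModEq
        omega
      · intro c hc hce
        exact hcon ⟨c, hc, hce⟩
  · rintro rfl
    have h1 := h.2
    simp only [true_and, not_forall] at h1
    obtain ⟨k, hk, hk4, hk'⟩ := h1
    refine ⟨k, hk, ?_, ?_, ?_⟩
    · have : orderOf k = 3 ^ (1 + 1) := by
        refine orderOf_eq_prime_pow ?_ ?_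
        · rw [pow_one, hk4]; exact h0
        · rw [pow_succ, pow_mul, pow_one, hk4, h0']
      rw [this]; norm_num
    · rw [hk4]
      exact npow_mem_zpowers g m
    · by_contra hcon
      apply hk'
      refine ⟨4, by decide, ?_⟩
      intro c hc hce
      exact hcon ⟨c, hc, hce⟩

section Class

variable {p : ℕ} [hp : Fact p.Prime] {𝒞 : ∀ (G : Type) [Group G], Prop}

theorem goodClass2_of (h𝒞 : SubQuot p 𝒞) (h : DivC p 𝒞) :
    GoodClass2 p (fun G _ P => IsPGroup p P ∧ 𝒞 G) := by
  refine ⟨?_, ?_, ?_⟩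
  · rintro G _ _ H P ⟨h1, h2⟩
    refine ⟨?_, h𝒞.sub G H h2⟩
    exact h1.of_equiv (P.equivMapOfInjective H.subtype H.subtype_injective).symm
  · rintro G _ _ R _ P ⟨h1, h2⟩
    have hR : IsPGroup p R := h1.to_le (by
      intro x hx
      rw [mem_comap, QuotientGroup.mk'_apply, (QuotientGroup.eq_one_iff x).2 hx]
      exact P.one_mem)
    refine ⟨?_, h𝒞.quot G R hR h2⟩
    have hs : Function.Surjective (QuotientGroup.mk' R) := QuotientGroup.mk'_surjective R
    have := h1.map (QuotientGroup.mk' R)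
    rwa [map_comap_eq_self_of_surjective hs] at this
  · rintro G _ _ _ g q hq hq' h0 h0' P hP hPg hgP ⟨-, hC⟩
    by_cases hO : OpTrivial p G
    · by_cases hab : ∀ a ∈ P, ∀ b ∈ P, a * b = b * a
      · have h1 := main_lemma p g q hq P hP hab hPg hgP
        refine dvd_trans ?_ h1
        have h2 : p ∣ orderOf (g ^ q) := by
          rw [orderOf_eq_prime h0' h0]
        exact_mod_cast Nat.mul_dvd_mul_left _ h2
      · push Not at hab
        by_cases hpp : ((p = 2 ∧ ∀ k ∈ P, k ^ 4 = g ^ q →
              ∃ e, e ≡ 1 [MOD p] ∧ ∀ c ∈ P, c * k * c⁻¹ ≠ k ^ e) ∨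
            (p = 3 ∧ ∀ k ∈ P, k ^ 3 = g ^ q →
              ∃ e, e ≡ 1 [MOD p] ∧ ∀ c ∈ P, c * k * c⁻¹ ≠ k ^ e))
        · exact main_pp p g q P hP hPg hgP h0 h0' hq' hpp
        have hexc := excP_of_not h0 h0' hab hpp
        have hle : P ≤ centralizer ({g} : Set G) := fun a ha =>
          mem_centralizer_singleton_iff.2 (hPg a ha)
        have hord : p ∣ orderOf g := by
          have h1 : orderOf (g ^ q) ∣ orderOf g := orderOf_pow_dvd q
          rw [orderOf_eq_prime h0' h0] at h1
          exact h1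
        have hord2 : ¬ p ^ 2 ∣ orderOf g := by
          intro h2
          -- `g ^ (orderOf g / p ^ 2)` has order `p ^ 2`
          set m := orderOf g / p ^ 2 with hm
          have hm0 : m ≠ 0 := by
            have h3 : 0 < m := Nat.div_pos (Nat.le_of_dvd (orderOf_pos g) h2)
              (pow_pos hp.out.pos 2)
            exact h3.ne'
          have h3 : orderOf (g ^ m) = p ^ 2 := by
            have h4 : orderOf g = m * p ^ 2 := (Nat.div_mul_cancel h2).symm
            rw [orderOf_pow_of_dvd hm0 ⟨p ^ 2, h4⟩]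
            rw [h4, Nat.mul_div_cancel_left _ (Nat.pos_of_ne_zero hm0)]
          have h4 : (g ^ m) ^ q = g ^ m := hq' _ ⟨2, by rw [← h3]; exact pow_orderOf_eq_one _⟩
          have h5 : (g ^ m) ^ p = 1 := by
            rw [← h4, pow_right_comm g m q, pow_right_comm (g ^ q) m p, h0', one_pow]
          have h6 : p ^ 2 ∣ p := by
            rw [← h3]
            exact orderOf_dvd_of_pow_eq_one h5
          have h7 := Nat.le_of_dvd hp.out.pos h6
          have h8 : p < p ^ 2 := by
            rw [pow_two]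
            exact lt_mul_self hp.out.one_lt
          omega
        have h1 := h G hC hO g hord hord2 ⟨P, hP, hle, hexc⟩
        have h2 : Nat.card P ∣ Nat.card (centralizer ({g} : Set G)) := Subgroup.card_dvd_of_le hle
        refine dvd_trans ?_ h1
        exact_mod_cast Nat.mul_dvd_mul_right h2 p
    · rw [SS_eq_zero_of_normal hO]
      exact dvd_zero _

/-- Theorem C for a class of subgroups containing all `p`-subgroups of `G`. -/
theorem theoremC_good3 (p : ℕ) [hp : Fact p.Prime] {𝒢 : ∀ (G : Type) [Group G], Subgroup G → Prop}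
    (h𝒢 : GoodClass2 p 𝒢) {k : Type u} [Field k] [IsAlgClosed k] [CharP k p]
    (red : integralClosure ℤ ℂ →+* k) {G : Type} [Group G] [Finite G]
    (B : MonoidAlgebra k G) (hB : IsBlock B) (hGP : ∀ P : Subgroup G, IsPGroup p P → 𝒢 G P) :
    numSimpleIn B ≡ numWeightsIn p red B [MOD p] := by
  have := Fintype.ofFinite (ConjClasses G)
  obtain ⟨O, hO, hred⟩ := exists_O p red
  have hG : (Nat.card G : ℂ) ≠ 0 := by exact_mod_cast Nat.card_pos.ne'
  have hW : (numWeightsIn p red B : k) =
      ∑ᶠ C : ConjClasses G, B.coeff C.out * redC red (nW p (ind C) / Nat.card G) :=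
    numWeightsIn_eq_of p red B fun w =>
      weightInBlock_iff_of red w blockHomStmt homBlockStmt homBlockStmt charBlockStmt B hB
  have hS := numSimpleIn_eq p B hB.1 hB.2.1
  have key : (numSimpleIn B : k) = (numWeightsIn p red B : k) := by
    rw [hS, hW, finsum_eq_sum_of_fintype, finsum_eq_sum_of_fintype]
    refine Finset.sum_congr rfl fun C _ => ?_
    by_cases hC : B.coeff C.out = 0
    · rw [hC, zero_mul, zero_mul]
    · congr 1
      have hz : ZG p 𝒢 (ind C) := by
        intro g hg P hP hPg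
        exact hGP P hP
      have hreg : RegSupp p (ind C) := by
        intro g hg hpg
        have hgC : ConjClasses.mk g = C := by
          by_contra hne
          refine hg ?_
          unfold ind
          rw [if_neg hne]
        have h4 := C2.coeff_out B hB.1 g
        rw [hgC] at h4
        rw [osima_g p B hB.1 hB.2.1 g hpg] at h4
        exact hC h4
      have hmain := main_fun_good_of2 p h𝒢 O (stepL p) (Nat.card G) G rfl (ind C) (isCF_ind C)
        hreg hz
      obtain ⟨t, ht⟩ := dvd_nL p (ind C) (isCF_ind C)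
      have hint := isIntegral_nW p (G := G) C
      have hGZ : (Nat.card G : ℤ) ≠ 0 := by exact_mod_cast Nat.card_pos.ne'
      rw [ht, Int.mul_ediv_cancel_left _ hGZ]
      unfold Cong at hmain
      rw [ht] at hmain
      have h5 : (((Nat.card G : ℤ) * t : ℤ) - nW p (ind C)) / (Nat.card G : ℂ) =
          (t : ℂ) - nW p (ind C) / Nat.card G := by
        push_cast
        rw [sub_div, mul_div_cancel_left₀ _ hG]
      rw [h5] at hmain
      have h6 : (t : ℂ) ∈ integralClosure ℤ ℂ := intCast_mem _ t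
      have h7 := (hred _ (sub_mem h6 hint)).mp hmain
      have h8 : (⟨(t : ℂ) - nW p (ind C) / Nat.card G, sub_mem h6 hint⟩ : integralClosure ℤ ℂ) =
          ((t : ℤ) : integralClosure ℤ ℂ) - ⟨nW p (ind C) / Nat.card G, hint⟩ := rfl
      rw [h8, map_sub, map_intCast, sub_eq_zero] at h7
      rw [h7, redC_of_mem red hint]
  exact (CharP.natCast_eq_natCast k p).mp key


/-- **(R1)** for a class of groups -/
theorem R1_class (h𝒞 : SubQuot p 𝒞) (h : DivC p 𝒞) {k : Type u} [Field k] [IsAlgClosed k]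
    [CharP k p] (red : integralClosure ℤ ℂ →+* k) {G : Type} [Group G] [Finite G] (hG : 𝒞 G)
    (B : MonoidAlgebra k G) (hB : IsBlock B) :
    numSimpleIn B ≡ numWeightsIn p red B [MOD p] := by
  exact theoremC_good3 p (goodClass2_of h𝒞 h) red B hB fun P hP => ⟨hP, hG⟩

end Class

end P179R
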