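import Vale.Agent.P179.H143.R4

/-!
# Theorem R for classes of finite groups
-/

namespace P179R

open Subgroup P179H524 P179A P179C P179K MonoidAlgebra

open scoped Classical Pointwise

universe u

/-- a class closed under wreath products with groups of order `p` -/
def WrClosed (p : ℕ) (𝒞 : ∀ (G : Type) [Group G], Prop) : Prop :=
  ∀ (G : Type) [Group G] [Finite G] (Q : Type) [Group Q], Nat.card Q = p → 𝒞 G → 𝒞 (G ≀ᵣ Q)

section

variable {p : ℕ} [hp : Fact p.Prime] {k : Type u} [Field k] [IsAlgClosed k] [CharP k p]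
  {𝒞 : ∀ (G : Type) [Group G], Prop}

/-- **(R3e)** for a class -/
theorem R3e_class (hW : WrStmt p k) (h𝒞 : WrClosed p 𝒞)
    (h : ∀ (red : integralClosure ℤ ℂ →+* k) (G : Type) [Group G] [Finite G], 𝒞 G → ∀
      (e : MonoidAlgebra k G), e ∈ Subalgebra.center k (MonoidAlgebra k G) → e * e = e →
      numSimpleIn e ≡ numW p red e [MOD p]) :
    ∀ n : ℕ, 1 ≤ n → ∀ (red : integralClosure ℤ ℂ →+* k) (G : Type) [Group G] [Finite G], 𝒞 G → ∀
      (e : MonoidAlgebra k G), e ∈ Subalgebra.center k (MonoidAlgebra k G) → e * e = e →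
      ((p : ℤ) ^ n) ∣ (numSimpleIn e : ℤ) - numW p red e := by
  intro n hn
  induction n, hn using Nat.le_induction with
  | base =>
    intro red G _ _ hG e he hee
    rw [pow_one]
    have := (Nat.modEq_iff_dvd.1 (h red G hG e he hee).symm)
    exact this
  | succ n hn ih =>
    intro red G _ _ hG e he hee
    have := Fintype.ofFinite G
    obtain ⟨Q, hQg, hQf, hQ⟩ := exists_group_card p
    have hfin : Finite (G ≀ᵣ Q) := inferInstance
    have h1 := numSimpleIn_ehat (p := p) (Q := Q) hQ e he hee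
    have h2 := hW red G Q hQ e he hee
    have h3 := ih red (G ≀ᵣ Q) (h𝒞 G Q hQ hG) (ehat Q e) (ehat_mem e he) (ehat_idem e hee)
    have h4 := ih red G hG e he hee
    have h5 := ih (((frobeniusEquiv k p).symm : k →+* k).comp red) G hG e he hee
    set l : ℤ := (numSimpleIn e : ℤ)
    set w : ℤ := (numW p red e : ℤ)
    set w2 : ℤ := (numW p (((frobeniusEquiv k p).symm : k →+* k).comp red) e : ℤ)
    set lh : ℤ := (numSimpleIn (ehat Q e) : ℤ)
    set wh : ℤ := (numW p red (ehat Q e) : ℤ)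
    have h1' : (p : ℤ) * lh = l ^ p + (p - 1) * l := by
      have h6 : ((p * numSimpleIn (ehat Q e) : ℕ) : ℤ) =
          ((numSimpleIn e ^ p + (p - 1) * numSimpleIn e : ℕ) : ℤ) := by rw [h1]
      rw [Nat.cast_mul, Nat.cast_add, Nat.cast_pow, Nat.cast_mul,
        Nat.cast_sub hp.out.one_lt.le, Nat.cast_one] at h6
      exact h6
    have h2' : (p : ℤ) * wh + w = w ^ p + p * w2 := by
      have h6 := congrArg (fun n : ℕ => (n : ℤ)) h2
      simp only [Nat.cast_mul, Nat.cast_add, Nat.cast_pow] at h6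
      exact h6
    have h6 : l - w = (l ^ p - w ^ p) + p * (l - w2) - p * (lh - wh) := by
      linear_combination h1' - h2'
    rw [h6]
    refine dvd_sub (dvd_add (pow_dvd_pow_sub hp.out hn h4) ?_) ?_
    · rw [pow_succ, mul_comm ((p : ℤ) ^ n)]
      exact mul_dvd_mul_left _ h5
    · rw [pow_succ, mul_comm ((p : ℤ) ^ n)]
      exact mul_dvd_mul_left _ h3

/-- the reduction theorem for central idempotents, for a class -/
theorem eq_of_all_modEq_class (hW : WrStmt p k) (h𝒞 : WrClosed p 𝒞)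
    (h : ∀ (red : integralClosure ℤ ℂ →+* k) (G : Type) [Group G] [Finite G], 𝒞 G → ∀
      (e : MonoidAlgebra k G), e ∈ Subalgebra.center k (MonoidAlgebra k G) → e * e = e →
      numSimpleIn e ≡ numW p red e [MOD p])
    (red : integralClosure ℤ ℂ →+* k) (G : Type) [Group G] [Finite G] (hG : 𝒞 G)
    (e : MonoidAlgebra k G) (he : e ∈ Subalgebra.center k (MonoidAlgebra k G)) (hee : e * e = e) :
    numSimpleIn e = numW p red e := by
  have h1 := R3e_class hW h𝒞 h
  by_contra hne
  have hne' : (numSimpleIn e : ℤ) - numW p red e ≠ 0 := by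
    intro h0
    apply hne
    have : (numSimpleIn e : ℤ) = numW p red e := sub_eq_zero.1 h0
    exact_mod_cast this
  set d := ((numSimpleIn e : ℤ) - numW p red e).natAbs with hd
  have hd0 : 0 < d := Int.natAbs_pos.2 hne'
  have h2 := h1 (d + 1) (by omega) red G hG e he hee
  have h3 : p ^ (d + 1) ∣ d := by
    have := Int.natAbs_dvd_natAbs.2 h2
    rw [Int.natAbs_pow, Int.natAbs_natCast] at this
    exact this
  have h4 := Nat.le_of_dvd hd0 h3
  have h5 : d + 1 < p ^ (d + 1) := Nat.lt_pow_self hp.out.one_lt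
  omega

/-- **Theorem R, (A)** -/
theorem theoremRA (hW : WrStmt p k) (h𝒞 : WrClosed p 𝒞)
    (h : ∀ (red : integralClosure ℤ ℂ →+* k) (G : Type) [Group G] [Finite G], 𝒞 G → ∀
      (B : MonoidAlgebra k G), IsBlock B → numSimpleIn B ≡ numWeightsIn p red B [MOD p])
    (red : integralClosure ℤ ℂ →+* k) (G : Type) [Group G] [Finite G] (hG : 𝒞 G)
    (B : MonoidAlgebra k G) (hB : IsBlock B) :
    numSimpleIn B = numWeightsIn p red B := by
  rw [numWeightsIn_eq_numWc p red hB, ← numW_eq_numWc red B hB.1]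
  exact eq_of_all_modEq_class hW h𝒞 (fun red G _ _ hG e he hee =>
    R3a p red (fun B hB => h red G hG B hB) e he hee) red G hG B hB.1 hB.2.1

/-- **Theorem R, (B)** -/
theorem theoremRB (h𝒞 : SubQuot p 𝒞) (red : integralClosure ℤ ℂ →+* k)
    (h : ∀ (G : Type) [Group G] [Finite G], 𝒞 G → ∀
      (B : MonoidAlgebra k G), IsBlock B → numSimpleIn B ≡ numWeightsIn p red B [MOD p])
    (G : Type) [Group G] [Finite G] [Fintype G] (hG : 𝒞 G) (g : G) (hg : p ∣ orderOf g) :
    ((Nat.card (centralizer ({g} : Set G)) * p : ℕ) : ℤ) ∣ SS p g :=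
  R2_local p red (h G hG) (fun H => h H (h𝒞.sub G H hG)) g hg

end

end P179R
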