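import Vale.Agent.P179.H166.Z8

/-!
# The sharpened commutator criterion: definition
-/

namespace P179B

open Subgroup P179H524

/-- For all finite groups `G` in `𝒞` without nontrivial normal `p`-subgroups and all
`p`-subgroups `P` of `G` with `¬ GoodSection p P`, there is an element `v` of order `p` in the
centre of `P` such that `p |C_G(g)|` divides `commSum p g` for all `g ∈ G` with `p`-part `v` for
which `P` is a Sylow `p`-subgroup of `C_G(g)`. -/
def CommDivisibleMin (p : ℕ) (𝒞 : ∀ (G : Type) [Group G], Prop) : Prop :=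
  ∀ (G : Type) [Group G] [Finite G], 𝒞 G → (∀ R : Subgroup G, R.Normal → IsPGroup p R → R = ⊥) →
    ∀ P : Subgroup G, IsPGroup p P → ¬ GoodSection p P →
      ∃ v ∈ center P, orderOf v = p ∧ ∀ g : G, (v : G) ∈ zpowers g →
        ¬ p ∣ orderOf (g * (v : G)⁻¹) → P ≤ centralizer {g} → ¬ p ∣ P.relIndex (centralizer {g}) →
          (p * Nat.card (centralizer ({g} : Set G)) : ℤ) ∣ commSum p g

end P179B
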