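import Vale.Agent.P179.H143.RDefs
import Vale.Agent.P179.H143.CBridge
import Vale.Agent.P179.H143.R5

/-!
# The final form of the reduction theorem
-/

namespace P179B

open Subgroup P179H524

universe u

section

variable {G : Type*} [Group G]

theorem isChainOf_iff (p : ℕ) (s : Finset (Subgroup G)) :
    IsChainOf p s ↔ P179A.IsPChain p s := by
  unfold IsChainOf P179A.IsPChain
  refine and_congr Iff.rfl ?_
  constructor
  · intro h Q hQ R hR _
    exact h Q hQ R hR
  · intro h Q hQ R hR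
    exact h.total hQ hR

theorem fixes_iff (x : G) (s : Finset (Subgroup G)) : Fixes x s ↔ x ∈ P179A.stab s :=
  P179A.mem_stab.symm

open Classical in
theorem commSum_eq [Finite G] [Fintype G] (p : ℕ) (g : G) : commSum p g = P179C.SS p g := by
  have := Fintype.ofFinite (Finset (Subgroup G))
  unfold commSum P179C.SS
  rw [finsum_eq_sum_of_fintype]
  have h1 : ∑ t : {t : Finset (Subgroup G) × G × G // IsChainOf p t.1 ∧ Fixes t.2.1 t.1 ∧
      Fixes t.2.2 t.1 ∧ t.2.1 * t.2.2 * t.2.1⁻¹ * t.2.2⁻¹ = g}, (-1 : ℤ) ^ t.1.1.card =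
      ∑ t : Finset (Subgroup G) × G × G, if (IsChainOf p t.1 ∧ Fixes t.2.1 t.1 ∧
      Fixes t.2.2 t.1 ∧ t.2.1 * t.2.2 * t.2.1⁻¹ * t.2.2⁻¹ = g) then (-1 : ℤ) ^ t.1.card else 0 := by
    rw [← Finset.sum_filter]
    symm
    exact Finset.sum_subtype _ (by simp) _
  rw [h1, Fintype.sum_prod_type_right, Finset.sum_filter]
  refine Finset.sum_congr rfl fun t _ => ?_
  by_cases ht : t.1 * t.2 * t.1⁻¹ * t.2⁻¹ = g
  · rw [if_pos ht]
    unfold P179A.W
    have h2 : ((P179A.chains p G).filter fun s => t.1 ∈ P179A.stab s ∧ t.2 ∈ P179A.stab s) =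
        Finset.univ.filter fun s => (IsChainOf p s ∧ Fixes t.1 s ∧ Fixes t.2 s ∧
          t.1 * t.2 * t.1⁻¹ * t.2⁻¹ = g) := by
      ext s
      rw [Finset.mem_filter, P179A.mem_chains, Finset.mem_filter, isChainOf_iff, fixes_iff,
        fixes_iff]
      simp only [Finset.mem_univ, true_and, ht, and_true]
    rw [h2, Finset.sum_filter]
  · rw [if_neg ht]
    refine Finset.sum_eq_zero fun s _ => ?_
    rw [if_neg fun h => ht h.2.2.2]

end

/-- **Theorem R**, from the wreath product formula -/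
theorem theoremR_final (p : ℕ) [hp : Fact p.Prime] {k : Type u} [Field k] [IsAlgClosed k]
    [CharP k p] (hW : P179R.WrStmt p k) :
    (∀ (𝒞 : ∀ (G : Type) [Group G], Prop), WreathClosed p 𝒞 →
      ((∀ red : integralClosure ℤ ℂ →+* k, WeightConj p red 𝒞) ↔
        ∀ red : integralClosure ℤ ℂ →+* k, WeightConjMod p red 𝒞)) ∧
    ∀ (red : integralClosure ℤ ℂ →+* k) (𝒞 : ∀ (G : Type) [Group G], Prop), WreathClosed p 𝒞 →
      SectionClosed p 𝒞 →
      List.TFAE [WeightConj p red 𝒞, WeightConjMod p red 𝒞, CommDivisible p 𝒞,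
        CommDivisibleExc p 𝒞] := by
  have hA : ∀ (𝒞 : ∀ (G : Type) [Group G], Prop), WreathClosed p 𝒞 →
      (∀ red : integralClosure ℤ ℂ →+* k, WeightConjMod p red 𝒞) →
      ∀ red : integralClosure ℤ ℂ →+* k, WeightConj p red 𝒞 := by
    intro 𝒞 h𝒞 h red G _ _ hG B hB
    rw [numSimpleIn_eq, numWeightsIn_eq]
    refine P179R.theoremRA hW h𝒞 (fun red G _ _ hG B hB => ?_) red G hG B hB
    have := h red G hG B hB
    rwa [numSimpleIn_eq, numWeightsIn_eq] at this
  refine ⟨fun 𝒞 h𝒞 => ⟨fun h red G _ _ hG B hB => ?_, hA 𝒞 h𝒞⟩, fun red 𝒞 h𝒞 hsq => ?_⟩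
  · rw [h red G hG B hB]
  · have hsq' : P179R.SubQuot p 𝒞 := ⟨hsq.1, hsq.2⟩
    tfae_have 1 → 2 := fun h G _ _ hG B hB => by rw [h G hG B hB]
    tfae_have 2 → 3 := by
      intro h G _ _ hG g hg
      have := Fintype.ofFinite G
      rw [commSum_eq]
      have h1 := P179R.theoremRB hsq' red (fun G _ _ hG B hB => by
        have := h G hG B hB
        rwa [numSimpleIn_eq, numWeightsIn_eq] at this) G hG g hg
      rw [mul_comm]
      exact_mod_cast h1
    tfae_have 3 → 4 := fun h G _ _ hG g hg => h G hG g hg.2.1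
    tfae_have 4 → 1 := by
      intro h
      refine hA 𝒞 h𝒞 (fun red G _ _ hG B hB => ?_) red
      rw [numSimpleIn_eq, numWeightsIn_eq]
      refine P179R.R1_class hsq' ?_ red hG B hB
      intro G _ _ _ hG hO g hg hg2 hP
      have h1 := h G hG g ⟨hO, hg, hg2, hP⟩
      rw [commSum_eq, mul_comm] at h1
      exact_mod_cast h1
    tfae_finish

end P179B
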