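import Vale.Agent.P179.H143.RDefs2
import Vale.Agent.P179.H143.RFinal
import Vale.Agent.P179.H143.RZ2

/-!
# The final form of the reduction theorem, 2
-/

namespace P179B

open Subgroup P179H524

universe u

section

variable {G : Type} [Group G] [Finite G] [Fintype G]

/-- the divisibility for a good group, for a suitable element of the centre -/
theorem key_of_good {p : ℕ} [hp : Fact p.Prime] {R : Subgroup G} (hR : IsPGroup p R)
    (hR1 : R ≠ ⊥) (h : GoodSection p R) :
    ∃ v ∈ R, v ≠ 1 ∧ (∀ a ∈ R, a * v = v * a) ∧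
      ∀ (g : G) (q : ℕ), (∀ x : G, ∃ n : ℕ, (x ^ q) ^ (p ^ n) = 1) →
        (∀ x : G, (∃ n, x ^ p ^ n = 1) → x ^ q = x) → g ^ q = v → (∀ a ∈ R, a * g = g * a) →
        ((Nat.card R * p : ℕ) : ℤ) ∣ P179C.SS p g := by
  rcases P179B.crit_of_goodSection h with h1 | ⟨v, hv, hv1, hvc, h1⟩
  · have : Nontrivial R := (Subgroup.nontrivial_iff_ne_bot R).2 hR1
    have hc : Nontrivial (center R) := hR.center_nontrivial
    have hcp : IsPGroup p (center R) := hR.to_subgroup _
    have hdvd : p ∣ Nat.card (center R) := by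
      obtain ⟨n, hn⟩ := (IsPGroup.iff_card).1 hcp
      have h3 : 1 < Nat.card (center R) := Finite.one_lt_card
      rw [hn] at h3 ⊢
      refine dvd_pow_self p ?_
      rintro rfl
      rw [pow_zero] at h3
      exact lt_irrefl _ h3
    obtain ⟨v, hv⟩ := exists_prime_orderOf_dvd_card' p hdvd
    have hvo : orderOf ((v : R) : G) = p := by
      rw [Subgroup.orderOf_coe, Subgroup.orderOf_coe, hv]
    have hv1 : ((v : R) : G) ≠ 1 := by
      intro h2
      rw [h2, orderOf_one] at hvo
      exact hp.out.one_lt.ne hvo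
    refine ⟨((v : R) : G), (v : R).2, hv1, ?_, ?_⟩
    · intro a ha
      exact congrArg Subtype.val (Subgroup.mem_center_iff.1 v.2 ⟨a, ha⟩)
    · intro g q hq hq' hgv hRg
      refine h1 g q hq hq' (by rw [hgv]; exact hv1) ?_ R hR hRg (by rw [hgv]; exact (v : R).2)
        ⟨1, fun x hx => by rwa [inv_one, one_mul, mul_one]⟩
      rw [hgv]
      have := pow_orderOf_eq_one ((v : R) : G)
      rwa [hvo] at this
  · exact ⟨v, hv, hv1, hvc, fun g q hq hq' hgv hRg => h1 g q hq hq' hgv R le_rfl hR hRg hv⟩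

end

/-- the criterion from `CommDivisibleMin` -/
theorem keyS_of_min {p : ℕ} [hp : Fact p.Prime] {𝒞 : ∀ (G : Type) [Group G], Prop}
    (h : CommDivisibleMin p 𝒞) : P179C.KeyS p 𝒞 := by
  intro G _ _ _ R hG hO hR hR1
  by_cases hgood : GoodSection p R
  · obtain ⟨v, hv, hv1, hvc, h1⟩ := key_of_good hR hR1 hgood
    exact ⟨v, hv, hv1, hvc, fun g q hq hq' hgv hRg _ => h1 g q hq hq' hgv hRg⟩
  · obtain ⟨v, hvZ, hvo, h1⟩ := h G hG hO R hR hgood
    have hvo' : orderOf (v : G) = p := by rw [Subgroup.orderOf_coe, hvo]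
    refine ⟨v, v.2, ?_, ?_, ?_⟩
    · intro h2
      rw [h2, orderOf_one] at hvo'
      exact hp.out.one_lt.ne hvo'
    · intro a ha
      exact congrArg Subtype.val (Subgroup.mem_center_iff.1 hvZ ⟨a, ha⟩)
    · intro g q hq hq' hgv hRg hcard
      have hle : R ≤ centralizer {g} := fun a ha => mem_centralizer_singleton_iff.2 (hRg a ha)
      have hmul : Nat.card R * R.relIndex (centralizer {g}) =
          Nat.card (centralizer ({g} : Set G)) := by
        have h2 := relIndex_mul_relIndex ⊥ R (centralizer {g}) bot_le hle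
        rwa [relIndex_bot_left, relIndex_bot_left] at h2
      have hdvd := h1 g (by rw [← hgv]; exact npow_mem_zpowers g q) (by
          have h2 : g * (v : G)⁻¹ = P179C.pr p g := by
            have h3 := P179C.pow_eq_sing (p := p) hq hq' g
            rw [← hgv, h3, mul_inv_rev, inv_inv, ← mul_assoc, (P179C.pr_commute g).eq,
              mul_inv_cancel_right]
          rw [h2]
          exact P179C.pr_regular g) hle (by
          intro h2
          obtain ⟨m, hm⟩ := h2
          have hC : Nat.card (centralizer ({g} : Set G)) ≠ 0 := Nat.card_pos.ne'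
          have h3 : p ^ ((Nat.card (centralizer ({g} : Set G))).factorization p + 1) ∣
              Nat.card (centralizer ({g} : Set G)) := by
            refine ⟨m, ?_⟩
            rw [pow_succ, ← hcard, mul_assoc, ← hm, hmul]
          have h4 := (hp.out.pow_dvd_iff_le_factorization hC).1 h3
          omega)
      rw [commSum_eq] at hdvd
      refine dvd_trans ?_ hdvd
      have h2 : Nat.card R ∣ Nat.card (centralizer ({g} : Set G)) := ⟨_, hmul.symm⟩
      have h3 : Nat.card R * p ∣ p * Nat.card (centralizer ({g} : Set G)) := by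
        rw [mul_comm p]
        exact Nat.mul_dvd_mul_right h2 p
      exact_mod_cast h3

/-- `CommDivisible` implies `CommDivisibleMin` -/
theorem min_of_commDivisible {p : ℕ} [hp : Fact p.Prime] {𝒞 : ∀ (G : Type) [Group G], Prop}
    (h : CommDivisible p 𝒞) : CommDivisibleMin p 𝒞 := by
  intro G _ _ hG _ P hP hgood
  have : Nontrivial P := by
    by_contra hcon
    exact hgood (Or.inl (not_nontrivial_iff_subsingleton.1 hcon))
  have hc : Nontrivial (center P) := hP.center_nontrivial
  have hcp : IsPGroup p (center P) := hP.to_subgroup _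
  have hdvd : p ∣ Nat.card (center P) := by
    obtain ⟨n, hn⟩ := (IsPGroup.iff_card).1 hcp
    have h3 : 1 < Nat.card (center P) := Finite.one_lt_card
    rw [hn] at h3 ⊢
    refine dvd_pow_self p ?_
    rintro rfl
    rw [pow_zero] at h3
    exact lt_irrefl _ h3
  obtain ⟨v, hv⟩ := exists_prime_orderOf_dvd_card' p hdvd
  refine ⟨(v : P), v.2, by rw [Subgroup.orderOf_coe, hv], ?_⟩
  intro g hvg _ _ _
  refine h G hG g ?_
  have hvo : orderOf ((v : P) : G) = p := by
    rw [Subgroup.orderOf_coe, Subgroup.orderOf_coe, hv]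
  conv_lhs => rw [← hvo]
  exact orderOf_dvd_of_mem_zpowers hvg

/-- **Theorem R, 2**, from the wreath product formula -/
theorem theoremR_final2 (p : ℕ) [hp : Fact p.Prime] {k : Type u} [Field k] [IsAlgClosed k]
    [CharP k p] (hW : P179R.WrStmt p k) :
    (∀ (𝒞 : ∀ (G : Type) [Group G], Prop), WreathClosed p 𝒞 →
      ((∀ red : integralClosure ℤ ℂ →+* k, WeightConj p red 𝒞) ↔
        ∀ red : integralClosure ℤ ℂ →+* k, WeightConjMod p red 𝒞)) ∧
    ∀ (red : integralClosure ℤ ℂ →+* k) (𝒞 : ∀ (G : Type) [Group G], Prop), WreathClosed p 𝒞 →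
      SectionClosed p 𝒞 →
      List.TFAE [WeightConj p red 𝒞, WeightConjMod p red 𝒞, WeightConjModExc p red 𝒞,
        CommDivisible p 𝒞, CommDivisibleMin p 𝒞] := by
  obtain ⟨h1, h2⟩ := theoremR_final p hW
  refine ⟨h1, fun red 𝒞 h𝒞 hsq => ?_⟩
  have h3 := h2 red 𝒞 h𝒞 hsq
  have hsq' : P179R.SubQuot p 𝒞 := ⟨hsq.1, hsq.2⟩
  tfae_have 1 ↔ 2 := h3.out 0 1
  tfae_have 2 ↔ 4 := h3.out 1 2
  tfae_have 2 → 3 := fun h G _ _ hG _ B hB _ _ _ => h G hG B hB
  tfae_have 3 → 2 := fun h => weightConjMod_of_exc hsq h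
  tfae_have 4 → 5 := min_of_commDivisible
  tfae_have 5 → 2 := by
    intro h G _ _ hG B hB
    rw [numSimpleIn_eq, numWeightsIn_eq]
    exact P179C.class_blocks hsq' (keyS_of_min h) hG B hB
  tfae_finish

end P179B
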