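import Vale.Agent.P179.H166.Z5
import Vale.Agent.P179.H143.R4

/-!
# The sharpened commutator criterion, 1: local statements
-/

namespace P179C

open Subgroup Finset P179H524 P179A P179K P179R P179Y MonoidAlgebra

open scoped Classical

universe u

/-- The divisibility criterion for the elements with `p`-part `v` for which a Sylow `p`-subgroup
of the centraliser is contained in `R`. -/
def NewAtS (p : ℕ) {G : Type} [Group G] [Finite G] [Fintype G] (R : Subgroup G) (v : G) : Prop :=
  ∀ (g : G) (q : ℕ), (∀ x : G, ∃ n : ℕ, (x ^ q) ^ (p ^ n) = 1) →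
    (∀ x : G, (∃ n, x ^ p ^ n = 1) → x ^ q = x) → g ^ q = v →
    ∀ P : Subgroup G, P ≤ R → IsPGroup p P → (∀ a ∈ P, a * g = g * a) → v ∈ P →
      Nat.card P = p ^ (Nat.card (centralizer ({g} : Set G))).factorization p →
      ((Nat.card P * p : ℕ) : ℤ) ∣ SS p g

section Local

variable {p : ℕ} [hp : Fact p.Prime] {k : Type u} [Field k] [IsAlgClosed k] [CharP k p]
  (red : integralClosure ℤ ℂ →+* k)

omit [IsAlgClosed k] in
/-- the congruence at the classes with `p`-part conjugate to `v`, in the case `NewAtS` -/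
theorem NewAtS.dvd {G : Type} [Group G] [Fintype G] {D : Subgroup G} {v x y : G}
    (hSyl : SylCent p x D) (hx : ¬ p ∣ orderOf x) (hv : v ∈ D) (hvc : ∀ a ∈ D, a * v = v * a)
    (hnew : NewAtS p D v)
    {b : G → k} (hb : IsCF b) (hbb : conv b b = b) (hy : conv b (cls k (x * v)) y ≠ 0) :
    (p : ℤ) ^ ((Nat.card (centralizer ({y} : Set G))).factorization p + 1) ∣ SS p y := by
  have hvp : ∃ n : ℕ, v ^ p ^ n = 1 := by
    obtain ⟨a, ha⟩ := hSyl.pgp ⟨v, hv⟩
    exact ⟨a, congrArg Subtype.val ha⟩
  have hxv : Commute x v := (mem_centralizer_singleton_iff.1 (hSyl.le hv)).symm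
  obtain ⟨q, hq, hq'⟩ := exists_exponent p G
  obtain ⟨P, hP, hyP, hPC, hcard⟩ := exists_sylow_centralizer' (p := p) y q (hq y)
  obtain ⟨s, hs1, hs2⟩ := supp_mul_cls (p := p) hb hbb hx hvp hxv
    (SylCent.mul_central hSyl hv hvc hx) hy P hP hPC
  have hyq : y ^ q = y * (pr p y)⁻¹ := pow_eq_sing hq hq' y
  rw [← hyq] at hs1
  have hconj : ∀ a : G, (MulAut.conj s⁻¹).toMonoidHom a = s⁻¹ * a * s := fun a => by simp
  have h1 := hnew (s⁻¹ * y * s⁻¹⁻¹) q hq hq' (by rw [conj_pow, inv_inv]; exact hs1)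
    (P.map (MulAut.conj s⁻¹).toMonoidHom) (by
      rintro _ ⟨a, ha, rfl⟩
      rw [hconj]
      exact hs2 a ha) (hP.map _) (by
      rintro _ ⟨a, ha, rfl⟩
      have h2 := mem_centralizer_singleton_iff.1 (hPC ha)
      rw [hconj, inv_inv]
      calc s⁻¹ * a * s * (s⁻¹ * y * s) = s⁻¹ * (a * y) * s := by group
        _ = s⁻¹ * y * s * (s⁻¹ * a * s) := by rw [h2]; group) (by
      refine ⟨y ^ q, hyP, ?_⟩
      rw [hconj]
      exact hs1) (by
      rw [Subgroup.card_map_of_injective (MulAut.conj s⁻¹).injective, hcard,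
        card_centralizer_conj])
  rw [SS_conj, Subgroup.card_map_of_injective (MulAut.conj s⁻¹).injective, hcard] at h1
  rw [pow_succ]
  exact_mod_cast h1

omit [IsAlgClosed k] in
/-- **(R2) for one element**: from the congruences at the class of `g` -/
theorem dvd_SS_of_cong {G : Type} [Group G] [Finite G] [Fintype G]
    (O : ValuationSubring ℂ) [CharP (IsLocalRing.ResidueField O) p]
    (hred : ∀ (a : ℂ) (ha : a ∈ integralClosure ℤ ℂ), O.valuation a < 1 ↔ red ⟨a, ha⟩ = 0)
    {g : G} (hg : p ∣ orderOf g)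
    (hG1 : Cong O (Nat.card G) (nL p (ind (ConjClasses.mk g))) (nW p (ind (ConjClasses.mk g))))
    (hH : ∀ s : Finset (Subgroup G), IsPChain p s → s.Nonempty →
      Cong O (Nat.card (stab s)) (nL p (res (stab s) (ind (ConjClasses.mk g))))
        (nW p (res (stab s) (ind (ConjClasses.mk g))))) :
    ((Nat.card (centralizer ({g} : Set G)) * p : ℕ) : ℤ) ∣ SS p g := by
  have hG0 : Nat.card G ≠ 0 := Nat.card_pos.ne'
  have hGC : (Nat.card G : ℂ) ≠ 0 := by exact_mod_cast hG0
  set z : G → ℤ := ind (ConjClasses.mk g) with hzdef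
  have hz : IsCF z := isCF_ind _
  have hz1 : ∀ x, z x ≠ 0 → IsConj g x := by
    intro x hx
    by_contra h
    apply hx
    rw [hzdef]
    unfold ind
    rw [if_neg]
    intro h2
    exact h (ConjClasses.mk_eq_mk_iff_isConj.1 h2).symm
  have hzs : ∀ x, z x ≠ 0 → p ∣ orderOf x := by
    intro x hx
    obtain ⟨c, rfl⟩ := isConj_iff.1 (hz1 x hx)
    have h3 : orderOf (c * g * c⁻¹) = orderOf g := by
      have := MulEquiv.orderOf_eq (MulAut.conj c) g
      simpa using this
    rw [h3]; exact hg
  -- the alternating sum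
  have := Fintype.ofFinite (neChains p G)
  have hB := stepL p G z hz
  have hC := KR_W p z hz
  have hF : O.valuation ((∑ s : neChains p G, (-1 : ℂ) ^ s.1.card *
      ((nL p (res (stab s.1) z) : ℂ) - nW p (res (stab s.1) z))) / Nat.card G) < 1 := by
    refine orb_sum_val O (fun s : neChains p G => (-1 : ℂ) ^ s.1.card *
      ((nL p (res (stab s.1) z) : ℂ) - nW p (res (stab s.1) z))) ?_ ?_
    · intro g s
      have key : ∀ t : Finset (Subgroup G), (-1 : ℂ) ^ (g • t).card *
          ((nL p (res (stab (g • t)) z) : ℂ) - nW p (res (stab (g • t)) z)) =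
          (-1 : ℂ) ^ t.card * ((nL p (res (stab t) z) : ℂ) - nW p (res (stab t) z)) := by
        intro t
        rw [card_smul, ← nL_comp (stabEquiv g t), ← nW_comp (stabEquiv g t),
          res_stab_smul hz g t]
      exact key s.1
    · intro s
      rw [stabilizer_neChains, mul_div_assoc, map_mul, map_pow]
      have h3 : O.valuation (-1 : ℂ) = 1 := by rw [Valuation.map_neg, map_one]
      rw [h3, one_pow, one_mul]
      exact hH s.1 s.2.1 s.2.2
  have hE : O.valuation (((nL p z : ℂ) - nW p z) / Nat.card G) < 1 := hG1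
  have e' : ∃ e : G ≃* stab (∅ : Finset (Subgroup G)), ∀ x, (e x : G) = x := by
    rw [P179K.stab_empty]; exact ⟨topEquiv.symm, fun _ => rfl⟩
  obtain ⟨e, he⟩ := e'
  have h4 : (fun x => res (stab (∅ : Finset (Subgroup G))) z (e x)) = z := by
    ext x
    exact congrArg z (he x)
  have hD : O.valuation ((∑ s ∈ chains p G, (-1 : ℂ) ^ s.card *
      ((nL p (res (stab s) z) : ℂ) - nW p (res (stab s) z))) / Nat.card G) < 1 := by
    rw [sum_chains_eq', add_div]
    refine O.valuation.map_add_lt ?_ hF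
    rw [Finset.card_empty, pow_zero, one_mul, ← nL_comp e, ← nW_comp e, h4]
    exact hE
  -- hence `FF p z ≡ |G| dz z`
  have hFF : O.valuation (((FF p z : ℤ) : ℂ) / Nat.card G) < 1 := by
    have h2 : ((FF p z : ℤ) : ℂ) / Nat.card G =
        ((∑ s ∈ chains p G, (-1) ^ s.card *
          (nTr (res (stab s) z) - nL p (res (stab s) z)) : ℤ) : ℂ) / Nat.card G +
        ((∑ s ∈ chains p G, (-1 : ℂ) ^ s.card *
          ((nL p (res (stab s) z) : ℂ) - nW p (res (stab s) z))) / Nat.card G + dz p z) := by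
      have h5 : dz p z = (∑ s ∈ chains p G, (-1) ^ s.card * nW p (res (stab s) z)) /
          Nat.card G := by
        rw [hC, mul_div_cancel_left₀ _ hGC]
      rw [h5, ← add_div, ← add_div]
      congr 1
      unfold FF
      push_cast
      simp only [← Finset.sum_add_distrib]
      exact Finset.sum_congr rfl fun s _ => by ring
    rw [h2]
    refine O.valuation.map_add_lt (valuation_of_dvd O hG0 hB) (O.valuation.map_add_lt hD ?_)
    have h6 := dz_sing p O z hz hzs
    unfold Cong at h6
    rwa [Nat.cast_one, div_one, sub_zero] at h6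
  -- divisibility
  obtain ⟨t, ht⟩ := card_dvd_FF (p := p) z hz
  rw [ht] at hFF
  have h7 : (((Nat.card G : ℤ) * t : ℤ) : ℂ) / Nat.card G = (t : ℂ) := by
    push_cast
    rw [mul_div_cancel_left₀ _ hGC]
  rw [h7] at hFF
  have h8 : (p : ℤ) ∣ t := by
    have h9 : (t : ℂ) ∈ integralClosure ℤ ℂ := intCast_mem _ t
    have h10 := (hred _ h9).mp hFF
    have h11 : (⟨(t : ℂ), h9⟩ : integralClosure ℤ ℂ) = ((t : ℤ) : integralClosure ℤ ℂ) := rfl
    rw [h11, map_intCast] at h10
    exact (CharP.intCast_eq_zero_iff k p t).1 h10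
  have h12 : FF p z = (Nat.card (MulAction.orbit (ConjAct G) g) : ℤ) * SS p g := by
    rw [FF_eq_SS]
    have h13 : ∀ x : G, z x * SS p x = if x ∈ MulAction.orbit (ConjAct G) g then SS p g else 0 := by
      intro x
      by_cases hx : x ∈ MulAction.orbit (ConjAct G) g
      · rw [if_pos hx]
        obtain ⟨c, hc⟩ := hx
        obtain ⟨c, rfl⟩ := ConjAct.toConjAct.surjective c
        have h14 : c * g * c⁻¹ = x := by rw [← ConjAct.toConjAct_smul]; exact hc
        have h15 : z x = 1 := by
          rw [← h14, hz, hzdef]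
          unfold ind
          rw [if_pos rfl]
        rw [h15, one_mul, ← h14, SS_conj]
      · rw [if_neg hx]
        have h15 : z x = 0 := by
          by_contra h15
          apply hx
          obtain ⟨c, hc⟩ := isConj_iff.1 (hz1 x h15)
          refine ⟨ConjAct.toConjAct c, ?_⟩
          change ConjAct.toConjAct c • g = x
          rw [ConjAct.toConjAct_smul, hc]
        rw [h15, zero_mul]
    rw [Finset.sum_congr rfl fun x _ => h13 x, ← Finset.sum_filter, Finset.sum_const, nsmul_eq_mul]
    congr 2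
    rw [← Fintype.card_subtype, ← Nat.card_eq_fintype_card]
  obtain ⟨c, hc⟩ := h8
  have h15 := card_orbit_conj g
  have ho : (Nat.card (MulAction.orbit (ConjAct G) g) : ℤ) ≠ 0 := by
    intro h0
    have : Nat.card (MulAction.orbit (ConjAct G) g) = 0 := by exact_mod_cast h0
    rw [this, zero_mul] at h15
    exact hG0 h15.symm
  refine ⟨c, ?_⟩
  apply mul_left_cancel₀ ho
  rw [← h12, ht, hc, ← h15]
  push_cast
  ring

end Local

/-- a block not annihilated by a class function has a defect group centralising an element of its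
support -/
theorem exists_of_centralChar_ne (p : ℕ) [hp : Fact p.Prime] {k : Type u} [Field k]
    [IsAlgClosed k] [CharP k p] {G : Type} [Group G] [Fintype G] {B : MonoidAlgebra k G}
    (hB : IsBlock B) {D : Subgroup G} (hD : IsDefectGroup B D)
    {Z : MonoidAlgebra k G} (hZ : Z ∈ Subalgebra.center k (MonoidAlgebra k G))
    (h : centralChar B Z ≠ 0) : ∃ y, Z.coeff y ≠ 0 ∧ D ≤ centralizer {y} := by
  obtain ⟨x, l, hl, hlz, hBx, hlx, hSyl, hxreg⟩ := exists_elt_of_block (p := p) hB hD
  have hDp : IsPGroup p D := hSyl.pgp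
  obtain ⟨w, hw, hBw⟩ := exists_mul_of_centralChar_ne hB hZ h
  have h1 : conv (fun g => Z.coeff g) (fun g => w.coeff g) x ≠ 0 := by
    rw [← coeff_mul_eq_conv, ← hBw]
    exact hBx
  have hZcf : IsCF (fun g => Z.coeff g) := (P179C.mem_center_iff _).1 hZ
  have hwcf : IsCF (fun g => w.coeff g) := (P179C.mem_center_iff _).1 hw
  obtain ⟨y, hDy, hy⟩ := exists_of_conv_ne p D hDp hSyl.le (fun q _ => hZcf q)
    (fun q _ => hwcf q) h1
  exact ⟨y, hy, hDy⟩

end P179C
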