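import Vale.Agent.P179.H143.LemW
import Vale.Agent.P179.H166.BrauerHom

/-!
# Characters which agree on `p`-regular elements lie in the same block
-/

namespace P179C

open Finset P179H524 Subgroup

open scoped Classical

universe u

variable {k : Type*} [Field k] {H : Type*} [Group H] [Fintype H]

omit [Fintype H] in
/-- The unit of the convolution is a class function. -/
theorem cv_delta_isCF {R : Type*} [CommRing R] : IsCF (fun g : H => if g = 1 then (1 : R) else 0) := by
  intro g x
  have h1 : g * x * g⁻¹ = 1 ↔ x = 1 := by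
    rw [mul_inv_eq_one]
    constructor
    · intro h
      exact mul_left_cancel (a := g) (by rw [h, mul_one])
    · intro h; rw [h, mul_one]
  simp only [h1]

/-- convolution powers -/
noncomputable def cpw {R : Type*} [CommRing R] (a : H → R) : ℕ → H → R
  | 0 => fun g => if g = 1 then 1 else 0
  | n + 1 => conv (cpw a n) a

theorem cpw_isCF {R : Type*} [CommRing R] {a : H → R} (ha : IsCF a) (n : ℕ) : IsCF (cpw a n) := by
  induction n with
  | zero => exact cv_delta_isCF
  | succ n ih => exact isCF_conv ih ha

theorem cpw_eq_cv {R : Type*} [CommRing R] {a : H → R} (n : ℕ) (y : H) :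
    cpw a n y = (cv a)^[n] (fun g => if g = 1 then (1 : R) else 0) y⁻¹ := by
  rw [cv_iterate]
  induction n generalizing y with
  | zero => simp [cpw, wprod, inv_eq_one]
  | succ n ih =>
    rw [cpw, conv]
    rw [← Equiv.sum_comp (Fin.snocEquiv fun _ : Fin (n + 1) => H), Fintype.sum_prod_type]
    have h0 : ∀ (g : H) (w : Fin n → H),
        wprod (Fin.snocEquiv (fun _ : Fin (n + 1) => H) (g, w)) = wprod w * g := by
      intro g w
      rw [wprod, wprod, List.ofFn_succ', List.concat_eq_append, List.prod_append,
        List.prod_singleton]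
      simp [Fin.snocEquiv]
    have h2 : ∀ (g : H) (w : Fin n → H),
        ∏ j, a (Fin.snocEquiv (fun _ : Fin (n + 1) => H) (g, w) j) = (∏ j, a (w j)) * a g := by
      intro g w
      rw [Fin.prod_univ_castSucc]
      simp [Fin.snocEquiv]
    simp only [h0, h2]
    rw [← Equiv.sum_comp ((Equiv.inv H).trans (Equiv.mulLeft y))]
    refine Finset.sum_congr rfl fun g _ => ?_
    have h3 : ((Equiv.inv H).trans (Equiv.mulLeft y)) g = y * g⁻¹ := rfl
    rw [h3, ih, Finset.sum_mul]
    refine Finset.sum_congr rfl fun w _ => ?_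
    have h4 : (y * g⁻¹)⁻¹ * y = g := by group
    have h5 : wprod w * (y * g⁻¹)⁻¹ = wprod w * g * y⁻¹ := by group
    rw [h4, h5]
    ring

theorem lam_cpw (red : integralClosure ℤ ℂ →+* k) {χ : H → ℂ} (hχ : IsIrrChar χ) {a : H → k}
    (ha : IsCF a) (n : ℕ) : lam red χ (cpw a n) = lam red χ a ^ n := by
  induction n with
  | zero => rw [cpw, pow_zero]; exact lam_one red hχ
  | succ n ih => rw [cpw, lam_conv red hχ (cpw_isCF ha n) ha, ih, pow_succ]

/-- `p`-power convolution powers are supported on the `p`-regular elements. -/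
theorem cpw_sing (p : ℕ) [hp : Fact p.Prime] [CharP k p] {a : H → k} (ha : IsCF a) {m : ℕ}
    (hm : (Nat.card H).factorization p ≤ m) {y : H} (hy : p ∣ orderOf y) :
    cpw a (p ^ m) y = 0 := by
  rw [cpw_eq_cv]
  have h1 := lemW p a (fun g => if g = 1 then (1 : k) else 0) ha cv_delta_isCF y⁻¹ (by
    intro q hq
    rw [if_neg]
    rintro rfl
    have h2 : pr p (1 : H) = 1 := pr_of_regular (p := p) (by
      rw [orderOf_one]; exact hp.out.one_lt.ne' ∘ Nat.dvd_one.1)
    rw [h2, inv_one, mul_one] at hq
    have h3 : y⁻¹ = pr p y⁻¹ := mul_inv_eq_one.1 hq.symm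
    have h4 := pr_regular (p := p) y⁻¹
    rw [← h3, orderOf_inv] at h4
    exact h4 hy) m hm
  rw [CharP.cast_eq_zero, zero_pow (Nat.succ_ne_zero _)] at h1
  exact zero_dvd_iff.1 h1

/-- **Osima.** A central idempotent is supported on the `p`-regular elements. -/
theorem osima (p : ℕ) [hp : Fact p.Prime] [CharP k p] {G : Type*} [Group G] [Finite G]
    (e : MonoidAlgebra k G) (he : e ∈ Subalgebra.center k (MonoidAlgebra k G)) (hee : e * e = e)
    {g : G} (hg : p ∣ orderOf g) : e.coeff g = 0 := by
  have := Fintype.ofFinite G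
  have hcf : IsCF (fun h => e.coeff h) := (mem_center_iff e).1 he
  have h1 : ∀ n : ℕ, cpw (fun h => e.coeff h) (n + 1) = fun h => e.coeff h := by
    intro n
    induction n with
    | zero =>
      ext y
      have h0 : cpw (fun h => e.coeff h) 0 = fun h => (1 : MonoidAlgebra k G).coeff h := by
        ext h
        rw [cpw, MonoidAlgebra.one_def, MonoidAlgebra.coeff_single, Finsupp.single_apply]
        simp only [eq_comm]
      rw [cpw, h0, ← coeff_mul_eq_conv, one_mul]
    | succ n ih =>
      ext y
      rw [cpw, ih, ← coeff_mul_eq_conv, hee]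
  obtain ⟨n, hn⟩ : ∃ n, p ^ (Nat.card G).factorization p = n + 1 :=
    ⟨p ^ (Nat.card G).factorization p - 1, by
      have := pow_pos hp.out.pos ((Nat.card G).factorization p); omega⟩
  have h2 := cpw_sing p hcf (m := (Nat.card G).factorization p) le_rfl hg
  rwa [hn, h1] at h2

/-- The central characters mod `p` of irreducible characters which agree on `p`-regular elements. -/
theorem lam_eq_of_reg (p : ℕ) [hp : Fact p.Prime] [CharP k p] (red : integralClosure ℤ ℂ →+* k)
    {χ ψ : H → ℂ} (hχ : IsIrrChar χ) (hψ : IsIrrChar ψ)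
    (h : ∀ g : H, ¬ p ∣ orderOf g → χ g = ψ g) {a : H → k} (ha : IsCF a) :
    lam red χ a = lam red ψ a := by
  set m := (Nat.card H).factorization p with hm
  have h1 : lam red χ (cpw a (p ^ m)) = lam red ψ (cpw a (p ^ m)) := by
    have := Fintype.ofFinite (ConjClasses H)
    unfold lam
    rw [finsum_eq_sum_of_fintype, finsum_eq_sum_of_fintype]
    refine Finset.sum_congr rfl fun D _ => ?_
    by_cases hD : p ∣ orderOf D.out
    · rw [cpw_sing p ha le_rfl hD, zero_mul, zero_mul]
    · congr 2
      unfold om
      rw [finsum_eq_sum_of_fintype, finsum_eq_sum_of_fintype, h 1 (by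
        rw [orderOf_one]; exact hp.out.one_lt.ne' ∘ Nat.dvd_one.1)]
      congr 1
      refine Finset.sum_congr rfl fun g _ => ?_
      by_cases hg : ConjClasses.mk g = D
      · have hc : IsConj D.out g := by
          rw [← ConjClasses.mk_eq_mk_iff_isConj, hg]
          exact Quot.out_eq _
        obtain ⟨t, ht⟩ := isConj_iff.1 hc
        have h5 : orderOf g = orderOf D.out := by rw [← ht, orderOf_conj]
        rw [h g (by rwa [h5])]
      · have : ind D g = 0 := by
          unfold ind
          rw [if_neg hg]
        rw [this]; simp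
  rw [lam_cpw red hχ ha, lam_cpw red hψ ha] at h1
  have h2 : Function.Injective (fun x : k => x ^ p ^ m) := by
    have h3 := iterateFrobenius_inj k p m
    intro x y hxy
    apply h3
    simpa [iterateFrobenius_def] using hxy
  exact h2 h1

/-- **(N1')** Irreducible characters which agree on `p`-regular elements lie in the same block. -/
theorem charInBlock_of_reg (p : ℕ) [hp : Fact p.Prime] [CharP k p]
    (red : integralClosure ℤ ℂ →+* k) {G : Type*} [Group G] [Finite G] {χ ψ : G → ℂ}
    (hχ : IsIrrChar χ) (hψ : IsIrrChar ψ) (h : ∀ g : G, ¬ p ∣ orderOf g → χ g = ψ g)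
    {B : MonoidAlgebra k G} (hB : CharInBlock red χ B) : CharInBlock red ψ B := by
  have := Fintype.ofFinite G
  intro g
  rw [hB g, ← om_ind hχ g, ← om_ind hψ g, ← lam_int red hχ (isCF_ind _),
    ← lam_int red hψ (isCF_ind _)]
  exact lam_eq_of_reg p red hχ hψ h fun t x => by rw [isCF_ind (ConjClasses.mk g) t x]

end P179C
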