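import Vale.Agent.P179.H143.Cong
import Vale.Agent.P179.H234.AG

/-!
# (SIGN) comparison of the degrees of the local characters
-/

namespace P179Y

open P179H524 P179C P179A Finset P179P

open P179X (pp SameSec)

open scoped Classical

open Polynomial in
/-- reduction of the value of a polynomial at a `p`-power root of unity -/
theorem red_aeval_root {k : Type*} [Field k] (p : ℕ) [hp : Fact p.Prime] [CharP k p]
    (red : AA →+* k) {ζ : AA} {a : ℕ} (hζ : ζ ^ p ^ a = 1) (P : ℤ[X]) :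
    red (aeval ζ P) = ((P.eval 1 : ℤ) : k) := by
  have h1 : red ζ = 1 := by
    have h2 : (red ζ) ^ p ^ a = 1 ^ p ^ a := by rw [← map_pow, hζ, map_one, one_pow]
    have h3 := iterateFrobenius_inj k p a
    apply h3
    simpa [iterateFrobenius_def] using h2
  have h4 : red (aeval ζ P) = aeval (red ζ) P := by
    rw [aeval_def, aeval_def, hom_eval₂]
    congr 1
    exact RingHom.ext_int _ _
  rw [h4, h1, aeval_def, eval₂_at_one]
  simp

section

variable {k : Type*} [Field k] (p : ℕ) [hp : Fact p.Prime] [CharP k p]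
  (red : integralClosure ℤ ℂ →+* k) {G : Type*} [Group G] [Fintype G]

/-- (K5), for the block idempotent `e` of `lres H l` -/
def K5P (H : Subgroup G) (l : (G → k) → k) (u : G) (κ : k) : Prop :=
  ∀ e : H → k, IsCF e → conv e e = e → lres H l e = 1 →
    (∀ ψ : Irr H, lam red ψ.1 e = if InL red (lres H l) ψ.1 then 1 else 0) →
    l (trG H (fun x => ext H e (u⁻¹ * x))) = κ

/-- **(CONG)** -/
theorem cong (H : Subgroup G) {l : (G → k) → k} {q : ℕ} (hq : q ≠ 0) {φ : H → ℂ}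
    (hφ : ND red p (lres H l) q φ) {a b : ℕ} (hb : ¬ p ∣ b)
    (hab : (a : ℂ) * Nat.card H = b * (q * φ 1))
    (u : G) (hH : ∀ x, x ∈ H ↔ x * u = u * x) (hsmul : ∀ (c : k) a, l (c • a) = c * l a)
    {κ : k} (hK5 : K5P red H l u κ) (χ : Irr G) (hχ : InL red l χ.1) :
    ∃ X : AA, (X : ℂ) * (q * χ.1 1) = a * Nat.card G * dn p H q φ u χ.1 ∧ red X = b * κ := by
  obtain ⟨E, e, hEcf, hE, hEe, hecf, hconv, hle, -, hlam⟩ := exists_idem p red hφ hb hab
  obtain ⟨X, hX, hX2⟩ := cong_aux p red H hq hab u hH hEcf hE hEe χ hχ hsmul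
  refine ⟨X, ?_, ?_⟩
  · have h1 : (Nat.card G : ℂ) = Nat.card H * H.index := by
      rw [← Nat.cast_mul, Subgroup.card_mul_index]
    rw [h1]
    calc (X : ℂ) * (q * χ.1 1) = q * (X * χ.1 1) := by ring
      _ = (b * (q * φ 1)) * H.index * dn p H q φ u χ.1 := by rw [hX]; ring
      _ = _ := by rw [← hab]; ring
  · rw [hX2, hK5 e hecf hconv hle hlam]

theorem dn_ne_zero (H : Subgroup G) {l : (G → k) → k} {q : ℕ} (hq : q ≠ 0) {φ : H → ℂ}
    (hφ : ND red p (lres H l) q φ) {a b : ℕ} (hb : ¬ p ∣ b)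
    (hab : (a : ℂ) * Nat.card H = b * (q * φ 1))
    (u : G) (hH : ∀ x, x ∈ H ↔ x * u = u * x) (hsmul : ∀ (c : k) a, l (c • a) = c * l a)
    {κ : k} (hκ : κ ≠ 0) (hK5 : K5P red H l u κ) (χ : Irr G) (hχ : InL red l χ.1) :
    dn p H q φ u χ.1 ≠ 0 := by
  obtain ⟨X, hX, hX2⟩ := cong p red H hq hφ hb hab u hH hsmul hK5 χ hχ
  intro h0
  rw [h0, mul_zero] at hX
  have hq0 : (q : ℂ) ≠ 0 := by exact_mod_cast hq
  rcases mul_eq_zero.1 hX with h | h
  · have : X = 0 := Subtype.ext h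
    rw [this, map_zero] at hX2
    have hb0 : (b : k) ≠ 0 := by
      rw [Ne, CharP.cast_eq_zero_iff k p]; exact hb
    exact mul_ne_zero hb0 hκ hX2.symm
  · exact mul_ne_zero hq0 χ.one_ne_zero h

omit hp [Fintype G] in
theorem mem_pow_iff (H : Subgroup G) {u : G} (hH : ∀ x, x ∈ H ↔ x * u = u * x) {j : ℕ}
    (hj : (orderOf u).Coprime j) : ∀ x, x ∈ H ↔ x * u ^ j = u ^ j * x := by
  intro x
  rw [hH]
  constructor
  · intro h
    exact (Commute.pow_right (show Commute x u from h) j).eq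
  · intro h
    obtain ⟨i, hi⟩ := exists_pow_eq_self_of_coprime hj.symm
    have h1 : Commute x ((u ^ j) ^ i) := Commute.pow_right (show Commute x (u ^ j) from h) i
    rw [hi] at h1
    exact h1.eq

/-- `|d^u_χ| = 1` if the block has `q` irreducible characters. -/
theorem norm_dn_eq_one (H : Subgroup G) {l : (G → k) → k} {q : ℕ} (hq : q ≠ 0) {φ : H → ℂ}
    (hcard : Nat.card {χ : Irr G // InL red l χ.1} = q)
    (hφ : ND red p (lres H l) q φ) {a b : ℕ} (hb : ¬ p ∣ b)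
    (hab : (a : ℂ) * Nat.card H = b * (q * φ 1))
    (u : G) {c : ℕ} (hu : u ^ p ^ c = 1) (hH : ∀ x, x ∈ H ↔ x * u = u * x)
    (hsmul : ∀ (c : k) a, l (c • a) = c * l a)
    {κ : k} (hκ : κ ≠ 0) (hK5 : K5P red H l u κ) (χ : Irr G) (hχ : InL red l χ.1) :
    ‖dn p H q φ u χ.1‖ = 1 := by
  set N := p ^ c with hN
  have hN0 : N ≠ 0 := pow_ne_zero _ hp.out.ne_zero
  have hNpos : 0 < N := Nat.pos_of_ne_zero hN0
  set ζ : ℂ := Complex.exp (2 * Real.pi * Complex.I / N) with hζdef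
  have hζ : IsPrimitiveRoot ζ N := Complex.isPrimitiveRoot_exp N hN0
  have hPex : ∀ ψ : Irr G, ∃ P : Polynomial ℤ, ∀ j : ℕ,
      dn p H q φ (u ^ j) ψ.1 = Polynomial.aeval (ζ ^ j) P := fun ψ =>
    dn_poly p red H hq hφ u hu hN0 hH ψ hζ
  choose P hP using hPex
  have hP1 : ∀ ψ, dn p H q φ u ψ.1 = Polynomial.aeval ζ (P ψ) := by
    intro ψ
    have := hP ψ 1
    rwa [pow_one, pow_one] at this
  have hne : ∀ ψ : Irr G, InL red l ψ.1 → Polynomial.aeval ζ (P ψ) ≠ 0 := by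
    intro ψ hψ
    rw [← hP1]
    exact dn_ne_zero p red H hq hφ hb hab u hH hsmul hκ hK5 ψ hψ
  set J := (range N).filter (fun j => j.Coprime N) with hJ
  have hag : ∀ ψ : Irr G, InL red l ψ.1 →
      (N.totient : ℝ) ≤ ∑ j ∈ J, ‖Polynomial.aeval (ζ ^ j) (P ψ)‖ ^ 2 := fun ψ hψ =>
    (P179H234.ag hNpos hζ (P ψ) (hne ψ hψ)).1
  have hcardJ : (J.card : ℝ) = N.totient := by
    have h1 : J.card = N.totient := by
      rw [hJ, Nat.totient_eq_card_coprime]
      congr 1
      ext j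
      simp only [mem_filter, mem_range, Nat.coprime_comm]
    rw [h1]
  -- the norms
  have hnorm : ∀ j ∈ J, ∑ ψ : Irr G, ‖Polynomial.aeval (ζ ^ j) (P ψ)‖ ^ 2 = q := by
    intro j hj
    have hjN : j.Coprime N := (mem_filter.1 hj).2
    have hjo : (orderOf u).Coprime j := by
      have h1 : orderOf u ∣ N := orderOf_dvd_of_pow_eq_one hu
      exact (Nat.Coprime.coprime_dvd_right h1 hjN).symm
    have h2 := gram_self p red H hq hφ (u ^ j) ⟨c, by rw [← pow_mul, mul_comm, pow_mul, hu, one_pow]⟩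
      (mem_pow_iff H hH hjo)
    have h3 : ((∑ ψ : Irr G, ‖Polynomial.aeval (ζ ^ j) (P ψ)‖ ^ 2 : ℝ) : ℂ) = q := by
      rw [← h2]
      push_cast
      refine Finset.sum_congr rfl fun ψ _ => ?_
      rw [hP ψ j, Complex.mul_conj, Complex.normSq_eq_norm_sq]
      push_cast
      rfl
    exact_mod_cast h3
  have htot : ∑ ψ : Irr G, ∑ j ∈ J, ‖Polynomial.aeval (ζ ^ j) (P ψ)‖ ^ 2 = N.totient * q := by
    rw [Finset.sum_comm, Finset.sum_congr rfl hnorm, Finset.sum_const, nsmul_eq_mul, hcardJ]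
  have hle : ∑ j ∈ J, ‖Polynomial.aeval (ζ ^ j) (P χ)‖ ^ 2 ≤ (N.totient : ℝ) := by
    set L := univ.filter fun ψ : Irr G => InL red l ψ.1 with hL
    have hLcard : (L.card : ℝ) = q := by
      have : L.card = q := by
        rw [← hcard, Nat.card_eq_fintype_card, Fintype.card_subtype]
      rw [this]
    have h1 : ∑ ψ ∈ L, ∑ j ∈ J, ‖Polynomial.aeval (ζ ^ j) (P ψ)‖ ^ 2 ≤ N.totient * q := by
      rw [← htot]
      exact Finset.sum_le_sum_of_subset_of_nonneg (Finset.subset_univ _) fun ψ _ _ =>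
        Finset.sum_nonneg fun j _ => by positivity
    have hχL : χ ∈ L := mem_filter.2 ⟨mem_univ _, hχ⟩
    rw [← Finset.add_sum_erase _ _ hχL] at h1
    have h2 : ((L.erase χ).card : ℝ) * N.totient ≤
        ∑ ψ ∈ L.erase χ, ∑ j ∈ J, ‖Polynomial.aeval (ζ ^ j) (P ψ)‖ ^ 2 := by
      rw [← nsmul_eq_mul, ← Finset.sum_const]
      exact Finset.sum_le_sum fun ψ hψ => hag ψ (mem_filter.1 (mem_of_mem_erase hψ)).2
    have h3 : ((L.erase χ).card : ℝ) = q - 1 := by
      rw [Finset.card_erase_of_mem hχL, Nat.cast_sub (Finset.card_pos.2 ⟨χ, hχL⟩), hLcard]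
      simp
    rw [h3] at h2
    nlinarith
  have h1 := (P179H234.ag hNpos hζ (P χ) (hne χ hχ)).2 hle 1 (Nat.coprime_one_left N)
  rw [pow_one] at h1
  rw [hP1]
  exact h1

/-- **(SIGN)** -/
theorem sign_aux (H : Subgroup G) {l : (G → k) → k} {q : ℕ} (hq : q ≠ 0) {φG : G → ℂ} {φ : H → ℂ}
    (hG : ND red p l q φG) (hφ : ND red p (lres H l) q φ) {a b a' b' : ℕ} (hb' : ¬ p ∣ b')
    (hab : (a : ℂ) * Nat.card G = b * (q * φG 1))
    (hab' : (a' : ℂ) * Nat.card H = b' * (q * φ 1))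
    (u : G) {c : ℕ} (hu : u ^ p ^ c = 1) (hH : ∀ x, x ∈ H ↔ x * u = u * x)
    (hsmul : ∀ (c : k) a, l (c • a) = c * l a) (hK5 : K5P red H l u 1) :
    ((b' : k) * a) ^ 2 = (a' * b) ^ 2 := by
  set χ : Irr G := ⟨φG, hG.irr⟩ with hχdef
  have hχ : InL red l χ.1 := hG.mem
  obtain ⟨X, hX, hX2⟩ := cong p red H hq hφ hb' hab' u hH hsmul hK5 χ hχ
  have hnorm := norm_dn_eq_one p red H hq hG.card hφ hb' hab' u hu hH hsmul one_ne_zero hK5 χ hχ
  set N := p ^ c with hN
  have hN0 : N ≠ 0 := pow_ne_zero _ hp.out.ne_zero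
  have hNpos : 0 < N := Nat.pos_of_ne_zero hN0
  set ζ : ℂ := Complex.exp (2 * Real.pi * Complex.I / N) with hζdef
  have hζ : IsPrimitiveRoot ζ N := Complex.isPrimitiveRoot_exp N hN0
  obtain ⟨P, hP⟩ := dn_poly p red H hq hφ u hu hN0 hH χ hζ
  have hP1 : dn p H q φ u χ.1 = Polynomial.aeval ζ P := by
    have := hP 1
    rwa [pow_one, pow_one] at this
  -- the root of unity as an algebraic integer
  have hζint : ζ ∈ integralClosure ℤ ℂ := hζ.isIntegral hNpos
  set z : AA := ⟨ζ, hζint⟩ with hz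
  have hzN : z ^ N = 1 := Subtype.ext (by
    push_cast
    exact hζ.pow_eq_one)
  have hz' : (z ^ (N - 1)) ^ N = 1 := by
    rw [← pow_mul, mul_comm, pow_mul, hzN, one_pow]
  have hcoe : ∀ (y : AA) (Q : Polynomial ℤ), ((Polynomial.aeval y Q : AA) : ℂ) =
      Polynomial.aeval (y : ℂ) Q := by
    intro y Q
    exact (Polynomial.aeval_algHom_apply ((integralClosure ℤ ℂ).val) y Q).symm
  set d : AA := Polynomial.aeval z P with hd
  set d' : AA := Polynomial.aeval (z ^ (N - 1)) P with hd'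
  have hdC : (d : ℂ) = dn p H q φ u χ.1 := by
    rw [hd, hcoe, hP1]
  have hd'C : (d' : ℂ) = (starRingEnd ℂ) (dn p H q φ u χ.1) := by
    rw [hd', hcoe, hP1]
    have h1 : (starRingEnd ℂ) (Polynomial.aeval ζ P) = Polynomial.aeval ((starRingEnd ℂ) ζ) P := by
      rw [Polynomial.aeval_def, Polynomial.aeval_def, Polynomial.hom_eval₂]
      congr 1
      exact RingHom.ext_int _ _
    have h2 : (starRingEnd ℂ) ζ * ζ = 1 := by
      rw [← Complex.normSq_eq_conj_mul_self, Complex.normSq_eq_norm_sq,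
        Complex.norm_eq_one_of_pow_eq_one hζ.pow_eq_one hN0]
      simp
    have h3 : ζ ^ (N - 1) * ζ = 1 := by
      rw [← pow_succ, Nat.sub_add_cancel hNpos, hζ.pow_eq_one]
    have hζ0 : ζ ≠ 0 := by
      intro h
      rw [h, mul_zero] at h3
      exact zero_ne_one h3
    have h4 : ζ ^ (N - 1) = (starRingEnd ℂ) ζ := mul_right_cancel₀ hζ0 (h3.trans h2.symm)
    have h5 : ((z ^ (N - 1) : AA) : ℂ) = (starRingEnd ℂ) ζ := by
      push_cast
      exact h4
    rw [h1, h5]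
  have hdd : d * d' = 1 := by
    apply Subtype.ext
    push_cast
    rw [hdC, hd'C, Complex.mul_conj, Complex.normSq_eq_norm_sq, hnorm]
    simp
  have hred : red d = red d' := by
    rw [hd, hd', red_aeval_root p red hzN, red_aeval_root p red hz']
  have hsq : (red d) ^ 2 = 1 := by
    have h1 := congrArg red hdd
    rw [map_mul, map_one, ← hred] at h1
    rw [sq]; exact h1
  -- the relation
  have hrel : X * a = a' * b * d := by
    apply Subtype.ext
    push_cast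
    rw [hdC]
    have hG0 : (Nat.card G : ℂ) ≠ 0 := by exact_mod_cast Nat.card_pos.ne'
    apply mul_right_cancel₀ hG0
    have h1 : (X : ℂ) * a * Nat.card G = X * (b * (q * χ.1 1)) := by
      rw [mul_assoc, hab]
    rw [h1]
    calc (X : ℂ) * (b * (q * χ.1 1)) = b * (X * (q * χ.1 1)) := by ring
      _ = _ := by rw [hX]; ring
  have h1 := congrArg red hrel
  rw [map_mul, map_mul, map_mul, hX2, mul_one, map_natCast, map_natCast, map_natCast] at h1
  rw [h1, mul_pow, hsq, mul_one]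

end

end P179Y
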