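import Vale.Agent.P179.H143.Transp
import Vale.Agent.P179.H143.MainT
import Vale.Agent.P179.H526.FDP
import Vale.Agent.P179.H234.K5T
import Vale.Agent.P179.H905.ThmN

/-!
# (TRANSPORT+), (MAIN+), inertial form
-/

namespace P179Y

open P179H524 P179C P179A Finset P179P Subgroup

open P179X (pp SameSec IrrB Srat)

open scoped Classical

section

variable {k : Type*} [Field k] [IsAlgClosed k] (p : ℕ) [hp : Fact p.Prime] [CharP k p]
  (red : integralClosure ℤ ℂ →+* k) {G : Type} [Group G] [Fintype G]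

include hp in
/-- K5 for regular elements in the form `K5P` -/
theorem K5P_ofT {D : Subgroup G} {l : (G → k) → k} (hl : BP p D l)
    (hD : IsPGroup p D) (hab : D ≤ centralizer (D : Set G)) {u : G} (hu : RegT D l u) :
    K5P red (centralizer {u}) l u ((centralizer (D : Set G)).relIndex (stabT D l) : k) := by
  intro e he hee hle hlam
  exact K5T p red hl hD hab hu he hee hle fun ψ hψ => by rw [hlam ψ, if_neg hψ]

/-- the statement of Theorem N, inertial form -/
theorem thmNT (K : Type) [Group K] [Fintype K] (D : Subgroup K) (l : (K → k) → k)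
    (hl : BP p D l) (hD : IsPGroup p D) (hab : D ≤ centralizer (D : Set K))
    (hT : stabT D l ≤ centralizer (D : Set K)) : ∃ φ, ND red p l (Nat.card D) φ :=
  P179N.thmN_stab red (fun G _ _ D l hl hD hab hT u hu => by
    have h1 := K5P_ofT p red hl hD hab (u := u) ⟨hu, fun n hn _ => hT hn⟩
    rwa [Subgroup.relIndex_eq_one.2 hT, Nat.cast_one] at h1) hl hD hab hT

include hp in
theorem tr1T {D : Subgroup G} {l : (G → k) → k} (hl : BP p D l)
    (hD : IsPGroup p D) (hab : D ≤ centralizer (D : Set G)) {w : G} (hw : RegT D l w) {u : G}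
    (hu : u ∈ D) (huw : u * w = w * u)
    {φ : (centralizer {w} : Subgroup G) → ℂ} (hφ : ND red p (lres (centralizer {w}) l) (Nat.card D) φ)
    {ψ : (centralizer {(⟨u, mem_centralizer_singleton_iff.2 huw⟩ :
      (centralizer {w} : Subgroup G))} : Subgroup (centralizer {w} : Subgroup G)) → ℂ}
    (hψ : ND red p (lres (centralizer {(⟨u, mem_centralizer_singleton_iff.2 huw⟩ :
      (centralizer {w} : Subgroup G))}) (lres (centralizer {w}) l)) (Nat.card D) ψ)
    {a b a' b' : ℕ} (hb' : ¬ p ∣ b')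
    (hab1 : (a : ℂ) * Nat.card (centralizer {w} : Subgroup G) = b * (Nat.card D * φ 1))
    (hab2 : (a' : ℂ) * Nat.card (centralizer {(⟨u, mem_centralizer_singleton_iff.2 huw⟩ :
      (centralizer {w} : Subgroup G))} : Subgroup (centralizer {w} : Subgroup G)) =
      b' * (Nat.card D * ψ 1)) :
    ((b' : k) * a) ^ 2 = (a' * b) ^ 2 := by
  have hDH := le_cent_of_mem hw.1 hab
  have hCH := cent_le_of_mem (D := D) hw.1
  have hlH := hl.restrict hDH hCH
  have hDp : IsPGroup p (D.subgroupOf (centralizer {w})) := hD.comap_subtype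
  have habH : D.subgroupOf (centralizer {w}) ≤
      centralizer ((D.subgroupOf (centralizer {w}) : Subgroup (centralizer {w} : Subgroup G)) :
        Set (centralizer {w} : Subgroup G)) := by
    intro x hx
    rw [mem_cent_subgroupOf hDH]
    exact hab (by simpa [Subgroup.mem_subgroupOf] using hx)
  have hreg : RegT (D.subgroupOf (centralizer {w})) (lres (centralizer {w}) l) (⟨u, mem_centralizer_singleton_iff.2 huw⟩ :
      (centralizer {w} : Subgroup G)) :=
    ⟨Subgroup.mem_subgroupOf.2 hu, fun n hn _ => hw.stab_le' hab hn⟩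
  have hK5 := K5P_ofT p red hlH hDp habH hreg
  rw [hw.relIndex_stabT hab, Nat.cast_one] at hK5
  obtain ⟨n, hn⟩ := hD ⟨u, hu⟩
  have hun : (⟨u, mem_centralizer_singleton_iff.2 huw⟩ :
      (centralizer {w} : Subgroup G)) ^ p ^ n = 1 := by
    apply Subtype.ext
    have := congrArg Subtype.val hn
    simpa using this
  exact sign_aux p red _ Nat.card_pos.ne' hφ hψ hb' hab1 hab2 _ hun
    (fun x => mem_centralizer_singleton_iff) hlH.smul hK5

include hp in
/-- **(TRANSPORT)** -/
theorem hsq_ofT {D : Subgroup G} {l : (G → k) → k} (hl : BP p D l)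
    (hD : IsPGroup p D) (hab : D ≤ centralizer (D : Set G))
    (φ : ∀ w : G, (centralizer {w} : Subgroup G) → ℂ)
    (hND : ∀ w, RegT D l w → ND red p (lres (centralizer {w}) l) (Nat.card D) (φ w)) :
    ∀ w w', RegT D l w → RegT D l w' → ∀ a b a' b' : ℕ, ¬ p ∣ a → ¬ p ∣ b → ¬ p ∣ a' →
      ¬ p ∣ b' → (a : ℂ) * Nat.card (centralizer {w} : Subgroup G) = b * (Nat.card D * φ w 1) →
      (a' : ℂ) * Nat.card (centralizer {w'} : Subgroup G) = b' * (Nat.card D * φ w' 1) →
      ((b : k) * a') ^ 2 = (a * b') ^ 2 := by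
  intro w u hw hu a b a' b' ha hb ha' hb' h1 h2
  have huw : u * w = w * u := mem_centralizer_iff.1 (hab hw.1) u hu.1
  have hDH := le_cent_of_mem hw.1 hab
  have hCH := cent_le_of_mem (D := D) hw.1
  have hlH := hl.restrict hDH hCH
  have hDp : IsPGroup p (D.subgroupOf (centralizer {w})) := hD.comap_subtype
  have habH : D.subgroupOf (centralizer {w}) ≤
      centralizer ((D.subgroupOf (centralizer {w}) : Subgroup (centralizer {w} : Subgroup G)) :
        Set (centralizer {w} : Subgroup G)) := by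
    intro x hx
    rw [mem_cent_subgroupOf hDH]
    exact hab (by simpa [Subgroup.mem_subgroupOf] using hx)
  set K : Subgroup G := centralizer {w} with hKdef
  set DK : Subgroup K := D.subgroupOf K with hDK
  set u' : K := ⟨u, mem_centralizer_singleton_iff.2 huw⟩ with hu'
  set H : Subgroup K := centralizer {u'} with hH
  have hu'D : u' ∈ DK := Subgroup.mem_subgroupOf.2 hu.1
  have hDH2 := le_cent_of_mem hu'D habH
  have hCH2 := cent_le_of_mem (D := DK) hu'D
  have hlH2 := hlH.restrict hDH2 hCH2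
  have hDp2 : IsPGroup p (DK.subgroupOf H) := hDp.comap_subtype
  have habH2 : DK.subgroupOf H ≤ centralizer ((DK.subgroupOf H : Subgroup H) : Set H) := by
    intro x hx
    rw [mem_cent_subgroupOf hDH2]
    exact habH (Subgroup.mem_subgroupOf.1 hx)
  have hnorm2 : stabT (DK.subgroupOf H) (lres H (lres K l)) ≤
      centralizer ((DK.subgroupOf H : Subgroup H) : Set H) := by
    intro x hx
    rw [mem_stabT_lres hDH2 hCH2] at hx
    rw [mem_cent_subgroupOf hDH2]
    exact hw.stab_le' hab hx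
  obtain ⟨ψ, hψ⟩ := thmNT p red H (DK.subgroupOf H) _ hlH2 hDp2 habH2 hnorm2
  have hcardD : Nat.card (DK.subgroupOf H) = Nat.card D := by
    rw [Nat.card_congr (Subgroup.subgroupOfEquivOfLe hDH2).toEquiv,
      Nat.card_congr (Subgroup.subgroupOfEquivOfLe hDH).toEquiv]
  rw [hcardD] at hψ
  obtain ⟨a'', b'', ha'', hb'', h3⟩ := hψ.unit
  have h4 := tr1T p red hl hD hab hw hu.1 huw (hND w hw) hψ hb'' h1 h3
  -- transport
  have hψ' := hψ.comp p red (ccEquiv w u huw.symm) (l' := lres (centralizer {(⟨w,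
    mem_centralizer_singleton_iff.2 huw.symm⟩ : (centralizer {u} : Subgroup G))})
    (lres (centralizer {u}) l)) (fun z => lres_lres_cc w u huw.symm l z)
  have h5 : (a'' : ℂ) * Nat.card (centralizer {(⟨w, mem_centralizer_singleton_iff.2 huw.symm⟩ :
      (centralizer {u} : Subgroup G))} : Subgroup (centralizer {u} : Subgroup G)) =
      b'' * (Nat.card D * (fun x => ψ (ccEquiv w u huw.symm x)) 1) := by
    rw [Nat.card_congr (ccEquiv w u huw.symm).toEquiv]
    simp only [map_one]
    exact h3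
  have h6 := tr1T p red hl hD hab hu hw.1 huw.symm (hND u hu) hψ' hb'' h2 h5
  have hcast : ∀ n : ℕ, ¬ p ∣ n → (n : k) ≠ 0 := fun n hn => by
    rw [Ne, CharP.cast_eq_zero_iff k p]; exact hn
  have h7 : ((a'' : k) * b'') ^ 2 ≠ 0 := pow_ne_zero _ (mul_ne_zero (hcast _ ha'') (hcast _ hb''))
  apply mul_left_cancel₀ h7
  have h8 : ((a'' : k) * b) ^ 2 * ((b'' : k) * a') ^ 2 =
      ((b'' : k) * a) ^ 2 * ((a'' : k) * b') ^ 2 := by rw [← h4, h6]
  linear_combination h8


include hp in
/-- the local data -/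
theorem exists_NDT {D : Subgroup G} {l : (G → k) → k} (hl : BP p D l)
    (hD : IsPGroup p D) (hab : D ≤ centralizer (D : Set G)) {w : G} (hw : RegT D l w) :
    ∃ φ, ND red p (lres (centralizer {w}) l) (Nat.card D) φ := by
  have hDH := le_cent_of_mem hw.1 hab
  have hCH := cent_le_of_mem (D := D) hw.1
  have hlH := hl.restrict hDH hCH
  have hDp : IsPGroup p (D.subgroupOf (centralizer {w})) := hD.comap_subtype
  have habH : D.subgroupOf (centralizer {w}) ≤
      centralizer ((D.subgroupOf (centralizer {w}) : Subgroup (centralizer {w} : Subgroup G)) :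
        Set (centralizer {w} : Subgroup G)) := by
    intro x hx
    rw [mem_cent_subgroupOf hDH]
    exact hab (by simpa [Subgroup.mem_subgroupOf] using hx)
  obtain ⟨φ, hφ⟩ := thmNT p red (centralizer {w} : Subgroup G) (D.subgroupOf (centralizer {w})) _ hlH
    hDp habH (hw.stab_le' hab)
  rw [Nat.card_congr (Subgroup.subgroupOfEquivOfLe hDH).toEquiv] at hφ
  exact ⟨φ, hφ⟩

/-- the hypothesis, from `3 e + 2 ≤ p` -/
theorem hyp_of_le {D : Subgroup G} (hD : IsPGroup p D) (l : (G → k) → k)
    (he : 3 * (centralizer (D : Set G)).relIndex (stabT D l) + 2 ≤ p) :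
    2 * ((Nat.card D : ℝ) * (centralizer (D : Set G)).relIndex (stabT D l)) ≤
      ((p : ℝ) - 3) * Nat.card {w : G // RegT D l w} := by
  set e := (centralizer (D : Set G)).relIndex (stabT D l) with hedef
  have he1 : 1 ≤ e := Nat.pos_of_ne_zero (by
    have : Finite ((stabT D l) ⧸ (centralizer (D : Set G)).subgroupOf (stabT D l)) := inferInstance
    exact Nat.card_pos.ne')
  have h1 : Nat.card D * (p + 1 - e) ≤ p * Nat.card {w : G // RegT D l w} :=
    card_Reg p D hD (stabT D l)
  have h2 : ((Nat.card D : ℝ) * (p + 1 - e)) ≤ p * Nat.card {w : G // RegT D l w} := by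
    have h3 : ((Nat.card D * (p + 1 - e) : ℕ) : ℝ) ≤ ((p * Nat.card {w : G // RegT D l w} : ℕ) : ℝ) :=
      by exact_mod_cast h1
    rw [Nat.cast_mul, Nat.cast_mul, Nat.cast_sub (by omega)] at h3
    push_cast at h3
    exact h3
  have hq0 : (0 : ℝ) < (Nat.card D : ℝ) := by exact_mod_cast (Nat.card_pos : 0 < Nat.card D)
  set q : ℝ := (Nat.card D : ℝ) with hq
  set W : ℝ := (Nat.card {w : G // RegT D l w} : ℝ) with hW
  have hp5 : (5 : ℝ) ≤ p := by exact_mod_cast (by omega : 5 ≤ p)
  have he' : 3 * (e : ℝ) + 2 ≤ p := by exact_mod_cast he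
  have hpe : 2 * (e : ℝ) * p ≤ (p - 3) * (p + 1 - e) := by nlinarith
  have h4 : p * (2 * (q * e)) ≤ (p : ℝ) * ((p - 3) * W) := by
    calc (p : ℝ) * (2 * (q * e)) = q * (2 * e * p) := by ring
      _ ≤ q * ((p - 3) * (p + 1 - e)) := mul_le_mul_of_nonneg_left hpe hq0.le
      _ = (p - 3) * (q * (p + 1 - e)) := by ring
      _ ≤ (p - 3) * (p * W) := mul_le_mul_of_nonneg_left h2 (by linarith)
      _ = _ := by ring
  exact le_of_mul_le_mul_left h4 (by linarith)

/-- the hypothesis gives `2 e + 3 ≤ p` -/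
theorem le_of_hyp {D : Subgroup G} (l : (G → k) → k)
    (hH : 2 * ((Nat.card D : ℝ) * (centralizer (D : Set G)).relIndex (stabT D l)) ≤
      ((p : ℝ) - 3) * Nat.card {w : G // RegT D l w}) :
    2 * (centralizer (D : Set G)).relIndex (stabT D l) + 3 ≤ p := by
  set e := (centralizer (D : Set G)).relIndex (stabT D l) with hedef
  have he1 : 1 ≤ e := Nat.pos_of_ne_zero (by
    have : Finite ((stabT D l) ⧸ (centralizer (D : Set G)).subgroupOf (stabT D l)) := inferInstance
    exact Nat.card_pos.ne')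
  have hWle : Nat.card {w : G // RegT D l w} ≤ Nat.card D :=
    Nat.card_le_card_of_injective (fun w : {w : G // RegT D l w} => (⟨w.1, w.2.1⟩ : D))
      fun w w' h => Subtype.ext (congrArg (fun x : D => (x : G)) h)
  have hWle' : (Nat.card {w : G // RegT D l w} : ℝ) ≤ Nat.card D := by exact_mod_cast hWle
  have hq0 : (0 : ℝ) < Nat.card D := by exact_mod_cast (Nat.card_pos : 0 < Nat.card D)
  have he0 : (1 : ℝ) ≤ e := by exact_mod_cast he1
  have hp3 : (0 : ℝ) ≤ (p : ℝ) - 3 := by
    by_contra hcon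
    push Not at hcon
    have h1 : ((p : ℝ) - 3) * Nat.card {w : G // RegT D l w} ≤ 0 :=
      mul_nonpos_of_nonpos_of_nonneg hcon.le (Nat.cast_nonneg _)
    have h2 : (0 : ℝ) < 2 * ((Nat.card D : ℝ) * e) := by positivity
    linarith
  have h1 : 2 * (e : ℝ) ≤ p - 3 := by
    apply le_of_mul_le_mul_left _ hq0
    calc (Nat.card D : ℝ) * (2 * e) = 2 * (Nat.card D * e) := by ring
      _ ≤ ((p : ℝ) - 3) * Nat.card {w : G // RegT D l w} := hH
      _ ≤ ((p : ℝ) - 3) * Nat.card D := mul_le_mul_of_nonneg_left hWle' hp3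
      _ = _ := by ring
  have h2 : 2 * (e : ℝ) + 3 ≤ p := by linarith
  exact_mod_cast h2

/-- **(MAIN+)** -/
theorem mainT2 {B : MonoidAlgebra k G} {D : Subgroup G} {l : (G → k) → k}
    (hl : BP p D l) (hD : IsPGroup p D) (hab : D ≤ centralizer (D : Set G))
    (hlB : ∀ χ : Irr G, InL red l χ.1 ↔ CharInBlock red χ.1 B)
    (hH : 2 * ((Nat.card D : ℝ) * (centralizer (D : Set G)).relIndex (stabT D l)) ≤
      ((p : ℝ) - 3) * Nat.card {w : G // RegT D l w})
    {m : ℕ} (hm : m.Coprime (Nat.card G))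
    (hm1 : m ≡ 1 [MOD ordCompl[p] (Nat.card G)])
    (hgen : ∀ j : ℕ, ¬ p ∣ j → ∃ i : ℕ, m ^ i ≡ j [MOD ordProj[p] (Nat.card G)]) :
    (Srat red m B).card < p := by
  have h1 : ∀ w : G, ∃ φ : (centralizer {w} : Subgroup G) → ℂ, RegT D l w →
      ND red p (lres (centralizer {w}) l) (Nat.card D) φ := by
    intro w
    by_cases hw : RegT D l w
    · obtain ⟨φ, hφ⟩ := exists_NDT p red hl hD hab hw
      exact ⟨φ, fun _ => hφ⟩
    · exact ⟨0, fun h => absurd h hw⟩
  choose φ hφ using h1
  have hκ : ((centralizer (D : Set G)).relIndex (stabT D l) : k) ≠ 0 := by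
    rw [Ne, CharP.cast_eq_zero_iff k p]
    intro h
    have h2 := le_of_hyp p l hH
    have h3 : 1 ≤ (centralizer (D : Set G)).relIndex (stabT D l) := Nat.pos_of_ne_zero (by
      have : Finite ((stabT D l) ⧸ (centralizer (D : Set G)).subgroupOf (stabT D l)) := inferInstance
      exact Nat.card_pos.ne')
    have := Nat.le_of_dvd h3 h
    omega
  exact mainT p red hl hD hab hlB hH hm hm1 hgen φ hφ hκ
    (fun w hw => K5P_ofT p red hl hD hab hw) (hsq_ofT p red hl hD hab φ hφ)

end

end P179Y
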