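import Vale.Agent.P179.H143.T6B
import Vale.Agent.P179.H526.M9d

/-!
# The support of the reductions of the characters of a block, and piece B
-/

namespace P179T

open P179H524 P179C P179A Finset P179P P179Y Subgroup

open P179X (pp)

open scoped Classical

section Red

variable (p : ℕ) [hp : Fact p.Prime] {k : Type*} [Field k] [IsAlgClosed k] [CharP k p]
  (red : integralClosure ℤ ℂ →+* k) {G : Type} [Group G] [Fintype G]

include p hp in
/-- the block idempotent of `l` -/
theorem exists_bidem {D : Subgroup G} {l : (G → k) → k} (hl : BP p D l) (hD : IsPGroup p D)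
    (hab : D ≤ centralizer (D : Set G))
    (hT : ¬ p ∣ (centralizer (D : Set G)).relIndex (stabT D l)) :
    ∃ b : G → k, IsCF b ∧ conv b b = b ∧ l b = 1 ∧
      (∀ ψ : Irr G, ¬ InL red l ψ.1 → lam red ψ.1 b = 0) ∧ SuppIn p D b := by
  have hμ := hl.isHomCF hD hab
  obtain ⟨B, hB, hBl⟩ := P179C.homBlockStmt (k := k) (G := G) hμ.toAlgHom
  have hlB : ∀ z : G → k, IsCF z → l z = centralChar B (mkF z) := by
    intro z hz
    rw [← hμ.toAlgHom_mkF hz]
    exact hBl ⟨mkF z, mkF_mem hz⟩
  have hbCF : IsCF (fun g => B.coeff g) := (P179C.mem_center_iff _).1 hB.1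
  have hbb : conv (fun g => B.coeff g) (fun g => B.coeff g) = fun g => B.coeff g := by
    funext g
    rw [← coeff_mul_eq_conv, hB.2.1]
  have hlb : l (fun g => B.coeff g) = 1 := by
    rw [hlB _ hbCF, mkF_coeff, centralChar_self B hB]
  have hpsi : ∀ ψ : Irr G, ¬ InL red l ψ.1 → lam red ψ.1 (fun g => B.coeff g) = 0 := by
    intro ψ hψ
    obtain ⟨B', hB', hBl'⟩ := P179C.homBlockStmt (k := k) (G := G) (lamHom red ψ.1 ψ.2)
    have h1 : lam red ψ.1 (fun g => B.coeff g) = centralChar B' B :=
      hBl' ⟨B, hB.1⟩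
    rw [h1, P179C.charBlockStmt B' B hB' hB, if_neg]
    rintro rfl
    apply hψ
    intro z hz
    rw [hlB z hz]
    have h2 := hBl' ⟨mkF z, mkF_mem hz⟩
    rw [lamHom_apply] at h2
    simp only [coeff_mkF] at h2
    exact h2
  obtain ⟨y, hy, hyD, hly⟩ := exists_Y hl hD hab hT
  exact ⟨_, hbCF, hbb, hlb, hpsi, suppIn_of_block p red hbCF hbb hpsi hy hly hyD⟩

omit [IsAlgClosed k] [CharP k p] hp in
include p in
/-- class functions act on the reductions of the characters by the central character -/
theorem red_chA_eq (η : Irr G) {b : G → k} (hb : IsCF b) (t : G) :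
    ∑ g, b g * red (chA η (g * t)) = lam red η.1 b * red (chA η t) := by
  have := Fintype.ofFinite (ConjClasses G)
  have h1 : ∀ D : ConjClasses G, ∑ g, ((ind D g : ℤ) : k) * red (chA η (g * t)) =
      redC red (om η.1 (ind D)) * red (chA η t) := by
    intro D
    have h2 := congrFun (cv_chA η (ind D) (isCF_ind D)) t
    have h3 := congrArg red h2
    rw [cv, map_sum, map_mul] at h3
    have h4 : red (omA η (ind D) (isCF_ind D)) = redC red (om η.1 (ind D)) := by
      rw [redC_of_mem red (isIntegral_om η.2 (isCF_ind D))]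
      rfl
    rw [h4] at h3
    rw [← h3]
    refine Finset.sum_congr rfl fun g _ => ?_
    rw [map_mul, map_intCast]
  have h2 : ∀ g : G, b g * red (chA η (g * t)) =
      ∑ D : ConjClasses G, b D.out * (((ind D g : ℤ) : k) * red (chA η (g * t))) := by
    intro g
    rw [cf_eq_sum hb g, Finset.sum_mul]
    exact Finset.sum_congr rfl fun D _ => by rw [mul_assoc]
  rw [Finset.sum_congr rfl fun g _ => h2 g, Finset.sum_comm]
  unfold lam
  rw [finsum_eq_sum_of_fintype, Finset.sum_mul]
  refine Finset.sum_congr rfl fun D _ => ?_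
  rw [← Finset.mul_sum, h1, mul_assoc]

include hp in
/-- the reduction of a character of a block vanishes at `x` unless a Sylow `p`-subgroup of the
centraliser of `x` is conjugate to a subgroup of `D` -/
theorem suppIn_red {D : Subgroup G} {l : (G → k) → k} (hl : BP p D l) (hD : IsPGroup p D)
    (hab : D ≤ centralizer (D : Set G))
    (hT : ¬ p ∣ (centralizer (D : Set G)).relIndex (stabT D l)) (η : Irr G)
    (hη : InL red l η.1) : SuppIn p D (fun t => red (zb p η t)) := by
  obtain ⟨b, hb, hbb, hlb, hpsi, hbD⟩ := exists_bidem p red hl hD hab hT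
  intro x hx P hP hPx
  have hx' : red (chA η x⁻¹) ≠ 0 := by
    intro h
    apply hx
    unfold zb
    beta_reduce
    by_cases hr : ¬ p ∣ orderOf x
    · rw [if_pos hr]; exact h
    · rw [if_neg hr, map_zero]
  have h1 := red_chA_eq p red η hb x⁻¹
  rw [hη b hb, hlb, one_mul] at h1
  -- an element of `C(P)` in the support of `b`
  have h2 : ∃ g : G, g ∈ centralizer (P : Set G) ∧ b g ≠ 0 := by
    by_contra hcon
    push Not at hcon
    apply hx'
    rw [← h1]
    let φ : P →* Equiv.Perm G := (MulAut.toPerm G).comp (MulAut.conj.comp P.subtype)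
    have hφ : ∀ (q : P) (g : G), φ q g = (q : G) * g * (q : G)⁻¹ := fun q g => rfl
    refine sum_eq_zero_of_perm p hP φ (fun g => b g * red (chA η (g * x⁻¹))) ?_ ?_
    · intro q g
      beta_reduce
      rw [hφ, hb]
      congr 2
      have h3 : (q : G) * x = x * q := by
        have := hPx q.2
        rw [mem_centralizer_singleton_iff] at this
        exact this
      have h4 : (q : G)⁻¹ * x⁻¹ = x⁻¹ * (q : G)⁻¹ := by
        rw [← mul_inv_rev, ← mul_inv_rev, h3]
      have h5 : (q : G) * g * (q : G)⁻¹ * x⁻¹ = (q : G) * (g * x⁻¹) * (q : G)⁻¹ := by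
        rw [mul_assoc ((q : G) * g), h4]; group
      rw [h5]
      exact chA_isCF η (q : G) (g * x⁻¹)
    · intro g hg
      rw [hcon g, zero_mul]
      rw [mem_centralizer_iff]
      intro q hq
      have h3 := hg ⟨q, hq⟩
      rw [hφ] at h3
      calc q * g = (q * g * q⁻¹) * q := by group
        _ = g * q := by rw [h3]
  obtain ⟨g, hgP, hbg⟩ := h2
  refine hbD g hbg P hP fun q hq => ?_
  rw [mem_centralizer_singleton_iff]
  exact mem_centralizer_iff.1 hgP q hq

include hp in
/-- **Piece B**: the value of the central character at the relative trace of `u z_η`. -/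
theorem xv_eq {D : Subgroup G} {l : (G → k) → k} (hl : BP p D l) (hD : IsPGroup p D)
    (hab : D ≤ centralizer (D : Set G))
    (hT : ¬ p ∣ (centralizer (D : Set G)).relIndex (stabT D l))
    {u : G} (hu : u ∈ D) {H : Subgroup G} (hH : H = centralizer {u}) (η : Irr H)
    (hη : InL red (lres H l) η.1) :
    xv p red H u l η =
      ((H ⊓ stabT D l).relIndex (stabT D l) : k) * lres H l (fun t => red (zb p η t)) := by
  have hDH : D ≤ H := hH ▸ le_cent_of_mem hu hab
  have hCH : centralizer (D : Set G) ≤ H := hH ▸ cent_le_of_mem hu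
  have hlH := hl.restrict hDH hCH
  have hDp : IsPGroup p (D.subgroupOf H) := hD.comap_subtype
  have habH : D.subgroupOf H ≤ centralizer ((D.subgroupOf H : Subgroup H) : Set H) := by
    intro x hx
    rw [mem_cent_subgroupOf hDH]
    exact hab (by simpa [Subgroup.mem_subgroupOf] using hx)
  have hTH : ¬ p ∣ (centralizer ((D.subgroupOf H : Subgroup H) : Set H)).relIndex
      (stabT (D.subgroupOf H) (lres H l)) :=
    fun h => hT (h.trans (relIndex_stabT_lres_dvd hDH hCH))
  refine pieceB p red hl hD hab hT hu hH (fun g x => congrArg red (zb_isCF p η g x))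
    (suppIn_red p red hlH hDp habH hTH η hη) ?_
  intro θ hθ
  obtain ⟨X, hX, hX2⟩ := om_zb (p := p) red θ η
  rw [mm_orth p red θ η hη hθ, mul_zero] at hX
  have hX0 : X = 0 := by
    apply Subtype.ext
    exact (mul_eq_zero.1 hX).resolve_right θ.one_ne_zero
  rw [← hX2, hX0, map_zero]

end Red

end P179T
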