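import Vale.Agent.P179.H143.TranspT

/-!
# 3-blocks with defect group of order 9: the local part (piece C)

`K` a finite group, `u` a central element of order `3`, `(D, l)` a Brauer pair of `K` with `D`
elementary abelian of order `9`, `u ∈ D`, `3 ∤ |T : C|`.  Then `l` has at most `9` irreducible
characters, and the norms of their restrictions to the `3`-regular elements are at most `2 / 9`.
-/

namespace P179Y

open P179H524 P179C P179A Finset P179P Subgroup

open P179X (pp SameSec IrrB Srat)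

open scoped Classical

section Eis

theorem eis_form {ζ : ℂ} (hζ : IsPrimitiveRoot ζ 3) (P : Polynomial ℤ) :
    ∃ a b : ℤ, Polynomial.aeval ζ P = a + b * ζ := by
  have h3 : ζ ^ 2 = -1 - ζ := by
    have h1 : ζ ^ 3 = 1 := hζ.pow_eq_one
    have h2 : ζ ≠ 1 := hζ.ne_one (by norm_num)
    have h4 : (ζ - 1) * (ζ ^ 2 + ζ + 1) = 0 := by
      linear_combination h1
    rcases mul_eq_zero.1 h4 with h | h
    · exact absurd (sub_eq_zero.1 h) h2
    · linear_combination h
  have hpow : ∀ n : ℕ, ∃ a b : ℤ, ζ ^ n = a + b * ζ := by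
    intro n
    induction n with
    | zero => exact ⟨1, 0, by simp⟩
    | succ n ih =>
      obtain ⟨a, b, h⟩ := ih
      exact ⟨-b, a - b, by rw [pow_succ, h]; push_cast; linear_combination (b : ℂ) * h3⟩
  induction P using Polynomial.induction_on' with
  | add P Q hP hQ =>
    obtain ⟨a, b, h⟩ := hP
    obtain ⟨c, d, h'⟩ := hQ
    exact ⟨a + c, b + d, by rw [map_add, h, h']; push_cast; ring⟩
  | monomial n c =>
    obtain ⟨a, b, h⟩ := hpow n
    refine ⟨c * a, c * b, ?_⟩
    rw [Polynomial.aeval_monomial, h]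
    simp only [eq_intCast, Int.cast_mul]
    ring

/-- a nonzero Eisenstein integer has absolute value at least `1` -/
theorem one_le_eis {ζ : ℂ} (hζ : IsPrimitiveRoot ζ 3) (P : Polynomial ℤ)
    (h : Polynomial.aeval ζ P ≠ 0) : 1 ≤ ‖Polynomial.aeval ζ P‖ ^ 2 := by
  obtain ⟨a, b, hab⟩ := eis_form hζ P
  have h1 : ζ ^ 3 = 1 := hζ.pow_eq_one
  have hn : ‖ζ‖ = 1 := Complex.norm_eq_one_of_pow_eq_one h1 (by norm_num)
  have hc : ζ * (starRingEnd ℂ) ζ = 1 := by
    rw [Complex.mul_conj, Complex.normSq_eq_norm_sq, hn]; norm_num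
  have hz0 : ζ ≠ 0 := by
    rintro rfl
    rw [zero_mul] at hc
    exact zero_ne_one hc
  have hc2 : (starRingEnd ℂ) ζ = ζ ^ 2 := by
    apply mul_left_cancel₀ hz0
    rw [hc, ← h1]; ring
  have h3 : ζ ^ 2 = -1 - ζ := by
    have h2 : ζ ≠ 1 := hζ.ne_one (by norm_num)
    have h4 : (ζ - 1) * (ζ ^ 2 + ζ + 1) = 0 := by
      linear_combination h1
    rcases mul_eq_zero.1 h4 with h | h
    · exact absurd (sub_eq_zero.1 h) h2
    · linear_combination h
  have key : ((‖Polynomial.aeval ζ P‖ ^ 2 : ℝ) : ℂ) = ((a ^ 2 - a * b + b ^ 2 : ℤ) : ℂ) := by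
    rw [← Complex.normSq_eq_norm_sq, ← Complex.mul_conj, hab]
    simp only [map_add, map_mul, map_intCast, hc2]
    push_cast
    linear_combination (a * b : ℂ) * h3 + (b : ℂ) ^ 2 * h1
  have key' : (‖Polynomial.aeval ζ P‖ ^ 2 : ℝ) = ((a ^ 2 - a * b + b ^ 2 : ℤ) : ℝ) := by
    exact_mod_cast key
  rw [key']
  have hpos : (0 : ℝ) < ‖Polynomial.aeval ζ P‖ ^ 2 := by positivity
  rw [key'] at hpos
  have : 0 < (a ^ 2 - a * b + b ^ 2 : ℤ) := by exact_mod_cast hpos
  exact_mod_cast (by omega : (1 : ℤ) ≤ a ^ 2 - a * b + b ^ 2)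

end Eis

section Bessel

variable {K : Type*} [Group K] [Fintype K]

/-- the class function with the given multiplicities -/
noncomputable def gfun (d : Irr K → ℂ) (x : K) : ℂ := ∑ χ : Irr K, (starRingEnd ℂ) (d χ) * χ.1 x

theorem sum_irr_gfun (d : Irr K → ℂ) (η : Irr K) :
    ∑ x, η.1 x * (starRingEnd ℂ) (gfun d x) = Fintype.card K * d η := by
  have h1 : ∀ x, η.1 x * (starRingEnd ℂ) (gfun d x) =
      ∑ χ : Irr K, d χ * (η.1 x * χ.1 x⁻¹) := by
    intro x
    rw [gfun, map_sum, Finset.mul_sum]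
    refine Finset.sum_congr rfl fun χ _ => ?_
    rw [map_mul, Complex.conj_conj, Irr.inv_eq_conj]
    ring
  rw [Finset.sum_congr rfl fun x _ => h1 x, Finset.sum_comm]
  have h2 : ∀ χ : Irr K, ∑ x, d χ * (η.1 x * χ.1 x⁻¹) =
      if η = χ then Fintype.card K * d χ else 0 := by
    intro χ
    rw [← Finset.mul_sum, row_orth]
    split_ifs
    · ring
    · ring
  rw [Finset.sum_congr rfl fun χ _ => h2 χ, Finset.sum_ite_eq, if_pos (mem_univ _)]

theorem sum_gfun_gfun (d d' : Irr K → ℂ) :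
    ∑ x, gfun d x * (starRingEnd ℂ) (gfun d' x) =
      Fintype.card K * ∑ χ : Irr K, (starRingEnd ℂ) (d χ) * d' χ := by
  have h1 : ∀ x, gfun d x * (starRingEnd ℂ) (gfun d' x) =
      ∑ χ : Irr K, (starRingEnd ℂ) (d χ) * (χ.1 x * (starRingEnd ℂ) (gfun d' x)) := by
    intro x
    rw [gfun, Finset.sum_mul]
    exact Finset.sum_congr rfl fun χ _ => by ring
  rw [Finset.sum_congr rfl fun x _ => h1 x, Finset.sum_comm, Finset.mul_sum]
  refine Finset.sum_congr rfl fun χ _ => ?_
  rw [← Finset.mul_sum, sum_irr_gfun]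
  ring

/-- Bessel's inequality for class functions vanishing on `U` -/
theorem bessel_gfun {ι : Type*} [Fintype ι] [DecidableEq ι] (d : ι → Irr K → ℂ) {q : ℝ} (hq : 0 < q)
    (hgram : ∀ i j, ∑ χ : Irr K, (starRingEnd ℂ) (d i χ) * d j χ = if i = j then (q : ℂ) else 0)
    (U : Finset K) (hU : ∀ i, ∀ x ∈ U, gfun (d i) x = 0) (η : Irr K) :
    (∑ i, ‖d i η‖ ^ 2) / q + (∑ x ∈ U, ‖η.1 x‖ ^ 2) / Fintype.card K ≤ 1 := by
  set n : ℝ := (Fintype.card K : ℝ) with hn
  have hn0 : 0 < n := by rw [hn]; exact_mod_cast Fintype.card_pos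
  have hnq : 0 < n * q := mul_pos hn0 hq
  set r : ℝ := Real.sqrt (n * q) with hr
  have hr0 : 0 < r := Real.sqrt_pos.2 hnq
  have hr2 : r * r = n * q := Real.mul_self_sqrt hnq.le
  let v : ι → EuclideanSpace ℂ K := fun i => WithLp.toLp 2 fun x => ((r⁻¹ : ℝ) : ℂ) * gfun (d i) x
  let F : EuclideanSpace ℂ K := WithLp.toLp 2 fun x => if x ∈ U then 0 else η.1 x
  have hinner : ∀ i j, inner ℂ (v i) (v j) = if i = j then (1 : ℂ) else 0 := by
    intro i j
    rw [PiLp.inner_apply]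
    have h1 : ∀ x, inner ℂ (v i x) (v j x) =
        ((r⁻¹ : ℝ) : ℂ) ^ 2 * (gfun (d j) x * (starRingEnd ℂ) (gfun (d i) x)) := by
      intro x
      simp only [v, RCLike.inner_apply, map_mul, Complex.conj_ofReal]
      ring
    rw [Finset.sum_congr rfl fun x _ => h1 x, ← Finset.mul_sum, sum_gfun_gfun, hgram]
    by_cases hij : i = j
    · subst hij
      rw [if_pos rfl, if_pos rfl]
      have h2 : ((r⁻¹ : ℝ) : ℂ) ^ 2 * ((Fintype.card K : ℂ) * (q : ℂ)) =
          ((r⁻¹ ^ 2 * (n * q) : ℝ) : ℂ) := by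
        rw [hn]; push_cast; ring
      rw [h2, ← hr2]
      have h3 : r⁻¹ ^ 2 * (r * r) = 1 := by
        field_simp
      rw [h3, Complex.ofReal_one]
    · rw [if_neg hij, if_neg (Ne.symm hij), mul_zero, mul_zero]
  have horth : Orthonormal ℂ v := by
    rw [orthonormal_iff_ite]
    exact hinner
  have hbes := horth.sum_inner_products_le F (s := univ)
  have hF : ‖F‖ ^ 2 = n - ∑ x ∈ U, ‖η.1 x‖ ^ 2 := by
    rw [EuclideanSpace.norm_sq_eq]
    have h1 : ∀ x, ‖F x‖ ^ 2 = ‖η.1 x‖ ^ 2 - if x ∈ U then ‖η.1 x‖ ^ 2 else 0 := by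
      intro x
      simp only [F]
      split_ifs <;> simp
    rw [Finset.sum_congr rfl fun x _ => h1 x, Finset.sum_sub_distrib, ← Finset.sum_filter]
    congr 1
    · have h2 := row_orth η η
      rw [if_pos rfl] at h2
      have h3 : ∀ x, η.1 x * η.1 x⁻¹ = ((‖η.1 x‖ ^ 2 : ℝ) : ℂ) := by
        intro x
        rw [Irr.inv_eq_conj, Complex.mul_conj, Complex.normSq_eq_norm_sq]
      rw [Finset.sum_congr rfl fun x _ => h3 x, ← Complex.ofReal_sum] at h2
      exact_mod_cast h2
    · congr 1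
      ext x
      simp
  have hin : ∀ i, ‖inner ℂ (v i) F‖ ^ 2 = n / q * ‖d i η‖ ^ 2 := by
    intro i
    have h1 : inner ℂ (v i) F = ((r⁻¹ * n : ℝ) : ℂ) * d i η := by
      rw [PiLp.inner_apply]
      have h2 : ∀ x, inner ℂ (v i x) (F x) =
          ((r⁻¹ : ℝ) : ℂ) * (η.1 x * (starRingEnd ℂ) (gfun (d i) x)) := by
        intro x
        simp only [v, F, RCLike.inner_apply, map_mul, Complex.conj_ofReal]
        by_cases hx : x ∈ U
        · rw [hU i x hx]; simp
        · rw [if_neg hx]; ring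
      rw [Finset.sum_congr rfl fun x _ => h2 x, ← Finset.mul_sum, sum_irr_gfun]
      rw [hn]; push_cast; ring
    rw [h1, norm_mul, mul_pow, Complex.norm_real, Real.norm_eq_abs, sq_abs]
    have h3 : (r⁻¹ * n) ^ 2 = n / q := by
      have : r ^ 2 = n * q := by rw [sq, hr2]
      rw [mul_pow, inv_pow, this]
      field_simp
    rw [h3]
  rw [Finset.sum_congr rfl fun i _ => hin i, ← Finset.mul_sum, hF] at hbes
  have h4 : (∑ i, ‖d i η‖ ^ 2) / q + (∑ x ∈ U, ‖η.1 x‖ ^ 2) / n =
      (n / q * ∑ i, ‖d i η‖ ^ 2 + ∑ x ∈ U, ‖η.1 x‖ ^ 2) / n := by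
    field_simp
  rw [h4, div_le_one hn0]
  linarith

end Bessel

section PieceC

variable {k : Type*} [Field k] {p : ℕ} [hp : Fact p.Prime] {K : Type} [Group K]

/-- no fusion of `w` and `w z`, `z ≠ 1` central of order `p`, if `p` does not divide `|T : C|` -/
theorem no_central_fusion {D : Subgroup K} {l : (K → k) → k}
    (hT : ¬ p ∣ (centralizer (D : Set K)).relIndex (stabT D l)) {w z n : K} (hw : w ∈ D)
    (hzc : ∀ x, x * z = z * x) (hz : z ^ p = 1) (hn : n ∈ stabT D l)
    (h : n * w * n⁻¹ = w * z) : z = 1 := by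
  set C := centralizer (D : Set K) with hC
  set T := stabT D l with hTdef
  have h1 : ∀ m : ℕ, n ^ m * w * (n ^ m)⁻¹ = w * z ^ m := by
    intro m
    induction m with
    | zero => simp
    | succ m ih =>
      have hzm : n * z ^ m = z ^ m * n := by
        have : Commute n z := hzc n
        exact (this.pow_right m).eq
      calc n ^ (m + 1) * w * (n ^ (m + 1))⁻¹ = n * (n ^ m * w * (n ^ m)⁻¹) * n⁻¹ := by
            rw [pow_succ']; group
        _ = n * (w * z ^ m) * n⁻¹ := by rw [ih]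
        _ = n * w * (z ^ m * n⁻¹) := by group
        _ = n * w * (n⁻¹ * z ^ m) := by
            congr 1
            have : Commute n⁻¹ z := hzc n⁻¹
            exact ((this.pow_right m).eq).symm
        _ = (n * w * n⁻¹) * z ^ m := by group
        _ = w * z ^ (m + 1) := by rw [h, pow_succ']; group
  have hnorm : (C.subgroupOf T).Normal := by
    constructor
    intro c hc g
    rw [mem_subgroupOf] at hc ⊢
    rw [hC, mem_centralizer_iff]
    intro d hd
    have hg : (g : K) ∈ normalizer (D : Set K) := stabT_le_norm D l g.2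
    have h2 : (g : K)⁻¹ * d * g ∈ D := by
      have := (mem_normalizer_iff.1 (inv_mem hg) d).1 hd
      simpa using this
    have h3 := mem_centralizer_iff.1 hc _ h2
    push_cast
    calc d * (g * c * (g : K)⁻¹) = g * (((g : K)⁻¹ * d * g) * c) * (g : K)⁻¹ := by group
      _ = g * (c * ((g : K)⁻¹ * d * g)) * (g : K)⁻¹ := by rw [h3]
      _ = g * c * (g : K)⁻¹ * d := by group
  set m := C.relIndex T with hm
  have h2 : (⟨n, hn⟩ : T) ^ m ∈ C.subgroupOf T := by
    rw [hm]
    exact Subgroup.pow_index_mem _ _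
  have h3 : n ^ m ∈ C := by
    rw [mem_subgroupOf] at h2
    exact h2
  have h4 := h1 m
  have h5 : w * n ^ m = n ^ m * w := mem_centralizer_iff.1 h3 w hw
  rw [← h5, mul_inv_cancel_right] at h4
  have h6 : z ^ m = 1 := by
    have := h4.symm
    exact mul_left_cancel (this.trans (mul_one w).symm)
  have h7 : orderOf z ∣ p := orderOf_dvd_of_pow_eq_one hz
  have h8 : orderOf z ∣ m := orderOf_dvd_of_pow_eq_one h6
  rcases (Nat.dvd_prime hp.out).1 h7 with h9 | h9
  · exact orderOf_eq_one_iff.1 h9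
  · exact absurd (h9 ▸ h8) hT

end PieceC

section Main

variable {k : Type*} [Field k] [IsAlgClosed k] [CharP k 3]
  (red : integralClosure ℤ ℂ →+* k) {K : Type} [Group K] [Fintype K]

/-- **(C)** -/
theorem pieceC {D : Subgroup K} {l : (K → k) → k} (hl : BP 3 D l) (hD9 : Nat.card D = 9)
    (hexp : ∀ a ∈ D, a ^ 3 = 1) (hab : D ≤ centralizer (D : Set K))
    (hT : ¬ 3 ∣ (centralizer (D : Set K)).relIndex (stabT D l))
    {u : K} (huD : u ∈ D) (hu1 : u ≠ 1) (huc : ∀ x, x * u = u * x) :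
    (univ.filter fun η : Irr K => InL red l η.1).card ≤ 9 ∧
    (∀ η : Irr K, InL red l η.1 →
      (∑ t ∈ univ.filter (fun s : K => ¬ 3 ∣ orderOf s), ‖η.1 t‖ ^ 2) / Nat.card K ≤ 2 / 9) ∧
    ∑ η ∈ univ.filter (fun η : Irr K => InL red l η.1),
      (∑ t ∈ univ.filter (fun s : K => ¬ 3 ∣ orderOf s), ‖η.1 t‖ ^ 2) / Nat.card K ≤ 2 := by
  have h3p : Fact (Nat.Prime 3) := ⟨Nat.prime_three⟩
  have hDp : IsPGroup 3 D := IsPGroup.of_card (n := 2) (by rw [hD9]; norm_num)
  have hou : orderOf u = 3 := orderOf_eq_prime (hexp u huD) hu1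
  have hzu : zpowers u ≤ D := by
    rw [zpowers_le]; exact huD
  have hcu : Nat.card (zpowers u) = 3 := by rw [Nat.card_zpowers, hou]
  -- an element outside `⟨u⟩`
  obtain ⟨v, hvD, hvu⟩ : ∃ v ∈ D, v ∉ zpowers u := by
    by_contra hcon
    push Not at hcon
    have h1 : D ≤ zpowers u := hcon
    have h2 := Subgroup.card_le_of_le h1
    rw [hD9, hcu] at h2
    omega
  let w : Fin 3 → K := fun i => v * u ^ (i : ℕ)
  have hwD : ∀ i, w i ∈ D := fun i => mul_mem hvD (pow_mem huD _)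
  have hupow : ∀ (x : K) (j : ℕ), x * u ^ j = u ^ j * x := by
    intro x j
    have : Commute x u := huc x
    exact (this.pow_right j).eq
  have hreg : ∀ i, RegT D l (w i) := by
    intro i
    refine ⟨hwD i, fun n _ hn => ?_⟩
    have h1 : n * v * n⁻¹ = v := by
      have h2 : n * (v * u ^ (i : ℕ)) * n⁻¹ = (n * v * n⁻¹) * u ^ (i : ℕ) := by
        calc n * (v * u ^ (i : ℕ)) * n⁻¹ = n * v * (u ^ (i : ℕ) * n⁻¹) := by group
          _ = n * v * (n⁻¹ * u ^ (i : ℕ)) := by rw [hupow]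
          _ = _ := by group
      have h3 : (n * v * n⁻¹) * u ^ (i : ℕ) = v * u ^ (i : ℕ) := by rw [← h2]; exact hn
      exact mul_right_cancel h3
    set E : Subgroup K := D ⊓ centralizer {n} with hE
    have huE : zpowers u ≤ E := by
      rw [zpowers_le]
      exact ⟨huD, mem_centralizer_singleton_iff.2 (huc n).symm⟩
    have hvE : v ∈ E := ⟨hvD, mem_centralizer_singleton_iff.2 (by
      rw [mul_inv_eq_iff_eq_mul] at h1
      exact h1.symm)⟩
    have h4 : Nat.card E ∣ 9 := hD9 ▸ Subgroup.card_dvd_of_le inf_le_left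
    have h5 : 3 ∣ Nat.card E := hcu ▸ Subgroup.card_dvd_of_le huE
    have h6 : Nat.card E ≠ 3 := by
      intro h
      have h7 : zpowers u = E := Subgroup.eq_of_le_of_card_ge huE (by rw [h, hcu])
      exact hvu (h7 ▸ hvE)
    have h7 : Nat.card E = 9 := by
      have h8 : (9 : ℕ) = 3 ^ 2 := by norm_num
      rw [h8, Nat.dvd_prime_pow Nat.prime_three] at h4
      obtain ⟨m, hm, hm2⟩ := h4
      interval_cases m
      · rw [hm2] at h5; norm_num at h5
      · exact absurd hm2 h6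
      · rw [hm2]; norm_num
    have h8 : E = D := Subgroup.eq_of_le_of_card_ge inf_le_left (by rw [h7, hD9])
    rw [mem_centralizer_iff]
    intro d hd
    rw [← h8] at hd
    exact mem_centralizer_singleton_iff.1 hd.2
  -- the local data
  have hND : ∀ i, ∃ φ, ND red 3 (lres (centralizer {w i}) l) 9 φ := by
    intro i
    obtain ⟨φ, hφ⟩ := exists_NDT 3 red hl hDp hab (hreg i)
    rw [hD9] at hφ
    exact ⟨φ, hφ⟩
  choose φ hφ using hND
  have hHmem : ∀ i x, x ∈ (centralizer {w i} : Subgroup K) ↔ x * w i = w i * x := by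
    intro i x
    rw [mem_centralizer_singleton_iff]
  have hw3 : ∀ i, w i ^ 3 = 1 := fun i => hexp _ (hwD i)
  have hwp : ∀ i, ∃ a : ℕ, w i ^ 3 ^ a = 1 := fun i => ⟨1, by rw [pow_one]; exact hw3 i⟩
  let d : Fin 3 → Irr K → ℂ := fun i χ => dn 3 (centralizer {w i}) 9 (φ i) (w i) χ.1
  have hκ : ((centralizer (D : Set K)).relIndex (stabT D l) : k) ≠ 0 := by
    rw [Ne, CharP.cast_eq_zero_iff k 3]
    exact hT
  have hd0 : ∀ i (η : Irr K), InL red l η.1 → d i η ≠ 0 := by
    intro i η hη h0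
    obtain ⟨a, b, ha, hb, hunit⟩ := (hφ i).unit
    obtain ⟨X, hX, hX2⟩ := cong 3 red (centralizer {w i}) (by norm_num) (hφ i) hb hunit (w i)
      (hHmem i) hl.smul (K5P_ofT 3 red hl hDp hab (hreg i)) η hη
    have h1 : dn 3 (centralizer {w i}) 9 (φ i) (w i) η.1 = 0 := h0
    rw [h1, mul_zero] at hX
    rcases mul_eq_zero.1 hX with h | h
    · have h2 : X = 0 := Subtype.ext h
      rw [h2, map_zero] at hX2
      refine mul_ne_zero ?_ hκ hX2.symm
      rw [Ne, CharP.cast_eq_zero_iff k 3]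
      exact hb
    · exact mul_ne_zero (by norm_num) η.one_ne_zero h
  have hζ := Complex.isPrimitiveRoot_exp 3 (by norm_num)
  have hd1 : ∀ i (η : Irr K), InL red l η.1 → 1 ≤ ‖d i η‖ ^ 2 := by
    intro i η hη
    obtain ⟨P, hP⟩ := dn_poly 3 red (centralizer {w i}) (by norm_num) (hφ i) (w i) (hw3 i)
      (by norm_num) (hHmem i) η hζ
    have h1 := hP 1
    rw [pow_one, pow_one] at h1
    have h2 : d i η = Polynomial.aeval (Complex.exp (2 * Real.pi * Complex.I / (3 : ℕ))) P := h1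
    rw [h2]
    exact one_le_eis hζ P (by rw [← h2]; exact hd0 i η hη)
  -- Gram
  have hgram : ∀ i j, ∑ χ : Irr K, (starRingEnd ℂ) (d i χ) * d j χ =
      if i = j then ((9 : ℝ) : ℂ) else 0 := by
    intro i j
    have h1 : ∑ χ : Irr K, (starRingEnd ℂ) (d i χ) * d j χ =
        ∑ χ : Irr K, d j χ * (starRingEnd ℂ) (d i χ) :=
      Finset.sum_congr rfl fun χ _ => mul_comm _ _
    rw [h1]
    by_cases hij : i = j
    · subst hij
      rw [if_pos rfl]
      have := gram_self 3 red (centralizer {w i}) (by norm_num) (hφ i) (w i) (hwp i) (hHmem i)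
      rw [show (((9 : ℝ)) : ℂ) = ((9 : ℕ) : ℂ) by norm_num]
      exact this
    · rw [if_neg hij]
      rcases gram 3 red (centralizer {w j}) (centralizer {w i}) (by norm_num) (hφ j) (hφ i)
        (w j) (w i) (hwp j) (hwp i) (hHmem j) (hHmem i) with h | ⟨-, g, hg, hz⟩
      · exact h
      · exfalso
        obtain ⟨n, hn, hn2⟩ := fusionT hl hDp hab (w := w j) (g := g) (hwD j)
          (by rw [hg]; exact hreg i) (by
            rw [hg]
            intro z hzI
            have := hz z hzI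
            unfold cj
            rw [inv_inv]
            exact this)
        rw [hg] at hn2
        -- `w i = w j * (u ^ j)⁻¹ * u ^ i`
        have h2 : n * w j * n⁻¹ = w j * ((u ^ (j : ℕ))⁻¹ * u ^ (i : ℕ)) := by
          rw [hn2]
          simp only [w]
          group
        have hzc : ∀ x : K, x * ((u ^ (j : ℕ))⁻¹ * u ^ (i : ℕ)) =
            ((u ^ (j : ℕ))⁻¹ * u ^ (i : ℕ)) * x := by
          intro x
          have h4 : Commute x (u ^ (j : ℕ)) := hupow x j
          have h5 : Commute x (u ^ (i : ℕ)) := hupow x i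
          exact (h4.inv_right.mul_right h5).eq
        have h3 := no_central_fusion (p := 3) hT (hwD j) hzc
          (hexp _ (mul_mem (inv_mem (pow_mem huD _)) (pow_mem huD _))) hn h2
        have h4 : u ^ (i : ℕ) = u ^ (j : ℕ) := (inv_mul_eq_one.1 h3).symm
        have h5 := pow_injOn_Iio_orderOf (x := u) (by rw [hou]; exact i.2) (by rw [hou]; exact j.2) h4
        exact hij (Fin.ext h5)
  -- the set `U`
  set reg : Finset K := univ.filter (fun s : K => ¬ 3 ∣ orderOf s) with hregdef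
  have hpp : ∀ (j : Fin 3) (t : K), t ∈ reg → pp 3 (u ^ (j : ℕ) * t) = u ^ (j : ℕ) := by
    intro j t ht
    exact P179P.pp_eq (hupow t j).symm ⟨1, by
      rw [pow_one, ← pow_mul, mul_comm, pow_mul, hexp u huD, one_pow]⟩ (mem_filter.1 ht).2
  let ψ : Fin 3 × K → K := fun x => u ^ (x.1 : ℕ) * x.2
  have hinj : Set.InjOn ψ ((univ : Finset (Fin 3)) ×ˢ reg : Finset (Fin 3 × K)) := by
    rintro ⟨j, t⟩ hjt ⟨j', t'⟩ hjt' h
    have ht : t ∈ reg := (mem_product.1 (mem_coe.1 hjt)).2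
    have ht' : t' ∈ reg := (mem_product.1 (mem_coe.1 hjt')).2
    have h1 : u ^ (j : ℕ) * t = u ^ (j' : ℕ) * t' := h
    have h2 := hpp j t ht
    rw [h1, hpp j' t' ht'] at h2
    have h3 := pow_injOn_Iio_orderOf (x := u) (by rw [hou]; exact j'.2) (by rw [hou]; exact j.2) h2
    have h4 : j = j' := (Fin.ext h3).symm
    subst h4
    rw [Prod.mk.injEq]
    exact ⟨rfl, mul_left_cancel h1⟩
  set U : Finset K := ((univ : Finset (Fin 3)) ×ˢ reg).image ψ with hU
  have hUsum : ∀ η : Irr K, ∑ x ∈ U, ‖η.1 x‖ ^ 2 = 3 * ∑ t ∈ reg, ‖η.1 t‖ ^ 2 := by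
    intro η
    rw [hU, Finset.sum_image hinj, Finset.sum_product]
    obtain ⟨c, hc3, hc⟩ := central_scalar η u huc (hexp u huD)
    have hcn : ‖c‖ = 1 := Complex.norm_eq_one_of_pow_eq_one hc3 (by norm_num)
    have h1 : ∀ (j : Fin 3) (t : K), ‖η.1 (ψ (j, t))‖ ^ 2 = ‖η.1 t‖ ^ 2 := by
      intro j t
      have h2 : η.1 (ψ (j, t)) = c ^ (j : ℕ) * η.1 t := hc j t
      rw [h2, norm_mul, norm_pow, hcn, one_pow, one_mul]
    simp only [h1]
    rw [Finset.sum_const, Finset.card_univ, Fintype.card_fin, nsmul_eq_mul]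
    norm_num
  have hUzero : ∀ i, ∀ x ∈ U, gfun (d i) x = 0 := by
    intro i x hx
    obtain ⟨⟨j, t⟩, hjt, rfl⟩ := mem_image.1 hx
    have ht : t ∈ reg := (mem_product.1 hjt).2
    have hconj : ∀ χ : Irr K, (starRingEnd ℂ) (d i χ) = (9 : ℕ) / Nat.card (centralizer {w i} : Subgroup K) *
        ∑ s ∈ univ.filter (fun s : (centralizer {w i} : Subgroup K) => ¬ 3 ∣ orderOf s),
          χ.1 (w i * s)⁻¹ * φ i s := by
      intro χ
      have h1 : ∀ s : (centralizer {w i} : Subgroup K), (starRingEnd ℂ) (φ i s⁻¹) = φ i s := by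
        intro s
        have := Irr.inv_eq_conj (⟨φ i, (hφ i).irr⟩ : Irr (centralizer {w i} : Subgroup K)) s⁻¹
        rw [inv_inv] at this
        exact this.symm
      simp only [d, dn, rsum_eq, map_mul, map_sum, map_div₀, map_natCast, h1, ← Irr.inv_eq_conj]
    have h2 : gfun (d i) (ψ (j, t)) = (9 : ℕ) / Nat.card (centralizer {w i} : Subgroup K) *
        ∑ s ∈ univ.filter (fun s : (centralizer {w i} : Subgroup K) => ¬ 3 ∣ orderOf s),
          φ i s * ∑ χ : Irr K, χ.1 (ψ (j, t)) * χ.1 (w i * s)⁻¹ := by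
      rw [gfun]
      simp only [hconj, mul_assoc, Finset.mul_sum, Finset.sum_mul]
      rw [Finset.sum_comm]
      refine Finset.sum_congr rfl fun s _ => Finset.sum_congr rfl fun χ _ => ?_
      ring
    rw [h2, Finset.sum_eq_zero, mul_zero]
    intro s hs
    rw [col_orth]
    have h3 : IsEmpty {y : K // y * ψ (j, t) * y⁻¹ = w i * s} := by
      refine ⟨fun y => ?_⟩
      obtain ⟨y, hy⟩ := y
      have h4 : pp 3 (w i * (s : K)) = w i := by
        refine P179P.pp_eq ((hHmem i s).1 s.2).symm (hwp i) ?_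
        have := (mem_filter.1 hs).2
        rwa [← Subgroup.orderOf_coe] at this
      rw [← hy, P179P.pp_conj, show pp 3 (ψ (j, t)) = u ^ (j : ℕ) from hpp j t ht,
        hupow y j, mul_inv_cancel_right] at h4
      -- `u ^ j = v * u ^ i`
      apply hvu
      have h5 : v = u ^ (j : ℕ) * (u ^ (i : ℕ))⁻¹ := by
        rw [h4]
        simp only [w]
        group
      rw [h5]
      exact mul_mem (npow_mem_zpowers u _) (inv_mem (npow_mem_zpowers u _))
    rw [Nat.card_of_isEmpty, Nat.cast_zero, mul_zero]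
  have hmass : ∀ η : Irr K, InL red l η.1 →
      (∑ t ∈ reg, ‖η.1 t‖ ^ 2) / Nat.card K ≤ 2 / 9 := by
    intro η hη
    have h1 := bessel_gfun d (q := 9) (by norm_num) hgram U hUzero η
    rw [hUsum] at h1
    have h2 : (3 : ℝ) ≤ ∑ i, ‖d i η‖ ^ 2 := by
      calc (3 : ℝ) = ∑ _i : Fin 3, (1 : ℝ) := by simp
        _ ≤ _ := Finset.sum_le_sum fun i _ => hd1 i η hη
    rw [Nat.card_eq_fintype_card]
    have h3 : (3 * ∑ t ∈ reg, ‖η.1 t‖ ^ 2) / (Fintype.card K : ℝ) =
        3 * ((∑ t ∈ reg, ‖η.1 t‖ ^ 2) / (Fintype.card K : ℝ)) := by ring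
    rw [h3] at h1
    have h4 : (3 : ℝ) / 9 ≤ (∑ i, ‖d i η‖ ^ 2) / 9 := by gcongr
    linarith
  have hcard : (univ.filter fun η : Irr K => InL red l η.1).card ≤ 9 := by
    have h1 := hgram 0 0
    rw [if_pos rfl] at h1
    have h2 : ∀ χ : Irr K, (starRingEnd ℂ) (d 0 χ) * d 0 χ = ((‖d 0 χ‖ ^ 2 : ℝ) : ℂ) := by
      intro χ
      rw [mul_comm, Complex.mul_conj, Complex.normSq_eq_norm_sq]
    rw [Finset.sum_congr rfl fun χ _ => h2 χ, ← Complex.ofReal_sum] at h1
    have h3 : ∑ χ : Irr K, ‖d 0 χ‖ ^ 2 = 9 := by exact_mod_cast h1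
    have h4 : ((univ.filter fun η : Irr K => InL red l η.1).card : ℝ) ≤ 9 := by
      calc ((univ.filter fun η : Irr K => InL red l η.1).card : ℝ) =
            ∑ _η ∈ univ.filter (fun η : Irr K => InL red l η.1), (1 : ℝ) := by simp
        _ ≤ ∑ η ∈ univ.filter (fun η : Irr K => InL red l η.1), ‖d 0 η‖ ^ 2 :=
            Finset.sum_le_sum fun η hη => hd1 0 η (mem_filter.1 hη).2
        _ ≤ ∑ η : Irr K, ‖d 0 η‖ ^ 2 :=
            Finset.sum_le_sum_of_subset_of_nonneg (Finset.subset_univ _) fun _ _ _ => by positivity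
        _ = 9 := h3
    exact_mod_cast h4
  refine ⟨hcard, hmass, ?_⟩
  calc ∑ η ∈ univ.filter (fun η : Irr K => InL red l η.1),
        (∑ t ∈ reg, ‖η.1 t‖ ^ 2) / (Nat.card K : ℝ) ≤
        ∑ _η ∈ univ.filter (fun η : Irr K => InL red l η.1), (2 / 9 : ℝ) :=
        Finset.sum_le_sum fun η hη => hmass η (mem_filter.1 hη).2
    _ = (univ.filter fun η : Irr K => InL red l η.1).card * (2 / 9 : ℝ) := by
        rw [Finset.sum_const, nsmul_eq_mul]
    _ ≤ 9 * (2 / 9 : ℝ) := by
        gcongr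
        exact_mod_cast hcard
    _ = 2 := by norm_num

end Main

end P179Y
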