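import Vale.Agent.P179.H143.TranspT

/-!
# `k(B) ≤ |D|` for blocks with abelian defect groups and a regular element
-/

namespace P179T

open P179H524 P179C P179A Finset P179P P179Y Subgroup

open P179X (pp)

open scoped Classical

section

variable {k : Type*} [Field k] (p : ℕ) [hp : Fact p.Prime] [CharP k p]
  (red : integralClosure ℤ ℂ →+* k) {G : Type*} [Group G] [Fintype G]

/-- the number of characters of a block is at most `q` -/
theorem card_le_of_ND (H : Subgroup G) {l : (G → k) → k} {q : ℕ} (hq : q ≠ 0) {φ : H → ℂ}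
    (hφ : ND red p (lres H l) q φ) {a b : ℕ} (hb : ¬ p ∣ b)
    (hab : (a : ℂ) * Nat.card H = b * (q * φ 1))
    (u : G) {c : ℕ} (hu : u ^ p ^ c = 1) (hH : ∀ x, x ∈ H ↔ x * u = u * x)
    (hsmul : ∀ (c : k) a, l (c • a) = c * l a)
    {κ : k} (hκ : κ ≠ 0) (hK5 : K5P red H l u κ) :
    (univ.filter fun χ : Irr G => InL red l χ.1).card ≤ q := by
  set N := p ^ c with hN
  have hN0 : N ≠ 0 := pow_ne_zero _ hp.out.ne_zero
  have hNpos : 0 < N := Nat.pos_of_ne_zero hN0
  set ζ : ℂ := Complex.exp (2 * Real.pi * Complex.I / N) with hζdef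
  have hζ : IsPrimitiveRoot ζ N := Complex.isPrimitiveRoot_exp N hN0
  have hPex : ∀ ψ : Irr G, ∃ P : Polynomial ℤ, ∀ j : ℕ,
      dn p H q φ (u ^ j) ψ.1 = Polynomial.aeval (ζ ^ j) P := fun ψ =>
    dn_poly p red H hq hφ u hu hN0 hH ψ hζ
  choose P hP using hPex
  have hP1 : ∀ ψ, dn p H q φ u ψ.1 = Polynomial.aeval ζ (P ψ) := by
    intro ψ
    have := hP ψ 1
    rwa [pow_one, pow_one] at this
  have hne : ∀ ψ : Irr G, InL red l ψ.1 → Polynomial.aeval ζ (P ψ) ≠ 0 := by
    intro ψ hψ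
    rw [← hP1]
    exact dn_ne_zero p red H hq hφ hb hab u hH hsmul hκ hK5 ψ hψ
  set J := (range N).filter (fun j => j.Coprime N) with hJ
  have hag : ∀ ψ : Irr G, InL red l ψ.1 →
      (N.totient : ℝ) ≤ ∑ j ∈ J, ‖Polynomial.aeval (ζ ^ j) (P ψ)‖ ^ 2 := fun ψ hψ =>
    (P179H234.ag hNpos hζ (P ψ) (hne ψ hψ)).1
  have hcardJ : (J.card : ℝ) = N.totient := by
    have h1 : J.card = N.totient := by
      rw [hJ, Nat.totient_eq_card_coprime]
      congr 1
      ext j
      simp only [mem_filter, mem_range, Nat.coprime_comm]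
    rw [h1]
  -- the norms
  have hnorm : ∀ j ∈ J, ∑ ψ : Irr G, ‖Polynomial.aeval (ζ ^ j) (P ψ)‖ ^ 2 = q := by
    intro j hj
    have hjN : j.Coprime N := (mem_filter.1 hj).2
    have hjo : (orderOf u).Coprime j := by
      have h1 : orderOf u ∣ N := orderOf_dvd_of_pow_eq_one hu
      exact (Nat.Coprime.coprime_dvd_right h1 hjN).symm
    have h2 := gram_self p red H hq hφ (u ^ j) ⟨c, by rw [← pow_mul, mul_comm, pow_mul, hu, one_pow]⟩
      (mem_pow_iff H hH hjo)
    have h3 : ((∑ ψ : Irr G, ‖Polynomial.aeval (ζ ^ j) (P ψ)‖ ^ 2 : ℝ) : ℂ) = q := by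
      rw [← h2]
      push_cast
      refine Finset.sum_congr rfl fun ψ _ => ?_
      rw [hP ψ j, Complex.mul_conj, Complex.normSq_eq_norm_sq]
      push_cast
      rfl
    exact_mod_cast h3
  have htot : ∑ ψ : Irr G, ∑ j ∈ J, ‖Polynomial.aeval (ζ ^ j) (P ψ)‖ ^ 2 = N.totient * q := by
    rw [Finset.sum_comm, Finset.sum_congr rfl hnorm, Finset.sum_const, nsmul_eq_mul, hcardJ]
  set L := univ.filter fun ψ : Irr G => InL red l ψ.1 with hL
  have h1 : ∑ ψ ∈ L, ∑ j ∈ J, ‖Polynomial.aeval (ζ ^ j) (P ψ)‖ ^ 2 ≤ N.totient * q := by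
    rw [← htot]
    exact Finset.sum_le_sum_of_subset_of_nonneg (Finset.subset_univ _) fun ψ _ _ =>
      Finset.sum_nonneg fun j _ => by positivity
  have h2 : (L.card : ℝ) * N.totient ≤
      ∑ ψ ∈ L, ∑ j ∈ J, ‖Polynomial.aeval (ζ ^ j) (P ψ)‖ ^ 2 := by
    rw [← nsmul_eq_mul, ← Finset.sum_const]
    exact Finset.sum_le_sum fun ψ hψ => hag ψ (mem_filter.1 hψ).2
  have h3 : (0 : ℝ) < N.totient := by exact_mod_cast Nat.totient_pos.2 hNpos
  have h4 : (L.card : ℝ) * N.totient ≤ q * N.totient := by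
    refine (h2.trans h1).trans (le_of_eq (mul_comm _ _))
  have h5 : (L.card : ℝ) ≤ q := le_of_mul_le_mul_right h4 h3
  exact_mod_cast h5

end

section

variable {k : Type*} [Field k] [IsAlgClosed k] (p : ℕ) [hp : Fact p.Prime] [CharP k p]
  (red : integralClosure ℤ ℂ →+* k) {G : Type} [Group G] [Fintype G]

include hp in
/-- **(R)** `k(B) ≤ |D|` if `D` has an element which is regular for the inertial group. -/
theorem card_le_of_RegT {D : Subgroup G} {l : (G → k) → k} (hl : BP p D l)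
    (hD : IsPGroup p D) (hab : D ≤ centralizer (D : Set G))
    (hT : ¬ p ∣ (centralizer (D : Set G)).relIndex (stabT D l)) {u : G} (hu : RegT D l u) :
    (univ.filter fun χ : Irr G => InL red l χ.1).card ≤ Nat.card D := by
  obtain ⟨φ, hφ⟩ := exists_NDT p red hl hD hab hu
  obtain ⟨a, b, -, hb, hab'⟩ := hφ.unit
  obtain ⟨c, hc⟩ := hD ⟨u, hu.1⟩
  have hc' : u ^ p ^ c = 1 := by simpa using congrArg Subtype.val hc
  refine card_le_of_ND p red (centralizer {u}) Nat.card_pos.ne' hφ hb hab' u hc' (fun x => ?_)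
    hl.smul (κ := ((centralizer (D : Set G)).relIndex (stabT D l) : k)) ?_
    (K5P_ofT p red hl hD hab hu)
  · rw [mem_centralizer_singleton_iff]
  · rwa [Ne, CharP.cast_eq_zero_iff k p]

omit [IsAlgClosed k] in
include hp in
/-- a generator of a cyclic group is regular -/
theorem regT_of_zpowers {D : Subgroup G} {l : (G → k) → k} {u : G} (hu : D = zpowers u) :
    RegT D l u := by
  refine ⟨hu ▸ mem_zpowers u, fun n _ hnu => ?_⟩
  rw [mem_centralizer_iff]
  intro x hx
  rw [SetLike.mem_coe, hu, mem_zpowers_iff] at hx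
  obtain ⟨i, rfl⟩ := hx
  have h1 : Commute n u := by
    change n * u = u * n
    calc n * u = n * u * n⁻¹ * n := by group
      _ = u * n := by rw [hnu]
  exact (h1.zpow_right i).eq.symm

include hp in
/-- `k(B) ≤ |D|` if `D` is cyclic -/
theorem card_le_of_cyclic {D : Subgroup G} {l : (G → k) → k} (hl : BP p D l)
    (hD : IsPGroup p D) (hab : D ≤ centralizer (D : Set G))
    (hT : ¬ p ∣ (centralizer (D : Set G)).relIndex (stabT D l)) {u : G} (hu : D = zpowers u) :
    (univ.filter fun χ : Irr G => InL red l χ.1).card ≤ Nat.card D :=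
  card_le_of_RegT p red hl hD hab hT (regT_of_zpowers p hu)

end

end P179T
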