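import Vale.Agent.P179.H166.K6p3
import Vale.Agent.P179.H143.Cong

/-!
# The number of weights is less than the number of characters of the correspondent in `N_G(D)`
-/

namespace P179T

open P179H524 P179C P179A Finset P179P P179Y Subgroup

open P179X (pp)

open scoped Classical

section Ker

variable (p : ℕ) [hp : Fact p.Prime] {k : Type*} [Field k] [CharP k p]
  (red : integralClosure ℤ ℂ →+* k) {N : Type*} [Group N] [Fintype N]

/-- not all the characters of a block have a given `p`-singular element in the kernel -/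
theorem exists_not_ker {l : (N → k) → k} {u : N} (hu : p ∣ orderOf u) {χ₀ : Irr N}
    (h0 : InL red l χ₀.1) : ∃ χ : Irr N, InL red l χ.1 ∧ χ.1 u ≠ χ.1 1 := by
  by_contra hcon
  push Not at hcon
  have h1 : KK red l 1 u⁻¹ = 0 := by
    refine KK_sec p red l 1 u⁻¹ ?_
    intro h
    unfold P179X.SameSec at h
    have h1 : pp p (1 : N) = 1 := (pp_eq_one_iff _).2 (by
      rw [orderOf_one]; exact hp.out.one_lt.ne' ∘ Nat.dvd_one.1)
    rw [h1] at h
    have h2 : pp p u⁻¹ = 1 := by
      obtain ⟨c, hc⟩ := isConj_iff.1 h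
      rw [← hc]; group
    have h3 := (pp_eq_one_iff u⁻¹).1 h2
    rw [orderOf_inv] at h3
    exact h3 hu
  have h2 : KK red l 1 u⁻¹ =
      ((∑ χ : Irr N, if InL red l χ.1 then Complex.normSq (χ.1 1) else 0 : ℝ) : ℂ) := by
    rw [KK]
    push_cast
    refine Finset.sum_congr rfl fun χ _ => ?_
    by_cases h : InL red l χ.1
    · rw [if_pos h, if_pos h, inv_inv, hcon χ h]
      have h3 : (starRingEnd ℂ) (χ.1 1) = χ.1 1 := by
        rw [← Irr.inv_eq_conj, inv_one]
      rw [← Complex.mul_conj, h3]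
    · rw [if_neg h, if_neg h, Complex.ofReal_zero]
  rw [h2, Complex.ofReal_eq_zero] at h1
  have h3 : 0 < ∑ χ : Irr N, if InL red l χ.1 then Complex.normSq (χ.1 1) else 0 := by
    refine Finset.sum_pos' (fun χ _ => ?_) ⟨χ₀, mem_univ _, ?_⟩
    · split_ifs
      · exact Complex.normSq_nonneg _
      · exact le_rfl
    · rw [if_pos h0]
      exact Complex.normSq_pos.2 χ₀.one_ne_zero
  rw [h1] at h3
  exact lt_irrefl _ h3

/-- the characters of a block with `u` in the kernel are not all the characters of the block -/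
theorem card_ker_lt {l : (N → k) → k} {u : N} (hu : p ∣ orderOf u) (S : Finset (Irr N))
    (hS : ∀ χ ∈ S, InL red l χ.1 ∧ χ.1 u = χ.1 1) {χ₀ : Irr N} (h0 : InL red l χ₀.1) :
    S.card + 1 ≤ (univ.filter fun χ : Irr N => InL red l χ.1).card := by
  obtain ⟨χ, hχ, hne⟩ := exists_not_ker p red hu h0
  refine Nat.succ_le_of_lt (Finset.card_lt_card ?_)
  rw [Finset.ssubset_iff_of_subset]
  · exact ⟨χ, mem_filter.2 ⟨mem_univ _, hχ⟩, fun h => hne (hS χ h).2⟩
  · intro ψ hψ
    exact mem_filter.2 ⟨mem_univ _, (hS ψ hψ).1⟩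

end Ker

section Main

variable (p : ℕ) [hp : Fact p.Prime] {k : Type*} [Field k] [IsAlgClosed k] [CharP k p]
  (red : integralClosure ℤ ℂ →+* k) {G : Type} [Group G] [Fintype G]

include hp in
/-- **w ≤ k(b) - 1**, for the Brauer correspondent `b` in `N_G(D)` -/
theorem numWeights_lt {B : MonoidAlgebra k G} {D : Subgroup G}
    {l : (G → k) → k} (hl : BP p D l) (hD : IsPGroup p D) (hab : D ≤ centralizer (D : Set G))
    (hT : ¬ p ∣ (centralizer (D : Set G)).relIndex (stabT D l))
    (hlB : ∀ z : G → k, IsCF z → l z = centralChar B (mkF z)) {u : G} (hu : u ∈ D)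
    (hu1 : u ≠ 1) :
    numWeightsIn p red B + 1 ≤ (univ.filter fun χ : Irr (normalizer (D : Set G)) =>
      InL red (lres (normalizer (D : Set G)) l) χ.1).card := by
  have hDN : D ≤ normalizer (D : Set G) := le_normalizer
  have hCN : centralizer (D : Set G) ≤ normalizer (D : Set G) := cent_le_norm D
  set N := normalizer (D : Set G) with hN
  set D' := D.subgroupOf N with hD'
  have hl' : BP p D' (lres N l) := hl.restrict hDN hCN
  have hab' : D' ≤ centralizer (D' : Set N) := by
    intro x hx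
    rw [mem_centralizer_iff]
    intro y hy
    exact Subtype.ext (mem_centralizer_iff.1 (hab (mem_subgroupOf.1 hx)) _ (mem_subgroupOf.1 hy))
  obtain ⟨χ₀, hχ₀⟩ := exists_inL p red (hl'.isHomCF hD.comap_subtype hab')
  have hpos : 1 ≤ (univ.filter fun χ : Irr N => InL red (lres N l) χ.1).card :=
    Finset.card_pos.2 ⟨χ₀, mem_filter.2 ⟨mem_univ _, hχ₀⟩⟩
  have hu' : p ∣ orderOf (⟨u, hDN hu⟩ : N) := by
    obtain ⟨a, ha⟩ := hD ⟨u, hu⟩
    have h1 : (⟨u, hDN hu⟩ : N) ^ p ^ a = 1 := by
      apply Subtype.ext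
      have := congrArg Subtype.val ha
      simpa using this
    obtain ⟨i, -, hi⟩ := (Nat.dvd_prime_pow hp.out).1 (orderOf_dvd_of_pow_eq_one h1)
    rw [hi]
    refine dvd_pow_self p ?_
    rintro rfl
    rw [pow_zero, orderOf_eq_one_iff] at hi
    exact hu1 (congrArg Subtype.val hi)
  have h2 : numWeightsIn p red B ≤
      (univ.filter fun χ : Irr N => InL red (lres N l) χ.1).card - 1 := by
    refine numWeights_le red hl hD hab hT hlB fun S hS => ?_
    have h3 := card_ker_lt p red hu' S (fun χ hχ => ⟨fun z hz => ?_, ?_⟩) hχ₀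
    · omega
    · rw [(hS χ hχ).lam z hz, hl.cut]
      rfl
    · have h4 := (hS χ hχ).wt.ker (⟨u, hDN hu⟩ : N) (mem_subgroupOf.2 hu) 1
      rwa [mul_one] at h4
  omega

end Main

end P179T
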