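import Vale.Agent.P179.H143.MainT

/-!
# (Z2): Bessel's inequality for the regular sections
-/

namespace P179T

open P179H524 P179C P179A Finset P179P P179Y Subgroup

open scoped Classical

section Count

variable {G : Type*} [Group G] [Finite G]

/-- a `T`-orbit in `D` has at most `|T : C(D)|` elements -/
theorem card_orbit_le {D T : Subgroup G} {u : G} (hu : u ∈ D) (W : Finset G)
    (hW : ∀ b ∈ W, ∃ t ∈ T, t * u * t⁻¹ = b) :
    W.card ≤ (centralizer (D : Set G)).relIndex T := by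
  set C : Subgroup G := centralizer (D : Set G) with hC
  have := Fintype.ofFinite (T ⧸ C.subgroupOf T)
  have hQ : Fintype.card (T ⧸ C.subgroupOf T) = C.relIndex T := by
    rw [← Nat.card_eq_fintype_card]
    rfl
  rw [← hQ, ← Finset.card_univ]
  have h1 : ∀ b : G, ∃ c : T ⧸ C.subgroupOf T, (b ∈ W →
      ((c.out : T) : G) * u * ((c.out : T) : G)⁻¹ = b) := by
    intro b
    by_cases h : b ∈ W
    · obtain ⟨n, hn, hn2⟩ := hW b h
      refine ⟨QuotientGroup.mk ⟨n, hn⟩, fun _ => ?_⟩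
      set t : T := (QuotientGroup.mk (⟨n, hn⟩ : T) : T ⧸ C.subgroupOf T).out with ht
      have h2 : (QuotientGroup.mk t : T ⧸ C.subgroupOf T) = QuotientGroup.mk ⟨n, hn⟩ :=
        Quotient.out_eq' _
      rw [QuotientGroup.eq] at h2
      have h3 : (t : G)⁻¹ * n ∈ C := h2
      have h4 : u * ((t : G)⁻¹ * n) = ((t : G)⁻¹ * n) * u := mem_centralizer_iff.1 h3 u hu
      rw [← hn2]
      calc (t : G) * u * (t : G)⁻¹ = t * (u * ((t : G)⁻¹ * n)) * n⁻¹ := by group
        _ = t * (((t : G)⁻¹ * n) * u) * n⁻¹ := by rw [h4]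
        _ = _ := by group
    · exact ⟨QuotientGroup.mk 1, fun h' => absurd h' h⟩
  choose c hc using h1
  refine Finset.card_le_card_of_injOn c (fun _ _ => mem_univ _) ?_
  intro b hb b' hb' hcc
  have h2 := hc b hb
  have h3 := hc b' hb'
  rw [hcc] at h2
  exact h2.symm.trans h3

end Count

section Bessel

variable {G : Type*} [Group G] [Fintype G]

/-- **Bessel's inequality** for the regular sections -/
theorem bessel_reg {D T : Subgroup G} {q : ℕ} (hq : q ≠ 0) (W : Finset G) (hW : ∀ u ∈ W, u ∈ D)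
    (A : G → Irr G → ℂ) (hgram : ∀ u ∈ W, ∀ b ∈ W, ∑ χ, A u χ * (starRingEnd ℂ) (A b χ) =
      if ∃ t ∈ T, t * u * t⁻¹ = b then (q : ℂ) else 0) (c : G → ℝ) :
    ∑ χ : Irr G, ‖∑ u ∈ W, (c u : ℂ) * A u χ‖ ^ 2 ≤
      (q : ℝ) * (centralizer (D : Set G)).relIndex T * ∑ u ∈ W, c u ^ 2 := by
  have hq0 : (q : ℂ) ≠ 0 := by exact_mod_cast hq
  have h1 := quad_bound (W := {u // u ∈ W}) (I := Irr G) (fun u χ => A u.1 χ) q
    ((centralizer (D : Set G)).relIndex T) (fun u b => by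
      rw [hgram u.1 u.2 b.1 b.2]
      split_ifs
      · exact Or.inr rfl
      · exact Or.inl rfl) (fun u => by
      rw [← Finset.card_image_of_injective _ Subtype.val_injective]
      refine card_orbit_le (T := T) (hW u.1 u.2) _ fun b hb => ?_
      obtain ⟨b', hb', rfl⟩ := Finset.mem_image.1 hb
      have hb2 := (mem_filter.1 hb').2
      rw [hgram u.1 u.2 b'.1 b'.2] at hb2
      by_contra h
      rw [if_neg h] at hb2
      exact hb2 rfl) (fun u => c u.1)
  have h2 : ∀ f : G → ℂ, ∑ u : {u // u ∈ W}, f u.1 = ∑ u ∈ W, f u := fun f =>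
    Finset.sum_coe_sort W f
  have h3 : ∑ u : {u // u ∈ W}, c u.1 ^ 2 = ∑ u ∈ W, c u ^ 2 :=
    Finset.sum_coe_sort W (fun u => c u ^ 2)
  rw [h3] at h1
  refine le_trans (le_of_eq ?_) h1
  refine Finset.sum_congr rfl fun χ _ => ?_
  rw [h2 (fun u => (c u : ℂ) * A u χ)]

variable {D T : Subgroup G} {q : ℕ} (hq : q ≠ 0) (W : Finset G) (hW : ∀ u ∈ W, u ∈ D)
    (A : G → Irr G → ℂ) (hgram : ∀ u ∈ W, ∀ b ∈ W, ∑ χ, A u χ * (starRingEnd ℂ) (A b χ) =
      if ∃ t ∈ T, t * u * t⁻¹ = b then (q : ℂ) else 0)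

include hq hW hgram in
/-- the sum over the real characters, in real form -/
theorem bessel_int (R : Finset (Irr G)) (a : Irr G → G → ℤ)
    (ha : ∀ χ ∈ R, ∀ u ∈ W, A u χ = a χ u) (c : G → ℝ) :
    ∑ χ ∈ R, (∑ u ∈ W, c u * a χ u) ^ 2 ≤
      (q : ℝ) * (centralizer (D : Set G)).relIndex T * ∑ u ∈ W, c u ^ 2 := by
  refine le_trans ?_ (bessel_reg hq W hW A hgram c)
  refine le_trans ?_ (Finset.sum_le_sum_of_subset_of_nonneg (Finset.subset_univ R)
    fun _ _ _ => by positivity)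
  refine Finset.sum_le_sum fun χ hχ => le_of_eq ?_
  have h1 : ∑ u ∈ W, (c u : ℂ) * A u χ = ((∑ u ∈ W, c u * a χ u : ℝ) : ℂ) := by
    push_cast
    exact Finset.sum_congr rfl fun u hu => by rw [ha χ hχ u hu]
  rw [h1, Complex.norm_real, Real.norm_eq_abs, sq_abs]

include hq hW hgram in
/-- **(Z2 i)** -/
theorem sum_sq_le (R : Finset (Irr G)) (a : Irr G → G → ℤ)
    (ha : ∀ χ ∈ R, ∀ u ∈ W, A u χ = a χ u) (χ : Irr G) (hχ : χ ∈ R) :
    ∑ u ∈ W, a χ u ^ 2 ≤ (q : ℤ) * (centralizer (D : Set G)).relIndex T := by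
  have h1 := bessel_int hq W hW A hgram R a ha (fun u => a χ u)
  set X : ℝ := ∑ u ∈ W, (a χ u : ℝ) ^ 2 with hX
  set K : ℝ := (q : ℝ) * (centralizer (D : Set G)).relIndex T with hK
  have h2 : X ^ 2 ≤ K * X := by
    refine le_trans ?_ h1
    have h3 : (∑ u ∈ W, (a χ u : ℝ) * a χ u) = X := by
      rw [hX]
      exact Finset.sum_congr rfl fun u _ => by ring
    have h4 := Finset.single_le_sum (f := fun ψ => (∑ u ∈ W, (a χ u : ℝ) * a ψ u) ^ 2)
      (fun ψ _ => by positivity) hχ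
    beta_reduce at h4
    rwa [h3] at h4
  have hX0 : 0 ≤ X := Finset.sum_nonneg fun u _ => by positivity
  have hK0 : 0 ≤ K := by positivity
  have h5 : X ≤ K := by
    rcases hX0.eq_or_lt with h | h
    · rw [← h]; exact hK0
    · nlinarith
  have h6 : (((∑ u ∈ W, a χ u ^ 2 : ℤ)) : ℝ) ≤
      (((q : ℤ) * (centralizer (D : Set G)).relIndex T : ℤ) : ℝ) := by
    push_cast
    exact h5
  exact_mod_cast h6

include hq hW hgram in
/-- **(Z2 ii)** -/
theorem card_mul_le (R : Finset (Irr G)) (a : Irr G → G → ℤ)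
    (ha : ∀ χ ∈ R, ∀ u ∈ W, A u χ = a χ u) (s : Irr G → ℤ)
    (hs : ∀ χ ∈ R, ∀ u ∈ W, a χ u = s χ) (hs0 : ∀ χ ∈ R, s χ ≠ 0) (hne : W.Nonempty) :
    R.card * W.card ≤ q * (centralizer (D : Set G)).relIndex T := by
  have h1 := bessel_int hq W hW A hgram R a ha (fun _ => 1)
  have hWpos : (0 : ℝ) < W.card := by exact_mod_cast hne.card_pos
  have h2 : (R.card : ℝ) * (W.card : ℝ) ^ 2 ≤
      ∑ χ ∈ R, (∑ u ∈ W, (1 : ℝ) * a χ u) ^ 2 := by
    rw [← nsmul_eq_mul, ← Finset.sum_const]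
    refine Finset.sum_le_sum fun χ hχ => ?_
    have h3 : ∑ u ∈ W, (1 : ℝ) * a χ u = W.card * s χ := by
      rw [Finset.sum_congr rfl fun u hu => by rw [hs χ hχ u hu, one_mul], Finset.sum_const,
        nsmul_eq_mul]
    rw [h3, mul_pow]
    have h4 : (1 : ℝ) ≤ (s χ : ℝ) ^ 2 := by
      have h5 : (1 : ℤ) ≤ s χ ^ 2 := by
        have := hs0 χ hχ
        have h6 : 0 < s χ ^ 2 := by positivity
        omega
      exact_mod_cast h5
    nlinarith [sq_nonneg (W.card : ℝ)]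
  have h3 : ∑ u ∈ W, (1 : ℝ) ^ 2 = W.card := by simp
  rw [h3] at h1
  have h4 := h2.trans h1
  have h5 : (R.card : ℝ) * W.card ≤ q * (centralizer (D : Set G)).relIndex T := by
    have h6 : ((R.card : ℝ) * W.card) * W.card ≤
        ((q : ℝ) * (centralizer (D : Set G)).relIndex T) * W.card := by
      calc ((R.card : ℝ) * W.card) * W.card = (R.card : ℝ) * (W.card : ℝ) ^ 2 := by ring
        _ ≤ _ := h4
    exact le_of_mul_le_mul_right h6 hWpos
  exact_mod_cast h5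

end Bessel

end P179T
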