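import Vale.Agent.P179.H143.Z2
import Vale.Agent.P179.H526.Z1c
import Vale.Agent.P179.H905.I20

/-!
# Theorem Z: the glue
-/

namespace P179T

open P179H524 P179C P179A Finset P179P P179Y Subgroup P179I

open P179X (pp SameSec IrrB Srat)

open scoped Classical IsMulCommutative

universe v

section

variable {p : ℕ} [hp : Fact p.Prime] {k : Type v} [Field k] [CharP k p] {red : AA →+* k}
  {G : Type} [Group G] [Fintype G] {D : Subgroup G} {l : (G → k) → k}

/-- the decomposition numbers of an `m`-rational character are invariant under `u ↦ u ^ m` -/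
theorem dn_pow (H : Subgroup G) (q : ℕ) (φ : H → ℂ) {u : G} (hH : ∀ x, x ∈ H → x * u = u * x)
    {χ : G → ℂ} {m : ℕ} (hm1 : m ≡ 1 [MOD ordCompl[p] (Nat.card G)])
    (hχm : ∀ g, χ (g ^ m) = χ g) : dn p H q φ (u ^ m) χ = dn p H q φ u χ := by
  rw [dn, dn]
  congr 1
  rw [rsum_eq, rsum_eq]
  refine Finset.sum_congr rfl fun t ht => ?_
  congr 1
  have h1 : (t : G) ^ m = t := by
    apply pow_eq_of_modEq_of_dvd (p := p) hm1
    rw [Subgroup.orderOf_coe]
    exact (mem_filter.1 ht).2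
  have h2 : Commute u (t : G) := (hH t t.2).symm
  rw [← hχm (u * t), h2.mul_pow, h1]

theorem dn_pow_pow (H : Subgroup G) (q : ℕ) (φ : H → ℂ) {u : G} (hH : ∀ x, x ∈ H → x * u = u * x)
    {χ : G → ℂ} {m : ℕ} (hm1 : m ≡ 1 [MOD ordCompl[p] (Nat.card G)])
    (hχm : ∀ g, χ (g ^ m) = χ g) (i : ℕ) : dn p H q φ (u ^ m ^ i) χ = dn p H q φ u χ := by
  induction i with
  | zero => rw [pow_zero, pow_one]
  | succ i ih =>
    rw [pow_succ, pow_mul, dn_pow H q φ (fun x hx => ?_) hm1 hχm, ih]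
    exact ((show Commute x u from hH x hx).pow_right _)

theorem dn_pow_coprime (hD : IsPGroup p D) (H : Subgroup G) (q : ℕ) (φ : H → ℂ) {u : G}
    (hu : u ∈ D) (hH : ∀ x, x ∈ H → x * u = u * x)
    {χ : G → ℂ} {m : ℕ} (hm1 : m ≡ 1 [MOD ordCompl[p] (Nat.card G)])
    (hgen : ∀ j : ℕ, ¬ p ∣ j → ∃ i : ℕ, m ^ i ≡ j [MOD ordProj[p] (Nat.card G)])
    (hχm : ∀ g, χ (g ^ m) = χ g) {j : ℕ} (hj : ¬ p ∣ j) :
    dn p H q φ (u ^ j) χ = dn p H q φ u χ := by
  obtain ⟨i, hi⟩ := hgen j hj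
  have hG0 : Nat.card G ≠ 0 := Nat.card_pos.ne'
  have huN : orderOf u ∣ ordProj[p] (Nat.card G) := by
    obtain ⟨a, ha⟩ := hD ⟨u, hu⟩
    have ha' : u ^ p ^ a = 1 := by simpa using congrArg Subtype.val ha
    obtain ⟨i, -, hi⟩ := (Nat.dvd_prime_pow hp.out).1 (orderOf_dvd_of_pow_eq_one ha')
    rw [hi]
    have h1 : p ^ i ∣ Nat.card G := by rw [← hi]; exact orderOf_dvd_natCard u
    exact pow_dvd_pow p ((hp.out.pow_dvd_iff_le_factorization hG0).1 h1)
  have h1 : u ^ j = u ^ m ^ i := by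
    rw [pow_eq_pow_iff_modEq]
    exact (hi.of_dvd huN).symm
  rw [h1, dn_pow_pow H q φ hH hm1 hχm]

variable [IsMulCommutative D]

/-- the data at the elements of `D` outside a proper subgroup `K` -/
structure ZDat (red : AA →+* k) (D : Subgroup G) (l : (G → k) → k) [IsMulCommutative D]
    (K : Subgroup D) (Φ : ∀ H : Subgroup G, Irr H) (ε : Subgroup G → ℤ) : Prop where
  nd : ∀ u : D, u ∉ K →
    ND red p (lres (centralizer {(u : G)}) l) (Nat.card D) (Φ (centralizer {(u : G)})).1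
  sgn : ∀ u : D, u ∉ K → ε (centralizer {(u : G)}) = 1 ∨ ε (centralizer {(u : G)}) = -1
  gram : ∀ u b : D, u ∉ K → b ∉ K → ∑ χ : Irr G, Ad p D Φ ε u χ * Ad p D Φ ε b χ =
      if ∃ t ∈ stabT D l, t * u * t⁻¹ = (b : G)⁻¹ then (Nat.card D : AA) else 0
  cong : ∀ u b : D, u ∉ K → b ∉ K → ∀ χ : Irr G, InL red l χ.1 →
    red (Ad p D Φ ε u χ) = red (Ad p D Φ ε b χ)
  ne : ∀ u : D, u ∉ K → ∀ χ : Irr G, InL red l χ.1 → red (Ad p D Φ ε u χ) ≠ 0
  int : ∀ (χ : Irr G) (μ lam : AddChar (Additive D) ℂ), (∀ u : D, u ∈ K →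
    lam (Additive.ofMul u) = 1) → ∃ z : ℤ, ∑ b : Additive D, (if b.toMul ∈ K then 0 else
      (lamA lam b - 1) * lamA μ b * Ad p D Φ ε (b.toMul : G) χ) = (Nat.card D : AA) * z

variable {K : Subgroup D} {Φ : ∀ H : Subgroup G, Irr H} {ε : Subgroup G → ℤ}

theorem ZDat.dn_coe (h : ZDat (p := p) red D l K Φ ε) {u : D} (hu : u ∉ K) (χ : Irr G) :
    (dnA p (centralizer {(u : G)}) (Nat.card D) (Φ (centralizer {(u : G)})).1 u χ.1 : ℂ) =
      dn p (centralizer {(u : G)}) (Nat.card D) (Φ (centralizer {(u : G)})).1 u χ.1 :=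
  dnA_coe p red _ Nat.card_pos.ne' (h.nd u hu) (mem_cz (u : G)) χ

theorem ZDat.Ad_coe (h : ZDat (p := p) red D l K Φ ε) {u : D} (hu : u ∉ K) (χ : Irr G) :
    (Ad p D Φ ε (u : G) χ : ℂ) = (ε (centralizer {(u : G)}) : ℂ) *
      dn p (centralizer {(u : G)}) (Nat.card D) (Φ (centralizer {(u : G)})).1 u χ.1 := by
  unfold Ad
  push_cast
  rw [h.dn_coe hu]

theorem ZDat.Ad_star (h : ZDat (p := p) red D l K Φ ε) {u : D} (hu : u ∉ K) (χ : Irr G) :
    (starRingEnd ℂ) (Ad p D Φ ε (u : G) χ : ℂ) = (Ad p D Φ ε ((u⁻¹ : D) : G) χ : ℂ) := by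
  have hu' : u⁻¹ ∉ K := fun h' => hu (by simpa using inv_mem h')
  rw [h.Ad_coe hu, h.Ad_coe hu', map_mul, map_intCast]
  have h1 : ((u⁻¹ : D) : G) = (u : G)⁻¹ := rfl
  rw [h1, cz_inv]
  congr 1
  exact dn_star (red := red) _ (h.nd u hu) (u : G) (fun x hx => (mem_cz _ x).1 hx) χ

/-- the values of an `m`-rational character are integers -/
theorem ZDat.exists_int (h : ZDat (p := p) red D l K Φ ε) (hD : IsPGroup p D) {u : D} (hu : u ∉ K)
    (χ : Irr G) {m : ℕ} (hm : m.Coprime (Nat.card G))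
    (hm1 : m ≡ 1 [MOD ordCompl[p] (Nat.card G)])
    (hgen : ∀ j : ℕ, ¬ p ∣ j → ∃ i : ℕ, m ^ i ≡ j [MOD ordProj[p] (Nat.card G)])
    (hχm : ∀ g, χ.1 (g ^ m) = χ.1 g) : ∃ c : ℤ, Ad p D Φ ε (u : G) χ = c := by
  have hpel : ∃ a : ℕ, (u : G) ^ p ^ a = 1 := by
    obtain ⟨n, hn⟩ := hD u
    exact ⟨n, by simpa using congrArg Subtype.val hn⟩
  obtain ⟨c, hc⟩ := dn_int p red _ Nat.card_pos.ne' (h.nd u hu) (u : G) hpel (mem_cz _) χ hm hm1
    hgen hχm
  refine ⟨ε (centralizer {(u : G)}) * c, Subtype.ext ?_⟩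
  rw [h.Ad_coe hu, hc]
  push_cast
  rfl

/-- the values of an `m`-rational character are constant on the generators of cyclic subgroups -/
theorem ZDat.Ad_pow (h : ZDat (p := p) red D l K Φ ε) (hD : IsPGroup p D) {u : D} (hu : u ∉ K)
    (χ : Irr G) {m : ℕ}
    (hm1 : m ≡ 1 [MOD ordCompl[p] (Nat.card G)])
    (hgen : ∀ j : ℕ, ¬ p ∣ j → ∃ i : ℕ, m ^ i ≡ j [MOD ordProj[p] (Nat.card G)])
    (hχm : ∀ g, χ.1 (g ^ m) = χ.1 g) {j : ℕ} (hj : ¬ p ∣ j) (huj : u ^ j ∉ K) :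
    Ad p D Φ ε ((u ^ j : D) : G) χ = Ad p D Φ ε (u : G) χ := by
  apply Subtype.ext
  rw [h.Ad_coe hu, h.Ad_coe huj]
  have h1 : ((u ^ j : D) : G) = (u : G) ^ j := rfl
  have h2 : (orderOf (u : G)).Coprime j := by
    obtain ⟨n, hn⟩ := hD u
    have h3 : orderOf (u : G) ∣ p ^ n := by
      rw [Subgroup.orderOf_coe]
      exact orderOf_dvd_of_pow_eq_one hn
    exact Nat.Coprime.coprime_dvd_left h3
      (Nat.Coprime.pow_left n ((Nat.Prime.coprime_iff_not_dvd hp.out).2 hj))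
  rw [h1, cz_pow h2, dn_pow_coprime hD _ _ _ u.2 (fun x hx => (mem_cz _ x).1 hx) hm1 hgen hχm hj]

omit hp in
/-- an integer killed by `red` is divisible by `p` -/
theorem dvd_of_red {n : ℤ} (h : red (n : AA) = 0) : (p : ℤ) ∣ n := by
  rw [map_intCast] at h
  exact (CharP.intCast_eq_zero_iff k p n).1 h

/-- **core of Theorem Z** -/
theorem ZDat.card_le (h : ZDat (p := p) red D l K Φ ε) (hD : IsPGroup p D) (hK : K ≠ ⊤)
    {m : ℕ} (hm : m.Coprime (Nat.card G))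
    (hm1 : m ≡ 1 [MOD ordCompl[p] (Nat.card G)])
    (hgen : ∀ j : ℕ, ¬ p ∣ j → ∃ i : ℕ, m ^ i ≡ j [MOD ordProj[p] (Nat.card G)])
    (he : (centralizer (D : Set G)).relIndex (stabT D l) + 2 ≤ p) (hp2 : p ≠ 2)
    (R : Finset (Irr G)) (hR : ∀ χ ∈ R, InL red l χ.1 ∧ ∀ g, χ.1 (g ^ m) = χ.1 g) :
    R.card ≤ (centralizer (D : Set G)).relIndex (stabT D l) := by
  set e := (centralizer (D : Set G)).relIndex (stabT D l) with hedef
  have hp3 : 2 < p := lt_of_le_of_ne hp.out.two_le (Ne.symm hp2)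
  have hDp : ∃ n, Nat.card D = p ^ n := (IsPGroup.iff_card (p := p)).1 hD
  have hpD : p ∣ Nat.card D := by
    obtain ⟨n, hn⟩ := hDp
    rw [hn]
    refine dvd_pow_self p ?_
    rintro rfl
    rw [pow_zero] at hn
    apply hK
    have hsub : Subsingleton D := (Nat.card_eq_one_iff_unique.1 hn).1
    exact Subsingleton.elim _ _
  have hcop : ∀ j : ℕ, (Nat.card D).Coprime j → ¬ p ∣ j := by
    intro j hj hpj
    exact hp.out.one_lt.ne' (Nat.dvd_one.1 (hj ▸ Nat.dvd_gcd hpD hpj))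
  have hKpow : ∀ j : ℕ, (Nat.card D).Coprime j → ∀ u : D, u ∉ K → u ^ j ∉ K := by
    intro j hj u hu h'
    apply hu
    have h1 : j.Coprime (orderOf u) := (hj.coprime_dvd_left (orderOf_dvd_natCard u)).symm
    obtain ⟨m, hm⟩ := exists_pow_eq_self_of_coprime h1
    rw [← hm]
    exact pow_mem h' m
  obtain ⟨u₀, hu₀⟩ : ∃ u₀ : D, u₀ ∉ K := by
    by_contra hcon
    push Not at hcon
    exact hK (eq_top_iff.2 fun x _ => hcon x)
  -- the integers
  have hex : ∀ (χ : Irr G) (u : G), ∃ c : ℤ, χ ∈ R → ∀ hu : u ∈ D, (⟨u, hu⟩ : D) ∉ K →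
      Ad p D Φ ε u χ = c := by
    intro χ u
    by_cases hχ : χ ∈ R
    · by_cases hu : ∃ hu : u ∈ D, (⟨u, hu⟩ : D) ∉ K
      · obtain ⟨hu1, hu2⟩ := hu
        obtain ⟨c, hc⟩ := h.exists_int hD hu2 χ hm hm1 hgen (hR χ hχ).2
        exact ⟨c, fun _ _ _ => hc⟩
      · exact ⟨0, fun _ h1 h2 => absurd ⟨h1, h2⟩ hu⟩
    · exact ⟨0, fun h' => absurd h' hχ⟩
  choose a ha using hex
  have ha' : ∀ χ ∈ R, ∀ u : D, u ∉ K → Ad p D Φ ε (u : G) χ = a χ u := fun χ hχ u hu =>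
    ha χ u hχ u.2 hu
  have haC : ∀ χ ∈ R, ∀ u : D, u ∉ K → (Ad p D Φ ε (u : G) χ : ℂ) = a χ u := by
    intro χ hχ u hu
    rw [ha' χ hχ u hu]
    rfl
  have hinj : ∀ x y : ℤ, (x : AA) = y → x = y := by
    intro x y hxy
    have h1 := congrArg (fun z : AA => (z : ℂ)) hxy
    have h2 : (x : ℂ) = (y : ℂ) := h1
    exact_mod_cast h2
  -- the regular elements
  set W : Finset G := univ.filter fun u => ∃ hu : u ∈ D, (⟨u, hu⟩ : D) ∉ K with hW
  have hWD : ∀ u ∈ W, u ∈ D := fun u hu => (mem_filter.1 hu).2.1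
  have hWK : ∀ u : D, (u : G) ∈ W ↔ u ∉ K := by
    intro u
    rw [hW, mem_filter]
    exact ⟨fun h' => h'.2.2, fun h' => ⟨mem_univ _, u.2, h'⟩⟩
  have hWsum : ∀ {M : Type} [AddCommMonoid M] (f : G → M),
      ∑ u ∈ W, f u = ∑ u : Additive D, if u.toMul ∈ K then 0 else f (u.toMul : D) := by
    intro M _ f
    have h1 : ∑ u : Additive D, (if u.toMul ∈ K then 0 else f (u.toMul : D)) =
        ∑ u ∈ (univ : Finset (Additive D)).filter (fun u => u.toMul ∉ K), f (u.toMul : D) := by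
      rw [Finset.sum_filter]
      exact Finset.sum_congr rfl fun u _ => by
        by_cases h' : u.toMul ∈ K
        · rw [if_pos h', if_neg (not_not.2 h')]
        · rw [if_neg h', if_pos h']
    rw [h1]
    symm
    refine Finset.sum_bij (fun u _ => ((u.toMul : D) : G)) ?_ ?_ ?_ ?_
    · intro u hu
      exact (hWK _).2 (mem_filter.1 hu).2
    · intro u _ v _ huv
      exact Additive.toMul.injective (Subtype.ext huv)
    · intro u hu
      obtain ⟨hu1, hu2⟩ := (mem_filter.1 hu).2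
      exact ⟨Additive.ofMul ⟨u, hu1⟩, mem_filter.2 ⟨mem_univ _, hu2⟩, rfl⟩
    · intro u _
      rfl
  -- the Gram matrix
  have hgram : ∀ u ∈ W, ∀ b ∈ W, ∑ χ : Irr G, (Ad p D Φ ε u χ : ℂ) *
      (starRingEnd ℂ) (Ad p D Φ ε b χ : ℂ) =
      if ∃ t ∈ stabT D l, t * u * t⁻¹ = b then (Nat.card D : ℂ) else 0 := by
    intro u hu b hb
    obtain ⟨hu1, hu2⟩ := (mem_filter.1 hu).2
    obtain ⟨hb1, hb2⟩ := (mem_filter.1 hb).2
    have hb3 : (⟨b, hb1⟩ : D)⁻¹ ∉ K := fun h' => hb2 (by simpa using inv_mem h')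
    have h1 := h.gram ⟨u, hu1⟩ (⟨b, hb1⟩⁻¹) hu2 hb3
    have h2 := congrArg (fun z : AA => (z : ℂ)) h1
    have h3 : (((⟨b, hb1⟩⁻¹ : D) : G))⁻¹ = b := by
      change (b⁻¹)⁻¹ = b
      rw [inv_inv]
    rw [h3] at h2
    push_cast at h2
    have h4 : ∀ χ : Irr G, (starRingEnd ℂ) (Ad p D Φ ε b χ : ℂ) =
        (Ad p D Φ ε (((⟨b, hb1⟩⁻¹ : D) : G)) χ : ℂ) := fun χ => h.Ad_star (u := ⟨b, hb1⟩) hb2 χ
    simp only [h4]
    rw [show (∑ χ : Irr G, (Ad p D Φ ε u χ : ℂ) * (Ad p D Φ ε (((⟨b, hb1⟩⁻¹ : D) : G)) χ : ℂ)) = _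
      from h2]
    split_ifs <;> rfl
  have haW : ∀ χ ∈ R, ∀ u ∈ W, (Ad p D Φ ε u χ : ℂ) = a χ u := by
    intro χ hχ u hu
    obtain ⟨hu1, hu2⟩ := (mem_filter.1 hu).2
    exact haC χ hχ ⟨u, hu1⟩ hu2
  -- constancy
  have hconst : ∀ χ ∈ R, ∃ s : ℤ, s ≠ 0 ∧ ∀ u ∈ W, a χ u = s := by
    intro χ hχ
    have hpZ : (p : ℤ) % 2 = 1 := by
      have := hp.out.eq_two_or_odd
      omega
    set s : ℤ := Int.bmod (a χ u₀) p with hs
    have hs1 : (p : ℤ) ∣ a χ u₀ - s := by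
      rw [hs]
      exact Int.dvd_self_sub_bmod
    have hs2 : 2 * |s| < p := by
      have h1 := Int.bmod_lt (x := a χ u₀) hp.out.pos
      have h2 := Int.le_bmod (x := a χ u₀) hp.out.pos
      rw [← hs] at h1 h2
      have h3 : |s| ≤ (p : ℤ) / 2 := by
        rw [abs_le]
        omega
      omega
    have hs0 : s ≠ 0 := by
      intro h0
      rw [h0, sub_zero] at hs1
      apply h.ne u₀ hu₀ χ (hR χ hχ).1
      rw [ha' χ hχ u₀ hu₀, map_intCast]
      exact (CharP.intCast_eq_zero_iff k p _).2 hs1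
    refine ⟨s, hs0, ?_⟩
    have key := P179Z.main_comb (p := p) (D := Additive D)
      (by rw [Nat.card_congr (Additive.toMul (α := D))]; exact hDp) (Subgroup.toAddSubgroup K)
      (fun h' => hK (by
        have h1 := congrArg (Subgroup.toAddSubgroup (G := D)).symm h'
        rw [OrderIso.symm_apply_apply] at h1
        rw [h1]
        exact map_top (Subgroup.toAddSubgroup (G := D)).symm))
      (fun u => a χ ((u.toMul : D) : G)) s e he hp3 hs0 hs2 ?_ ?_ ?_ ?_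
    · intro u hu
      obtain ⟨hu1, hu2⟩ := (mem_filter.1 hu).2
      exact key (Additive.ofMul ⟨u, hu1⟩) hu2
    · intro u hu j hj
      have hj' : (Nat.card D).Coprime j := by
        rwa [Nat.card_congr (Additive.toMul (α := D))] at hj
      apply hinj
      have huK : u.toMul ∉ K := hu
      have h1 := h.Ad_pow hD huK χ hm1 hgen (hR χ hχ).2 (hcop j hj') (hKpow j hj' _ huK)
      rw [ha' χ hχ _ huK, ha' χ hχ _ (hKpow j hj' _ huK)] at h1
      exact h1
    · intro u hu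
      have huK : u.toMul ∉ K := hu
      have h1 := h.cong u.toMul u₀ huK hu₀ χ (hR χ hχ).1
      rw [ha' χ hχ _ huK, ha' χ hχ _ hu₀, ← sub_eq_zero, ← map_sub, ← Int.cast_sub] at h1
      have h2 := dvd_of_red (p := p) h1
      have h3 := dvd_add h2 hs1
      have h4 : a χ ((u.toMul : D) : G) - a χ u₀ + (a χ u₀ - s) =
        a χ ((u.toMul : D) : G) - s := by ring
      rwa [h4] at h3
    · intro μ lam hlam
      obtain ⟨z, hz⟩ := h.int χ μ lam (fun u hu => hlam _ hu)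
      refine ⟨z, ?_⟩
      have h1 := congrArg (fun z : AA => (z : ℂ)) hz
      push_cast at h1
      rw [Nat.card_congr (Additive.toMul (α := D)), mul_comm (z : ℂ)]
      have h2 : ((Nat.card D : AA) : ℂ) * ((z : AA) : ℂ) = (Nat.card D : ℂ) * (z : ℂ) := rfl
      rw [← h1, Finset.sum_filter]
      refine Finset.sum_congr rfl fun u _ => ?_
      by_cases huK : u.toMul ∈ K
      · have : ¬ (u ∉ Subgroup.toAddSubgroup K) := not_not.2 huK
        rw [if_neg this, if_pos huK]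
        rfl
      · have : u ∉ Subgroup.toAddSubgroup K := huK
        rw [if_pos this, if_neg huK]
        push_cast
        rw [haC χ hχ _ huK]
        rfl
    · have h1 := sum_sq_le Nat.card_pos.ne' W hWD (fun u χ => (Ad p D Φ ε u χ : ℂ)) hgram R a haW
        χ hχ
      rw [hWsum] at h1
      rw [Nat.card_congr (Additive.toMul (α := D)), Finset.sum_filter]
      refine le_trans (le_of_eq ?_) h1
      refine Finset.sum_congr rfl fun u _ => ?_
      by_cases huK : u.toMul ∈ K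
      · have : ¬ (u ∉ Subgroup.toAddSubgroup K) := not_not.2 huK
        rw [if_neg this, if_pos huK]
      · have : u ∉ Subgroup.toAddSubgroup K := huK
        rw [if_pos this, if_neg huK]
  have hs' : ∀ χ : Irr G, ∃ s : ℤ, χ ∈ R → s ≠ 0 ∧ ∀ u ∈ W, a χ u = s := by
    intro χ
    by_cases hχ : χ ∈ R
    · obtain ⟨s, hs⟩ := hconst χ hχ
      exact ⟨s, fun _ => hs⟩
    · exact ⟨0, fun h' => absurd h' hχ⟩
  choose s hs using hs'
  have h1 := card_mul_le Nat.card_pos.ne' W hWD (fun u χ => (Ad p D Φ ε u χ : ℂ)) hgram R a haW s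
    (fun χ hχ => (hs χ hχ).2) (fun χ hχ => (hs χ hχ).1) ⟨(u₀ : G), (hWK u₀).2 hu₀⟩
  -- the number of regular elements
  have h2 : W.card + Nat.card K = Nat.card D := by
    have h3 : W.card = ∑ u ∈ W, 1 := by simp
    rw [h3, hWsum, Nat.card_eq_fintype_card, Nat.card_eq_fintype_card, Fintype.card_subtype]
    have h4 : (univ.filter fun x : D => x ∈ K).card = ∑ u : Additive D, if u.toMul ∈ K then 1 else 0 := by
      rw [Finset.card_filter]
      exact Fintype.sum_equiv Additive.ofMul _ _ fun _ => rfl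
    rw [h4, ← Finset.sum_add_distrib]
    have h5 : ∀ u : Additive D, ((if u.toMul ∈ K then 0 else 1) + if u.toMul ∈ K then 1 else 0) = 1 := by
      intro u
      split_ifs <;> rfl
    rw [Finset.sum_congr rfl fun u _ => h5 u]
    simp
  have h3 : p * Nat.card K ≤ Nat.card D := by
    obtain ⟨n, hn⟩ := hD.index K
    have h4 : n ≠ 0 := by
      rintro rfl
      rw [pow_zero, Subgroup.index_eq_one] at hn
      exact hK hn
    have h5 : p ≤ K.index := by
      rw [hn]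
      exact Nat.le_self_pow h4 p
    rw [← K.card_mul_index, mul_comm]
    exact Nat.mul_le_mul_left _ h5
  by_contra hcon
  push Not at hcon
  have hq : 0 < Nat.card D := Nat.card_pos
  have h4 : (e + 1) * W.card ≤ Nat.card D * e := (Nat.mul_le_mul_right _ hcon).trans h1
  have h5 : (p - 1) * Nat.card D ≤ p * W.card := by
    have h6 : p * W.card + p * Nat.card K = p * Nat.card D := by rw [← mul_add, h2]
    have h7 : (p - 1) * Nat.card D + Nat.card D = p * Nat.card D := by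
      rw [← Nat.succ_mul]
      congr 1
      omega
    omega
  have h6 : (e + 1) * ((p - 1) * Nat.card D) ≤ p * (Nat.card D * e) := by
    calc (e + 1) * ((p - 1) * Nat.card D) ≤ (e + 1) * (p * W.card) := Nat.mul_le_mul_left _ h5
      _ = p * ((e + 1) * W.card) := by ring
      _ ≤ _ := Nat.mul_le_mul_left _ h4
  have h7 : (e + 1) * (p - 1) * Nat.card D ≤ p * e * Nat.card D := by
    calc (e + 1) * (p - 1) * Nat.card D = (e + 1) * ((p - 1) * Nat.card D) := by ring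
      _ ≤ _ := h6
      _ = _ := by ring
  have h8 := Nat.le_of_mul_le_mul_right h7 hq
  obtain ⟨p', rfl⟩ : ∃ p', p = p' + 1 := ⟨p - 1, by omega⟩
  rw [Nat.add_sub_cancel] at h8
  nlinarith

end

end P179T
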